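import Vale.Agent.Lib.P200.EGH
import Mathlib.FieldTheory.IsAlgClosed.AlgebraicClosure

/-!
Passage to an infinite extension field: coefficientwise functionals.
-/

noncomputable section

namespace Vale.Agent.Lib.P200

open MvPolynomial Module

variable {K L : Type*} [Field K] [Field L] [Algebra K L]

/-- Apply a `K`-linear functional to every coefficient. -/
def Lam (lam : L →ₗ[K] K) (u : S3 L) : S3 K :=
  ∑ m ∈ u.support, monomial m (lam (coeff m u))

theorem coeff_Lam (lam : L →ₗ[K] K) (u : S3 L) (m : Fin 3 →₀ ℕ) :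
    coeff m (Lam lam u) = lam (coeff m u) := by
  classical
  unfold Lam
  rw [coeff_sum]
  simp only [coeff_monomial]
  rw [Finset.sum_ite_eq']
  split_ifs with h
  · rfl
  · rw [notMem_support_iff.1 h, map_zero]

theorem Lam_add (lam : L →ₗ[K] K) (u v : S3 L) : Lam lam (u + v) = Lam lam u + Lam lam v := by
  ext m
  simp [coeff_Lam]

theorem Lam_zero (lam : L →ₗ[K] K) : Lam lam (0 : S3 L) = 0 := by
  ext m
  simp [coeff_Lam]

/-- The additive map attached to a functional. -/
def LamA (lam : L →ₗ[K] K) : S3 L →+ S3 K where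
  toFun := Lam lam
  map_zero' := Lam_zero lam
  map_add' := Lam_add lam

/-- The base change map. -/
abbrev phi (K L : Type*) [Field K] [Field L] [Algebra K L] : S3 K →+* S3 L :=
  MvPolynomial.map (algebraMap K L)

theorem Lam_phi_mul (lam : L →ₗ[K] K) (s : S3 K) (u : S3 L) :
    Lam lam (phi K L s * u) = s * Lam lam u := by
  classical
  ext m
  rw [coeff_Lam, coeff_mul, coeff_mul, map_sum]
  refine Finset.sum_congr rfl fun x _ => ?_
  rw [coeff_map, coeff_Lam, ← Algebra.smul_def, map_smul, smul_eq_mul]

theorem Lam_C_mul (lam : L →ₗ[K] K) (c : L) (u : S3 L) :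
    Lam lam (C c * u) = Lam (lam.comp (LinearMap.mulLeft K c)) u := by
  ext m
  rw [coeff_Lam, coeff_Lam, coeff_C_mul]
  rfl

theorem Lam_one (lam : L →ₗ[K] K) : Lam lam (1 : S3 L) = C (lam 1) := by
  classical
  ext m
  rw [coeff_Lam, coeff_one, coeff_C]
  split_ifs <;> simp

theorem Lam_C_mul_phi (lam : L →ₗ[K] K) (c : L) (s : S3 K) :
    Lam lam (C c * phi K L s) = lam c • s := by
  rw [Lam_C_mul]
  have h := Lam_phi_mul (lam.comp (LinearMap.mulLeft K c)) s 1
  rw [mul_one, Lam_one] at h
  rw [h, smul_eq_C_mul, mul_comm]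
  simp

/-- Expansion along a basis of the extension. -/
theorem expansion {ι : Type*} (b : Basis ι K L) (u : S3 L) :
    ∃ F : Finset ι, u = ∑ α ∈ F, C (b α) * phi K L (Lam (b.coord α) u) := by
  classical
  refine ⟨u.support.biUnion fun m => (b.repr (coeff m u)).support, ?_⟩
  ext m
  rw [coeff_sum]
  simp only [coeff_C_mul, coeff_map, coeff_Lam]
  have h1 : coeff m u = (b.repr (coeff m u)).sum fun α c => c • b α := by
    conv_lhs => rw [← b.linearCombination_repr (coeff m u)]
    rfl
  conv_lhs => rw [h1]
  rw [Finsupp.sum_of_support_subset (s := u.support.biUnion fun m => (b.repr (coeff m u)).support)]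
  · refine Finset.sum_congr rfl fun α _ => ?_
    rw [Algebra.smul_def, mul_comm]
    simp [Basis.coord_apply]
  · intro α hα
    rw [Finset.mem_biUnion]
    refine ⟨m, ?_, hα⟩
    rw [mem_support_iff]
    intro h0
    rw [h0] at hα
    simp at hα
  · intro α _
    simp

variable (K L) in
/-- The chosen basis of the extension. -/
abbrev bL : Basis (Basis.ofVectorSpaceIndex K L) K L := Basis.ofVectorSpace K L

/-- Membership in an extended ideal, coefficientwise. -/
theorem mem_map_iff {A : Ideal (S3 K)} {u : S3 L} :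
    u ∈ Ideal.map (phi K L) A ↔ ∀ lam : L →ₗ[K] K, Lam lam u ∈ A := by
  constructor
  · intro h
    have key : ∀ (s x : S3 L), (∀ lam : L →ₗ[K] K, Lam lam x ∈ A) →
        ∀ lam : L →ₗ[K] K, Lam lam (s * x) ∈ A := by
      intro s
      induction s using MvPolynomial.induction_on with
      | C c =>
        intro x hx lam
        rw [Lam_C_mul]
        exact hx _
      | add p q hp hq =>
        intro x hx lam
        rw [add_mul, Lam_add]
        exact Ideal.add_mem _ (hp x hx lam) (hq x hx lam)
      | mul_X p i hp =>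
        intro x hx lam
        have h1 : p * X i * x = p * (phi K L (X i) * x) := by
          simp [mul_assoc]
        rw [h1]
        apply hp
        intro lam'
        rw [Lam_phi_mul]
        exact Ideal.mul_mem_left _ _ (hx lam')
    refine Submodule.span_induction (p := fun u _ => ∀ lam : L →ₗ[K] K, Lam lam u ∈ A)
      ?_ ?_ ?_ ?_ h
    · rintro _ ⟨a, ha, rfl⟩ lam
      have h1 := Lam_phi_mul lam a 1
      rw [mul_one] at h1
      rw [h1]
      exact Ideal.mul_mem_right _ _ ha
    · intro lam
      rw [Lam_zero]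
      exact Ideal.zero_mem _
    · intro x y _ _ hx hy lam
      rw [Lam_add]
      exact Ideal.add_mem _ (hx lam) (hy lam)
    · intro s x _ hx lam
      exact key s x hx lam
  · intro h
    obtain ⟨F, hF⟩ := expansion (bL K L) u
    rw [hF]
    refine Ideal.sum_mem _ fun α _ => Ideal.mul_mem_left _ _ (Ideal.mem_map_of_mem _ (h _))

theorem Lam_mem_HH (lam : L →ₗ[K] K) {u : S3 L} {d : ℕ} (hu : u ∈ HH L d) : Lam lam u ∈ HH K d := by
  intro m hm
  apply hu
  rw [coeff_Lam] at hm
  intro h0
  rw [h0, map_zero] at hm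
  exact hm rfl

theorem phi_mem_HH {u : S3 K} {d : ℕ} (hu : u ∈ HH K d) : phi K L u ∈ HH L d :=
  IsHomogeneous.map hu _

theorem map_adj (A : Ideal (S3 K)) (r : S3 K) :
    Ideal.map (phi K L) (adj A r) = adj (Ideal.map (phi K L) A) (phi K L r) := by
  unfold adj
  rw [Ideal.map_sup, Ideal.map_span, Set.image_singleton]

theorem map_nz {A : Ideal (S3 K)} {r : S3 K} (h : NZ A r) :
    NZ (Ideal.map (phi K L) A) (phi K L r) := by
  intro u hu
  rw [mem_map_iff] at hu ⊢
  intro lam
  have := hu lam
  rw [Lam_phi_mul] at this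
  exact h _ this

theorem phi_inj : Function.Injective (phi K L) :=
  MvPolynomial.map_injective _ (algebraMap K L).injective

/-- The span over the extension field of the image of a subspace. -/
def ext (L : Type*) [Field L] [Algebra K L] (V : Submodule K (S3 K)) : Submodule L (S3 L) :=
  Submodule.span L ((phi K L) '' (V : Set (S3 K)))

theorem ext_le_HH {V : Submodule K (S3 K)} {d : ℕ} (h : V ≤ HH K d) : ext L V ≤ HH L d := by
  rw [ext, Submodule.span_le]
  rintro _ ⟨x, hx, rfl⟩
  exact phi_mem_HH (h hx)

theorem phi_mem_ext {V : Submodule K (S3 K)} {x : S3 K} (h : x ∈ V) : phi K L x ∈ ext L V :=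
  Submodule.subset_span ⟨x, h, rfl⟩

theorem comp_ext_le {A : Ideal (S3 K)} {V : Submodule K (S3 K)} {d : ℕ} (h : comp A d ≤ V) :
    comp (Ideal.map (phi K L) A) d ≤ ext L V := by
  intro u hu
  obtain ⟨h1, h2⟩ := mem_comp.1 hu
  rw [mem_map_iff] at h1
  obtain ⟨F, hF⟩ := expansion (bL K L) u
  rw [hF]
  refine Submodule.sum_mem _ fun α _ => ?_
  rw [← smul_eq_C_mul]
  apply Submodule.smul_mem
  exact phi_mem_ext (h (mem_comp.2 ⟨h1 _, Lam_mem_HH _ h2⟩))

theorem mul_ext_le {V V' : Submodule K (S3 K)} (h : HH K 1 * V ≤ V') :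
    HH L 1 * ext L V ≤ ext L V' := by
  rw [ext, HH, homogeneousSubmodule_one_eq_span_X, Submodule.span_mul_span, Submodule.span_le]
  rintro _ ⟨_, ⟨i, rfl⟩, _, ⟨x, hx, rfl⟩, rfl⟩
  have h1 : (X i : S3 K) * x ∈ V' := h (Submodule.mul_mem_mul (isHomogeneous_X K i) hx)
  have h2 := phi_mem_ext (L := L) h1
  simpa using h2

/-- Base change preserves dimension. -/
theorem finrank_ext {V : Submodule K (S3 K)} [FiniteDimensional K V] :
    finrank L (ext L V) = finrank K V := by
  classical
  let B := Module.finBasis K V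
  let v : Fin (finrank K V) → S3 L := fun i => phi K L (B i : S3 K)
  have hli : LinearIndependent L v := by
    rw [Fintype.linearIndependent_iff]
    intro c hc i
    rw [← Module.forall_dual_apply_eq_zero_iff K (c i)]
    intro lam
    have h1 : ∑ j, lam (c j) • (B j : S3 K) = 0 := by
      have h2 := congrArg (LamA lam) hc
      rw [map_sum, map_zero] at h2
      rw [← h2]
      refine Finset.sum_congr rfl fun j _ => ?_
      change _ = Lam lam (c j • v j)
      have h4 : c j • v j = C (c j) * phi K L (B j : S3 K) := smul_eq_C_mul _ _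
      rw [h4, Lam_C_mul_phi]
    have h3 : ∑ j, lam (c j) • B j = 0 := by
      apply Subtype.ext
      simpa using h1
    exact (Fintype.linearIndependent_iff.1 B.linearIndependent _ h3) i
  have hspan : Submodule.span L (Set.range v) = ext L V := by
    apply le_antisymm
    · rw [Submodule.span_le]
      rintro _ ⟨i, rfl⟩
      exact phi_mem_ext (B i).2
    · rw [ext, Submodule.span_le]
      rintro _ ⟨x, hx, rfl⟩
      have h1 := B.sum_repr ⟨x, hx⟩
      have h2 : x = ∑ j, B.repr ⟨x, hx⟩ j • (B j : S3 K) := by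
        have := congrArg (Submodule.subtype V) h1
        rw [map_sum] at this
        simp only [map_smul, Submodule.subtype_apply] at this
        exact this.symm
      rw [SetLike.mem_coe, h2, map_sum]
      refine Submodule.sum_mem _ fun j _ => ?_
      rw [smul_eq_C_mul, map_mul, map_C, ← smul_eq_C_mul]
      apply Submodule.smul_mem
      exact Submodule.subset_span ⟨j, rfl⟩
  rw [← hspan, finrank_span_eq_card hli]
  simp

/-- A regular sequence stays regular after extending the field. -/
theorem RS.map {f p q : S3 K} {a b c : ℕ} (h : RS f p q a b c) :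
    RS (phi K L f) (phi K L p) (phi K L q) a b c := by
  refine ⟨phi_mem_HH h.hu, phi_mem_HH h.hv, phi_mem_HH h.hw, h.ha, h.hb, h.hc, ?_, ?_, ?_⟩
  · intro h0
    apply h.u0
    apply phi_inj (K := K) (L := L)
    rw [h0, map_zero]
  · have := map_nz (L := L) h.nz1
    rwa [map_adj, Ideal.map_bot] at this
  · have := map_nz (L := L) h.nz2
    rwa [map_adj, map_adj, Ideal.map_bot] at this

theorem map_T3 (f p q : S3 K) :
    T3 (phi K L f) (phi K L p) (phi K L q) = Ideal.map (phi K L) (T3 f p q) := by
  rw [T3, T3, map_adj, map_adj, map_adj, Ideal.map_bot]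

/-- The growth bound over an arbitrary field. -/
theorem growth_any {K : Type*} [Field K] {f p q : S3 K} {a b c : ℕ} (h : RS f p q a b c)
    (hab : a ≤ b) (hbc : b ≤ c) (d : ℕ) (W : ℕ → Submodule K (S3 K))
    (hW : CFam (T3 f p q) W (d + 1)) :
    Bd a (b : ℤ) (c : ℤ) (d : ℤ) (HW W d) (HW W (d + 1)) := by
  let L := AlgebraicClosure K
  let W' : ℕ → Submodule L (S3 L) := fun j => ext L (W j)
  have hW' : CFam (T3 (phi K L f) (phi K L p) (phi K L q)) W' (d + 1) := by
    refine ⟨⟨fun j hj => ext_le_HH (hW.fam.le j hj), ?_⟩, ?_⟩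
    · intro j hj i u hu
      refine Submodule.span_induction (p := fun u _ => X i * u ∈ W' (j + 1)) ?_ ?_ ?_ ?_ hu
      · rintro _ ⟨x, hx, rfl⟩
        have h1 := phi_mem_ext (L := L) (hW.fam.step j hj i x hx)
        simpa using h1
      · rw [mul_zero]
        exact Submodule.zero_mem _
      · intro x y _ _ hx hy
        rw [mul_add]
        exact Submodule.add_mem _ hx hy
      · intro c x _ hx
        rw [mul_smul_comm]
        exact Submodule.smul_mem _ _ hx
    · intro j hj
      rw [map_T3]
      exact comp_ext_le (hW.con j hj)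
  have h1 := growth_family (RS.map (L := L) h) hab hbc d W' hW'
  have : FiniteDimensional K (W d) := fd_of_le (hW.fam.le d (by omega))
  have : FiniteDimensional K (W (d + 1)) := fd_of_le (hW.fam.le (d + 1) le_rfl)
  have e1 : HW W' d = HW W d := by
    unfold HW
    simp only [W']
    rw [finrank_ext]
  have e2 : HW W' (d + 1) = HW W (d + 1) := by
    unfold HW
    simp only [W']
    rw [finrank_ext]
  rwa [e1, e2] at h1

end Vale.Agent.Lib.P200
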