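import Mathlib.RingTheory.MvPolynomial.Homogeneous
import Mathlib.RingTheory.Ideal.AssociatedPrime.Finiteness
import Mathlib.RingTheory.Polynomial.UniqueFactorization
import Mathlib.GroupTheory.CosetCover
import Mathlib.LinearAlgebra.Dual.Lemmas
import Mathlib.RingTheory.Polynomial.Basic
import Mathlib.Tactic.LinearCombination

/-!
Basic notions for the elementary study of homogeneous ideals of `K[x,y,z]`:
graded pieces, ideals built by adjoining one element, non-zero-divisors.
-/

noncomputable section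

namespace Vale.Agent.Lib.P200

open MvPolynomial Module

variable {K : Type*} [Field K]

/-- The polynomial ring in three variables. -/
abbrev S3 (K : Type*) [Field K] := MvPolynomial (Fin 3) K

/-- Forms of degree `d`. -/
abbrev HH (K : Type*) [Field K] (d : ℕ) : Submodule K (S3 K) := homogeneousSubmodule (Fin 3) K d

/-- Graded piece of an ideal. -/
def comp (A : Ideal (S3 K)) (d : ℕ) : Submodule K (S3 K) :=
  A.restrictScalars K ⊓ HH K d

theorem mem_comp {A : Ideal (S3 K)} {d : ℕ} {u : S3 K} : u ∈ comp A d ↔ u ∈ A ∧ u ∈ HH K d := by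
  simp [comp]

theorem comp_le (A : Ideal (S3 K)) (d : ℕ) : comp A d ≤ HH K d := inf_le_right

theorem comp_mono {A B : Ideal (S3 K)} (h : A ≤ B) (d : ℕ) : comp A d ≤ comp B d :=
  fun _ hu => mem_comp.2 ⟨h (mem_comp.1 hu).1, (mem_comp.1 hu).2⟩

instance fdHH (d : ℕ) : FiniteDimensional K (HH K d) :=
  Module.Finite.iff_fg.2 (homogeneousSubmodule_fg (σ := Fin 3) (R := K) d)

/-- Homogeneity of an ideal, expressed through components. -/
def HomIdeal (A : Ideal (S3 K)) : Prop :=
  ∀ u ∈ A, ∀ n, homogeneousComponent n u ∈ A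

/-- Adjoin one generator. -/
def adj (A : Ideal (S3 K)) (r : S3 K) : Ideal (S3 K) := A ⊔ Ideal.span {r}

/-- `r` is a non-zero-divisor modulo `A`. -/
def NZ (A : Ideal (S3 K)) (r : S3 K) : Prop := ∀ u, r * u ∈ A → u ∈ A

theorem mem_adj {A : Ideal (S3 K)} {r u : S3 K} : u ∈ adj A r ↔ ∃ a ∈ A, ∃ v, u = a + v * r := by
  unfold adj
  constructor
  · intro h
    obtain ⟨a, ha, b, hb, rfl⟩ := Submodule.mem_sup.1 h
    obtain ⟨v, rfl⟩ := Ideal.mem_span_singleton'.1 hb
    exact ⟨a, ha, v, rfl⟩
  · rintro ⟨a, ha, v, rfl⟩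
    exact Submodule.add_mem_sup ha (Ideal.mem_span_singleton'.2 ⟨v, rfl⟩)

theorem le_adj (A : Ideal (S3 K)) (r : S3 K) : A ≤ adj A r := le_sup_left

theorem self_mem_adj (A : Ideal (S3 K)) (r : S3 K) : r ∈ adj A r :=
  mem_adj.2 ⟨0, A.zero_mem, 1, by simp⟩

theorem adj_comm (A : Ideal (S3 K)) (q r : S3 K) : adj (adj A q) r = adj (adj A r) q := by
  unfold adj; exact sup_right_comm _ _ _

/-- component of a product with a homogeneous factor -/
theorem hc_mul_of_mem {c : ℕ} {r : S3 K} (hr : r ∈ HH K c) (v : S3 K) (m : ℕ) :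
    homogeneousComponent (m + c) (v * r) = homogeneousComponent m v * r := by
  conv_lhs => rw [← sum_homogeneousComponent v]
  rw [Finset.sum_mul, map_sum]
  rw [Finset.sum_eq_single m]
  · exact homogeneousComponent_of_mem (by
      exact (homogeneousComponent_isHomogeneous m v).mul hr) |>.trans (by simp)
  · intro b _ hb
    rw [homogeneousComponent_of_mem ((homogeneousComponent_isHomogeneous b v).mul hr)]
    rw [if_neg]; omega
  · intro hm
    have : homogeneousComponent m v = 0 := by
      apply homogeneousComponent_eq_zero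
      simpa using hm
    simp [this]

theorem hc_mul_of_lt {c : ℕ} {r : S3 K} (hr : r ∈ HH K c) (v : S3 K) {m : ℕ} (hm : m < c) :
    homogeneousComponent m (v * r) = 0 := by
  conv_lhs => rw [← sum_homogeneousComponent v]
  rw [Finset.sum_mul, map_sum]
  apply Finset.sum_eq_zero
  intro b _
  rw [homogeneousComponent_of_mem ((homogeneousComponent_isHomogeneous b v).mul hr)]
  rw [if_neg]; omega

theorem homIdeal_bot : HomIdeal (⊥ : Ideal (S3 K)) := by
  intro u hu n
  have : u = 0 := by simpa using hu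
  simp [this]

theorem homIdeal_adj {A : Ideal (S3 K)} (hA : HomIdeal A) {c : ℕ} {r : S3 K} (hr : r ∈ HH K c) :
    HomIdeal (adj A r) := by
  intro u hu n
  obtain ⟨a, ha, v, rfl⟩ := mem_adj.1 hu
  rw [map_add]
  refine Ideal.add_mem _ (le_adj A r (hA a ha n)) ?_
  by_cases hn : n < c
  · rw [hc_mul_of_lt hr v hn]; exact Ideal.zero_mem _
  · obtain ⟨m, rfl⟩ : ∃ m, n = m + c := ⟨n - c, by omega⟩
    rw [hc_mul_of_mem hr]
    exact Ideal.mul_mem_left _ _ (self_mem_adj A r)

/-- Membership of a form in an adjoined ideal. -/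
theorem mem_adj_hom {A : Ideal (S3 K)} (hA : HomIdeal A) {c d : ℕ} {r u : S3 K}
    (hr : r ∈ HH K c) (hu : u ∈ HH K d) (h : u ∈ adj A r) :
    (d < c ∧ u ∈ A) ∨ ∃ e, e + c = d ∧ ∃ v ∈ HH K e, ∃ a ∈ comp A d, u = a + v * r := by
  obtain ⟨a, ha, v, rfl⟩ := mem_adj.1 h
  have key : homogeneousComponent d (a + v * r) = a + v * r :=
    homogeneousComponent_of_mem hu |>.trans (by simp)
  rw [map_add] at key
  by_cases hd : d < c
  · left
    rw [hc_mul_of_lt hr v hd, add_zero] at key
    refine ⟨hd, ?_⟩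
    rw [← key]
    exact hA a ha d
  · right
    obtain ⟨e, rfl⟩ : ∃ e, d = e + c := ⟨d - c, by omega⟩
    rw [hc_mul_of_mem hr] at key
    refine ⟨e, rfl, homogeneousComponent e v, homogeneousComponent_mem e v,
      homogeneousComponent (e + c) a, mem_comp.2 ⟨hA a ha _, homogeneousComponent_mem _ _⟩, ?_⟩
    exact key.symm

/-- For a homogeneous ideal and a form `r`, it suffices to test on forms. -/
theorem nz_of_hom {A : Ideal (S3 K)} (hA : HomIdeal A) {c : ℕ} {r : S3 K} (hr : r ∈ HH K c)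
    (h : ∀ n, ∀ u ∈ HH K n, r * u ∈ A → u ∈ A) : NZ A r := by
  intro u hu
  rw [← sum_homogeneousComponent u]
  refine Ideal.sum_mem _ fun m _ => ?_
  apply h m _ (homogeneousComponent_mem m u)
  have := hA _ hu (m + c)
  rw [mul_comm, hc_mul_of_mem hr] at this
  rwa [mul_comm] at this

/-- Swapping two elements of a regular sequence. -/
theorem swap_nz {A : Ideal (S3 K)} (hA : HomIdeal A) {c c' : ℕ} {q r : S3 K}
    (hq : q ∈ HH K c) (hc : 1 ≤ c) (hr : r ∈ HH K c')
    (h1 : NZ A q) (h2 : NZ (adj A q) r) : NZ A r ∧ NZ (adj A r) q := by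
  constructor
  · apply nz_of_hom hA hr
    intro n
    induction n using Nat.strong_induction_on with
    | _ n ih =>
      intro u hu hru
      have h3 : u ∈ adj A q := h2 u (le_adj A q hru)
      rcases mem_adj_hom hA hq hu h3 with ⟨-, h4⟩ | ⟨e, he, v, hv, a, ha, rfl⟩
      · exact h4
      · have ha' := (mem_comp.1 ha).1
        refine Ideal.add_mem _ ha' (Ideal.mul_mem_right _ _ ?_)
        apply ih e (by omega) v hv
        apply h1
        have : q * (r * v) = r * (a + v * q) - r * a := by ring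
        rw [this]
        exact Ideal.sub_mem _ hru (Ideal.mul_mem_left _ _ ha')
  · intro u hu
    obtain ⟨a, ha, v, hv⟩ := mem_adj.1 hu
    have h3 : v ∈ adj A q := by
      apply h2
      refine mem_adj.2 ⟨-a, A.neg_mem ha, u, ?_⟩
      linear_combination hv.symm
    obtain ⟨a', ha', w, rfl⟩ := mem_adj.1 h3
    have h4 : u - w * r ∈ A := by
      apply h1
      have : q * (u - w * r) = a + a' * r := by linear_combination hv
      rw [this]
      exact Ideal.add_mem _ ha (Ideal.mul_mem_right _ _ ha')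
    refine mem_adj.2 ⟨_, h4, w, by ring⟩

/-- Key lemma: two independent elements cannot annihilate a non-trivial class. -/
theorem lemG {A : Ideal (S3 K)} {g r r' u : S3 K} (h1 : NZ A g) (h2 : NZ A r)
    (h3 : NZ (adj A r) r') (h4 : r * u ∈ adj A g) (h5 : r' * u ∈ adj A g) : u ∈ adj A g := by
  obtain ⟨a, ha, x, hx⟩ := mem_adj.1 h4
  obtain ⟨b, hb, y, hy⟩ := mem_adj.1 h5
  have h6 : r' * x - r * y ∈ A := by
    apply h1
    have : g * (r' * x - r * y) = r * b - r' * a := by
      linear_combination r * hy - r' * hx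
    rw [this]
    exact Ideal.sub_mem _ (Ideal.mul_mem_left _ _ hb) (Ideal.mul_mem_left _ _ ha)
  have h7 : x ∈ adj A r := by
    apply h3
    refine mem_adj.2 ⟨_, h6, y, by ring⟩
  obtain ⟨c, hc, z, rfl⟩ := mem_adj.1 h7
  have h8 : u - z * g ∈ A := by
    apply h2
    have : r * (u - z * g) = a + c * g := by linear_combination hx
    rw [this]
    exact Ideal.add_mem _ ha (Ideal.mul_mem_right _ _ hc)
  exact mem_adj.2 ⟨_, h8, z, by ring⟩

/-- Prime avoidance for a subspace over an infinite field. -/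
theorem dichotomy [Infinite K] (A : Ideal (S3 K)) (W : Submodule K (S3 K)) :
    (∃ g ∈ W, NZ A g) ∨ ∃ u, u ∉ A ∧ ∀ w ∈ W, w * u ∈ A := by
  by_cases h : ∃ g ∈ W, NZ A g
  · exact Or.inl h
  right
  push Not at h
  let M := S3 K ⧸ A
  have hfin : (associatedPrimes (S3 K) M).Finite := associatedPrimes.finite (S3 K) M
  have : Finite (associatedPrimes (S3 K) M) := hfin
  let p : associatedPrimes (S3 K) M → Subspace K W := fun P =>
    ((P.1 : Ideal (S3 K)).restrictScalars K).comap W.subtype
  have hcov : ⋃ i, (p i : Set W) = Set.univ := by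
    apply Set.eq_univ_of_forall
    intro g
    have hg : ¬ NZ A (g : S3 K) := h g g.2
    unfold NZ at hg
    push Not at hg
    obtain ⟨u, hu1, hu2⟩ := hg
    have hmem : (g : S3 K) ∈ { r : S3 K | ∃ x : M, x ≠ 0 ∧ r • x = 0 } := by
      refine ⟨Ideal.Quotient.mk A u, ?_, ?_⟩
      · exact fun h0 => hu2 (Ideal.Quotient.eq_zero_iff_mem.1 h0)
      · change Ideal.Quotient.mk A ((g : S3 K) * u) = 0
        exact Ideal.Quotient.eq_zero_iff_mem.2 hu1
    rw [← biUnion_associatedPrimes_eq_zero_divisors (S3 K) M] at hmem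
    simp only [Set.mem_iUnion] at hmem
    obtain ⟨P, hP, hgP⟩ := hmem
    refine Set.mem_iUnion.2 ⟨⟨P, hP⟩, ?_⟩
    exact hgP
  obtain ⟨⟨P, hP⟩, hPtop⟩ := Subspace.exists_eq_top_of_iUnion_eq_univ hcov
  obtain ⟨hprime, x, hx⟩ := (isAssociatedPrime_iff).1 hP
  obtain ⟨u, rfl⟩ := Ideal.Quotient.mk_surjective x
  have hW : ∀ w ∈ W, w ∈ P := by
    intro w hw
    have : (⟨w, hw⟩ : W) ∈ p ⟨P, hP⟩ := by rw [hPtop]; trivial
    exact this
  refine ⟨u, ?_, ?_⟩
  · intro hu
    apply hprime.ne_top
    rw [hx]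
    have : Ideal.Quotient.mk A u = 0 := Ideal.Quotient.eq_zero_iff_mem.2 hu
    rw [this, Ideal.eq_top_iff_one, Submodule.mem_colon_singleton]
    simp
  · intro w hw
    have h1 := hW w hw
    rw [hx, Submodule.mem_colon_singleton] at h1
    have h2 : Ideal.Quotient.mk A (w * u) = 0 := by
      have : w • (Ideal.Quotient.mk A u) = Ideal.Quotient.mk A (w * u) := rfl
      rw [← this]
      simpa using h1
    exact Ideal.Quotient.eq_zero_iff_mem.1 h2

end Vale.Agent.Lib.P200
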