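import Mathlib.RingTheory.MvPolynomial.Homogeneous
import Mathlib.LinearAlgebra.Dimension.Finrank
import Mathlib.LinearAlgebra.Quotient.Basic

/-!
Graded Betti numbers of `S/I` for `S = K[x_1, x_2, x_3]`, through the Koszul complex of the variables:
`β_{p,j}(S/I) = dim_K Tor_p^S(S/I, K)_j = dim_K H_p(x_1, x_2, x_3; S/I)_j`.

The Koszul complex of the variables on `S/I` reads
`0 → S/I → (S/I)^3 → (S/I)^3 → S/I → 0`, with maps `w ↦ w x`, `τ ↦ x × τ`, `σ ↦ x · σ`, which
raise the polynomial degree by one.  The internal degree of a term of homological degree `p`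
and polynomial degree `e` is `j = p + e`.  Cycles and boundaries are written on polynomial
representatives: a cycle is a vector of forms whose image lies in `I`, a boundary is the sum of
an image and a vector with entries in `I`.
-/

noncomputable section

namespace Vale.Agent.Lib.P200.BettiDefs

open MvPolynomial Module

variable {K : Type*} [Field K]

/-- The forms of integer degree `e`; zero when `e` is negative. -/
def formsZ (K : Type*) [Field K] (e : ℤ) : Submodule K (MvPolynomial (Fin 3) K) :=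
  if e < 0 then ⊥ else homogeneousSubmodule (Fin 3) K e.toNat

/-- Vectors of three forms of degree `e`. -/
def vecZ (K : Type*) [Field K] (e : ℤ) : Submodule K (Fin 3 → MvPolynomial (Fin 3) K) :=
  Submodule.pi Set.univ fun _ => formsZ K e

/-- The Koszul map `σ ↦ x · σ = x_1 σ_1 + x_2 σ_2 + x_3 σ_3`. -/
def kd1 (K : Type*) [Field K] : (Fin 3 → MvPolynomial (Fin 3) K) →ₗ[K] MvPolynomial (Fin 3) K :=
  ∑ i, (LinearMap.mulLeft K (X i : MvPolynomial (Fin 3) K)) ∘ₗ LinearMap.proj i

/-- The Koszul map `τ ↦ x × τ`. -/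
def kd2 (K : Type*) [Field K] :
    (Fin 3 → MvPolynomial (Fin 3) K) →ₗ[K] (Fin 3 → MvPolynomial (Fin 3) K) :=
  LinearMap.pi ![
    (LinearMap.mulLeft K (X 1 : MvPolynomial (Fin 3) K)) ∘ₗ LinearMap.proj 2 -
      (LinearMap.mulLeft K (X 2 : MvPolynomial (Fin 3) K)) ∘ₗ LinearMap.proj 1,
    (LinearMap.mulLeft K (X 2 : MvPolynomial (Fin 3) K)) ∘ₗ LinearMap.proj 0 -
      (LinearMap.mulLeft K (X 0 : MvPolynomial (Fin 3) K)) ∘ₗ LinearMap.proj 2,
    (LinearMap.mulLeft K (X 0 : MvPolynomial (Fin 3) K)) ∘ₗ LinearMap.proj 1 -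
      (LinearMap.mulLeft K (X 1 : MvPolynomial (Fin 3) K)) ∘ₗ LinearMap.proj 0]

/-- The Koszul map `w ↦ w x`. -/
def kd3 (K : Type*) [Field K] : MvPolynomial (Fin 3) K →ₗ[K] (Fin 3 → MvPolynomial (Fin 3) K) :=
  LinearMap.pi fun i => LinearMap.mulLeft K (X i : MvPolynomial (Fin 3) K)

/-- The elements of `I` among the forms of degree `e`. -/
def idealZ (I : Ideal (MvPolynomial (Fin 3) K)) (e : ℤ) : Submodule K (MvPolynomial (Fin 3) K) :=
  I.restrictScalars K ⊓ formsZ K e

/-- Vectors of three elements of `I` among the forms of degree `e`. -/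
def idealVecZ (I : Ideal (MvPolynomial (Fin 3) K)) (e : ℤ) :
    Submodule K (Fin 3 → MvPolynomial (Fin 3) K) :=
  Submodule.pi Set.univ fun _ => idealZ I e

/-- Vectors with all entries in `I`. -/
def idealVec (I : Ideal (MvPolynomial (Fin 3) K)) : Submodule K (Fin 3 → MvPolynomial (Fin 3) K) :=
  Submodule.pi Set.univ fun _ => I.restrictScalars K

/-- The dimension of the subquotient `Z / B`. -/
def hdim {V : Type*} [AddCommGroup V] [Module K V] (Z B : Submodule K V) : ℕ :=
  finrank K (↥Z ⧸ B.comap Z.subtype)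

/-- The graded Betti number `β_{p,j}(S/I)`, computed as the dimension of the degree `j` part of the
`p`-th Koszul homology of the variables on `S/I`. -/
def betti3 (I : Ideal (MvPolynomial (Fin 3) K)) : ℕ → ℤ → ℕ
  | 0, j => hdim (formsZ K j) (idealZ I j ⊔ (vecZ K (j - 1)).map (kd1 K))
  | 1, j => hdim (vecZ K (j - 1) ⊓ (I.restrictScalars K).comap (kd1 K))
      ((vecZ K (j - 2)).map (kd2 K) ⊔ idealVecZ I (j - 1))
  | 2, j => hdim (vecZ K (j - 2) ⊓ (idealVec I).comap (kd2 K))
      ((formsZ K (j - 3)).map (kd3 K) ⊔ idealVecZ I (j - 2))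
  | 3, j => hdim (formsZ K (j - 3) ⊓ (idealVec I).comap (kd3 K)) (idealZ I (j - 3))
  | _, _ => 0

end Vale.Agent.Lib.P200.BettiDefs
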