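import Vale.Agent.Lib.P200.Final3
import Vale.Agent.Lib.P200.BettiDefs

/-!
The Koszul homology of `S/I` in three variables in terms of dimensions of graded pieces.
-/

noncomputable section

namespace Vale.Agent.Lib.P200

open MvPolynomial Module BettiDefs

variable {K : Type*} [Field K]

theorem formsZ_nat (n : ℕ) : formsZ K (n : ℤ) = HH K n := by
  unfold formsZ
  rw [if_neg (by omega)]
  simp

theorem formsZ_neg {e : ℤ} (h : e < 0) : formsZ K e = ⊥ := by
  unfold formsZ
  rw [if_pos h]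

instance fdFormsZ (e : ℤ) : FiniteDimensional K (formsZ K e) := by
  by_cases h : e < 0
  · rw [formsZ_neg h]; infer_instance
  · obtain ⟨n, rfl⟩ : ∃ n : ℕ, e = n := ⟨e.toNat, by omega⟩
    rw [formsZ_nat]; infer_instance

theorem finrank_formsZ (e : ℤ) : (finrank K (formsZ K e) : ℤ) = Df e := by
  by_cases h : e < 0
  · rw [formsZ_neg h, finrank_bot, Df_of_neg h]
    rfl
  · obtain ⟨n, rfl⟩ : ∃ n : ℕ, e = n := ⟨e.toNat, by omega⟩
    rw [formsZ_nat, finrank_HH, Df_of_nat]

theorem mem_vecZ {e : ℤ} {σ : Fin 3 → S3 K} : σ ∈ vecZ K e ↔ ∀ i, σ i ∈ formsZ K e := by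
  simp [vecZ, Submodule.mem_pi]

theorem mem_idealVecZ {A : Ideal (S3 K)} {e : ℤ} {σ : Fin 3 → S3 K} :
    σ ∈ idealVecZ A e ↔ ∀ i, σ i ∈ A ∧ σ i ∈ formsZ K e := by
  simp [idealVecZ, idealZ, Submodule.mem_pi]

theorem mem_idealVec {A : Ideal (S3 K)} {σ : Fin 3 → S3 K} : σ ∈ idealVec A ↔ ∀ i, σ i ∈ A := by
  simp [idealVec, Submodule.mem_pi]

theorem mem_idealZ {A : Ideal (S3 K)} {e : ℤ} {u : S3 K} :
    u ∈ idealZ A e ↔ u ∈ A ∧ u ∈ formsZ K e := by
  simp [idealZ]

theorem kd1_apply (σ : Fin 3 → S3 K) : kd1 K σ = X 0 * σ 0 + X 1 * σ 1 + X 2 * σ 2 := by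
  simp [kd1, Fin.sum_univ_three]

theorem kd2_0 (τ : Fin 3 → S3 K) : kd2 K τ 0 = X 1 * τ 2 - X 2 * τ 1 := by
  simp [kd2]

theorem kd2_1 (τ : Fin 3 → S3 K) : kd2 K τ 1 = X 2 * τ 0 - X 0 * τ 2 := by
  simp [kd2]

theorem kd2_2 (τ : Fin 3 → S3 K) : kd2 K τ 2 = X 0 * τ 1 - X 1 * τ 0 := by
  simp [kd2]

theorem kd3_apply (w : S3 K) (i : Fin 3) : kd3 K w i = X i * w := by
  simp [kd3]

theorem kd1_kd2 (τ : Fin 3 → S3 K) : kd1 K (kd2 K τ) = 0 := by
  rw [kd1_apply, kd2_0, kd2_1, kd2_2]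
  ring

theorem kd2_kd3 (w : S3 K) : kd2 K (kd3 K w) = 0 := by
  funext i
  fin_cases i
  · change kd2 K (kd3 K w) 0 = 0
    rw [kd2_0, kd3_apply, kd3_apply]
    ring
  · change kd2 K (kd3 K w) 1 = 0
    rw [kd2_1, kd3_apply, kd3_apply]
    ring
  · change kd2 K (kd3 K w) 2 = 0
    rw [kd2_2, kd3_apply, kd3_apply]
    ring

theorem X_mul_formsZ (i : Fin 3) {e : ℤ} {u : S3 K} (hu : u ∈ formsZ K e) :
    X i * u ∈ formsZ K (e + 1) := by
  by_cases h : e < 0
  · rw [formsZ_neg h, Submodule.mem_bot] at hu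
    rw [hu, mul_zero]
    exact Submodule.zero_mem _
  · obtain ⟨n, rfl⟩ : ∃ n : ℕ, e = n := ⟨e.toNat, by omega⟩
    rw [formsZ_nat] at hu
    have e1 : (n : ℤ) + 1 = ((n + 1 : ℕ) : ℤ) := by push_cast; ring
    rw [e1, formsZ_nat]
    exact mul_mem_HH (isHomogeneous_X K i) hu

theorem kd1_mem {e : ℤ} {σ : Fin 3 → S3 K} (hσ : σ ∈ vecZ K e) : kd1 K σ ∈ formsZ K (e + 1) := by
  rw [mem_vecZ] at hσ
  rw [kd1_apply]
  exact Submodule.add_mem _ (Submodule.add_mem _ (X_mul_formsZ 0 (hσ 0)) (X_mul_formsZ 1 (hσ 1)))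
    (X_mul_formsZ 2 (hσ 2))

theorem kd2_mem {e : ℤ} {τ : Fin 3 → S3 K} (hτ : τ ∈ vecZ K e) : kd2 K τ ∈ vecZ K (e + 1) := by
  rw [mem_vecZ] at hτ ⊢
  intro i
  fin_cases i
  · change kd2 K τ 0 ∈ _
    rw [kd2_0]
    exact Submodule.sub_mem _ (X_mul_formsZ 1 (hτ 2)) (X_mul_formsZ 2 (hτ 1))
  · change kd2 K τ 1 ∈ _
    rw [kd2_1]
    exact Submodule.sub_mem _ (X_mul_formsZ 2 (hτ 0)) (X_mul_formsZ 0 (hτ 2))
  · change kd2 K τ 2 ∈ _
    rw [kd2_2]
    exact Submodule.sub_mem _ (X_mul_formsZ 0 (hτ 1)) (X_mul_formsZ 1 (hτ 0))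

theorem kd3_mem {e : ℤ} {w : S3 K} (hw : w ∈ formsZ K e) : kd3 K w ∈ vecZ K (e + 1) := by
  rw [mem_vecZ]
  intro i
  rw [kd3_apply]
  exact X_mul_formsZ i hw

theorem kd3_inj : Function.Injective (kd3 K) := by
  intro u v h
  have h1 := congrFun h 0
  rw [kd3_apply, kd3_apply] at h1
  exact mul_left_cancel₀ (X_ne_zero 0) h1

/-- Exactness of the Koszul complex of the polynomial ring at the degree one spot, without degrees. -/
theorem koszul_exact_raw {σ : Fin 3 → S3 K} (h : kd1 K σ = 0) : ∃ τ, σ = kd2 K τ := by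
  rw [kd1_apply] at h
  have hm := rs_mono (K := K) (a := 1) (b := 1) (c := 1) le_rfl le_rfl le_rfl
  simp only [pow_one] at hm
  have h1 : σ 2 ∈ adj (adj ⊥ (X 0 : S3 K)) (X 1) := by
    apply hm.nz2
    refine mem_adj.2 ⟨- (X 0 * σ 0), ?_, - σ 1, ?_⟩
    · exact Ideal.neg_mem_iff _ |>.2 (Ideal.mul_mem_right _ _ (self_mem_adj _ _))
    · linear_combination h
  obtain ⟨x, hx, β, hβ⟩ := mem_adj.1 h1
  obtain ⟨y, hy, α, hα⟩ := mem_adj.1 hx
  have hy0 : y = 0 := by simpa using hy
  rw [hy0, zero_add] at hα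
  rw [hα] at hβ
  -- the two remaining entries
  have h2 : X 1 * (σ 1 + X 2 * β) ∈ adj ⊥ (X 0 : S3 K) := by
    refine mem_adj.2 ⟨0, Ideal.zero_mem _, - (σ 0 + X 2 * α), ?_⟩
    rw [hβ] at h
    linear_combination h
  have h3 := hm.nz1 _ h2
  obtain ⟨γ, hγ⟩ := mem_prin.1 h3
  have h4 : σ 0 + X 2 * α = - (X 1 * γ) := by
    apply mul_left_cancel₀ (X_ne_zero (0 : Fin 3))
    rw [hβ, ] at h
    have e1 : X 0 * (σ 0 + X 2 * α) + X 1 * (σ 1 + X 2 * β) = 0 := by
      linear_combination h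
    rw [hγ] at e1
    linear_combination e1
  refine ⟨![-β, α, -γ], ?_⟩
  funext i
  fin_cases i
  · change σ 0 = kd2 K _ 0
    rw [kd2_0]
    simp only [Matrix.cons_val]
    linear_combination h4
  · change σ 1 = kd2 K _ 1
    rw [kd2_1]
    simp only [Matrix.cons_val]
    linear_combination hγ
  · change σ 2 = kd2 K _ 2
    rw [kd2_2]
    simp only [Matrix.cons_val]
    rw [hβ]
    ring

/-- The Koszul syzygies of degree `e`. -/
def Kz (K : Type*) [Field K] (e : ℤ) : Submodule K (Fin 3 → S3 K) :=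
  vecZ K e ⊓ LinearMap.ker (kd1 K)

/-- Exactness with degrees. -/
theorem exact1 (e : ℤ) : (vecZ K (e - 1)).map (kd2 K) = Kz K e := by
  apply le_antisymm
  · rintro _ ⟨τ, hτ, rfl⟩
    refine ⟨?_, LinearMap.mem_ker.2 (kd1_kd2 τ)⟩
    have := kd2_mem hτ
    rwa [sub_add_cancel] at this
  · rintro σ ⟨hσ, hσ2⟩
    rw [SetLike.mem_coe, mem_vecZ] at hσ
    by_cases h0 : e < 0
    · have : σ = 0 := by
        funext i
        have := hσ i
        rw [formsZ_neg h0, Submodule.mem_bot] at this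
        exact this
      rw [this]
      exact Submodule.zero_mem _
    obtain ⟨n, rfl⟩ : ∃ n : ℕ, e = n := ⟨e.toNat, by omega⟩
    simp only [formsZ_nat] at hσ
    obtain ⟨τ, hτ⟩ := koszul_exact_raw (LinearMap.mem_ker.1 hσ2)
    have hcomp : ∀ i, σ i = homogeneousComponent n (σ i) := by
      intro i
      rw [homogeneousComponent_of_mem (hσ i)]
      simp
    cases n with
    | zero =>
      have h1 : σ = 0 := by
        funext i
        rw [hcomp i, hτ]
        fin_cases i
        · change homogeneousComponent 0 (kd2 K τ 0) = 0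
          rw [kd2_0, map_sub, mul_comm (X 1), mul_comm (X 2),
            hc_mul_of_lt (isHomogeneous_X K 1) _ (by omega),
            hc_mul_of_lt (isHomogeneous_X K 2) _ (by omega), sub_zero]
        · change homogeneousComponent 0 (kd2 K τ 1) = 0
          rw [kd2_1, map_sub, mul_comm (X 2), mul_comm (X 0),
            hc_mul_of_lt (isHomogeneous_X K 2) _ (by omega),
            hc_mul_of_lt (isHomogeneous_X K 0) _ (by omega), sub_zero]
        · change homogeneousComponent 0 (kd2 K τ 2) = 0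
          rw [kd2_2, map_sub, mul_comm (X 0), mul_comm (X 1),
            hc_mul_of_lt (isHomogeneous_X K 0) _ (by omega),
            hc_mul_of_lt (isHomogeneous_X K 1) _ (by omega), sub_zero]
      rw [h1]
      exact Submodule.zero_mem _
    | succ n =>
      refine ⟨fun i => homogeneousComponent n (τ i), ?_, ?_⟩
      · rw [SetLike.mem_coe, mem_vecZ]
        intro i
        have e1 : ((n + 1 : ℕ) : ℤ) - 1 = (n : ℤ) := by push_cast; ring
        rw [e1, formsZ_nat]
        exact homogeneousComponent_mem _ _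
      · funext i
        rw [hcomp i, hτ]
        fin_cases i
        · change kd2 K _ 0 = homogeneousComponent (n + 1) (kd2 K τ 0)
          rw [kd2_0, kd2_0, map_sub, mul_comm (X 1) (τ 2), mul_comm (X 2) (τ 1),
            hc_mul_of_mem (isHomogeneous_X K 1), hc_mul_of_mem (isHomogeneous_X K 2)]
          ring
        · change kd2 K _ 1 = homogeneousComponent (n + 1) (kd2 K τ 1)
          rw [kd2_1, kd2_1, map_sub, mul_comm (X 2) (τ 0), mul_comm (X 0) (τ 2),
            hc_mul_of_mem (isHomogeneous_X K 2), hc_mul_of_mem (isHomogeneous_X K 0)]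
          ring
        · change kd2 K _ 2 = homogeneousComponent (n + 1) (kd2 K τ 2)
          rw [kd2_2, kd2_2, map_sub, mul_comm (X 0) (τ 1), mul_comm (X 1) (τ 0),
            hc_mul_of_mem (isHomogeneous_X K 0), hc_mul_of_mem (isHomogeneous_X K 1)]
          ring

instance fdVecZ (e : ℤ) : FiniteDimensional K (vecZ K e) := by
  let E : vecZ K e →ₗ[K] (Fin 3 → formsZ K e) :=
    { toFun := fun x i => ⟨x.1 i, mem_vecZ.1 x.2 i⟩
      map_add' := fun x y => rfl
      map_smul' := fun c x => rfl }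
  refine FiniteDimensional.of_injective E ?_
  intro x y h
  apply Subtype.ext
  funext i
  exact congrArg Subtype.val (congrFun h i)

theorem finrank_pi3 (V : Submodule K (S3 K)) [FiniteDimensional K V] :
    finrank K (Submodule.pi Set.univ (fun _ : Fin 3 => V) : Submodule K (Fin 3 → S3 K)) =
      3 * finrank K V := by
  let E : (Submodule.pi Set.univ (fun _ : Fin 3 => V) : Submodule K (Fin 3 → S3 K)) ≃ₗ[K]
      (Fin 3 → V) :=
    { toFun := fun x i => ⟨x.1 i, by
        have := x.2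
        rw [Submodule.mem_pi] at this
        exact this i (Set.mem_univ i)⟩
      invFun := fun y => ⟨fun i => (y i).1, by
        rw [Submodule.mem_pi]
        intro i _
        exact (y i).2⟩
      left_inv := fun x => rfl
      right_inv := fun y => rfl
      map_add' := fun x y => rfl
      map_smul' := fun c x => rfl }
  rw [E.finrank_eq, Module.finrank_pi_fintype]
  simp

theorem idealZ_le (A : Ideal (S3 K)) (e : ℤ) : idealZ A e ≤ formsZ K e := inf_le_right

instance fdIdealZ (A : Ideal (S3 K)) (e : ℤ) : FiniteDimensional K (idealZ A e) :=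
  Submodule.finiteDimensional_of_le (idealZ_le A e)

theorem idealVecZ_le (A : Ideal (S3 K)) (e : ℤ) : idealVecZ A e ≤ vecZ K e := by
  intro σ hσ
  rw [mem_vecZ]
  exact fun i => ((mem_idealVecZ.1 hσ) i).2

instance fdIdealVecZ (A : Ideal (S3 K)) (e : ℤ) : FiniteDimensional K (idealVecZ A e) :=
  Submodule.finiteDimensional_of_le (idealVecZ_le A e)

instance fdKz (e : ℤ) : FiniteDimensional K (Kz K e) :=
  Submodule.finiteDimensional_of_le inf_le_left

/-- The subspace of `S_{e+1}` generated by the elements of `A` of degree `e` and the variables. -/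
def GA (A : Ideal (S3 K)) (e : ℤ) : Submodule K (S3 K) := (idealVecZ A e).map (kd1 K)

instance fdGA (A : Ideal (S3 K)) (e : ℤ) : FiniteDimensional K (GA A e) :=
  inferInstanceAs (Module.Finite K ↥((idealVecZ A e).map (kd1 K)))

/-- Rank-nullity on a submodule. -/
theorem rank_nullity {V V' : Type*} [AddCommGroup V] [Module K V] [AddCommGroup V'] [Module K V']
    (f : V →ₗ[K] V') (U : Submodule K V) [FiniteDimensional K U] :
    finrank K (U.map f) + finrank K ↥(U ⊓ LinearMap.ker f) = finrank K U := by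
  have h1 := LinearMap.finrank_range_add_finrank_ker (f.domRestrict U)
  rw [LinearMap.range_domRestrict, LinearMap.ker_domRestrict] at h1
  have h2 : finrank K (Submodule.comap U.subtype (LinearMap.ker f)) =
      finrank K ↥(U ⊓ LinearMap.ker f) := by
    have h3 : Submodule.comap U.subtype (LinearMap.ker f) =
        Submodule.comap U.subtype (U ⊓ LinearMap.ker f) := by
      ext x
      simp
    rw [h3]
    exact LinearEquiv.finrank_eq (Submodule.comapSubtypeEquivOfLe inf_le_left)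
  rw [h2] at h1
  exact h1

theorem hdim_add {V : Type*} [AddCommGroup V] [Module K V] {Z B : Submodule K V} (h : B ≤ Z)
    [FiniteDimensional K Z] : hdim Z B + finrank K B = finrank K Z := by
  unfold hdim
  have h1 := Submodule.finrank_quotient_add_finrank (B.comap Z.subtype)
  rw [← h1, LinearEquiv.finrank_eq (Submodule.comapSubtypeEquivOfLe h)]

/-- The intersection of the syzygies with the vectors of elements of `A`. -/
theorem inf_Kz (A : Ideal (S3 K)) (e : ℤ) :
    Kz K e ⊓ idealVecZ A e = idealVecZ A e ⊓ LinearMap.ker (kd1 K) := by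
  ext x
  simp only [Submodule.mem_inf, Kz]
  constructor
  · rintro ⟨⟨-, h2⟩, h3⟩
    exact ⟨h3, h2⟩
  · rintro ⟨h1, h2⟩
    exact ⟨⟨idealVecZ_le A e h1, h2⟩, h1⟩

theorem rn_GA (A : Ideal (S3 K)) (e : ℤ) :
    finrank K (GA A e) + finrank K ↥(Kz K e ⊓ idealVecZ A e) = finrank K (idealVecZ A e) := by
  rw [inf_Kz]
  exact rank_nullity (kd1 K) (idealVecZ A e)

theorem finrank_idealVecZ (A : Ideal (S3 K)) (e : ℤ) :
    finrank K (idealVecZ A e) = 3 * finrank K (idealZ A e) := finrank_pi3 _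

theorem finrank_vecZ (e : ℤ) : finrank K (vecZ K e) = 3 * finrank K (formsZ K e) := finrank_pi3 _

/-- Boundaries in homological degree one. -/
theorem finrank_bd1 (A : Ideal (S3 K)) (j : ℤ) :
    finrank K ↥((vecZ K (j - 2)).map (kd2 K) ⊔ idealVecZ A (j - 1)) =
      finrank K (Kz K (j - 1)) + finrank K (GA A (j - 1)) := by
  have e1 : (vecZ K (j - 2)).map (kd2 K) = Kz K (j - 1) := by
    rw [← exact1 (j - 1)]
    congr 2
    ring
  rw [e1]
  have h1 : finrank K ↥(Kz K (j - 1) ⊔ idealVecZ A (j - 1)) +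
      finrank K ↥(Kz K (j - 1) ⊓ idealVecZ A (j - 1)) =
      finrank K (Kz K (j - 1)) + finrank K (idealVecZ A (j - 1)) :=
    Submodule.finrank_sup_add_finrank_inf_eq (Kz K (j - 1)) (idealVecZ A (j - 1))
  have h2 := rn_GA A (j - 1)
  have h3 : finrank K ↥(Kz K (j - 1) ⊔ idealVecZ A (j - 1)) =
      finrank K (Kz K (j - 1)) + finrank K (GA A (j - 1)) := by omega
  exact h3

/-- Cycles in homological degree one, in positive degree. -/
theorem finrank_cyc1 (A : Ideal (S3 K)) {j : ℤ} (hj : 1 ≤ j) :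
    finrank K ↥(vecZ K (j - 1) ⊓ (A.restrictScalars K).comap (kd1 K)) =
      finrank K (Kz K (j - 1)) + finrank K (idealZ A j) := by
  let C₁ := vecZ K (j - 1) ⊓ (A.restrictScalars K).comap (kd1 K)
  have : FiniteDimensional K C₁ := Submodule.finiteDimensional_of_le inf_le_left
  have h1 : finrank K ↥(C₁.map (kd1 K)) + finrank K ↥(C₁ ⊓ LinearMap.ker (kd1 K)) = finrank K C₁ :=
    rank_nullity (kd1 K) C₁
  have e1 : C₁.map (kd1 K) = idealZ A j := by
    apply le_antisymm
    · rintro _ ⟨σ, ⟨h2, h3⟩, rfl⟩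
      refine mem_idealZ.2 ⟨h3, ?_⟩
      have := kd1_mem h2
      rwa [sub_add_cancel] at this
    · intro u hu
      obtain ⟨h2, h3⟩ := mem_idealZ.1 hu
      obtain ⟨n, rfl⟩ : ∃ n : ℕ, j = (n : ℤ) + 1 := ⟨(j - 1).toNat, by omega⟩
      have e2 : (n : ℤ) + 1 = ((n + 1 : ℕ) : ℤ) := by push_cast; ring
      rw [e2, formsZ_nat] at h3
      obtain ⟨w, hw, rfl⟩ := form_succ h3
      refine ⟨w, ⟨?_, ?_⟩, ?_⟩
      · rw [SetLike.mem_coe, mem_vecZ]
        intro i
        have e3 : (n : ℤ) + 1 - 1 = (n : ℤ) := by ring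
        rw [e3, formsZ_nat]
        exact hw i
      · have : kd1 K w = ∑ i, X i * w i := by
          rw [kd1_apply, Fin.sum_univ_three]
        change kd1 K w ∈ A
        rw [this]
        exact h2
      · rw [kd1_apply, Fin.sum_univ_three]
  have e2 : C₁ ⊓ LinearMap.ker (kd1 K) = Kz K (j - 1) := by
    ext x
    simp only [Submodule.mem_inf, C₁, Kz, Submodule.mem_comap, LinearMap.mem_ker]
    constructor
    · rintro ⟨⟨h2, -⟩, h3⟩
      exact ⟨h2, h3⟩
    · rintro ⟨h2, h3⟩
      refine ⟨⟨h2, ?_⟩, h3⟩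
      rw [h3]
      exact Submodule.zero_mem _
  rw [e1, e2] at h1
  exact h1.symm.trans (add_comm _ _)

theorem cyc1_neg (A : Ideal (S3 K)) {j : ℤ} (hj : j < 1) :
    vecZ K (j - 1) ⊓ (A.restrictScalars K).comap (kd1 K) = ⊥ := by
  rw [eq_bot_iff]
  rintro σ ⟨h1, -⟩
  rw [SetLike.mem_coe, mem_vecZ] at h1
  rw [Submodule.mem_bot]
  funext i
  have := h1 i
  rwa [formsZ_neg (by omega), Submodule.mem_bot] at this

/-- Cycles in homological degree two. -/
theorem finrank_cyc2 (A : Ideal (S3 K)) (j : ℤ) :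
    finrank K ↥(vecZ K (j - 2) ⊓ (idealVec A).comap (kd2 K)) + finrank K (Kz K (j - 1)) +
        finrank K (GA A (j - 1)) =
      3 * finrank K (formsZ K (j - 2)) + 3 * finrank K (idealZ A (j - 1)) := by
  let C₂ := vecZ K (j - 2) ⊓ (idealVec A).comap (kd2 K)
  have : FiniteDimensional K C₂ := Submodule.finiteDimensional_of_le inf_le_left
  have h1 : finrank K ↥(C₂.map (kd2 K)) + finrank K ↥(C₂ ⊓ LinearMap.ker (kd2 K)) = finrank K C₂ :=
    rank_nullity (kd2 K) C₂
  have h2 : finrank K ↥((vecZ K (j - 2)).map (kd2 K)) +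
      finrank K ↥(vecZ K (j - 2) ⊓ LinearMap.ker (kd2 K)) = finrank K (vecZ K (j - 2)) :=
    rank_nullity (kd2 K) (vecZ K (j - 2))
  have e1 : (vecZ K (j - 2)).map (kd2 K) = Kz K (j - 1) := by
    rw [← exact1 (j - 1)]
    congr 2
    ring
  have e2 : C₂ ⊓ LinearMap.ker (kd2 K) = vecZ K (j - 2) ⊓ LinearMap.ker (kd2 K) := by
    ext x
    simp only [Submodule.mem_inf, C₂, Submodule.mem_comap, LinearMap.mem_ker]
    constructor
    · rintro ⟨⟨h3, -⟩, h4⟩
      exact ⟨h3, h4⟩
    · rintro ⟨h3, h4⟩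
      refine ⟨⟨h3, ?_⟩, h4⟩
      rw [h4]
      exact Submodule.zero_mem _
  have e3 : C₂.map (kd2 K) = Kz K (j - 1) ⊓ idealVecZ A (j - 1) := by
    apply le_antisymm
    · rintro _ ⟨τ, ⟨h3, h4⟩, rfl⟩
      have h5 : kd2 K τ ∈ Kz K (j - 1) := by
        rw [← e1]
        exact Submodule.mem_map_of_mem h3
      refine ⟨h5, mem_idealVecZ.2 fun i => ⟨(mem_idealVec.1 h4) i, ?_⟩⟩
      exact (mem_vecZ.1 h5.1) i
    · rintro σ ⟨h3, h4⟩
      rw [← e1] at h3
      obtain ⟨τ, hτ, rfl⟩ := h3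
      refine ⟨τ, ⟨hτ, ?_⟩, rfl⟩
      rw [SetLike.mem_coe, Submodule.mem_comap, mem_idealVec]
      exact fun i => ((mem_idealVecZ.1 h4) i).1
  rw [e2, e3] at h1
  rw [e1] at h2
  have h3 := rn_GA A (j - 1)
  rw [finrank_idealVecZ] at h3
  rw [finrank_vecZ] at h2
  have h1' : finrank K ↥(Kz K (j - 1) ⊓ idealVecZ A (j - 1)) +
      finrank K ↥(vecZ K (j - 2) ⊓ LinearMap.ker (kd2 K)) = finrank K C₂ := h1
  have h2' : finrank K (Kz K (j - 1)) + finrank K ↥(vecZ K (j - 2) ⊓ LinearMap.ker (kd2 K)) =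
      3 * finrank K (formsZ K (j - 2)) := h2
  have h3' : finrank K (GA A (j - 1)) + finrank K ↥(Kz K (j - 1) ⊓ idealVecZ A (j - 1)) =
      3 * finrank K (idealZ A (j - 1)) := h3
  have h4 : finrank K C₂ + finrank K (Kz K (j - 1)) + finrank K (GA A (j - 1)) =
      3 * finrank K (formsZ K (j - 2)) + 3 * finrank K (idealZ A (j - 1)) := by omega
  exact h4

/-- The boundaries in homological degree two. -/
theorem finrank_bd2 (A : Ideal (S3 K)) (j : ℤ) :
    finrank K ↥((formsZ K (j - 3)).map (kd3 K) ⊔ idealVecZ A (j - 2)) +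
        finrank K ↥(formsZ K (j - 3) ⊓ (idealVec A).comap (kd3 K)) =
      finrank K (formsZ K (j - 3)) + 3 * finrank K (idealZ A (j - 2)) := by
  let C₃ := formsZ K (j - 3) ⊓ (idealVec A).comap (kd3 K)
  have : FiniteDimensional K ↥((formsZ K (j - 3)).map (kd3 K)) := inferInstance
  have h1 := Submodule.finrank_sup_add_finrank_inf_eq ((formsZ K (j - 3)).map (kd3 K))
    (idealVecZ A (j - 2))
  have e0 : finrank K ↥((formsZ K (j - 3)).map (kd3 K)) = finrank K (formsZ K (j - 3)) :=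
    (LinearEquiv.finrank_eq (Submodule.equivMapOfInjective (kd3 K) kd3_inj _)).symm
  have e1 : (formsZ K (j - 3)).map (kd3 K) ⊓ idealVecZ A (j - 2) = C₃.map (kd3 K) := by
    apply le_antisymm
    · rintro _ ⟨⟨w, hw, rfl⟩, h3⟩
      refine ⟨w, ⟨hw, ?_⟩, rfl⟩
      rw [SetLike.mem_coe, Submodule.mem_comap, mem_idealVec]
      exact fun i => ((mem_idealVecZ.1 h3) i).1
    · rintro _ ⟨w, ⟨h3, h4⟩, rfl⟩
      refine ⟨Submodule.mem_map_of_mem h3, mem_idealVecZ.2 fun i => ⟨(mem_idealVec.1 h4) i, ?_⟩⟩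
      have h5 := mem_vecZ.1 (kd3_mem h3) i
      rwa [show j - 3 + 1 = j - 2 by ring] at h5
  have e2 : finrank K ↥(C₃.map (kd3 K)) = finrank K C₃ :=
    (LinearEquiv.finrank_eq (Submodule.equivMapOfInjective (kd3 K) kd3_inj _)).symm
  rw [e1, e2, e0, finrank_idealVecZ] at h1
  exact h1

theorem bd0_le (A : Ideal (S3 K)) (j : ℤ) :
    idealZ A j ⊔ (vecZ K (j - 1)).map (kd1 K) ≤ formsZ K j := by
  refine sup_le (idealZ_le A j) ?_
  rintro _ ⟨σ, hσ, rfl⟩
  have := kd1_mem hσ
  rwa [sub_add_cancel] at this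

theorem bd1_le (A : Ideal (S3 K)) (j : ℤ) :
    (vecZ K (j - 2)).map (kd2 K) ⊔ idealVecZ A (j - 1) ≤
      vecZ K (j - 1) ⊓ (A.restrictScalars K).comap (kd1 K) := by
  refine sup_le ?_ ?_
  · rintro _ ⟨τ, hτ, rfl⟩
    refine ⟨?_, ?_⟩
    · have := kd2_mem hτ
      rwa [show j - 2 + 1 = j - 1 by ring] at this
    · rw [SetLike.mem_coe, Submodule.mem_comap, kd1_kd2]
      exact Submodule.zero_mem _
  · intro σ hσ
    refine ⟨idealVecZ_le A _ hσ, ?_⟩
    have h := mem_idealVecZ.1 hσ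
    change kd1 K σ ∈ A
    rw [kd1_apply]
    exact Ideal.add_mem _ (Ideal.add_mem _ (Ideal.mul_mem_left _ _ (h 0).1)
      (Ideal.mul_mem_left _ _ (h 1).1)) (Ideal.mul_mem_left _ _ (h 2).1)

theorem bd2_le (A : Ideal (S3 K)) (j : ℤ) :
    (formsZ K (j - 3)).map (kd3 K) ⊔ idealVecZ A (j - 2) ≤
      vecZ K (j - 2) ⊓ (idealVec A).comap (kd2 K) := by
  refine sup_le ?_ ?_
  · rintro _ ⟨w, hw, rfl⟩
    refine ⟨?_, ?_⟩
    · have := kd3_mem hw
      rwa [show j - 3 + 1 = j - 2 by ring] at this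
    · rw [SetLike.mem_coe, Submodule.mem_comap, kd2_kd3]
      exact Submodule.zero_mem _
  · intro σ hσ
    refine ⟨idealVecZ_le A _ hσ, ?_⟩
    have h := mem_idealVecZ.1 hσ
    rw [SetLike.mem_coe, Submodule.mem_comap, mem_idealVec]
    intro i
    fin_cases i
    · change kd2 K σ 0 ∈ A
      rw [kd2_0]
      exact Ideal.sub_mem _ (Ideal.mul_mem_left _ _ (h 2).1) (Ideal.mul_mem_left _ _ (h 1).1)
    · change kd2 K σ 1 ∈ A
      rw [kd2_1]
      exact Ideal.sub_mem _ (Ideal.mul_mem_left _ _ (h 0).1) (Ideal.mul_mem_left _ _ (h 2).1)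
    · change kd2 K σ 2 ∈ A
      rw [kd2_2]
      exact Ideal.sub_mem _ (Ideal.mul_mem_left _ _ (h 1).1) (Ideal.mul_mem_left _ _ (h 0).1)

theorem bd3_le (A : Ideal (S3 K)) (j : ℤ) :
    idealZ A (j - 3) ≤ formsZ K (j - 3) ⊓ (idealVec A).comap (kd3 K) := by
  intro u hu
  obtain ⟨h1, h2⟩ := mem_idealZ.1 hu
  refine ⟨h2, ?_⟩
  rw [SetLike.mem_coe, Submodule.mem_comap, mem_idealVec]
  intro i
  rw [kd3_apply]
  exact Ideal.mul_mem_left _ _ h1

/-- The comparison of Betti numbers from the comparison of three families of dimensions. -/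
theorem betti_le {I J : Ideal (S3 K)}
    (ha : ∀ e, finrank K (idealZ I e) = finrank K (idealZ J e))
    (hG : ∀ e, finrank K (GA J e) ≤ finrank K (GA I e))
    (hC : ∀ j, finrank K ↥(formsZ K (j - 3) ⊓ (idealVec I).comap (kd3 K)) ≤
      finrank K ↥(formsZ K (j - 3) ⊓ (idealVec J).comap (kd3 K))) (p : ℕ) (j : ℤ) :
    betti3 I p j ≤ betti3 J p j := by
  match p with
  | 0 =>
    simp only [betti3]
    have h1 := hdim_add (bd0_le I j)
    have h2 := hdim_add (bd0_le J j)
    have h3 : finrank K ↥(idealZ I j ⊔ (vecZ K (j - 1)).map (kd1 K)) =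
        finrank K ↥(idealZ J j ⊔ (vecZ K (j - 1)).map (kd1 K)) := by
      by_cases hj : 1 ≤ j
      · have h4 : ∀ A : Ideal (S3 K), idealZ A j ⊔ (vecZ K (j - 1)).map (kd1 K) = formsZ K j := by
          intro A
          apply le_antisymm (bd0_le A j)
          intro u hu
          apply Submodule.mem_sup_right
          obtain ⟨n, rfl⟩ : ∃ n : ℕ, j = (n : ℤ) + 1 := ⟨(j - 1).toNat, by omega⟩
          have e2 : (n : ℤ) + 1 = ((n + 1 : ℕ) : ℤ) := by push_cast; ring
          rw [e2, formsZ_nat] at hu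
          obtain ⟨w, hw, rfl⟩ := form_succ hu
          refine ⟨w, ?_, ?_⟩
          · rw [SetLike.mem_coe, mem_vecZ]
            intro i
            have e3 : ((n + 1 : ℕ) : ℤ) - 1 = (n : ℤ) := by push_cast; ring
            rw [e2, e3, formsZ_nat]
            exact hw i
          · rw [kd1_apply, Fin.sum_univ_three]
        rw [h4 I, h4 J]
      · have h4 : ∀ A : Ideal (S3 K), idealZ A j ⊔ (vecZ K (j - 1)).map (kd1 K) = idealZ A j := by
          intro A
          have h5 : vecZ K (j - 1) = ⊥ := by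
            rw [eq_bot_iff]
            intro σ hσ
            rw [Submodule.mem_bot]
            funext i
            have := (mem_vecZ.1 hσ) i
            rwa [formsZ_neg (by omega), Submodule.mem_bot] at this
          rw [h5]
          simp
        rw [h4 I, h4 J]
        exact ha j
    omega
  | 1 =>
    simp only [betti3]
    by_cases hj : 1 ≤ j
    · have : FiniteDimensional K ↥(vecZ K (j - 1) ⊓ (I.restrictScalars K).comap (kd1 K)) :=
        Submodule.finiteDimensional_of_le inf_le_left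
      have : FiniteDimensional K ↥(vecZ K (j - 1) ⊓ (J.restrictScalars K).comap (kd1 K)) :=
        Submodule.finiteDimensional_of_le inf_le_left
      have h1 := hdim_add (bd1_le I j)
      have h2 := hdim_add (bd1_le J j)
      rw [finrank_bd1, finrank_cyc1 I hj] at h1
      rw [finrank_bd1, finrank_cyc1 J hj] at h2
      have h3 := hG (j - 1)
      have h4 := ha j
      omega
    · have h1 := cyc1_neg I (j := j) (by omega)
      have h2 := hdim_add (bd1_le I j)
      have h3 : finrank K ↥(vecZ K (j - 1) ⊓ (I.restrictScalars K).comap (kd1 K)) = 0 := by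
        rw [h1]
        simp
      omega
  | 2 =>
    simp only [betti3]
    have : FiniteDimensional K ↥(vecZ K (j - 2) ⊓ (idealVec I).comap (kd2 K)) :=
      Submodule.finiteDimensional_of_le inf_le_left
    have : FiniteDimensional K ↥(vecZ K (j - 2) ⊓ (idealVec J).comap (kd2 K)) :=
      Submodule.finiteDimensional_of_le inf_le_left
    have h1 := hdim_add (bd2_le I j)
    have h2 := hdim_add (bd2_le J j)
    have h3 := finrank_bd2 I j
    have h4 := finrank_bd2 J j
    have h5 := finrank_cyc2 I j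
    have h6 := finrank_cyc2 J j
    have h7 := hG (j - 1)
    have h8 := hC j
    have h9 := ha (j - 1)
    have h10 := ha (j - 2)
    omega
  | 3 =>
    simp only [betti3]
    have : FiniteDimensional K ↥(formsZ K (j - 3) ⊓ (idealVec I).comap (kd3 K)) :=
      Submodule.finiteDimensional_of_le inf_le_left
    have : FiniteDimensional K ↥(formsZ K (j - 3) ⊓ (idealVec J).comap (kd3 K)) :=
      Submodule.finiteDimensional_of_le inf_le_left
    have h1 := hdim_add (bd3_le I j)
    have h2 := hdim_add (bd3_le J j)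
    have h3 := hC j
    have h4 := ha (j - 3)
    omega
  | _ + 4 =>
    simp [betti3]

end Vale.Agent.Lib.P200
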