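import Vale.Agent.Lib.P200.Dim

/-!
The numerical bookkeeping of the rows: differences of the dimension counts.
-/

noncomputable section

namespace Vale.Agent.Lib.P200

/-- Dimension of the forms of degree `j - y`, zero when `y > j`. -/
def Aj (j y : ℕ) : ℤ := if y ≤ j then (DD (j - y) : ℤ) else 0

theorem Aj_first (e y : ℕ) :
    Aj (e + 2) y - Aj (e + 1) y = if y ≤ e + 2 then (e : ℤ) + 3 - y else 0 := by
  unfold Aj
  by_cases h1 : y ≤ e + 1
  · rw [if_pos h1, if_pos (by omega : y ≤ e + 2), if_pos (by omega : y ≤ e + 2),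
      show e + 2 - y = (e + 1 - y) + 1 by omega, DD_succ]
    push_cast
    have : ((e + 1 - y : ℕ) : ℤ) = (e : ℤ) + 1 - y := by omega
    rw [this]
    ring
  · by_cases h2 : y ≤ e + 2
    · have h3 : y = e + 2 := by omega
      subst h3
      simp [DD]
    · rw [if_neg h1, if_neg h2, if_neg h2]
      ring

theorem Aj_second (e y : ℕ) :
    Aj (e + 2) y - 2 * Aj (e + 1) y + Aj e y = if y ≤ e + 2 then 1 else 0 := by
  have h1 := Aj_first e y
  have h2 : Aj (e + 1) y - Aj e y = if y ≤ e + 1 then (e : ℤ) + 2 - y else 0 := by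
    unfold Aj
    by_cases h3 : y ≤ e
    · rw [if_pos h3, if_pos (by omega : y ≤ e + 1), if_pos (by omega : y ≤ e + 1),
        show e + 1 - y = (e - y) + 1 by omega, DD_succ]
      push_cast
      have : ((e - y : ℕ) : ℤ) = (e : ℤ) - y := by omega
      rw [this]
      ring
    · by_cases h4 : y ≤ e + 1
      · have h5 : y = e + 1 := by omega
        subst h5
        simp [DD]
      · rw [if_neg h3, if_neg h4, if_neg h4]
        ring
  have h6 : Aj (e + 2) y - 2 * Aj (e + 1) y + Aj e y =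
      (Aj (e + 2) y - Aj (e + 1) y) - (Aj (e + 1) y - Aj e y) := by ring
  rw [h6, h1, h2]
  by_cases h3 : y ≤ e + 1
  · rw [if_pos (by omega : y ≤ e + 2), if_pos h3, if_pos (by omega : y ≤ e + 2)]
    ring
  · by_cases h4 : y ≤ e + 2
    · have h5 : y = e + 2 := by omega
      subst h5
      simp
    · rw [if_neg h4, if_neg h3, if_neg h4]
      ring

variable {N κ : Type*} [Fintype N] [Fintype κ]

/-- The two numerical consequences of the dimension counts. -/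
theorem cnt {dg : N → ℕ} {τ : κ → ℕ} {w : ℕ → ℕ} {e : ℕ}
    (h : ∀ j ≤ e + 2, ∑ n, Aj j (dg n) = ∑ k, Aj j (τ k) + w j) (hτ : ∀ k, τ k ≤ e + 2) :
    let Hm : ℤ := (DD e : ℤ) - w e
    let H : ℤ := (DD (e + 1) : ℤ) - w (e + 1)
    let Hp : ℤ := (DD (e + 2) : ℤ) - w (e + 2)
    (∑ n, (if dg n ≤ e + 2 then (1 : ℤ) else 0)) = Fintype.card κ + 1 + (2 * H - Hp - Hm) ∧
    (∑ k, (τ k : ℤ)) - ∑ n, (if dg n ≤ e + 2 then (dg n : ℤ) else 0) =
      (H - Hp) - (e + 3) * (2 * H - Hp - Hm) := by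
  intro Hm H Hp
  have h2 := h (e + 2) le_rfl
  have h1 := h (e + 1) (by omega)
  have h0 := h e (by omega)
  have s1 : (∑ n, (if dg n ≤ e + 2 then (1 : ℤ) else 0)) =
      ∑ n, Aj (e + 2) (dg n) - 2 * ∑ n, Aj (e + 1) (dg n) + ∑ n, Aj e (dg n) := by
    rw [Finset.mul_sum, ← Finset.sum_sub_distrib, ← Finset.sum_add_distrib]
    exact Finset.sum_congr rfl fun n _ => (Aj_second e (dg n)).symm
  have s2 : (Fintype.card κ : ℤ) =
      ∑ k, Aj (e + 2) (τ k) - 2 * ∑ k, Aj (e + 1) (τ k) + ∑ k, Aj e (τ k) := by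
    rw [Finset.mul_sum, ← Finset.sum_sub_distrib, ← Finset.sum_add_distrib]
    have : ∀ k, Aj (e + 2) (τ k) - 2 * Aj (e + 1) (τ k) + Aj e (τ k) = 1 := by
      intro k
      rw [Aj_second, if_pos (hτ k)]
    simp [this, Finset.card_univ]
  have s3 : (∑ n, (if dg n ≤ e + 2 then (e : ℤ) + 3 - dg n else 0)) =
      ∑ n, Aj (e + 2) (dg n) - ∑ n, Aj (e + 1) (dg n) := by
    rw [← Finset.sum_sub_distrib]
    exact Finset.sum_congr rfl fun n _ => (Aj_first e (dg n)).symm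
  have s4 : (∑ k, ((e : ℤ) + 3 - τ k)) = ∑ k, Aj (e + 2) (τ k) - ∑ k, Aj (e + 1) (τ k) := by
    rw [← Finset.sum_sub_distrib]
    refine Finset.sum_congr rfl fun k _ => ?_
    rw [Aj_first, if_pos (hτ k)]
  have s5 : (∑ n, (if dg n ≤ e + 2 then (e : ℤ) + 3 - dg n else 0)) =
      ((e : ℤ) + 3) * (∑ n, (if dg n ≤ e + 2 then (1 : ℤ) else 0)) -
        ∑ n, (if dg n ≤ e + 2 then (dg n : ℤ) else 0) := by
    rw [Finset.mul_sum, ← Finset.sum_sub_distrib]
    refine Finset.sum_congr rfl fun n _ => ?_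
    split_ifs <;> ring
  have s6 : (∑ k, ((e : ℤ) + 3 - τ k)) = ((e : ℤ) + 3) * Fintype.card κ - ∑ k, (τ k : ℤ) := by
    rw [Finset.sum_sub_distrib]
    simp [Finset.card_univ]
    ring
  have d1 : (DD (e + 2) : ℤ) = DD (e + 1) + e + 3 := by
    rw [DD_succ]; push_cast; ring
  have d2 : (DD (e + 1) : ℤ) = DD e + e + 2 := by
    rw [DD_succ]; push_cast; ring
  have r1 : (∑ n, (if dg n ≤ e + 2 then (1 : ℤ) else 0)) = Fintype.card κ + 1 + (2 * H - Hp - Hm) := by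
    simp only [Hm, H, Hp]
    rw [s1, s2, h2, h1, h0, d1, d2]
    ring
  refine ⟨r1, ?_⟩
  have r2 : (∑ n, (if dg n ≤ e + 2 then (dg n : ℤ) else 0)) = ((e : ℤ) + 3) *
      (Fintype.card κ + 1 + (2 * H - Hp - Hm)) - (∑ n, Aj (e + 2) (dg n) - ∑ n, Aj (e + 1) (dg n)) := by
    rw [← r1, ← s3, s5]
    ring
  have r3 : (∑ k, (τ k : ℤ)) = ((e : ℤ) + 3) * Fintype.card κ -
      (∑ k, Aj (e + 2) (τ k) - ∑ k, Aj (e + 1) (τ k)) := by
    rw [← s4, s6]
    ring
  rw [r2, r3, h2, h1]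
  simp only [Hm, H, Hp]
  rw [d1, d2]
  ring

end Vale.Agent.Lib.P200
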