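import Mathlib.Data.Finset.Card
import Mathlib.Data.Finset.Prod
import Mathlib.Order.Interval.Finset.Nat
import Mathlib.Tactic.Ring
import Mathlib.Tactic.Linarith

/-!
Combinatorics of the monomials outside `(x^3, y^a, z^a)`, indexed by the exponents of `x` and `y`,
with their lexicographic order.
-/

namespace Vale.Agent.Lib.P200

/-- Exponent pairs `(i, j)` of `x^i y^j z^(d-i-j)` outside `(x^3, y^a, z^a)`. -/
def BB (a d : ℕ) : Finset (ℕ × ℕ) :=
  ((Finset.range 3) ×ˢ (Finset.range a)).filter (fun m => m.1 + m.2 ≤ d ∧ d < m.1 + m.2 + a)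

theorem mem_BB {a d : ℕ} {m : ℕ × ℕ} :
    m ∈ BB a d ↔ m.1 < 3 ∧ m.2 < a ∧ m.1 + m.2 ≤ d ∧ d < m.1 + m.2 + a := by
  simp [BB, and_assoc]

/-- Lexicographic order on exponent pairs. -/
def lexLE (m n : ℕ × ℕ) : Prop := m.1 < n.1 ∨ (m.1 = n.1 ∧ m.2 ≤ n.2)

instance (m n : ℕ × ℕ) : Decidable (lexLE m n) := by
  unfold lexLE
  infer_instance

theorem lexLE_antisymm {m n : ℕ × ℕ} (h1 : lexLE m n) (h2 : lexLE n m) : m = n := by
  unfold lexLE at h1 h2
  ext <;> omega

theorem lexLE_trans {m n p : ℕ × ℕ} (h1 : lexLE m n) (h2 : lexLE n p) : lexLE m p := by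
  unfold lexLE at *
  omega

theorem lexLE_refl (m : ℕ × ℕ) : lexLE m m := Or.inr ⟨rfl, le_rfl⟩

theorem lexLE_total (m n : ℕ × ℕ) : lexLE m n ∨ lexLE n m := by
  unfold lexLE
  omega

/-- Rank from the bottom. -/
def trk (a d : ℕ) (m : ℕ × ℕ) : ℕ := ((BB a d).filter (fun x => lexLE x m)).card

theorem trk_mono {a d : ℕ} {m n : ℕ × ℕ} (h : lexLE m n) : trk a d m ≤ trk a d n := by
  apply Finset.card_le_card
  intro x hx
  rw [Finset.mem_filter] at hx ⊢
  exact ⟨hx.1, lexLE_trans hx.2 h⟩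

theorem trk_le_card (a d : ℕ) (m : ℕ × ℕ) : trk a d m ≤ (BB a d).card :=
  Finset.card_le_card (Finset.filter_subset _ _)

theorem trk_pos {a d : ℕ} {m : ℕ × ℕ} (h : m ∈ BB a d) : 1 ≤ trk a d m :=
  Finset.card_pos.2 ⟨m, Finset.mem_filter.2 ⟨h, lexLE_refl m⟩⟩

/-- `m` divides `m'` with quotient a variable. -/
def Dvd1 (m m' : ℕ × ℕ) : Prop :=
  m' = m ∨ m' = (m.1, m.2 + 1) ∨ m' = (m.1 + 1, m.2)

theorem lexLE_of_dvd1 {m m' : ℕ × ℕ} (h : Dvd1 m m') : lexLE m m' := by
  rcases h with rfl | rfl | rfl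
  · exact lexLE_refl _
  · exact Or.inr ⟨rfl, by simp⟩
  · exact Or.inl (by simp)

/-- The combinatorial condition for a lex-plus-powers step. -/
def Valid (a d b b' : ℕ) : Prop :=
  ∀ m' ∈ BB a (d + 1), trk a (d + 1) m' ≤ b' → ∀ m ∈ BB a d, Dvd1 m m' → trk a d m ≤ b

theorem valid_top {a d b b' : ℕ} (h : (BB a d).card ≤ b) : Valid a d b b' :=
  fun _ _ _ m _ _ => (trk_le_card a d m).trans h

theorem valid_bot {a d b : ℕ} : Valid a d b 0 := by
  intro m' hm' h
  have := trk_pos hm'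
  omega

theorem valid_mono {a d b b' c : ℕ} (hc : c ≤ b') (h : Valid a d b b') : Valid a d b c :=
  fun m' hm' h1 => h m' hm' (h1.trans hc)

/-- Counting through an order-preserving rank function. -/
theorem card_rank (T : Finset (ℕ × ℕ)) (ρ : ℕ × ℕ → ℕ) (N : ℕ)
    (h1 : ∀ x ∈ T, 1 ≤ ρ x ∧ ρ x ≤ N) (h2 : ∀ t, 1 ≤ t → t ≤ N → ∃ x ∈ T, ρ x = t)
    (h3 : ∀ x ∈ T, ∀ y ∈ T, lexLE x y ↔ ρ x ≤ ρ y) :
    T.card = N ∧ ∀ m ∈ T, (T.filter (fun x => lexLE x m)).card = ρ m := by
  have hinj : Set.InjOn ρ (T : Set (ℕ × ℕ)) := by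
    intro x hx y hy hxy
    have hx' : x ∈ T := hx
    have hy' : y ∈ T := hy
    exact lexLE_antisymm ((h3 x hx' y hy').2 hxy.le) ((h3 y hy' x hx').2 hxy.ge)
  constructor
  · have h4 : T.image ρ = Finset.Icc 1 N := by
      ext t
      simp only [Finset.mem_image, Finset.mem_Icc]
      constructor
      · rintro ⟨x, hx, rfl⟩
        exact h1 x hx
      · rintro ⟨ht1, ht2⟩
        exact h2 t ht1 ht2
    have h5 := Finset.card_image_of_injOn hinj
    rw [h4] at h5
    simp at h5
    omega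
  · intro m hm
    have h4 : (T.filter (fun x => lexLE x m)).image ρ = Finset.Icc 1 (ρ m) := by
      ext t
      simp only [Finset.mem_image, Finset.mem_filter, Finset.mem_Icc]
      constructor
      · rintro ⟨x, ⟨hx, hxm⟩, rfl⟩
        exact ⟨(h1 x hx).1, (h3 x hx m hm).1 hxm⟩
      · rintro ⟨ht1, ht2⟩
        obtain ⟨x, hx, rfl⟩ := h2 t ht1 (ht2.trans (h1 m hm).2)
        exact ⟨x, ⟨hx, (h3 x hx m hm).2 ht2⟩, rfl⟩
    have h5 : ((T.filter (fun x => lexLE x m)).image ρ).card = (T.filter (fun x => lexLE x m)).card :=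
      Finset.card_image_of_injOn (hinj.mono (by
        intro x hx
        exact (Finset.mem_filter.1 hx).1))
    rw [h4] at h5
    simp at h5
    omega

/-- Rank in degrees below `a`. -/
def rho1 (d : ℕ) (m : ℕ × ℕ) : ℕ :=
  if m.1 = 0 then m.2 + 1 else if m.1 = 1 then d + 1 + m.2 + 1 else d + 1 + d + m.2 + 1

/-- Number of monomials in degrees below `a`. -/
def N1 (d : ℕ) : ℕ := if d = 0 then 1 else 3 * d

theorem rank1 {a d : ℕ} (hd : d < a) :
    (BB a d).card = N1 d ∧ ∀ m ∈ BB a d, trk a d m = rho1 d m := by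
  apply card_rank (BB a d) (rho1 d) (N1 d)
  · rintro ⟨i, j⟩ hm
    rw [mem_BB] at hm
    simp only at hm
    unfold rho1 N1
    simp only
    split_ifs <;> omega
  · intro t h1 h2
    have h2' : (d = 0 ∧ t ≤ 1) ∨ (d ≠ 0 ∧ t ≤ 3 * d) := by
      unfold N1 at h2
      split_ifs at h2 <;> omega
    by_cases h3 : t ≤ d + 1
    · refine ⟨(0, t - 1), mem_BB.2 (by simp only; omega), ?_⟩
      simp [rho1]
      omega
    · by_cases h4 : t ≤ d + 1 + d
      · refine ⟨(1, t - d - 2), mem_BB.2 (by simp only; omega), ?_⟩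
        simp [rho1]
        omega
      · refine ⟨(2, t - 2 * d - 2), mem_BB.2 (by simp only; omega), ?_⟩
        simp [rho1]
        omega
  · rintro ⟨i, j⟩ hx ⟨i', j'⟩ hy
    rw [mem_BB] at hx hy
    simp only at hx hy
    unfold lexLE rho1
    simp only
    split_ifs <;> omega

/-- Rank in degree `a`. -/
def rho2 (a : ℕ) (m : ℕ × ℕ) : ℕ :=
  if m.1 = 0 then m.2 else if m.1 = 1 then a + m.2 else 2 * a + m.2

theorem rank2 {a : ℕ} (ha : 2 ≤ a) :
    (BB a a).card = 3 * a - 2 ∧ ∀ m ∈ BB a a, trk a a m = rho2 a m := by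
  apply card_rank (BB a a) (rho2 a) (3 * a - 2)
  · rintro ⟨i, j⟩ hm
    rw [mem_BB] at hm
    simp only at hm
    unfold rho2
    simp only
    split_ifs <;> omega
  · intro t h1 h2
    by_cases h3 : t < a
    · refine ⟨(0, t), mem_BB.2 (by simp only; omega), ?_⟩
      simp [rho2]
    · by_cases h4 : t < 2 * a
      · refine ⟨(1, t - a), mem_BB.2 (by simp only; omega), ?_⟩
        simp [rho2]
        omega
      · refine ⟨(2, t - 2 * a), mem_BB.2 (by simp only; omega), ?_⟩
        simp [rho2]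
        omega
  · rintro ⟨i, j⟩ hx ⟨i', j'⟩ hy
    rw [mem_BB] at hx hy
    simp only at hx hy
    unfold lexLE rho2
    simp only
    split_ifs <;> omega

/-- The order-reversing duality on monomials. -/
def star (a : ℕ) (m : ℕ × ℕ) : ℕ × ℕ := (2 - m.1, a - 1 - m.2)

theorem star_mem {a d d' : ℕ} (hd : d + d' = 2 * a) {m : ℕ × ℕ} (h : m ∈ BB a d) :
    star a m ∈ BB a d' := by
  rw [mem_BB] at h ⊢
  simp only [star]
  omega

theorem star_star {a d : ℕ} {m : ℕ × ℕ} (h : m ∈ BB a d) : star a (star a m) = m := by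
  rw [mem_BB] at h
  simp only [star]
  ext <;> simp only <;> omega

theorem lexLE_star {a d d' : ℕ} {x y : ℕ × ℕ} (hx : x ∈ BB a d) (hy : y ∈ BB a d') :
    lexLE (star a x) (star a y) ↔ lexLE y x := by
  rw [mem_BB] at hx hy
  unfold lexLE star
  simp only
  omega

/-- Rank from the top and rank from the bottom add up. -/
theorem trk_add_top {a d : ℕ} {m : ℕ × ℕ} (hm : m ∈ BB a d) :
    trk a d m + ((BB a d).filter (fun x => lexLE m x)).card = (BB a d).card + 1 := by
  unfold trk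
  rw [← Finset.card_union_add_card_inter]
  have h1 : (BB a d).filter (fun x => lexLE x m) ∪ (BB a d).filter (fun x => lexLE m x) = BB a d := by
    ext x
    simp only [Finset.mem_union, Finset.mem_filter]
    have := lexLE_total x m
    tauto
  have h2 : (BB a d).filter (fun x => lexLE x m) ∩ (BB a d).filter (fun x => lexLE m x) = {m} := by
    ext x
    simp only [Finset.mem_inter, Finset.mem_filter, Finset.mem_singleton]
    constructor
    · rintro ⟨⟨_, h3⟩, ⟨_, h4⟩⟩
      exact lexLE_antisymm h3 h4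
    · rintro rfl
      exact ⟨⟨hm, lexLE_refl _⟩, ⟨hm, lexLE_refl _⟩⟩
  rw [h1, h2]
  simp

/-- Duality for ranks. -/
theorem trk_star {a d d' : ℕ} (hd : d + d' = 2 * a) {m : ℕ × ℕ} (hm : m ∈ BB a d) :
    trk a d' (star a m) + trk a d m = (BB a d).card + 1 := by
  have hd' : d' + d = 2 * a := by omega
  have h1 : trk a d' (star a m) = ((BB a d).filter (fun x => lexLE m x)).card := by
    unfold trk
    apply Finset.card_bij (fun x _ => star a x)
    · intro x hx
      rw [Finset.mem_filter] at hx ⊢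
      refine ⟨star_mem hd' hx.1, ?_⟩
      have h2 := (lexLE_star (star_mem hd hm) hx.1).2 hx.2
      rwa [star_star hm] at h2
    · intro x hx y hy hxy
      rw [Finset.mem_filter] at hx hy
      rw [← star_star hx.1, ← star_star hy.1, hxy]
    · intro y hy
      rw [Finset.mem_filter] at hy
      refine ⟨star a y, ?_, star_star hy.1⟩
      rw [Finset.mem_filter]
      exact ⟨star_mem hd hy.1, (lexLE_star hy.1 hm).2 hy.2⟩
  have h3 := trk_add_top hm
  omega

theorem card_star {a d d' : ℕ} (hd : d + d' = 2 * a) : (BB a d').card = (BB a d).card := by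
  apply Finset.card_bij (fun x _ => star a x)
  · intro x hx
    exact star_mem (by omega) hx
  · intro x hx y hy hxy
    rw [← star_star hx, ← star_star hy, hxy]
  · intro y hy
    exact ⟨star a y, star_mem hd hy, star_star hy⟩

theorem dvd1_star {a d : ℕ} {m m' : ℕ × ℕ} (hm : m ∈ BB a d) (hm' : m' ∈ BB a (d + 1))
    (h : Dvd1 m m') : Dvd1 (star a m') (star a m) := by
  rw [mem_BB] at hm hm'
  rcases h with rfl | rfl | rfl
  · exact Or.inl rfl
  · right; left
    simp only at hm'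
    simp only [star, Prod.mk.injEq, true_and]
    omega
  · right; right
    simp only at hm'
    simp only [star, Prod.mk.injEq, and_true]
    omega

/-- Duality for the combinatorial condition. -/
theorem valid_dual {a d i b b' c c' : ℕ} (hdi : i + d + 1 = 2 * a)
    (hc : c + b' = (BB a (d + 1)).card) (hc' : c' + b = (BB a d).card)
    (h : Valid a i c c') : Valid a d b b' := by
  intro m' hm' hle m hm hdvd
  by_contra hlt
  have h1 : star a m ∈ BB a (i + 1) := star_mem (by omega) hm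
  have h2 : star a m' ∈ BB a i := star_mem (by omega) hm'
  have h3 := trk_star (d' := i + 1) (by omega) hm
  have h4 := trk_star (d' := i) (by omega) hm'
  have h5 := h (star a m) h1 (by omega) (star a m') h2 (dvd1_star hm hm' hdvd)
  omega

/-- The condition in low degrees. -/
theorem valid_low {a d b b' : ℕ} (hd : d + 1 < a)
    (h : b' ≤ b ∨ (d + 1 ≤ b ∧ b' ≤ b + 1) ∨ (2 * d + 1 ≤ b ∧ b' ≤ b + 2)) : Valid a d b b' := by
  intro m' hm' hle m hm hdvd
  have h1 : m ∈ BB a (d + 1) := by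
    rw [mem_BB] at hm ⊢
    omega
  have h2 := trk_mono (a := a) (d := d + 1) (lexLE_of_dvd1 hdvd)
  rw [(rank1 (by omega : d + 1 < a)).2 m h1] at h2
  rw [(rank1 (by omega : d < a)).2 m hm]
  rw [mem_BB] at hm
  unfold rho1 at *
  split_ifs at * <;> omega

/-- The condition in the critical degree. -/
theorem valid_mid {a d b b' : ℕ} (ha : 2 ≤ a) (hd : d + 1 = a)
    (h : b' + 1 ≤ b ∨ (2 * d + 1 ≤ b ∧ b' ≤ b)) : Valid a d b b' := by
  subst hd
  intro m' hm' hle m hm hdvd
  rw [(rank1 (by omega : d < d + 1)).2 m hm]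
  by_cases h0 : m = (0, 0)
  · subst h0
    simp only [rho1]
    simp only [if_true]
    omega
  · have h1 : m ∈ BB (d + 1) (d + 1) := by
      rw [mem_BB] at hm ⊢
      refine ⟨hm.1, hm.2.1, by omega, ?_⟩
      by_contra hcon
      apply h0
      ext <;> simp only <;> omega
    have h2 := trk_mono (a := d + 1) (d := d + 1) (lexLE_of_dvd1 hdvd)
    rw [(rank2 ha).2 m h1] at h2
    rw [mem_BB] at hm
    unfold rho1 rho2 at *
    split_ifs at * <;> omega

end Vale.Agent.Lib.P200
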