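import Mathlib.RingTheory.MvPolynomial.Homogeneous
import Mathlib.Algebra.Order.Antidiag.Finsupp
import Mathlib.Data.Finsupp.Lex
import Mathlib.LinearAlgebra.Dimension.Finrank

/-!
Statement-level definitions for the Eisenbud-Green-Harris problem, for `K[x_1, ..., x_n]`.
-/

noncomputable section

namespace Vale.Agent.Lib.P200.Defs

open MvPolynomial Module

variable {K : Type*} [Field K] {n c : ℕ}

/-- The graded piece `I_d = I ∩ S_d` of an ideal `I` of `S = K[x_1, ..., x_n]`, as a `K`-subspace. -/
def gradedPiece (I : Ideal (MvPolynomial (Fin n) K)) (d : ℕ) :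
    Submodule K (MvPolynomial (Fin n) K) :=
  I.restrictScalars K ⊓ homogeneousSubmodule (Fin n) K d

/-- An ideal is homogeneous when it contains all homogeneous components of its elements. -/
def IsHomogeneousIdeal (I : Ideal (MvPolynomial (Fin n) K)) : Prop :=
  ∀ u ∈ I, ∀ d, homogeneousComponent d u ∈ I

/-- `f_0, ..., f_(c-1)` is a regular sequence: multiplication by each `f_i` is injective on
the quotient of `S` by the ideal generated by the preceding `f_j`. -/
def IsRegularSeq (f : Fin c → MvPolynomial (Fin n) K) : Prop :=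
  ∀ i : Fin c, ∀ u, f i * u ∈ Ideal.span (f '' {j | j < i}) → u ∈ Ideal.span (f '' {j | j < i})

/-- The ideal `P = (x_1^(a_1), ..., x_c^(a_c))`. -/
def powerIdeal (hc : c ≤ n) (a : Fin c → ℕ) : Ideal (MvPolynomial (Fin n) K) :=
  Ideal.span (Set.range fun i : Fin c => X (Fin.castLE hc i) ^ a i)

/-- Exponent vectors of the degree-`d` monomials outside `P`. -/
def outside (hc : c ≤ n) (a : Fin c → ℕ) (d : ℕ) : Finset (Fin n →₀ ℕ) :=
  (Finset.finsuppAntidiag Finset.univ d).filter fun e => ∀ i : Fin c, e (Fin.castLE hc i) < a i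

/-- The `q` lexicographically greatest elements of `T` (with `x_1 > x_2 > ...`): those `e` such
that at most `q` elements of `T`, counting `e` itself, are lexicographically at least `e`. -/
def lexTop (T : Finset (Fin n →₀ ℕ)) (q : ℕ) : Finset (Fin n →₀ ℕ) :=
  T.filter fun e => (T.filter fun e' => toLex e ≤ toLex e').card ≤ q

/-- The number `q_d = dim I_d - dim P_d`. -/
def qNum (hc : c ≤ n) (a : Fin c → ℕ) (I : Ideal (MvPolynomial (Fin n) K)) (d : ℕ) : ℕ :=
  finrank K (gradedPiece I d) - finrank K (gradedPiece (powerIdeal hc a : Ideal (MvPolynomial (Fin n) K)) d)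

/-- `J_d`: the span of `P_d` and of the `q_d` lexicographically greatest degree-`d` monomials
outside `P`. -/
def lexPiece (hc : c ≤ n) (a : Fin c → ℕ) (I : Ideal (MvPolynomial (Fin n) K)) (d : ℕ) :
    Submodule K (MvPolynomial (Fin n) K) :=
  gradedPiece (powerIdeal hc a : Ideal (MvPolynomial (Fin n) K)) d ⊔
    Submodule.span K ((fun e => monomial e (1 : K)) '' (lexTop (outside hc a d) (qNum hc a I d) :
      Set (Fin n →₀ ℕ)))

/-- The graded subspace `J`, the sum of all `J_d`. -/
def lexPlusPowers (hc : c ≤ n) (a : Fin c → ℕ) (I : Ideal (MvPolynomial (Fin n) K)) :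
    Submodule K (MvPolynomial (Fin n) K) :=
  ⨆ d, lexPiece hc a I d

end Vale.Agent.Lib.P200.Defs
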