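import Vale.Agent.Lib.P200.Reg
import Mathlib.Algebra.Order.Antidiag.FinsuppEquiv
import Mathlib.RingTheory.Finiteness.Subalgebra

/-!
Dimension counts: forms, graded pieces of ideals, and growth of subspaces under multiplication.
-/

noncomputable section

namespace Vale.Agent.Lib.P200

open MvPolynomial Module

variable {K : Type*} [Field K]

/-- Number of monomials of degree `n` in three variables. -/
def DD : ℕ → ℕ
  | 0 => 1
  | n + 1 => DD n + n + 2

theorem DD_succ (n : ℕ) : DD (n + 1) = DD n + n + 2 := rfl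

theorem DD_eq_choose (n : ℕ) : DD n = (n + 2).choose n := by
  induction n with
  | zero => simp [DD]
  | succ n ih =>
    rw [DD_succ, ih, show n + 1 + 2 = (n + 2) + 1 by ring, Nat.choose_succ_succ,
      show n + 2 = (n + 1) + 1 by ring, Nat.choose_succ_self_right]
    ring

theorem finrank_restrict (T : Finset (Fin 3 →₀ ℕ)) :
    finrank K (restrictSupport K (T : Set (Fin 3 →₀ ℕ))) = T.card := by
  rw [Module.finrank_eq_nat_card_basis (basisRestrictSupport K (T : Set (Fin 3 →₀ ℕ)))]
  simp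

theorem HH_eq_restrict (d : ℕ) :
    HH K d = restrictSupport K ((Finset.finsuppAntidiag Finset.univ d : Finset (Fin 3 →₀ ℕ)) :
      Set (Fin 3 →₀ ℕ)) := by
  rw [HH, homogeneousSubmodule_eq_finsupp_supported]
  congr 1
  ext m
  simp [Finset.mem_finsuppAntidiag, Finsupp.degree_eq_sum]

theorem finrank_HH (d : ℕ) : finrank K (HH K d) = DD d := by
  rw [HH_eq_restrict, finrank_restrict, Finset.card_finsuppAntidiag_nat_eq_choose, DD_eq_choose]
  simp
  congr 1
  omega

instance fdComp (A : Ideal (S3 K)) (d : ℕ) : FiniteDimensional K (comp A d) :=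
  Submodule.finiteDimensional_of_le (comp_le A d)

theorem fd_of_le {W : Submodule K (S3 K)} {d : ℕ} (h : W ≤ HH K d) : FiniteDimensional K W :=
  Submodule.finiteDimensional_of_le h

theorem mul_le_HH {W : Submodule K (S3 K)} {d : ℕ} (h : W ≤ HH K d) :
    HH K 1 * W ≤ HH K (d + 1) := by
  rw [Submodule.mul_le]
  intro m hm w hw
  rw [add_comm]
  exact (show m.IsHomogeneous 1 from hm).mul (h hw)

/-- multiplication by a nonzero element preserves dimension -/
theorem finrank_map_mul {r : S3 K} (hr : r ≠ 0) (W : Submodule K (S3 K)) :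
    finrank K (W.map (LinearMap.mulLeft K r)) = finrank K W := by
  have hinj : Function.Injective (LinearMap.mulLeft K r) := by
    intro a b hab
    exact mul_left_cancel₀ hr hab
  exact (LinearEquiv.finrank_eq (Submodule.equivMapOfInjective _ hinj W)).symm

theorem mem_map_mul {r u : S3 K} {W : Submodule K (S3 K)} :
    u ∈ W.map (LinearMap.mulLeft K r) ↔ ∃ v ∈ W, r * v = u := by
  simp [Submodule.mem_map]

theorem mul_mem_HH {r v : S3 K} {c e : ℕ} (hr : r ∈ HH K c) (hv : v ∈ HH K e) :
    r * v ∈ HH K (e + c) := by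
  rw [add_comm]
  exact (show r.IsHomogeneous c from hr).mul hv

/-- Graded piece of an adjoined ideal in high degree. -/
theorem comp_adj_eq {A : Ideal (S3 K)} (hA : HomIdeal A) {c e : ℕ} {r : S3 K} (hr : r ∈ HH K c) :
    comp (adj A r) (e + c) = comp A (e + c) ⊔ (HH K e).map (LinearMap.mulLeft K r) := by
  apply le_antisymm
  · intro u hu
    obtain ⟨h1, h2⟩ := mem_comp.1 hu
    rcases mem_adj_hom hA hr h2 h1 with ⟨h3, -⟩ | ⟨e2, he2, v, hv, a, ha, rfl⟩
    · omega
    · have : e2 = e := by omega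
      subst this
      refine Submodule.add_mem_sup ha (mem_map_mul.2 ⟨v, hv, mul_comm _ _⟩)
  · rw [sup_le_iff]
    refine ⟨comp_mono (le_adj A r) _, ?_⟩
    intro u hu
    obtain ⟨v, hv, rfl⟩ := mem_map_mul.1 hu
    refine mem_comp.2 ⟨?_, mul_mem_HH hr hv⟩
    exact Ideal.mul_mem_right _ _ (self_mem_adj A r)

/-- Graded piece of an adjoined ideal in low degree. -/
theorem comp_adj_of_lt {A : Ideal (S3 K)} (hA : HomIdeal A) {c d : ℕ} {r : S3 K}
    (hr : r ∈ HH K c) (hd : d < c) : comp (adj A r) d = comp A d := by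
  apply le_antisymm
  · intro u hu
    obtain ⟨h1, h2⟩ := mem_comp.1 hu
    rcases mem_adj_hom hA hr h2 h1 with ⟨-, h3⟩ | ⟨e2, he2, v, hv, a, ha, rfl⟩
    · exact mem_comp.2 ⟨h3, h2⟩
    · omega
  · exact comp_mono (le_adj A r) _

/-- The recursion for Hilbert functions along a regular sequence. -/
theorem finrank_comp_adj {A : Ideal (S3 K)} (hA : HomIdeal A) {c e : ℕ} {r : S3 K}
    (hr : r ∈ HH K c) (hr0 : r ≠ 0) (hn : NZ A r) :
    finrank K (comp (adj A r) (e + c)) + finrank K (comp A e) = finrank K (comp A (e + c)) + DD e := by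
  have hY : ((HH K e).map (LinearMap.mulLeft K r)) ≤ HH K (e + c) := by
    intro u hu
    obtain ⟨v, hv, rfl⟩ := mem_map_mul.1 hu
    exact mul_mem_HH hr hv
  have : FiniteDimensional K ((HH K e).map (LinearMap.mulLeft K r)) := fd_of_le hY
  have h1 := Submodule.finrank_sup_add_finrank_inf_eq (comp A (e + c))
    ((HH K e).map (LinearMap.mulLeft K r))
  rw [← comp_adj_eq hA hr, finrank_map_mul hr0, finrank_HH] at h1
  have h2 : comp A (e + c) ⊓ (HH K e).map (LinearMap.mulLeft K r) =
      (comp A e).map (LinearMap.mulLeft K r) := by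
    apply le_antisymm
    · rintro u ⟨hu1, hu2⟩
      obtain ⟨v, hv, rfl⟩ := mem_map_mul.1 hu2
      refine mem_map_mul.2 ⟨v, mem_comp.2 ⟨hn v (mem_comp.1 hu1).1, hv⟩, rfl⟩
    · intro u hu
      obtain ⟨v, hv, rfl⟩ := mem_map_mul.1 hu
      obtain ⟨hv1, hv2⟩ := mem_comp.1 hv
      exact ⟨mem_comp.2 ⟨Ideal.mul_mem_left _ _ hv1, mul_mem_HH hr hv2⟩, mem_map_mul.2 ⟨v, hv2, rfl⟩⟩
  rw [h2, finrank_map_mul hr0] at h1
  exact h1

theorem comp_bot (d : ℕ) : comp (⊥ : Ideal (S3 K)) d = ⊥ := by
  ext u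
  simp only [mem_comp, Submodule.mem_bot]
  constructor
  · rintro ⟨h, -⟩
    simpa using h
  · rintro rfl
    exact ⟨by simp, Submodule.zero_mem _⟩

theorem finrank_comp_bot (d : ℕ) : finrank K (comp (⊥ : Ideal (S3 K)) d) = 0 := by
  rw [comp_bot]; simp

/-- Dimension of the graded pieces of a principal ideal. -/
theorem finrank_comp_prin {c e : ℕ} {r : S3 K} (hr : r ∈ HH K c) (hr0 : r ≠ 0) :
    finrank K (comp (adj ⊥ r) (e + c)) = DD e := by
  have := finrank_comp_adj (e := e) homIdeal_bot hr hr0 (nz_bot hr0)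
  rw [finrank_comp_bot, finrank_comp_bot] at this
  omega

theorem finrank_comp_prin_lt {c d : ℕ} {r : S3 K} (hr : r ∈ HH K c) (hd : d < c) :
    finrank K (comp (adj ⊥ r) d) = 0 := by
  rw [comp_adj_of_lt homIdeal_bot hr hd, finrank_comp_bot]

/-- Rank-nullity for the quotient map. -/
theorem finrank_map_mk (C : Ideal (S3 K)) (U : Submodule K (S3 K)) [FiniteDimensional K U] :
    finrank K (U.map (Ideal.Quotient.mkₐ K C).toLinearMap) +
      finrank K (U ⊓ C.restrictScalars K : Submodule K (S3 K)) = finrank K U := by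
  have h1 := LinearMap.finrank_range_add_finrank_ker ((Ideal.Quotient.mkₐ K C).toLinearMap.domRestrict U)
  rw [LinearMap.range_domRestrict, LinearMap.ker_domRestrict] at h1
  have h2 : finrank K (Submodule.comap U.subtype (LinearMap.ker (Ideal.Quotient.mkₐ K C).toLinearMap)) =
      finrank K (U ⊓ C.restrictScalars K : Submodule K (S3 K)) := by
    have h3 : LinearMap.ker (Ideal.Quotient.mkₐ K C).toLinearMap = C.restrictScalars K := by
      ext x
      simp [Ideal.Quotient.eq_zero_iff_mem]
    rw [h3]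
    have h4 : Submodule.comap U.subtype (C.restrictScalars K) =
        Submodule.comap U.subtype (U ⊓ C.restrictScalars K) := by
      ext x
      simp
    rw [h4]
    exact LinearEquiv.finrank_eq (Submodule.comapSubtypeEquivOfLe inf_le_left)
  rw [h2] at h1
  exact h1

section Abstract

variable {R : Type*} [CommRing R] [Algebra K R]

theorem fd_mul (G1 W : Submodule K R) [FiniteDimensional K G1] [FiniteDimensional K W] :
    FiniteDimensional K ↥(G1 * W) :=
  Module.Finite.iff_fg.2 (Submodule.FG.mul (Module.Finite.iff_fg.1 inferInstance)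
    (Module.Finite.iff_fg.1 inferInstance))

theorem finrank_map_mulR {l : R} (nz : ∀ v, l * v = 0 → v = 0) (W : Submodule K R) :
    finrank K (W.map (LinearMap.mulLeft K l)) = finrank K W := by
  have hinj : Function.Injective (LinearMap.mulLeft K l) := by
    rw [injective_iff_map_eq_zero]
    intro a ha
    exact nz a ha
  exact (LinearEquiv.finrank_eq (Submodule.equivMapOfInjective _ hinj W)).symm

theorem map_mul_le {G1 W : Submodule K R} {l : R} (hl : l ∈ G1) :
    W.map (LinearMap.mulLeft K l) ≤ G1 * W := by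
  rintro _ ⟨w, hw, rfl⟩
  exact Submodule.mul_mem_mul hl hw

/-- Non-strict growth: multiplication by a non-zero-divisor in `G1`. -/
theorem growth0 (G1 W : Submodule K R) [FiniteDimensional K G1] [FiniteDimensional K W]
    {l : R} (hl : l ∈ G1) (nz : ∀ v, l * v = 0 → v = 0) :
    finrank K W ≤ finrank K ↥(G1 * W) := by
  have := fd_mul G1 W
  rw [← finrank_map_mulR nz W]
  exact Submodule.finrank_mono (map_mul_le hl)

/-- Strict growth under a socle condition. -/
theorem growth1 (G1 : Submodule K R) (G : ℕ → Submodule K R) [FiniteDimensional K G1]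
    (hG : ∀ e, FiniteDimensional K (G e)) {l : R} (hl : l ∈ G1) (nz : ∀ v, l * v = 0 → v = 0)
    (d : ℕ)
    (soc : ∀ e ≤ d, ∀ u ∈ G e, (∀ m ∈ G1, ∃ v, m * u = l * v) →
      (e = 0 → u = 0) ∧ ∀ e', e = e' + 1 → ∃ v ∈ G e', u = l * v)
    (W : Submodule K R) (hW : W ≤ G d) (hne : W ≠ ⊥) :
    finrank K W + 1 ≤ finrank K ↥(G1 * W) := by
  induction d generalizing W with
  | zero =>
    by_contra hlt
    have := hG 0
    have : FiniteDimensional K W := Submodule.finiteDimensional_of_le hW
    have := fd_mul G1 W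
    have hle : finrank K ↥(G1 * W) ≤ finrank K ↥(W.map (LinearMap.mulLeft K l)) := by
      rw [finrank_map_mulR nz W]; omega
    have : FiniteDimensional K ↥(W.map (LinearMap.mulLeft K l)) := inferInstance
    have heq := Submodule.eq_of_le_of_finrank_le (map_mul_le hl) hle
    apply hne
    rw [eq_bot_iff]
    intro w hw
    refine (soc 0 le_rfl w (hW hw) ?_).1 rfl
    intro m hm
    have : m * w ∈ W.map (LinearMap.mulLeft K l) := by
      rw [heq]; exact Submodule.mul_mem_mul hm hw
    obtain ⟨w', _, hw'⟩ := this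
    exact ⟨w', hw'.symm⟩
  | succ d ih =>
    by_contra hlt
    have := hG (d + 1)
    have := hG d
    have : FiniteDimensional K W := Submodule.finiteDimensional_of_le hW
    have := fd_mul G1 W
    have hle : finrank K ↥(G1 * W) ≤ finrank K ↥(W.map (LinearMap.mulLeft K l)) := by
      rw [finrank_map_mulR nz W]; omega
    have heq := Submodule.eq_of_le_of_finrank_le (map_mul_le hl) hle
    have hmul : ∀ m ∈ G1, ∀ w ∈ W, ∃ w' ∈ W, m * w = l * w' := by
      intro m hm w hw
      have : m * w ∈ W.map (LinearMap.mulLeft K l) := by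
        rw [heq]; exact Submodule.mul_mem_mul hm hw
      obtain ⟨w', hw1, hw'⟩ := this
      exact ⟨w', hw1, hw'.symm⟩
    have hdiv : ∀ w ∈ W, ∃ v ∈ G d, w = l * v := by
      intro w hw
      refine (soc (d + 1) le_rfl w (hW hw) ?_).2 d rfl
      intro m hm
      obtain ⟨w', _, hw'⟩ := hmul m hm w hw
      exact ⟨w', hw'⟩
    let W1 : Submodule K R := W.comap (LinearMap.mulLeft K l) ⊓ G d
    have hW1 : W1 ≤ G d := inf_le_right
    have : FiniteDimensional K W1 := Submodule.finiteDimensional_of_le hW1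
    have hmap : W1.map (LinearMap.mulLeft K l) = W := by
      apply le_antisymm
      · rintro _ ⟨v, hv, rfl⟩
        exact hv.1
      · intro w hw
        obtain ⟨v, hv, rfl⟩ := hdiv w hw
        exact ⟨v, ⟨hw, hv⟩, rfl⟩
    have hne1 : W1 ≠ ⊥ := by
      intro h0
      apply hne
      rw [← hmap, h0]
      simp
    have hfr : finrank K W1 = finrank K W := by
      rw [← hmap, finrank_map_mulR nz]
    have hle2 : G1 * W1 ≤ W := by
      rw [Submodule.mul_le]
      intro m hm v hv
      have h1 : l * v ∈ W := hv.1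
      obtain ⟨w', hw1, hw'⟩ := hmul m hm _ h1
      have h2 : m * v = w' := by
        have h3 : l * (m * v - w') = 0 := by linear_combination hw'
        have h4 := nz _ h3
        exact sub_eq_zero.1 h4
      rw [h2]
      exact hw1
    have h5 := ih (fun e he u hu h => soc e (by omega) u hu h) W1 hW1 hne1
    have h6 := Submodule.finrank_mono hle2
    omega

end Abstract

/-- Passing to the quotient. -/
theorem transfer (C : Ideal (S3 K)) {d : ℕ} {W : Submodule K (S3 K)} (h1 : comp C d ≤ W)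
    (h2 : W ≤ HH K d) :
    finrank K (W.map (Ideal.Quotient.mkₐ K C).toLinearMap) + finrank K (comp C d) = finrank K W ∧
    finrank K ↥((HH K 1).map (Ideal.Quotient.mkₐ K C).toLinearMap *
        W.map (Ideal.Quotient.mkₐ K C).toLinearMap) + finrank K (comp C (d + 1)) =
      finrank K ↥(HH K 1 * W ⊔ comp C (d + 1)) := by
  let mk := (Ideal.Quotient.mkₐ K C).toLinearMap
  have : FiniteDimensional K W := fd_of_le h2
  have hU : HH K 1 * W ⊔ comp C (d + 1) ≤ HH K (d + 1) := sup_le (mul_le_HH h2) (comp_le _ _)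
  have : FiniteDimensional K ↥(HH K 1 * W ⊔ comp C (d + 1)) := fd_of_le hU
  have e1 := finrank_map_mk C W
  have e2 := finrank_map_mk C (HH K 1 * W ⊔ comp C (d + 1))
  have e3 : W ⊓ C.restrictScalars K = comp C d := by
    apply le_antisymm
    · rintro u ⟨hu1, hu2⟩
      exact mem_comp.2 ⟨hu2, h2 hu1⟩
    · intro u hu
      exact ⟨h1 hu, (mem_comp.1 hu).1⟩
  have e4 : (HH K 1 * W ⊔ comp C (d + 1)) ⊓ C.restrictScalars K = comp C (d + 1) := by
    apply le_antisymm
    · rintro u ⟨hu1, hu2⟩
      exact mem_comp.2 ⟨hu2, hU hu1⟩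
    · intro u hu
      exact ⟨Submodule.mem_sup_right hu, (mem_comp.1 hu).1⟩
  rw [e3] at e1
  rw [e4] at e2
  have e5 : (HH K 1 * W ⊔ comp C (d + 1)).map mk = (HH K 1).map mk * W.map mk := by
    have e6 : (comp C (d + 1)).map mk = ⊥ := by
      rw [eq_bot_iff]
      rintro _ ⟨u, hu, rfl⟩
      exact Ideal.Quotient.eq_zero_iff_mem.2 (mem_comp.1 hu).1
    rw [Submodule.map_sup, e6, sup_bot_eq]
    exact Submodule.map_mul _ _ (Ideal.Quotient.mkₐ K C)
  change finrank K ((HH K 1 * W ⊔ comp C (d + 1)).map mk) + _ = _ at e2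
  rw [e5] at e2
  exact ⟨e1, e2⟩

theorem mk_nz {C : Ideal (S3 K)} {l : S3 K} (nz : NZ C l) (v : S3 K ⧸ C)
    (hv : (Ideal.Quotient.mkₐ K C).toLinearMap l * v = 0) : v = 0 := by
  obtain ⟨v, rfl⟩ := Ideal.Quotient.mk_surjective v
  have h3 : Ideal.Quotient.mk C (l * v) = 0 := hv
  have := nz v (Ideal.Quotient.eq_zero_iff_mem.1 h3)
  exact Ideal.Quotient.eq_zero_iff_mem.2 this

/-- Non-strict growth in the polynomial ring modulo an ideal. -/
theorem E0 {C : Ideal (S3 K)} {l : S3 K} (hl : l ∈ HH K 1) (nz : NZ C l)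
    {d : ℕ} {W : Submodule K (S3 K)} (h1 : comp C d ≤ W) (h2 : W ≤ HH K d) :
    finrank K W + finrank K (comp C (d + 1)) ≤
      finrank K ↥(HH K 1 * W ⊔ comp C (d + 1)) + finrank K (comp C d) := by
  obtain ⟨e1, e2⟩ := transfer C h1 h2
  have : FiniteDimensional K W := fd_of_le h2
  have h4 := growth0 ((HH K 1).map (Ideal.Quotient.mkₐ K C).toLinearMap)
    (W.map (Ideal.Quotient.mkₐ K C).toLinearMap) (Submodule.mem_map_of_mem hl) (mk_nz nz)
  omega

/-- Strict growth in the polynomial ring modulo an ideal, under a socle condition. -/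
theorem E1 {C : Ideal (S3 K)} (hC : HomIdeal C) {l : S3 K} (hl : l ∈ HH K 1) (nz : NZ C l)
    {d : ℕ} {W : Submodule K (S3 K)} (h1 : comp C d ≤ W) (h2 : W ≤ HH K d)
    (hne : ∃ w ∈ W, w ∉ C)
    (soc : ∀ e ≤ d, ∀ u ∈ HH K e, (∀ i, X i * u ∈ adj C l) → u ∈ adj C l) :
    finrank K W + finrank K (comp C (d + 1)) + 1 ≤
      finrank K ↥(HH K 1 * W ⊔ comp C (d + 1)) + finrank K (comp C d) := by
  obtain ⟨e1, e2⟩ := transfer C h1 h2
  have : FiniteDimensional K W := fd_of_le h2
  have hG : ∀ e, FiniteDimensional K ((HH K e).map (Ideal.Quotient.mkₐ K C).toLinearMap) :=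
    fun e => inferInstance
  have h4 := growth1 ((HH K 1).map (Ideal.Quotient.mkₐ K C).toLinearMap)
    (fun e => (HH K e).map (Ideal.Quotient.mkₐ K C).toLinearMap) hG
    (Submodule.mem_map_of_mem hl) (mk_nz nz) d ?_
    (W.map (Ideal.Quotient.mkₐ K C).toLinearMap) (Submodule.map_mono h2) ?_
  · omega
  · rintro e he _ ⟨u, hu, rfl⟩ hm
    have h5 : u ∈ adj C l := by
      apply soc e he u hu
      intro i
      obtain ⟨v, hv⟩ := hm _ (Submodule.mem_map_of_mem (isHomogeneous_X K i))
      obtain ⟨v, rfl⟩ := Ideal.Quotient.mk_surjective v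
      have h6 : Ideal.Quotient.mk C (X i * u) = Ideal.Quotient.mk C (l * v) := hv
      have h7 := Ideal.Quotient.eq.1 h6
      exact mem_adj.2 ⟨_, h7, v, by ring⟩
    rcases mem_adj_hom hC hl hu h5 with ⟨h6, h7⟩ | ⟨e2, he2, v, hv, a, ha, rfl⟩
    · have h8 : e = 0 := by omega
      refine ⟨fun _ => Ideal.Quotient.eq_zero_iff_mem.2 h7, fun e' he' => by omega⟩
    · refine ⟨fun he0 => by omega, fun e' he' => ?_⟩
      have : e2 = e' := by omega
      subst this
      refine ⟨(Ideal.Quotient.mkₐ K C).toLinearMap v, Submodule.mem_map_of_mem hv, ?_⟩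
      have h9 : Ideal.Quotient.mk C (a + v * l) = Ideal.Quotient.mk C (l * v) := by
        apply Ideal.Quotient.eq.2
        have : a + v * l - l * v = a := by ring
        rw [this]
        exact (mem_comp.1 ha).1
      exact h9
  · obtain ⟨w, hw, hw2⟩ := hne
    intro h0
    have h5 : (Ideal.Quotient.mkₐ K C).toLinearMap w ∈ W.map (Ideal.Quotient.mkₐ K C).toLinearMap :=
      Submodule.mem_map_of_mem hw
    rw [h0, Submodule.mem_bot] at h5
    exact hw2 (Ideal.Quotient.eq_zero_iff_mem.1 h5)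

end Vale.Agent.Lib.P200
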