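import Vale.Agent.Lib.P200.GrowthT

/-!
Duality for graded Gorenstein quotients given by a socle bound and a one-dimensional top piece.
-/

noncomputable section

namespace Vale.Agent.Lib.P200

open MvPolynomial Module

variable {K : Type*} [Field K]

/-- Orthogonal of a subspace inside forms of degree `j`. -/
def perp (U : Ideal (S3 K)) (A : Submodule K (S3 K)) (j : ℕ) : Submodule K (S3 K) where
  carrier := {b | b ∈ HH K j ∧ ∀ a ∈ A, a * b ∈ U}
  add_mem' := by
    rintro x y ⟨h1, h2⟩ ⟨h3, h4⟩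
    refine ⟨Submodule.add_mem _ h1 h3, fun a ha => ?_⟩
    rw [mul_add]
    exact Ideal.add_mem _ (h2 a ha) (h4 a ha)
  zero_mem' := ⟨Submodule.zero_mem _, fun a _ => by simp⟩
  smul_mem' := by
    rintro k x ⟨h1, h2⟩
    refine ⟨Submodule.smul_mem _ k h1, fun a ha => ?_⟩
    rw [smul_eq_C_mul, mul_left_comm]
    exact Ideal.mul_mem_left _ _ (h2 a ha)

theorem mem_perp {U : Ideal (S3 K)} {A : Submodule K (S3 K)} {j : ℕ} {b : S3 K} :
    b ∈ perp U A j ↔ b ∈ HH K j ∧ ∀ a ∈ A, a * b ∈ U := Iff.rfl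

theorem perp_le (U : Ideal (S3 K)) (A : Submodule K (S3 K)) (j : ℕ) : perp U A j ≤ HH K j :=
  fun _ h => h.1

/-- Nondegeneracy from the socle bound. -/
theorem nondeg {U : Ideal (S3 K)} {N : ℕ} (hS : SocA U N) :
    ∀ (j i : ℕ), i + j + 3 = N → ∀ a ∈ HH K i, (∀ b ∈ HH K j, a * b ∈ U) → a ∈ U := by
  intro j
  induction j with
  | zero =>
    intro i _ a _ h
    have := h 1 (isHomogeneous_one (Fin 3) K)
    rwa [mul_one] at this
  | succ j ih =>
    intro i hi a ha h
    by_contra hnot
    have h1 : ∀ t, X t * a ∈ U := by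
      intro t
      apply ih (i + 1) (by omega) (X t * a) (by rw [add_comm]; exact (isHomogeneous_X K t).mul ha)
      intro b hb
      have h2 : X t * a * b = a * (X t * b) := by ring
      rw [h2]
      apply h
      rw [add_comm]
      exact (isHomogeneous_X K t).mul hb
    have := hS i a ha h1 hnot
    omega

/-- A functional on forms of top degree with kernel the graded piece of the ideal. -/
theorem exists_pi {U : Ideal (S3 K)} {s : ℕ} (h : DD s = finrank K (comp U s) + 1) :
    ∃ π : S3 K →ₗ[K] K, ∀ x ∈ HH K s, π x = 0 ↔ x ∈ U := by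
  have h1 : ∃ x0 ∈ HH K s, x0 ∉ U := by
    by_contra hcon
    push Not at hcon
    have h2 : HH K s ≤ comp U s := fun x hx => mem_comp.2 ⟨hcon x hx, hx⟩
    have h3 := Submodule.finrank_mono h2
    rw [finrank_HH] at h3
    omega
  obtain ⟨x0, hx0, hx1⟩ := h1
  have hx2 : x0 ∉ comp U s := fun h2 => hx1 (mem_comp.1 h2).1
  obtain ⟨π, hπ1, hπ2⟩ := Submodule.exists_le_ker_of_notMem hx2
  refine ⟨π, ?_⟩
  have h4 : comp U s ⊔ Submodule.span K {x0} = HH K s := by
    apply Submodule.eq_of_le_of_finrank_le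
    · exact sup_le (comp_le _ _) ((Submodule.span_singleton_le_iff_mem _ _).2 hx0)
    · have h5 : comp U s < comp U s ⊔ Submodule.span K {x0} :=
        lt_of_le_of_ne le_sup_left (fun h6 => hx2 (by
          rw [h6]; exact Submodule.mem_sup_right (Submodule.mem_span_singleton_self _)))
      have : FiniteDimensional K ↥(comp U s ⊔ Submodule.span K {x0}) :=
        fd_of_le (sup_le (comp_le _ _) ((Submodule.span_singleton_le_iff_mem _ _).2 hx0))
      have h6 := Submodule.finrank_lt_finrank_of_lt h5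
      rw [finrank_HH]
      omega
  intro x hx
  constructor
  · intro h5
    rw [← h4] at hx
    obtain ⟨y, hy, z, hz, rfl⟩ := Submodule.mem_sup.1 hx
    obtain ⟨k, rfl⟩ := Submodule.mem_span_singleton.1 hz
    have h6 : π y = 0 := hπ2 hy
    rw [map_add, h6, zero_add, map_smul, smul_eq_mul] at h5
    have hk : k = 0 := by
      rcases mul_eq_zero.1 h5 with h7 | h7
      · exact h7
      · exact absurd h7 hπ1
    rw [hk, zero_smul, add_zero]
    exact (mem_comp.1 hy).1
  · intro h5
    exact hπ2 (mem_comp.2 ⟨h5, hx⟩)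

/-- Row rank equals column rank for a pairing. -/
theorem finrank_range_flip {V W : Type*} [AddCommGroup V] [Module K V] [FiniteDimensional K V]
    [AddCommGroup W] [Module K W] [FiniteDimensional K W] (R : V →ₗ[K] W →ₗ[K] K) :
    finrank K (LinearMap.range R) = finrank K (LinearMap.range R.flip) := by
  have h : R = R.flip.dualMap.comp (Module.evalEquiv K V).toLinearMap := by
    ext v w
    simp
  have h2 : LinearMap.range R = LinearMap.range R.flip.dualMap := by
    conv_lhs => rw [h]
    exact LinearMap.range_comp_of_range_eq_top _ (LinearEquiv.range _)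
  rw [h2, LinearMap.finrank_range_dualMap_eq_finrank_range]

/-- The dimension of an orthogonal. -/
theorem dual_dim {U : Ideal (S3 K)} {i j : ℕ}
    (hnd : ∀ a ∈ HH K i, (∀ b ∈ HH K j, a * b ∈ U) → a ∈ U)
    (hone : DD (i + j) = finrank K (comp U (i + j)) + 1)
    {A : Submodule K (S3 K)} (hA : A ≤ HH K i) :
    finrank K (perp U A j) + finrank K A = DD j + finrank K ↥(A ⊓ comp U i) := by
  obtain ⟨π, hπ⟩ := exists_pi hone
  have : FiniteDimensional K A := fd_of_le hA
  let R : A →ₗ[K] HH K j →ₗ[K] K :=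
    ((LinearMap.mul K (S3 K)).compr₂ π).domRestrict₁₂ A (HH K j)
  have hR : ∀ (a : A) (b : HH K j), R a b = π ((a : S3 K) * b) := fun _ _ => rfl
  have hiff : ∀ (a : A) (b : HH K j), R a b = 0 ↔ (a : S3 K) * b ∈ U := by
    intro a b
    rw [hR]
    apply hπ
    exact (hA a.2).mul b.2
  have h1 := LinearMap.finrank_range_add_finrank_ker R
  have h2 := LinearMap.finrank_range_add_finrank_ker R.flip
  have h3 := finrank_range_flip R
  have h4 : (LinearMap.ker R).map A.subtype = A ⊓ comp U i := by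
    apply le_antisymm
    · rintro _ ⟨a, ha, rfl⟩
      refine ⟨a.2, mem_comp.2 ⟨hnd a (hA a.2) ?_, hA a.2⟩⟩
      intro b hb
      have h5 : R a ⟨b, hb⟩ = 0 := by
        have : R a = 0 := ha
        rw [this]; rfl
      exact (hiff a ⟨b, hb⟩).1 h5
    · rintro a ⟨ha1, ha2⟩
      refine ⟨⟨a, ha1⟩, ?_, rfl⟩
      change R ⟨a, ha1⟩ = 0
      ext b
      exact (hiff ⟨a, ha1⟩ b).2 (Ideal.mul_mem_right _ _ (mem_comp.1 ha2).1)
  have h5 : (LinearMap.ker R.flip).map (HH K j).subtype = perp U A j := by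
    apply le_antisymm
    · rintro _ ⟨b, hb, rfl⟩
      refine ⟨b.2, fun a ha => ?_⟩
      have h6 : R.flip b ⟨a, ha⟩ = 0 := by
        have : R.flip b = 0 := hb
        rw [this]; rfl
      exact (hiff ⟨a, ha⟩ b).1 h6
    · rintro b ⟨hb1, hb2⟩
      refine ⟨⟨b, hb1⟩, ?_, rfl⟩
      change R.flip ⟨b, hb1⟩ = 0
      ext a
      exact (hiff a ⟨b, hb1⟩).2 (hb2 a a.2)
  have h6 : finrank K ↥(LinearMap.ker R) = finrank K ↥(A ⊓ comp U i) := by
    rw [← h4]
    exact (LinearEquiv.finrank_eq (Submodule.equivMapOfInjective _ A.injective_subtype _))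
  have h7 : finrank K ↥(LinearMap.ker R.flip) = finrank K (perp U A j) := by
    rw [← h5]
    exact (LinearEquiv.finrank_eq (Submodule.equivMapOfInjective _ (HH K j).injective_subtype _))
  rw [finrank_HH] at h2
  omega

end Vale.Agent.Lib.P200
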