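import Vale.Agent.Lib.P200.Step5

/-!
The lexicographic growth bound for families containing a regular sequence of three forms,
over an infinite field.
-/

noncomputable section

namespace Vale.Agent.Lib.P200

open MvPolynomial Module

variable {K : Type*} [Field K]
variable {f p q : S3 K} {a b c : ℕ}

theorem HW_zero_step {W : ℕ → Submodule K (S3 K)} {d : ℕ} (hF : Fam W (d + 1)) (h0 : HW W d = 0) :
    HW W (d + 1) = 0 := by
  have h1 : finrank K (W d) = finrank K (HH K d) := by
    rw [finrank_HH]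
    unfold HW at h0
    omega
  have h2 := Submodule.eq_of_le_of_finrank_eq (hF.le d (by omega)) h1
  have h3 : W (d + 1) = HH K (d + 1) := by
    apply le_antisymm (hF.le _ le_rfl)
    intro u hu
    obtain ⟨w, hw, rfl⟩ := form_succ hu
    refine sum_mem fun i _ => ?_
    apply hF.step d (by omega)
    rw [h2]
    exact hw i
  unfold HW
  rw [h3, finrank_HH]
  simp

theorem CFam.mono {𝔠 : Ideal (S3 K)} {W : ℕ → Submodule K (S3 K)} {D D' : ℕ} (h : CFam 𝔠 W D)
    (hD : D' ≤ D) : CFam 𝔠 W D' :=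
  ⟨h.fam.mono hD, fun j hj => h.con j (by omega)⟩

/-- The growth bound over an infinite field. -/
theorem growth_family [Infinite K] (h : RS f p q a b c) (hab : a ≤ b) (hbc : b ≤ c) :
    ∀ (d : ℕ) (W : ℕ → Submodule K (S3 K)), CFam (T3 f p q) W (d + 1) →
      Bd a (b : ℤ) (c : ℤ) (d : ℤ) (HW W d) (HW W (d + 1)) := by
  have hb1 : (1 : ℤ) ≤ b := by exact_mod_cast h.hb
  have hc1 : (1 : ℤ) ≤ c := by exact_mod_cast h.hc
  have hbc' : (b : ℤ) ≤ c := by exact_mod_cast hbc
  intro d
  induction d with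
  | zero =>
    intro W hW i t hi ht0 ht hH
    have hi0 : i = 0 := by
      by_contra hi0
      unfold eta at ht
      push_cast at ht
      omega
    subst hi0
    have ht' : t = 0 := by
      unfold eta at ht
      push_cast at ht
      omega
    subst ht'
    rw [PP_zero, add_zero] at hH
    have h1 := HW_zero_step hW.fam hH
    rw [h1, PP_zero]
    simp
  | succ e ih =>
    suffices hs : ∀ (n : ℕ) (W : ℕ → Submodule K (S3 K)), CFam (T3 f p q) W (e + 2) →
        (HW W (e + 1)).toNat = n → Bd a (b : ℤ) (c : ℤ) ((e + 1 : ℕ) : ℤ) (HW W (e + 1)) (HW W (e + 2)) by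
      intro W hW
      exact hs _ W hW rfl
    intro n
    induction n using Nat.strong_induction_on with
    | _ n ihn =>
      intro W hW hn i t hi ht0 ht hH
      by_contra hcon
      push Not at hcon
      have hV : PP (b : ℤ) c i (((e + 1 : ℕ) : ℤ) + 1) + max (t - dl c (((e + 1 : ℕ) : ℤ) - i)) 0 + 1 ≤
          HW W (e + 2) := by omega
      have hW' : CFam (T3 f p q) (Sat W (e + 1)) (e + 2) := hW.sat
      have hT := HW_sat_top (hW.fam.le (e + 1) (by omega))
      have hU := HW_sat_succ W (e + 1)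
      have hH' : HW (Sat W (e + 1)) (e + 1) = PP (b : ℤ) c i ((e + 1 : ℕ) : ℤ) + t := by
        rw [hT]
        exact hH
      have hV' : PP (b : ℤ) c i (((e + 1 : ℕ) : ℤ) + 1) + max (t - dl c (((e + 1 : ℕ) : ℤ) - i)) 0 + 1 ≤
          HW (Sat W (e + 1)) (e + 2) := by
        have : HW (Sat W (e + 1)) (e + 2) = HW W (e + 2) := hU
        rw [this]
        exact hV
      have hfree : ∀ j < e + 1, ∀ u ∈ HH K j, (∀ i', X i' * u ∈ (Sat W (e + 1)) (j + 1)) →
          u ∈ (Sat W (e + 1)) j := fun j hj u hu hX => Sat_free hj hu hX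
      have hS : ∀ J, CFam (T3 f p q) J (e + 2) → HW J (e + 1) < HW (Sat W (e + 1)) (e + 1) →
          Bd a (b : ℤ) (c : ℤ) ((e + 1 : ℕ) : ℤ) (HW J (e + 1)) (HW J (e + 2)) := by
        intro J hJ hlt
        rw [hT] at hlt
        have h0 : 0 ≤ HW J (e + 1) := HW_nonneg (hJ.fam.le _ (by omega))
        exact ihn (HW J (e + 1)).toNat (by omega) J hJ rfl
      obtain ⟨m₁, m₂, m₃, v, hP, hQ⟩ := exists_point_data h hab hbc hW' hfree hS hi ht0 ht hH' hV'
      have hpos : 0 < HW (Sat W (e + 1)) (e + 1) := by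
        have h0 : 0 ≤ HW (Sat W (e + 1)) (e + 1) := HW_nonneg (hW'.fam.le _ (by omega))
        by_contra hcon2
        have h1 : HW (Sat W (e + 1)) (e + 1) = 0 := by omega
        have h2 := HW_zero_step hW'.fam h1
        have h3 : 0 ≤ PP (b : ℤ) c i (((e + 1 : ℕ) : ℤ) + 1) :=
          Finset.sum_nonneg fun k _ => eta_nonneg _ _ _
        have h4 : 0 ≤ max (t - dl c (((e + 1 : ℕ) : ℤ) - i)) 0 := le_max_right _ _
        have h5 : HW (Sat W (e + 1)) (e + 2) = 0 := h2
        omega
      have hE := ih (Sat W (e + 1)) (hW'.mono (by omega))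
      have hE' : Bd a (b : ℤ) (c : ℤ) (((e + 1 : ℕ) : ℤ) - 1) (HW (Sat W (e + 1)) e)
          (HW (Sat W (e + 1)) (e + 1)) := by
        have e1 : ((e + 1 : ℕ) : ℤ) - 1 = (e : ℤ) := by push_cast; ring
        rw [e1]
        exact hE
      have hUU := V2 hb1 hbc' hE' hi ht0 ht hH' hpos (HW_nonneg (hW'.fam.le _ (by omega)))
      exact step_core h hab hbc hW' hP hQ hi ht0 ht hH' hV' hUU

end Vale.Agent.Lib.P200
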