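import Vale.Agent.Lib.P200.Mono

/-!
The combinatorial condition holds for every pair of subspaces containing a complete intersection
of type `(3, e+1, e+1)`, over an infinite field.
-/

noncomputable section

namespace Vale.Agent.Lib.P200

open MvPolynomial Module

variable {K : Type*} [Field K]

/-- The top piece of the complete intersection has codimension one. -/
theorem Tri.top_dim {f p p' : S3 K} {e : ℕ} (T : Tri f p p' e) :
    DD ((e + 1) + (e + 1)) = finrank K (comp (T3 f p p') ((e + 1) + (e + 1))) + 1 := by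
  have hA := T.homA
  have hB := T.homB
  have hg0 : p ≠ 0 := ne_zero_of_nz T.one_notA T.h1
  have hg'0 : p' ≠ 0 := ne_zero_of_nz T.one_notB T.h2
  have f1 := finrank_comp_adj (e := e + 1) hA T.hp hg0 T.h1
  have f2 : finrank K (comp (T3 f p p') ((e + 1) + (e + 1))) +
      finrank K (comp (adj (adj ⊥ f) p) (e + 1)) =
      finrank K (comp (adj (adj ⊥ f) p) ((e + 1) + (e + 1))) + DD (e + 1) :=
    finrank_comp_adj (e := e + 1) hB T.hp' hg'0 T.h2
  have f3 := finrank_comp_adj (e := 0) hA T.hp hg0 T.h1
  rw [zero_add, DD_zero, finrank_comp_prin_lt T.hf (by omega)] at f3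
  have d1 := dim3 T.hf T.hf0 ((e + 1) + (e + 1)) (by omega)
  have d2 := dim3 T.hf T.hf0 (e + 1) (by omega)
  omega

/-- The condition below the critical degree. -/
theorem estep_low [Infinite K] {f p p' : S3 K} {e d : ℕ} (T : Tri f p p' e) (hd : d < e)
    {V V' : Submodule K (S3 K)} (h1 : comp (T3 f p p') d ≤ V) (h2 : V ≤ HH K d)
    (h3 : comp (T3 f p p') (d + 1) ≤ V') (h4 : V' ≤ HH K (d + 1)) (h5 : HH K 1 * V ≤ V') :
    Valid (e + 1) d (DD d - finrank K V) (DD (d + 1) - finrank K V') := by
  rw [T.comp_low (by omega)] at h1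
  rw [T.comp_low (by omega)] at h3
  have hB := hBB T d
  rw [T.comp_low (by omega)] at hB
  have : FiniteDimensional K V' := fd_of_le h4
  have hU : HH K 1 * V ⊔ comp (adj ⊥ f) (d + 1) ≤ V' := sup_le h5 h3
  have hmono := Submodule.finrank_mono hU
  have hV' := Submodule.finrank_mono h4
  rw [finrank_HH] at hV'
  have hV := Submodule.finrank_mono h2
  rw [finrank_HH] at hV
  by_cases hw : finrank K (comp (adj ⊥ f) d) + 1 ≤ finrank K V
  · obtain ⟨g1, g2, g3⟩ := growthT 3 (by omega) le_rfl f T.hf T.hf0 d V h1 h2 hw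
    unfold GR at g1 g2 g3
    apply valid_low (by omega)
    cases d with
    | zero =>
      have g4 := g2 (by omega) (by omega)
      have e1 : finrank K (comp (adj ⊥ f) (0 + 1)) = 0 := finrank_comp_prin_lt T.hf (by omega)
      have e2 : finrank K (comp (adj ⊥ f) 0) = 0 := finrank_comp_prin_lt T.hf (by omega)
      have e3 : DD (0 + 1) = 3 := rfl
      left
      omega
    | succ d =>
      have d1 := dim3 T.hf T.hf0 (d + 1) (by omega)
      have d2 := dim3 T.hf T.hf0 (d + 1 + 1) (by omega)
      by_cases c1 : 2 * (d + 1) + finrank K (comp (adj ⊥ f) (d + 1)) ≤ finrank K V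
      · have g4 := g3 le_rfl (by omega) c1
        left
        omega
      · by_cases c2 : (d + 1) + finrank K (comp (adj ⊥ f) (d + 1)) ≤ finrank K V
        · have g4 := g2 (by omega) (by omega)
          right; left
          omega
        · right; right
          omega
  · exact valid_top (by omega)

/-- The condition at the critical degree. -/
theorem estep_crit [Infinite K] {f p p' : S3 K} {e : ℕ} (T : Tri f p p' e) (he : 2 ≤ e)
    {V V' : Submodule K (S3 K)} (h1 : comp (T3 f p p') e ≤ V) (h2 : V ≤ HH K e)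
    (h3 : comp (T3 f p p') (e + 1) ≤ V') (h4 : V' ≤ HH K (e + 1)) (h5 : HH K 1 * V ≤ V') :
    Valid (e + 1) e (DD e - finrank K V) (DD (e + 1) - finrank K V') := by
  have hB := hBB T e
  rw [T.comp_low (by omega : e < e + 1)] at hB
  rw [T.comp_low (by omega : e < e + 1)] at h1
  have : FiniteDimensional K V' := fd_of_le h4
  have hU : HH K 1 * V ⊔ comp (T3 f p p') (e + 1) ≤ V' := sup_le h5 h3
  have hmono := Submodule.finrank_mono hU
  have hV' := Submodule.finrank_mono h4
  rw [finrank_HH] at hV'
  have hV := Submodule.finrank_mono h2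
  rw [finrank_HH] at hV
  by_cases hw : finrank K (comp (adj ⊥ f) e) + 1 ≤ finrank K V
  · have Q := Qstep T (by omega) h1 h2 hw
    unfold GR at Q
    rw [T.comp_low (by omega : e < e + 1), T.finrank_up] at Q
    have d1 := dim3 T.hf T.hf0 e (by omega)
    have d2 := dim3 T.hf T.hf0 (e + 1) (by omega)
    by_cases c1 : finrank K (comp (adj ⊥ f) e) + 3 * e ≤ finrank K V
    · have e0 : DD (e + 1) - finrank K V' = 0 := by omega
      rw [e0]
      exact valid_bot
    · by_cases c2 : e + finrank K (comp (adj ⊥ f) e) ≤ finrank K V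
      · obtain ⟨e', rfl⟩ : ∃ e', e = e' + 1 := ⟨e - 1, by omega⟩
        have M := Mstep T (by omega) h1 h2 c2 (by omega)
        unfold GR at M
        rw [T.comp_low (by omega : e' + 1 < e' + 1 + 1), T.finrank_up] at M
        apply valid_mid (by omega) rfl
        left
        omega
      · apply valid_mid (by omega) rfl
        right
        omega
  · exact valid_top (by omega)

/-- The condition up to the critical degree. -/
theorem estep_le [Infinite K] {f p p' : S3 K} {e d : ℕ} (T : Tri f p p' e) (he : 2 ≤ e) (hd : d ≤ e)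
    {V V' : Submodule K (S3 K)} (h1 : comp (T3 f p p') d ≤ V) (h2 : V ≤ HH K d)
    (h3 : comp (T3 f p p') (d + 1) ≤ V') (h4 : V' ≤ HH K (d + 1)) (h5 : HH K 1 * V ≤ V') :
    Valid (e + 1) d (DD d - finrank K V) (DD (d + 1) - finrank K V') := by
  by_cases h : d < e
  · exact estep_low T h h1 h2 h3 h4 h5
  · have : d = e := by omega
    subst this
    exact estep_crit T he h1 h2 h3 h4 h5

/-- The condition in all degrees. -/
theorem estep [Infinite K] {f p p' : S3 K} {e d : ℕ} (T : Tri f p p' e) (he : 2 ≤ e)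
    {V V' : Submodule K (S3 K)} (h1 : comp (T3 f p p') d ≤ V) (h2 : V ≤ HH K d)
    (h3 : comp (T3 f p p') (d + 1) ≤ V') (h4 : V' ≤ HH K (d + 1)) (h5 : HH K 1 * V ≤ V') :
    Valid (e + 1) d (DD d - finrank K V) (DD (d + 1) - finrank K V') := by
  by_cases h : d ≤ e
  · exact estep_le T he h h1 h2 h3 h4 h5
  by_cases h' : d ≤ 2 * e + 1
  · obtain ⟨i, hi⟩ : ∃ i, i + d = 2 * e + 1 := ⟨2 * e + 1 - d, by omega⟩
    have hS : SocA (T3 f p p') (3 + (e + 1) + (e + 1)) :=
      socle_reg T.hf T.hp T.hp' (by omega) (by omega) T.hf0 T.h1 T.h2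
    have htop : ∀ s, s = (e + 1) + (e + 1) → DD s = finrank K (comp (T3 f p p') s) + 1 := by
      rintro s rfl
      exact T.top_dim
    have hnd1 := nondeg hS i (d + 1) (by omega)
    have hnd2 := nondeg hS (i + 1) d (by omega)
    have D1 := dual_dim hnd1 (htop _ (by omega)) h4
    have D2 := dual_dim hnd2 (htop _ (by omega)) h2
    rw [inf_eq_right.2 h3] at D1
    rw [inf_eq_right.2 h1] at D2
    have hlow : comp (T3 f p p') i ≤ perp (T3 f p p') V' i := fun x hx =>
      ⟨(mem_comp.1 hx).2, fun a _ => Ideal.mul_mem_left _ _ (mem_comp.1 hx).1⟩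
    have hlow' : comp (T3 f p p') (i + 1) ≤ perp (T3 f p p') V (i + 1) := fun x hx =>
      ⟨(mem_comp.1 hx).2, fun a _ => Ideal.mul_mem_left _ _ (mem_comp.1 hx).1⟩
    have hmul : HH K 1 * perp (T3 f p p') V' i ≤ perp (T3 f p p') V (i + 1) := by
      rw [Submodule.mul_le]
      intro m hm b hb
      refine ⟨?_, fun a ha => ?_⟩
      · rw [add_comm]
        exact (show m.IsHomogeneous 1 from hm).mul hb.1
      · have : a * (m * b) = (m * a) * b := by ring
        rw [this]
        exact hb.2 _ (h5 (Submodule.mul_mem_mul hm ha))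
    have hV := estep_le T he (by omega : i ≤ e) hlow (perp_le _ _ _) hlow' (perp_le _ _ _) hmul
    have B1 := hBB T d
    have B2 := hBB T (d + 1)
    have : FiniteDimensional K V' := fd_of_le h4
    have : FiniteDimensional K V := fd_of_le h2
    have m1 := Submodule.finrank_mono h1
    have m2 := Submodule.finrank_mono h2
    have m3 := Submodule.finrank_mono h3
    have m4 := Submodule.finrank_mono h4
    rw [finrank_HH] at m2 m4
    exact valid_dual (by omega) (by omega) (by omega) hV
  · intro m' hm'
    rw [mem_BB] at hm'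
    omega

end Vale.Agent.Lib.P200
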