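import Vale.Agent.Lib.P200.Dim
import Mathlib.Algebra.MvPolynomial.NoZeroDivisors

/-!
Factors of forms are forms; the annihilated case of the growth estimate.
-/

noncomputable section

namespace Vale.Agent.Lib.P200

open MvPolynomial Module

variable {K : Type*} [Field K]

theorem hc_mul_low {a b : S3 K} {m n : ℕ} (ha : ∀ i < m, homogeneousComponent i a = 0)
    (hb : ∀ j < n, homogeneousComponent j b = 0) :
    homogeneousComponent (m + n) (a * b) = homogeneousComponent m a * homogeneousComponent n b := by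
  conv_lhs => rw [← sum_homogeneousComponent a]
  rw [Finset.sum_mul, map_sum]
  rw [Finset.sum_eq_single m]
  · rw [mul_comm, add_comm, hc_mul_of_mem (homogeneousComponent_mem m a)]
    ring
  · intro i _ hi
    by_cases h : i < m
    · simp [ha i h]
    · rw [mul_comm]
      by_cases h2 : i ≤ m + n
      · obtain ⟨k, hk⟩ : ∃ k, m + n = k + i := ⟨m + n - i, by omega⟩
        rw [hk, hc_mul_of_mem (homogeneousComponent_mem i a), hb k (by omega)]
        simp
      · rw [hc_mul_of_lt (homogeneousComponent_mem i a)]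
        omega
  · intro hm
    have : homogeneousComponent m a = 0 :=
      homogeneousComponent_eq_zero _ _ (by simpa [Nat.lt_succ_iff, not_le] using hm)
    rw [this]
    simp

theorem exists_low {a : S3 K} (ha : a ≠ 0) :
    ∃ m, homogeneousComponent m a ≠ 0 ∧ ∀ i < m, homogeneousComponent i a = 0 := by
  classical
  have h : ∃ i, homogeneousComponent i a ≠ 0 := by
    by_contra hcon
    push Not at hcon
    apply ha
    rw [← sum_homogeneousComponent a]
    exact Finset.sum_eq_zero fun i _ => hcon i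
  refine ⟨Nat.find h, Nat.find_spec h, fun i hi => ?_⟩
  have := Nat.find_min h hi
  simpa using this

theorem eq_hc_of_low {a : S3 K} {m : ℕ} (hm : a.totalDegree = m)
    (h : ∀ i < m, homogeneousComponent i a = 0) : a = homogeneousComponent m a := by
  conv_lhs => rw [← sum_homogeneousComponent a]
  rw [Finset.sum_eq_single m]
  · intro i hi hne
    have : i < a.totalDegree + 1 := by simpa using hi
    exact h i (by omega)
  · intro h2
    exact absurd (by simp; omega) h2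

/-- Factors of a nonzero form are forms. -/
theorem hom_of_mul {a b : S3 K} {D : ℕ} (h : a * b ∈ HH K D) (h0 : a * b ≠ 0) :
    ∃ m n, m + n = D ∧ a ∈ HH K m ∧ b ∈ HH K n := by
  have ha0 : a ≠ 0 := left_ne_zero_of_mul h0
  have hb0 : b ≠ 0 := right_ne_zero_of_mul h0
  obtain ⟨m, hm, hml⟩ := exists_low ha0
  obtain ⟨n, hn, hnl⟩ := exists_low hb0
  have key := hc_mul_low hml hnl
  have hne : homogeneousComponent (m + n) (a * b) ≠ 0 := by
    rw [key]
    exact mul_ne_zero hm hn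
  have hD : m + n = D := by
    by_contra hcon
    apply hne
    rw [homogeneousComponent_of_mem h]
    simp [hcon]
  have ht : (a * b).totalDegree = D := IsHomogeneous.totalDegree h h0
  rw [totalDegree_mul_of_isDomain ha0 hb0] at ht
  have h1 : m ≤ a.totalDegree := by
    by_contra hcon
    exact hm (homogeneousComponent_eq_zero _ _ (by omega))
  have h2 : n ≤ b.totalDegree := by
    by_contra hcon
    exact hn (homogeneousComponent_eq_zero _ _ (by omega))
  have h3 : a.totalDegree = m := by omega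
  have h4 : b.totalDegree = n := by omega
  refine ⟨m, n, hD, ?_, ?_⟩
  · rw [eq_hc_of_low h3 hml]
    exact homogeneousComponent_mem _ _
  · rw [eq_hc_of_low h4 hnl]
    exact homogeneousComponent_mem _ _

/-- Quotient of a form by a form. -/
theorem hom_of_mul_left {a v : S3 K} {c d : ℕ} (ha : a ∈ HH K c) (ha0 : a ≠ 0) (h : a * v ∈ HH K d)
    (hv0 : v ≠ 0) : ∃ e, e + c = d ∧ v ∈ HH K e := by
  obtain ⟨m, n, hmn, h1, h2⟩ := hom_of_mul h (mul_ne_zero ha0 hv0)
  have : m = c := IsHomogeneous.inj_right h1 ha ha0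
  subst this
  exact ⟨n, by omega, h2⟩

theorem mem_prin {f x : S3 K} : x ∈ adj ⊥ f ↔ f ∣ x := by
  unfold adj
  rw [bot_sup_eq, Ideal.mem_span_singleton]

theorem const_of_HH0 {s : S3 K} (hs : s ∈ HH K 0) : ∃ k : K, s = C k := by
  refine ⟨coeff 0 s, ?_⟩
  rw [← homogeneousComponent_zero, homogeneousComponent_of_mem hs]
  simp

/-- The factorization in the annihilated case. -/
theorem ann_factor {f u : S3 K} {c : ℕ} {W : Submodule K (S3 K)} (hf : f ∈ HH K c) (hf0 : f ≠ 0)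
    (hu : ¬ f ∣ u) (hW : ∀ w ∈ W, f ∣ w * u) :
    ∃ (f1 f0 : S3 K) (c1 c0 : ℕ), f = f1 * f0 ∧ f1 ∈ HH K c1 ∧ f0 ∈ HH K c0 ∧ c1 + c0 = c ∧ 1 ≤ c1 ∧
      ∀ w ∈ W, f1 ∣ w := by
  classical
  let _ : GCDMonoid (S3 K) := UniqueFactorizationMonoid.toGCDMonoid (S3 K)
  obtain ⟨f', u', h1, h2, h3⟩ := extract_gcd f u
  set g := gcd f u with hg
  have hfg : f = f' * g := by rw [h1]; ring
  have hg0 : g ≠ 0 := by
    intro h0
    rw [h0] at h1
    simp at h1
    exact hf0 h1
  rw [hfg] at hf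
  have hne : f' * g ≠ 0 := by rw [← hfg]; exact hf0
  obtain ⟨c1, c0, hc, hf1, hg1⟩ := hom_of_mul hf hne
  refine ⟨f', g, c1, c0, hfg, hf1, hg1, hc, ?_, ?_⟩
  · by_contra hc1
    have hc10 : c1 = 0 := by omega
    subst hc10
    obtain ⟨k, hk⟩ := const_of_HH0 hf1
    have hk0 : k ≠ 0 := by
      rintro rfl
      apply hne
      rw [hk]
      simp
    apply hu
    refine ⟨C k⁻¹ * u', ?_⟩
    rw [h2, hfg, hk]
    have : C k * C k⁻¹ = (1 : S3 K) := by
      rw [← C_mul, mul_inv_cancel₀ hk0, C_1]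
    linear_combination (- g * u') * this
  · intro w hw
    have h4 : IsRelPrime f' u' := (gcd_isUnit_iff_isRelPrime).1 h3
    have h5 : f' ∣ w * u' := by
      obtain ⟨t, ht⟩ := hW w hw
      refine ⟨t, ?_⟩
      apply mul_left_cancel₀ hg0
      rw [h2, hfg] at ht
      linear_combination ht
    exact h4.dvd_of_dvd_mul_right h5

/-- Graded pieces of a principal ideal generated by a product. -/
theorem comp_prin_mul {f1 f0 : S3 K} {c1 d0 : ℕ} (hf1 : f1 ∈ HH K c1) (hf10 : f1 ≠ 0) :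
    comp (adj ⊥ (f1 * f0)) (d0 + c1) = (comp (adj ⊥ f0) d0).map (LinearMap.mulLeft K f1) := by
  apply le_antisymm
  · intro u hu
    obtain ⟨h1, h2⟩ := mem_comp.1 hu
    obtain ⟨s, rfl⟩ := mem_prin.1 h1
    refine mem_map_mul.2 ⟨f0 * s, mem_comp.2 ⟨mem_prin.2 ⟨s, rfl⟩, ?_⟩, by ring⟩
    by_cases h0 : f0 * s = 0
    · rw [h0]; exact Submodule.zero_mem _
    · rw [mul_assoc] at h2
      obtain ⟨e, he, h3⟩ := hom_of_mul_left hf1 hf10 h2 h0
      have : e = d0 := by omega
      rwa [this] at h3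
  · intro u hu
    obtain ⟨v, hv, rfl⟩ := mem_map_mul.1 hu
    obtain ⟨h1, h2⟩ := mem_comp.1 hv
    obtain ⟨s, rfl⟩ := mem_prin.1 h1
    exact mem_comp.2 ⟨mem_prin.2 ⟨s, by ring⟩, mul_mem_HH hf1 h2⟩

theorem finrank_comp_prin_mul {f1 f0 : S3 K} {c1 d0 : ℕ} (hf1 : f1 ∈ HH K c1) (hf10 : f1 ≠ 0) :
    finrank K (comp (adj ⊥ (f1 * f0)) (d0 + c1)) = finrank K (comp (adj ⊥ f0) d0) := by
  rw [comp_prin_mul hf1 hf10, finrank_map_mul hf10]

/-- Reduction of a subspace divisible by `f1`. -/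
theorem ann_reduce {f1 f0 : S3 K} {c1 d : ℕ} {W : Submodule K (S3 K)} (hf1 : f1 ∈ HH K c1)
    (hf10 : f1 ≠ 0) (hd : ∃ w ∈ W, w ≠ 0) (h1 : comp (adj ⊥ (f1 * f0)) d ≤ W) (h2 : W ≤ HH K d)
    (h3 : ∀ w ∈ W, f1 ∣ w) :
    ∃ (d0 : ℕ) (W0 : Submodule K (S3 K)), d = d0 + c1 ∧ comp (adj ⊥ f0) d0 ≤ W0 ∧ W0 ≤ HH K d0 ∧
      finrank K W0 = finrank K W ∧
      finrank K ↥(HH K 1 * W0 ⊔ comp (adj ⊥ f0) (d0 + 1)) ≤
        finrank K ↥(HH K 1 * W ⊔ comp (adj ⊥ (f1 * f0)) (d + 1)) := by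
  obtain ⟨w0, hw0, hw00⟩ := hd
  obtain ⟨v0, rfl⟩ := h3 w0 hw0
  obtain ⟨d0, rfl, -⟩ := hom_of_mul_left hf1 hf10 (h2 hw0) (right_ne_zero_of_mul hw00)
  let W0 : Submodule K (S3 K) := W.comap (LinearMap.mulLeft K f1) ⊓ HH K d0
  have hW0 : W0 ≤ HH K d0 := inf_le_right
  have hmap : W0.map (LinearMap.mulLeft K f1) = W := by
    apply le_antisymm
    · rintro _ ⟨v, hv, rfl⟩
      exact hv.1
    · intro w hw
      obtain ⟨v, rfl⟩ := h3 w hw
      refine mem_map_mul.2 ⟨v, ⟨hw, ?_⟩, rfl⟩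
      by_cases hv : v = 0
      · rw [hv]; exact Submodule.zero_mem _
      · obtain ⟨e, he, h4⟩ := hom_of_mul_left hf1 hf10 (h2 hw) hv
        have : e = d0 := by omega
        rwa [this] at h4
  refine ⟨d0, W0, rfl, ?_, hW0, ?_, ?_⟩
  · intro v hv
    refine ⟨?_, (mem_comp.1 hv).2⟩
    apply h1
    rw [comp_prin_mul hf1 hf10]
    exact mem_map_mul.2 ⟨v, hv, rfl⟩
  · rw [← hmap, finrank_map_mul hf10]
  · have hU : HH K 1 * W ⊔ comp (adj ⊥ (f1 * f0)) (d0 + c1 + 1) ≤ HH K (d0 + c1 + 1) :=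
      sup_le (mul_le_HH h2) (comp_le _ _)
    have := fd_of_le hU
    rw [← finrank_map_mul hf10 (HH K 1 * W0 ⊔ comp (adj ⊥ f0) (d0 + 1))]
    apply Submodule.finrank_mono
    rw [Submodule.map_sup]
    apply sup_le
    · rw [Submodule.map_le_iff_le_comap, Submodule.mul_le]
      intro m hm v hv
      apply Submodule.mem_sup_left
      have h4 : f1 * (m * v) = m * (f1 * v) := by ring
      simp only [LinearMap.mulLeft_apply]
      rw [h4]
      exact Submodule.mul_mem_mul hm hv.1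
    · apply le_trans _ le_sup_right
      rw [show d0 + c1 + 1 = d0 + 1 + c1 by omega, comp_prin_mul hf1 hf10]

end Vale.Agent.Lib.P200
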