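import Vale.Agent.Lib.P200.BaseChange
import Vale.Agent.Lib.P200.Defs

/-!
From the combinatorial condition to the lex-plus-powers ideal for type `(3, a, a)`.
-/

noncomputable section

namespace Vale.Agent.Lib.P200

open MvPolynomial Module Defs

variable {K : Type*} [Field K]

theorem adj_le {A Q : Ideal (S3 K)} {r : S3 K} (h : A ≤ Q) (hr : r ∈ Q) : adj A r ≤ Q := by
  unfold adj
  exact sup_le h ((Ideal.span_singleton_le_iff_mem _).2 hr)

theorem powerIdeal_eq (a : ℕ) :
    (powerIdeal (le_refl 3) ![3, a, a] : Ideal (S3 K)) = T3 (X 0 ^ 3) (X 1 ^ a) (X 2 ^ a) := by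
  apply le_antisymm
  · rw [powerIdeal, Ideal.span_le]
    rintro _ ⟨i, rfl⟩
    fin_cases i
    · exact le_adj _ _ (le_adj _ _ (self_mem_adj _ _))
    · exact le_adj _ _ (self_mem_adj _ _)
    · exact self_mem_adj _ _
  · refine adj_le (adj_le (adj_le bot_le ?_) ?_) ?_
    · exact Ideal.subset_span ⟨0, rfl⟩
    · exact Ideal.subset_span ⟨1, rfl⟩
    · exact Ideal.subset_span ⟨2, rfl⟩

theorem mem_outside {a d : ℕ} {m : Fin 3 →₀ ℕ} :
    m ∈ outside (le_refl 3) ![3, a, a] d ↔ m 0 + m 1 + m 2 = d ∧ m 0 < 3 ∧ m 1 < a ∧ m 2 < a := by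
  rw [outside, Finset.mem_filter, mem_antidiag]
  refine and_congr_right fun _ => ?_
  constructor
  · intro h
    exact ⟨h 0, h 1, h 2⟩
  · rintro ⟨h0, h1, h2⟩ i
    fin_cases i
    · exact h0
    · exact h1
    · exact h2

/-- The exponents of `x` and `y`. -/
def toPair (m : Fin 3 →₀ ℕ) : ℕ × ℕ := (m 0, m 1)

theorem toPair_mem {a d : ℕ} {m : Fin 3 →₀ ℕ} (h : m ∈ outside (le_refl 3) ![3, a, a] d) :
    toPair m ∈ BB a d := by
  rw [mem_outside] at h
  rw [mem_BB, toPair]
  simp only
  omega

theorem of_same_degree {m n : Fin 3 →₀ ℕ} (h : m 0 + m 1 + m 2 = n 0 + n 1 + n 2)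
    (h0 : m 0 = n 0) (h1 : m 1 = n 1) : m = n :=
  expo_ext h0 h1 (by omega)

/-- The lexicographic order on monomials of one degree. -/
theorem toLex_le_iff {m n : Fin 3 →₀ ℕ} (h : m 0 + m 1 + m 2 = n 0 + n 1 + n 2) :
    toLex m ≤ toLex n ↔ lexLE (toPair m) (toPair n) := by
  rw [le_iff_lt_or_eq, Finsupp.Lex.lt_iff]
  simp only [lexLE, toPair]
  constructor
  · rintro (⟨i, hi1, hi2⟩ | h2)
    · have h3 : m i < n i := hi2
      fin_cases i
      · exact Or.inl h3
      · have h4 : m 0 = n 0 := hi1 0 (by decide)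
        exact Or.inr ⟨h4, h3.le⟩
      · have h4 : m 0 = n 0 := hi1 0 (by decide)
        have h5 : m 1 = n 1 := hi1 1 (by decide)
        have h6 : m 2 < n 2 := h3
        omega
    · have h3 : m = n := h2
      rw [h3]
      exact Or.inr ⟨rfl, le_rfl⟩
  · rintro (h2 | ⟨h2, h3⟩)
    · left
      refine ⟨0, ?_, h2⟩
      intro j hj
      exact absurd hj (Fin.not_lt_zero j)
    · rcases h3.lt_or_eq with h4 | h4
      · left
        refine ⟨1, ?_, h4⟩
        intro j hj
        have : j = 0 := by
          fin_cases j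
          · rfl
          · exact absurd hj (by decide)
          · exact absurd hj (by decide)
        rw [this]
        exact h2
      · right
        exact congrArg toLex (of_same_degree h h2 h4)

/-- Counting the elements above a given one. -/
theorem card_top {a d : ℕ} {m : Fin 3 →₀ ℕ} (hm : m ∈ outside (le_refl 3) ![3, a, a] d) :
    ((outside (le_refl 3) ![3, a, a] d).filter fun e' => toLex m ≤ toLex e').card =
      ((BB a d).filter fun x => lexLE (toPair m) x).card := by
  have hm' := mem_outside.1 hm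
  apply Finset.card_bij (fun e _ => toPair e)
  · intro e he
    rw [Finset.mem_filter] at he ⊢
    have he' := mem_outside.1 he.1
    refine ⟨toPair_mem he.1, (toLex_le_iff (by omega)).1 he.2⟩
  · intro e he e' he' h
    rw [Finset.mem_filter] at he he'
    have h1 := mem_outside.1 he.1
    have h2 := mem_outside.1 he'.1
    simp only [toPair, Prod.mk.injEq] at h
    exact of_same_degree (by omega) h.1 h.2
  · rintro ⟨i, j⟩ hx
    rw [Finset.mem_filter, mem_BB] at hx
    simp only at hx
    have hx2 := hx.1
    have hexp : expo i j (d - i - j) ∈ outside (le_refl 3) ![3, a, a] d := by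
      rw [mem_outside]
      simp only [expo_0, expo_1, expo_2]
      omega
    refine ⟨expo i j (d - i - j), ?_, rfl⟩
    rw [Finset.mem_filter]
    refine ⟨hexp, ?_⟩
    have hexp' := mem_outside.1 hexp
    exact (toLex_le_iff (by omega)).2 hx.2

theorem mem_lexTop_iff {a d q : ℕ} {m : Fin 3 →₀ ℕ} :
    m ∈ lexTop (outside (le_refl 3) ![3, a, a] d) q ↔
      m ∈ outside (le_refl 3) ![3, a, a] d ∧ (BB a d).card + 1 ≤ q + trk a d (toPair m) := by
  rw [lexTop, Finset.mem_filter]
  refine and_congr_right fun hm => ?_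
  rw [card_top hm]
  have h1 := trk_add_top (toPair_mem hm)
  omega

/-- The number of monomials outside `P` splits as `b_d + q_d`. -/
theorem numbers {f p p' : S3 K} {e : ℕ} (T : Tri f p p' e) {I : Ideal (S3 K)}
    (hI : T3 f p p' ≤ I) (d : ℕ) :
    (DD d - finrank K (comp I d)) +
      qNum (le_refl 3) ![3, e + 1, e + 1] I d = (BB (e + 1) d).card := by
  have h1 := card_BB_add (K := K) e d
  have h2 := finrank_tri_congr T (tri_mono e) d
  have h3 := Submodule.finrank_mono (comp_mono hI d)
  have h4 := Submodule.finrank_mono (comp_le I d)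
  rw [finrank_HH] at h4
  have h5 : qNum (le_refl 3) ![3, e + 1, e + 1] I d =
      finrank K (comp I d) -
        finrank K (comp (T3 (X 0 ^ 3 : S3 K) (X 1 ^ (e + 1)) (X 2 ^ (e + 1))) d) := by
    unfold qNum
    rw [powerIdeal_eq]
    rfl
  omega

/-- Multiplication by a variable maps `J_d` into `J_(d+1)`. -/
theorem piece_step {f p p' : S3 K} {e : ℕ} (T : Tri f p p' e) (he : 2 ≤ e) {I : Ideal (S3 K)}
    (hI : T3 f p p' ≤ I) (i : Fin 3) (d : ℕ) :
    lexPiece (le_refl 3) ![3, e + 1, e + 1] I d ≤
      (lexPiece (le_refl 3) ![3, e + 1, e + 1] I (d + 1)).comap (LinearMap.mulLeft K (X i)) := by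
  have hV := estep_any T he (comp_mono hI d) (comp_le I d) (comp_mono hI (d + 1)) (comp_le I (d + 1))
    (by
      rw [Submodule.mul_le]
      intro m hm w hw
      obtain ⟨h1, h2⟩ := mem_comp.1 hw
      refine mem_comp.2 ⟨Ideal.mul_mem_left _ _ h1, ?_⟩
      rw [add_comm]
      exact (show m.IsHomogeneous 1 from hm).mul h2)
  have hn := numbers T hI d
  have hn' := numbers T hI (d + 1)
  apply sup_le
  · intro x hx
    rw [show gradedPiece (powerIdeal (le_refl 3) ![3, e + 1, e + 1] : Ideal (S3 K)) d =
      comp (powerIdeal (le_refl 3) ![3, e + 1, e + 1] : Ideal (S3 K)) d from rfl] at hx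
    obtain ⟨h1, h2⟩ := mem_comp.1 hx
    apply Submodule.mem_sup_left
    change X i * x ∈ comp _ _
    refine mem_comp.2 ⟨Ideal.mul_mem_left _ _ h1, ?_⟩
    rw [add_comm]
    exact (isHomogeneous_X K i).mul h2
  · rw [Submodule.span_le]
    rintro _ ⟨m, hm, rfl⟩
    have hm1 : m ∈ lexTop (outside (le_refl 3) ![3, e + 1, e + 1] d)
        (qNum (le_refl 3) ![3, e + 1, e + 1] I d) := hm
    rw [mem_lexTop_iff] at hm1
    obtain ⟨hm2, hm3⟩ := hm1
    have hm4 := mem_outside.1 hm2
    have hX : X i * monomial m (1 : K) = monomial (Finsupp.single i 1 + m) (1 : K) := by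
      rw [X, monomial_mul, one_mul]
    simp only [SetLike.mem_coe, Submodule.mem_comap, LinearMap.mulLeft_apply]
    rw [hX]
    have hdeg : (Finsupp.single i 1 + m : Fin 3 →₀ ℕ) 0 + (Finsupp.single i 1 + m : Fin 3 →₀ ℕ) 1 +
        (Finsupp.single i 1 + m : Fin 3 →₀ ℕ) 2 = d + 1 := by
      fin_cases i <;> simp <;> omega
    by_cases hout : Finsupp.single i 1 + m ∈ outside (le_refl 3) ![3, e + 1, e + 1] (d + 1)
    · apply Submodule.mem_sup_right
      apply Submodule.subset_span
      refine ⟨_, ?_, rfl⟩
      change _ ∈ lexTop _ _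
      rw [mem_lexTop_iff]
      refine ⟨hout, ?_⟩
      by_contra hcon
      have hdvd : Dvd1 (toPair m) (toPair (Finsupp.single i 1 + m)) := by
        fin_cases i
        · right; right
          simp [toPair]
          omega
        · right; left
          simp [toPair]
          omega
        · left
          simp [toPair]
      have := hV _ (toPair_mem hout) (by omega) _ (toPair_mem hm2) hdvd
      omega
    · apply Submodule.mem_sup_left
      change _ ∈ comp _ _
      rw [powerIdeal_eq]
      refine mem_comp.2 ⟨?_, ?_⟩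
      · rw [mem3]
        intro m' hm'
        have hm'' := support_monomial_subset hm'
        rw [Finset.mem_singleton] at hm''
        rw [hm'']
        by_contra hcon
        apply hout
        rw [mem_outside]
        omega
      · apply isHomogeneous_monomial
        rw [Finsupp.degree_eq_sum, Fin.sum_univ_three]
        exact hdeg

/-- A subspace stable under variables is stable under all polynomials. -/
theorem mul_mem_of_X {J : Submodule K (S3 K)} (hX : ∀ i, ∀ x ∈ J, X i * x ∈ J) (c : S3 K) :
    ∀ x ∈ J, c * x ∈ J := by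
  induction c using MvPolynomial.induction_on with
  | C k =>
    intro x hx
    rw [← smul_eq_C_mul]
    exact J.smul_mem k hx
  | add p q hp hq =>
    intro x hx
    rw [add_mul]
    exact J.add_mem (hp x hx) (hq x hx)
  | mul_X p i hp =>
    intro x hx
    rw [mul_assoc]
    exact hp _ (hX i x hx)

/-- The main theorem. -/
theorem lexPlusPowers_ideal (a : ℕ) (ha : 3 ≤ a) (f : Fin 3 → S3 K)
    (hf : ∀ i, (f i).IsHomogeneous (![3, a, a] i)) (hreg : IsRegularSeq f) (I : Ideal (S3 K))
    (hfI : ∀ i, f i ∈ I) :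
    ∃ J : Ideal (S3 K), J.restrictScalars K = lexPlusPowers (le_refl 3) ![3, a, a] I := by
  obtain ⟨e, rfl⟩ : ∃ e, a = e + 1 := ⟨a - 1, by omega⟩
  have he : 2 ≤ e := by omega
  have hf0 : f 0 ≠ 0 := by
    intro h0
    have h1 := hreg 0 1 (by
      rw [h0, zero_mul]
      exact Ideal.zero_mem _)
    have h2 : f '' {j | j < (0 : Fin 3)} = ∅ := by
      ext x
      simp
    rw [h2, Ideal.span_empty] at h1
    simp at h1
  have T : Tri (f 0) (f 1) (f 2) e := by
    refine ⟨hf 0, hf0, hf 1, hf 2, ?_, ?_⟩
    · have h2 : f '' {j | j < (1 : Fin 3)} = {f 0} := by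
        ext x
        simp only [Set.mem_image, Set.mem_ofPred_eq, Set.mem_singleton_iff]
        constructor
        · rintro ⟨j, hj, rfl⟩
          have : j = 0 := by
            fin_cases j
            · rfl
            · exact absurd hj (by decide)
            · exact absurd hj (by decide)
          rw [this]
        · rintro rfl
          exact ⟨0, by decide, rfl⟩
      intro u hu
      have h3 := hreg 1 u (by
        rw [h2]
        rw [adj, bot_sup_eq] at hu
        exact hu)
      rw [h2] at h3
      rw [adj, bot_sup_eq]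
      exact h3
    · have h2 : f '' {j | j < (2 : Fin 3)} = {f 0, f 1} := by
        ext x
        simp only [Set.mem_image, Set.mem_ofPred_eq, Set.mem_insert_iff, Set.mem_singleton_iff]
        constructor
        · rintro ⟨j, hj, rfl⟩
          fin_cases j
          · exact Or.inl rfl
          · exact Or.inr rfl
          · exact absurd hj (by decide)
        · rintro (rfl | rfl)
          · exact ⟨0, by decide, rfl⟩
          · exact ⟨1, by decide, rfl⟩
      have h4 : Ideal.span (f '' {j | j < (2 : Fin 3)}) = adj (adj ⊥ (f 0)) (f 1) := by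
        rw [h2, Ideal.span_insert]
        unfold adj
        rw [bot_sup_eq]
      intro u hu
      have h3 := hreg 2 u (by rw [h4]; exact hu)
      rwa [h4] at h3
  have hI : T3 (f 0) (f 1) (f 2) ≤ I := adj_le (adj_le (adj_le bot_le (hfI 0)) (hfI 1)) (hfI 2)
  have hX : ∀ i, ∀ x ∈ lexPlusPowers (le_refl 3) ![3, e + 1, e + 1] I,
      X i * x ∈ lexPlusPowers (le_refl 3) ![3, e + 1, e + 1] I := by
    intro i x hx
    refine Submodule.iSup_induction (motive := fun x =>
      X i * x ∈ lexPlusPowers (le_refl 3) ![3, e + 1, e + 1] I) _ hx ?_ ?_ ?_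
    · intro d y hy
      exact Submodule.mem_iSup_of_mem (d + 1) (piece_step T he hI i d hy)
    · rw [mul_zero]
      exact Submodule.zero_mem _
    · intro y z hy hz
      rw [mul_add]
      exact Submodule.add_mem _ hy hz
  refine ⟨{ carrier := lexPlusPowers (le_refl 3) ![3, e + 1, e + 1] I
            add_mem' := fun ha hb => Submodule.add_mem _ ha hb
            zero_mem' := Submodule.zero_mem _
            smul_mem' := fun c x hx => mul_mem_of_X hX c x hx }, ?_⟩
  ext x
  rfl

end Vale.Agent.Lib.P200
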