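import Vale.Agent.Lib.P200.BC3
import Vale.Agent.Lib.P200.Comb
import Vale.Agent.Lib.P200.Defs

/-!
From the growth bound to the lex-plus-powers ideal, for all regular sequences in three variables.
-/

noncomputable section

namespace Vale.Agent.Lib.P200

open MvPolynomial Module Defs

variable {K : Type*} [Field K]

theorem X_pow_mono (i : Fin 3) (n : ℕ) : (X i ^ n : S3 K) = monomial (Finsupp.single i n) 1 :=
  X_pow_eq_monomial

theorem adj_mono (s : Set (Fin 3 →₀ ℕ)) (e : Fin 3 →₀ ℕ) :
    adj (Ideal.span ((fun s => monomial s (1 : K)) '' s)) (monomial e 1) =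
      Ideal.span ((fun s => monomial s (1 : K)) '' (insert e s)) := by
  unfold adj
  rw [Set.image_insert_eq, Ideal.span_insert, sup_comm]

theorem bot_mono : (⊥ : Ideal (S3 K)) =
    Ideal.span ((fun s => monomial s (1 : K)) '' (∅ : Set (Fin 3 →₀ ℕ))) := by
  simp

theorem mem1 {u : S3 K} {a0 : ℕ} : u ∈ adj ⊥ (X 0 ^ a0 : S3 K) ↔ ∀ m ∈ u.support, a0 ≤ m 0 := by
  rw [bot_mono, X_pow_mono, adj_mono, mem_ideal_span_monomial_image]
  simp [Finsupp.single_le_iff]

theorem mem2 {u : S3 K} {a0 a1 : ℕ} : u ∈ adj (adj ⊥ (X 0 ^ a0 : S3 K)) (X 1 ^ a1) ↔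
    ∀ m ∈ u.support, a0 ≤ m 0 ∨ a1 ≤ m 1 := by
  rw [bot_mono, X_pow_mono, X_pow_mono, adj_mono, adj_mono, mem_ideal_span_monomial_image]
  simp only [Set.mem_insert_iff, exists_eq_or_imp, Finsupp.single_le_iff]
  simp only [Set.mem_empty_iff_false, false_and, exists_false, or_false]
  exact forall₂_congr fun m _ => or_comm

theorem mem3 {u : S3 K} {a0 a1 a2 : ℕ} :
    u ∈ T3 (X 0 ^ a0 : S3 K) (X 1 ^ a1) (X 2 ^ a2) ↔
      ∀ m ∈ u.support, a0 ≤ m 0 ∨ a1 ≤ m 1 ∨ a2 ≤ m 2 := by
  rw [T3, bot_mono, X_pow_mono, X_pow_mono, X_pow_mono, adj_mono, adj_mono, adj_mono,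
    mem_ideal_span_monomial_image]
  simp only [Set.mem_insert_iff, exists_eq_or_imp, Finsupp.single_le_iff]
  simp only [Set.mem_empty_iff_false, false_and, exists_false, or_false]
  refine forall₂_congr fun m _ => ?_
  tauto

theorem support_shift {i : Fin 3} {n : ℕ} {u : S3 K} {m : Fin 3 →₀ ℕ} (hm : m ∈ u.support) :
    Finsupp.single i n + m ∈ (X i ^ n * u).support := by
  rw [mem_support_iff] at hm ⊢
  rw [X_pow_mono, coeff_monomial_mul, one_mul]
  exact hm

theorem rs_mono {a b c : ℕ} (ha : 1 ≤ a) (hb : 1 ≤ b) (hc : 1 ≤ c) :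
    RS (X 0 ^ a : S3 K) (X 1 ^ b) (X 2 ^ c) a b c where
  hu := isHomogeneous_X_pow _ _
  hv := isHomogeneous_X_pow _ _
  hw := isHomogeneous_X_pow _ _
  ha := ha
  hb := hb
  hc := hc
  u0 := pow_ne_zero _ (X_ne_zero _)
  nz1 := by
    intro u hu
    rw [mem1] at hu ⊢
    intro m hm
    have := hu _ (support_shift (i := 1) (n := b) hm)
    simpa using this
  nz2 := by
    intro u hu
    rw [mem2] at hu ⊢
    intro m hm
    have := hu _ (support_shift (i := 2) (n := c) hm)
    simpa using this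

theorem mem_antidiag {m : Fin 3 →₀ ℕ} {d : ℕ} :
    m ∈ Finset.finsuppAntidiag (Finset.univ : Finset (Fin 3)) d ↔ m 0 + m 1 + m 2 = d := by
  simp [Finset.mem_finsuppAntidiag, Fin.sum_univ_three]

open Classical in
/-- Dimension of a graded piece of the monomial ideal. -/
theorem finrank_mono_comp (a0 a1 a2 d : ℕ) :
    finrank K (comp (T3 (X 0 ^ a0 : S3 K) (X 1 ^ a1) (X 2 ^ a2)) d) =
      ((Finset.finsuppAntidiag (Finset.univ : Finset (Fin 3)) d).filter
        (fun m => a0 ≤ m 0 ∨ a1 ≤ m 1 ∨ a2 ≤ m 2)).card := by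
  have key : comp (T3 (X 0 ^ a0 : S3 K) (X 1 ^ a1) (X 2 ^ a2)) d = restrictSupport K
      (((Finset.finsuppAntidiag (Finset.univ : Finset (Fin 3)) d).filter
        (fun m => a0 ≤ m 0 ∨ a1 ≤ m 1 ∨ a2 ≤ m 2) : Finset (Fin 3 →₀ ℕ)) : Set (Fin 3 →₀ ℕ)) := by
    ext u
    rw [mem_comp, mem3, HH_eq_restrict, mem_restrictSupport_iff, mem_restrictSupport_iff]
    constructor
    · rintro ⟨h1, h2⟩ m hm
      simp only [Finset.mem_coe, Finset.mem_filter]
      exact ⟨h2 hm, h1 m hm⟩
    · intro h
      refine ⟨fun m hm => ?_, fun m hm => ?_⟩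
      · have := h hm
        simp only [Finset.mem_coe, Finset.mem_filter] at this
        exact this.2
      · have := h hm
        simp only [Finset.mem_coe, Finset.mem_filter] at this
        exact this.1
  rw [key]
  exact finrank_restrict _

/-- A monomial exponent from its exponents of `x`, `y`, `z`. -/
def expo (i j k : ℕ) : Fin 3 →₀ ℕ := Finsupp.equivFunOnFinite.symm ![i, j, k]

@[simp] theorem expo_0 (i j k : ℕ) : expo i j k 0 = i := rfl
@[simp] theorem expo_1 (i j k : ℕ) : expo i j k 1 = j := rfl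
@[simp] theorem expo_2 (i j k : ℕ) : expo i j k 2 = k := rfl

theorem expo_ext {m n : Fin 3 →₀ ℕ} (h0 : m 0 = n 0) (h1 : m 1 = n 1) (h2 : m 2 = n 2) : m = n := by
  ext i
  fin_cases i
  · exact h0
  · exact h1
  · exact h2

/-- Exponent pairs of the monomials of degree `d` outside the power ideal. -/
def BC (a b c d : ℕ) : Finset (ℕ × ℕ) :=
  ((Finset.range a) ×ˢ (Finset.range b)).filter (fun m => m.1 + m.2 ≤ d ∧ d < m.1 + m.2 + c)

theorem mem_BC {a b c d : ℕ} {m : ℕ × ℕ} :
    m ∈ BC a b c d ↔ m.1 < a ∧ m.2 < b ∧ m.1 + m.2 ≤ d ∧ d < m.1 + m.2 + c := by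
  simp [BC, and_assoc]

open Classical in
theorem card_out (a b c d : ℕ) :
    ((Finset.finsuppAntidiag (Finset.univ : Finset (Fin 3)) d).filter
      (fun m => ¬ (a ≤ m 0 ∨ b ≤ m 1 ∨ c ≤ m 2))).card = (BC a b c d).card := by
  apply Finset.card_bij (fun m _ => (m 0, m 1))
  · intro m hm
    rw [Finset.mem_filter, mem_antidiag] at hm
    rw [mem_BC]
    simp only
    omega
  · intro m hm n hn h
    rw [Finset.mem_filter, mem_antidiag] at hm hn
    simp only [Prod.mk.injEq] at h
    exact expo_ext h.1 h.2 (by omega)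
  · rintro ⟨i, j⟩ h
    rw [mem_BC] at h
    simp only at h
    refine ⟨expo i j (d - i - j), ?_, by simp⟩
    rw [Finset.mem_filter, mem_antidiag]
    simp only [expo_0, expo_1, expo_2]
    omega

/-- Monomial count. -/
theorem card_BC_add (a b c d : ℕ) :
    (BC a b c d).card + finrank K (comp (T3 (X 0 ^ a : S3 K) (X 1 ^ b) (X 2 ^ c)) d) = DD d := by
  classical
  rw [finrank_mono_comp, ← card_out, add_comm, Finset.card_filter_add_card_filter_not,
    Finset.card_finsuppAntidiag_nat_eq_choose, DD_eq_choose]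
  simp
  congr 1
  omega

/-- Smallest possible exponent of `y` given the sum of the exponents of `y` and `z`. -/
def ymin (c e : ℤ) : ℤ := max 0 (e - c + 1)

/-- The number of monomials below a given one. -/
def rk (b c d : ℤ) (m : ℕ × ℕ) : ℤ := PP b c m.1 d + ((m.2 : ℤ) - ymin c (d - m.1))

theorem rk_layer {a b c d : ℕ} {m : ℕ × ℕ} (hm : m ∈ BC a b c d) :
    0 ≤ (m.2 : ℤ) - ymin c ((d : ℤ) - m.1) ∧
      (m.2 : ℤ) - ymin c ((d : ℤ) - m.1) < eta b c ((d : ℤ) - m.1) := by
  rw [mem_BC] at hm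
  unfold ymin eta
  omega

/-- The rank function computes the position in lexicographic order. -/
theorem rank3 {a b c d : ℕ} (ha : 1 ≤ a) :
    ((BC a b c d).card : ℤ) = PP (b : ℤ) c a d ∧
      ∀ m ∈ BC a b c d, (((BC a b c d).filter (fun x => lexLE x m)).card : ℤ) = rk b c d m + 1 := by
  have hPP0 : 0 ≤ PP (b : ℤ) c a (d : ℤ) := Finset.sum_nonneg fun k _ => eta_nonneg _ _ _
  have hrk0 : ∀ m ∈ BC a b c d, 0 ≤ rk (b : ℤ) c d m := by
    intro m hm
    have h1 := (rk_layer hm).1
    have h2 : 0 ≤ PP (b : ℤ) c m.1 (d : ℤ) := Finset.sum_nonneg fun k _ => eta_nonneg _ _ _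
    unfold rk
    linarith
  have hrk1 : ∀ m ∈ BC a b c d, rk (b : ℤ) c d m < PP (b : ℤ) c (m.1 + 1) d := by
    intro m hm
    have h1 := (rk_layer hm).2
    rw [PP_succ]
    unfold rk
    linarith
  have hma : ∀ m ∈ BC a b c d, m.1 + 1 ≤ a := fun m hm => (mem_BC.1 hm).1
  have key := card_rank (BC a b c d) (fun m => (rk (b : ℤ) c d m + 1).toNat) (PP (b : ℤ) c a d).toNat
    (by
      intro m hm
      have h0 := hrk0 m hm
      have h1 := hrk1 m hm
      have h2 := PP_mono (b : ℤ) c (hma m hm) (d : ℤ)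
      omega)
    (by
      intro t ht1 ht2
      obtain ⟨a', rfl⟩ : ∃ a', a = a' + 1 := ⟨a - 1, by omega⟩
      have h1 : ((t : ℤ) - 1) < PP (b : ℤ) c (a' + 1) d := by omega
      obtain ⟨i, hi, s, hs0, hs, hst⟩ := exists_lay (by omega : 0 ≤ (t : ℤ) - 1) h1
      obtain ⟨y, hy⟩ : ∃ y : ℕ, (y : ℤ) = ymin c ((d : ℤ) - i) + s := by
        refine ⟨(ymin c ((d : ℤ) - i) + s).toNat, ?_⟩
        unfold ymin
        omega
      have hmem : (i, y) ∈ BC (a' + 1) b c d := by
        rw [mem_BC]
        simp only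
        unfold ymin at hy
        unfold eta at hs
        omega
      refine ⟨(i, y), hmem, ?_⟩
      simp only [rk]
      rw [hy]
      omega)
    (by
      intro x hx y hy
      have h0x := hrk0 x hx
      have h0y := hrk0 y hy
      have h1x := hrk1 x hx
      have h1y := hrk1 y hy
      simp only [lexLE]
      constructor
      · rintro (h | ⟨h1, h2⟩)
        · have h3 := PP_mono (b : ℤ) c (by omega : x.1 + 1 ≤ y.1) (d : ℤ)
          have h4 : PP (b : ℤ) c y.1 (d : ℤ) ≤ rk (b : ℤ) c d y := by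
            have := (rk_layer hy).1
            unfold rk
            linarith
          omega
        · have h3 : rk (b : ℤ) c d x ≤ rk (b : ℤ) c d y := by
            unfold rk
            rw [h1]
            have : (x.2 : ℤ) ≤ y.2 := by exact_mod_cast h2
            linarith
          omega
      · intro h
        by_cases h1 : x.1 < y.1
        · exact Or.inl h1
        · right
          by_cases h2 : y.1 < x.1
          · exfalso
            have h3 := PP_mono (b : ℤ) c (by omega : y.1 + 1 ≤ x.1) (d : ℤ)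
            have h4 : PP (b : ℤ) c x.1 (d : ℤ) ≤ rk (b : ℤ) c d x := by
              have := (rk_layer hx).1
              unfold rk
              linarith
            omega
          · have h3 : x.1 = y.1 := by omega
            refine ⟨h3, ?_⟩
            have h4 : rk (b : ℤ) c d x ≤ rk (b : ℤ) c d y := by omega
            unfold rk at h4
            rw [h3] at h4
            have h5 : (x.2 : ℤ) ≤ y.2 := by linarith
            exact_mod_cast h5)
  refine ⟨?_, ?_⟩
  · rw [key.1]
    omega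
  · intro m hm
    rw [key.2 m hm]
    have h0 := hrk0 m hm
    omega

/-- Rank from the bottom for the monomials outside the power ideal. -/
def trc (a b c d : ℕ) (m : ℕ × ℕ) : ℕ := ((BC a b c d).filter (fun x => lexLE x m)).card

theorem rk_step {a b c d : ℕ} {m m' : ℕ × ℕ} (hm : m ∈ BC a b c d) (hm' : m' ∈ BC a b c (d + 1))
    (hdvd : Dvd1 m m') :
    PP (b : ℤ) c m.1 ((d : ℤ) + 1) +
        max ((m.2 : ℤ) - ymin c ((d : ℤ) - m.1) - dl c ((d : ℤ) - m.1)) 0 ≤
      rk (b : ℤ) c ((d + 1 : ℕ) : ℤ) m' := by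
  have hl := rk_layer hm
  have hl' := rk_layer hm'
  rw [mem_BC] at hm hm'
  rcases hdvd with h0 | rfl | rfl
  · obtain rfl : m = m' := h0.symm
    unfold rk
    push_cast at hl' ⊢
    have h1 : (m.2 : ℤ) - ymin c ((d : ℤ) + 1 - m.1) = (m.2 : ℤ) - ymin c ((d : ℤ) - m.1) -
        dl c ((d : ℤ) - m.1) := by
      unfold ymin dl
      split_ifs <;> omega
    rw [h1] at hl' ⊢
    rw [max_eq_left hl'.1]
  · unfold rk
    simp only
    push_cast at hl' ⊢
    have h1 : (m.2 : ℤ) + 1 - ymin c ((d : ℤ) + 1 - m.1) = (m.2 : ℤ) - ymin c ((d : ℤ) - m.1) + 1 -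
        dl c ((d : ℤ) - m.1) := by
      unfold ymin dl
      split_ifs <;> omega
    rw [h1] at hl' ⊢
    have h2 := dl_nonneg (c : ℤ) ((d : ℤ) - m.1)
    have h3 : max ((m.2 : ℤ) - ymin c ((d : ℤ) - m.1) - dl c ((d : ℤ) - m.1)) 0 ≤
        (m.2 : ℤ) - ymin c ((d : ℤ) - m.1) + 1 - dl c ((d : ℤ) - m.1) := by
      apply max_le
      · omega
      · exact hl'.1
    linarith
  · unfold rk
    simp only
    rw [PP_succ]
    push_cast at hl' ⊢
    have h1 : (d : ℤ) + 1 - ((m.1 : ℤ) + 1) = (d : ℤ) - m.1 := by ring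
    rw [h1]
    have h2 := dl_nonneg (c : ℤ) ((d : ℤ) - m.1)
    have h3 := eta_nonneg (b : ℤ) c ((d : ℤ) + 1 - m.1)
    have h4 : max ((m.2 : ℤ) - ymin c ((d : ℤ) - m.1) - dl c ((d : ℤ) - m.1)) 0 ≤
        (m.2 : ℤ) - ymin c ((d : ℤ) - m.1) := by
      apply max_le
      · omega
      · exact hl.1
    linarith

/-- The lexicographic consequence of the growth bound. -/
theorem key_step {a b c d : ℕ} (ha : 1 ≤ a) (hb : 1 ≤ b) (hbc : b ≤ c) {H H' : ℤ} (hH : 0 ≤ H)
    (hB : Bd a (b : ℤ) (c : ℤ) (d : ℤ) H H') {m m' : ℕ × ℕ} (hm : m ∈ BC a b c d)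
    (hm' : m' ∈ BC a b c (d + 1)) (hdvd : Dvd1 m m') (hlt : H + 1 ≤ (trc a b c d m : ℤ)) :
    H' + 1 ≤ (trc a b c (d + 1) m' : ℤ) := by
  have hc : 1 ≤ c := by omega
  have hb1 : (1 : ℤ) ≤ b := by exact_mod_cast hb
  have hbc' : (b : ℤ) ≤ c := by exact_mod_cast hbc
  have h1 := (rank3 (b := b) (c := c) (d := d) ha).2 m hm
  have h2 := (rank3 (b := b) (c := c) (d := d + 1) ha).2 m' hm'
  change (trc a b c d m : ℤ) = _ at h1
  change (trc a b c (d + 1) m' : ℤ) = _ at h2
  rw [h1] at hlt
  rw [h2]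
  have hl := rk_layer hm
  have hma : m.1 + 1 ≤ a := (mem_BC.1 hm).1
  have hle : H ≤ PP (b : ℤ) c m.1 d + ((m.2 : ℤ) - ymin c ((d : ℤ) - m.1)) := by
    unfold rk at hlt
    linarith
  obtain ⟨a', rfl⟩ : ∃ a', a = a' + 1 := ⟨a - 1, by omega⟩
  have hlt2 : H < PP (b : ℤ) c (a' + 1) d := by
    have h3 := PP_mono (b : ℤ) c hma (d : ℤ)
    rw [PP_succ] at h3
    have h4 := hl.2
    linarith
  obtain ⟨i, hi, t, ht0, ht, hHt⟩ := exists_lay hH hlt2
  have h5 := hB i t (by omega) ht0 ht hHt
  have h6 := F_mono hb1 hbc' ht0 hl.2 ht (by rw [← hHt]; exact hle)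
  have h7 := rk_step hm hm' hdvd
  linarith

theorem adj_le {A Q : Ideal (S3 K)} {r : S3 K} (h : A ≤ Q) (hr : r ∈ Q) : adj A r ≤ Q := by
  unfold adj
  exact sup_le h ((Ideal.span_singleton_le_iff_mem _).2 hr)

theorem powerIdeal_eq (a b c : ℕ) :
    (powerIdeal (le_refl 3) ![a, b, c] : Ideal (S3 K)) = T3 (X 0 ^ a) (X 1 ^ b) (X 2 ^ c) := by
  apply le_antisymm
  · rw [powerIdeal, Ideal.span_le]
    rintro _ ⟨i, rfl⟩
    fin_cases i
    · exact le_adj _ _ (le_adj _ _ (self_mem_adj _ _))
    · exact le_adj _ _ (self_mem_adj _ _)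
    · exact self_mem_adj _ _
  · refine adj_le (adj_le (adj_le bot_le ?_) ?_) ?_
    · exact Ideal.subset_span ⟨0, rfl⟩
    · exact Ideal.subset_span ⟨1, rfl⟩
    · exact Ideal.subset_span ⟨2, rfl⟩

theorem mem_outside {a b c d : ℕ} {m : Fin 3 →₀ ℕ} :
    m ∈ outside (le_refl 3) ![a, b, c] d ↔ m 0 + m 1 + m 2 = d ∧ m 0 < a ∧ m 1 < b ∧ m 2 < c := by
  rw [outside, Finset.mem_filter, mem_antidiag]
  refine and_congr_right fun _ => ?_
  constructor
  · intro h
    exact ⟨h 0, h 1, h 2⟩
  · rintro ⟨h0, h1, h2⟩ i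
    fin_cases i
    · exact h0
    · exact h1
    · exact h2

/-- The exponents of `x` and `y`. -/
def toPair (m : Fin 3 →₀ ℕ) : ℕ × ℕ := (m 0, m 1)

theorem toPair_mem {a b c d : ℕ} {m : Fin 3 →₀ ℕ} (h : m ∈ outside (le_refl 3) ![a, b, c] d) :
    toPair m ∈ BC a b c d := by
  rw [mem_outside] at h
  rw [mem_BC, toPair]
  simp only
  omega

theorem of_same_degree {m n : Fin 3 →₀ ℕ} (h : m 0 + m 1 + m 2 = n 0 + n 1 + n 2)
    (h0 : m 0 = n 0) (h1 : m 1 = n 1) : m = n :=
  expo_ext h0 h1 (by omega)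

/-- The lexicographic order on monomials of one degree. -/
theorem toLex_le_iff {m n : Fin 3 →₀ ℕ} (h : m 0 + m 1 + m 2 = n 0 + n 1 + n 2) :
    toLex m ≤ toLex n ↔ lexLE (toPair m) (toPair n) := by
  rw [le_iff_lt_or_eq, Finsupp.Lex.lt_iff]
  simp only [lexLE, toPair]
  constructor
  · rintro (⟨i, hi1, hi2⟩ | h2)
    · have h3 : m i < n i := hi2
      fin_cases i
      · exact Or.inl h3
      · have h4 : m 0 = n 0 := hi1 0 (by decide)
        exact Or.inr ⟨h4, h3.le⟩
      · have h4 : m 0 = n 0 := hi1 0 (by decide)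
        have h5 : m 1 = n 1 := hi1 1 (by decide)
        have h6 : m 2 < n 2 := h3
        omega
    · have h3 : m = n := h2
      rw [h3]
      exact Or.inr ⟨rfl, le_rfl⟩
  · rintro (h2 | ⟨h2, h3⟩)
    · left
      refine ⟨0, ?_, h2⟩
      intro j hj
      exact absurd hj (Fin.not_lt_zero j)
    · rcases h3.lt_or_eq with h4 | h4
      · left
        refine ⟨1, ?_, h4⟩
        intro j hj
        have : j = 0 := by
          fin_cases j
          · rfl
          · exact absurd hj (by decide)
          · exact absurd hj (by decide)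
        rw [this]
        exact h2
      · right
        exact congrArg toLex (of_same_degree h h2 h4)

/-- Counting the elements above a given one. -/
theorem card_top {a b c d : ℕ} {m : Fin 3 →₀ ℕ} (hm : m ∈ outside (le_refl 3) ![a, b, c] d) :
    ((outside (le_refl 3) ![a, b, c] d).filter fun e' => toLex m ≤ toLex e').card =
      ((BC a b c d).filter fun x => lexLE (toPair m) x).card := by
  have hm' := mem_outside.1 hm
  apply Finset.card_bij (fun e _ => toPair e)
  · intro e he
    rw [Finset.mem_filter] at he ⊢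
    have he' := mem_outside.1 he.1
    refine ⟨toPair_mem he.1, (toLex_le_iff (by omega)).1 he.2⟩
  · intro e he e' he' h
    rw [Finset.mem_filter] at he he'
    have h1 := mem_outside.1 he.1
    have h2 := mem_outside.1 he'.1
    simp only [toPair, Prod.mk.injEq] at h
    exact of_same_degree (by omega) h.1 h.2
  · rintro ⟨i, j⟩ hx
    rw [Finset.mem_filter, mem_BC] at hx
    simp only at hx
    have hx2 := hx.1
    have hexp : expo i j (d - i - j) ∈ outside (le_refl 3) ![a, b, c] d := by
      rw [mem_outside]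
      simp only [expo_0, expo_1, expo_2]
      omega
    refine ⟨expo i j (d - i - j), ?_, rfl⟩
    rw [Finset.mem_filter]
    refine ⟨hexp, ?_⟩
    have hexp' := mem_outside.1 hexp
    exact (toLex_le_iff (by omega)).2 hx.2

/-- Rank from the top and rank from the bottom add up. -/
theorem trc_add_top {a b c d : ℕ} {m : ℕ × ℕ} (hm : m ∈ BC a b c d) :
    trc a b c d m + ((BC a b c d).filter (fun x => lexLE m x)).card = (BC a b c d).card + 1 := by
  unfold trc
  rw [← Finset.card_union_add_card_inter]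
  have h1 : (BC a b c d).filter (fun x => lexLE x m) ∪ (BC a b c d).filter (fun x => lexLE m x) =
      BC a b c d := by
    ext x
    simp only [Finset.mem_union, Finset.mem_filter]
    have := lexLE_total x m
    tauto
  have h2 : (BC a b c d).filter (fun x => lexLE x m) ∩ (BC a b c d).filter (fun x => lexLE m x) = {m} := by
    ext x
    simp only [Finset.mem_inter, Finset.mem_filter, Finset.mem_singleton]
    constructor
    · rintro ⟨⟨_, h3⟩, ⟨_, h4⟩⟩
      exact lexLE_antisymm h3 h4
    · rintro rfl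
      exact ⟨⟨hm, lexLE_refl _⟩, ⟨hm, lexLE_refl _⟩⟩
  rw [h1, h2]
  simp

theorem mem_lexTop_iff {a b c d q : ℕ} {m : Fin 3 →₀ ℕ} :
    m ∈ lexTop (outside (le_refl 3) ![a, b, c] d) q ↔
      m ∈ outside (le_refl 3) ![a, b, c] d ∧ (BC a b c d).card + 1 ≤ q + trc a b c d (toPair m) := by
  rw [lexTop, Finset.mem_filter]
  refine and_congr_right fun hm => ?_
  rw [card_top hm]
  have h1 := trc_add_top (toPair_mem hm)
  omega

/-- The number of monomials outside `P` splits as `b_d + q_d`. -/
theorem numbers {f p q : S3 K} {a b c : ℕ} (h : RS f p q a b c) {I : Ideal (S3 K)}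
    (hI : T3 f p q ≤ I) (d : ℕ) :
    (DD d - finrank K (comp I d)) +
      qNum (le_refl 3) ![a, b, c] I d = (BC a b c d).card := by
  have h1 := card_BC_add (K := K) a b c d
  have h2 := h.hf d
  have h2' := (rs_mono (K := K) h.ha h.hb h.hc).hf d
  have h2'' : finrank K (comp (T3 f p q) d) =
      finrank K (comp (T3 (X 0 ^ a : S3 K) (X 1 ^ b) (X 2 ^ c)) d) := by
    rw [← h2'] at h2
    omega
  have h3 := Submodule.finrank_mono (comp_mono hI d)
  have h4 := Submodule.finrank_mono (comp_le I d)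
  rw [finrank_HH] at h4
  have h5 : qNum (le_refl 3) ![a, b, c] I d =
      finrank K (comp I d) -
        finrank K (comp (T3 (X 0 ^ a : S3 K) (X 1 ^ b) (X 2 ^ c)) d) := by
    unfold qNum
    rw [powerIdeal_eq]
    rfl
  omega

/-- The graded pieces of an ideal form a truncated family. -/
theorem cfam_comp {f p q : S3 K} {I : Ideal (S3 K)} (hI : T3 f p q ≤ I) (D : ℕ) :
    CFam (T3 f p q) (fun j => comp I j) D := by
  refine ⟨⟨fun j _ => comp_le I j, ?_⟩, fun j _ => comp_mono hI j⟩
  intro j _ i u hu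
  obtain ⟨h1, h2⟩ := mem_comp.1 hu
  exact mem_comp.2 ⟨Ideal.mul_mem_left _ _ h1, mul_mem_HH (isHomogeneous_X K i) h2⟩

/-- Multiplication by a variable maps `J_d` into `J_(d+1)`. -/
theorem piece_step {f p q : S3 K} {a b c : ℕ} (h : RS f p q a b c) (hab : a ≤ b) (hbc : b ≤ c)
    {I : Ideal (S3 K)} (hI : T3 f p q ≤ I) (i : Fin 3) (d : ℕ) :
    lexPiece (le_refl 3) ![a, b, c] I d ≤
      (lexPiece (le_refl 3) ![a, b, c] I (d + 1)).comap (LinearMap.mulLeft K (X i)) := by
  have hB := growth_any h hab hbc d (fun j => comp I j) (cfam_comp hI (d + 1))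
  have hn := numbers h hI d
  have hn' := numbers h hI (d + 1)
  have hle := Submodule.finrank_mono (comp_le I d)
  have hle' := Submodule.finrank_mono (comp_le I (d + 1))
  rw [finrank_HH] at hle hle'
  have hH0 : 0 ≤ HW (fun j => comp I j) d := HW_nonneg (comp_le I d)
  apply sup_le
  · intro x hx
    rw [show gradedPiece (powerIdeal (le_refl 3) ![a, b, c] : Ideal (S3 K)) d =
      comp (powerIdeal (le_refl 3) ![a, b, c] : Ideal (S3 K)) d from rfl] at hx
    obtain ⟨h1, h2⟩ := mem_comp.1 hx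
    apply Submodule.mem_sup_left
    change X i * x ∈ comp _ _
    exact mem_comp.2 ⟨Ideal.mul_mem_left _ _ h1, mul_mem_HH (isHomogeneous_X K i) h2⟩
  · rw [Submodule.span_le]
    rintro _ ⟨m, hm, rfl⟩
    have hm1 : m ∈ lexTop (outside (le_refl 3) ![a, b, c] d)
        (qNum (le_refl 3) ![a, b, c] I d) := hm
    rw [mem_lexTop_iff] at hm1
    obtain ⟨hm2, hm3⟩ := hm1
    have hm4 := mem_outside.1 hm2
    have hX : X i * monomial m (1 : K) = monomial (Finsupp.single i 1 + m) (1 : K) := by
      rw [X, monomial_mul, one_mul]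
    simp only [SetLike.mem_coe, Submodule.mem_comap, LinearMap.mulLeft_apply]
    rw [hX]
    have hdeg : (Finsupp.single i 1 + m : Fin 3 →₀ ℕ) 0 + (Finsupp.single i 1 + m : Fin 3 →₀ ℕ) 1 +
        (Finsupp.single i 1 + m : Fin 3 →₀ ℕ) 2 = d + 1 := by
      fin_cases i <;> simp <;> omega
    by_cases hout : Finsupp.single i 1 + m ∈ outside (le_refl 3) ![a, b, c] (d + 1)
    · apply Submodule.mem_sup_right
      apply Submodule.subset_span
      refine ⟨_, ?_, rfl⟩
      change _ ∈ lexTop _ _
      rw [mem_lexTop_iff]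
      refine ⟨hout, ?_⟩
      have hdvd : Dvd1 (toPair m) (toPair (Finsupp.single i 1 + m)) := by
        fin_cases i
        · right; right
          simp [toPair]
          omega
        · right; left
          simp [toPair]
          omega
        · left
          simp [toPair]
      have hk := key_step h.ha h.hb hbc hH0 hB (toPair_mem hm2) (toPair_mem hout) hdvd (by
        have e1 : HW (fun j => comp I j) d = (DD d : ℤ) - finrank K (comp I d) := rfl
        rw [e1]
        omega)
      have e2 : HW (fun j => comp I j) (d + 1) = (DD (d + 1) : ℤ) - finrank K (comp I (d + 1)) := rfl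
      rw [e2] at hk
      omega
    · apply Submodule.mem_sup_left
      change _ ∈ comp _ _
      rw [powerIdeal_eq]
      refine mem_comp.2 ⟨?_, ?_⟩
      · rw [mem3]
        intro m' hm'
        have hm'' := support_monomial_subset hm'
        rw [Finset.mem_singleton] at hm''
        rw [hm'']
        by_contra hcon
        apply hout
        rw [mem_outside]
        omega
      · apply isHomogeneous_monomial
        rw [Finsupp.degree_eq_sum, Fin.sum_univ_three]
        exact hdeg

/-- A subspace stable under variables is stable under all polynomials. -/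
theorem mul_mem_of_X {J : Submodule K (S3 K)} (hX : ∀ i, ∀ x ∈ J, X i * x ∈ J) (c : S3 K) :
    ∀ x ∈ J, c * x ∈ J := by
  induction c using MvPolynomial.induction_on with
  | C k =>
    intro x hx
    rw [← smul_eq_C_mul]
    exact J.smul_mem k hx
  | add p q hp hq =>
    intro x hx
    rw [add_mul]
    exact J.add_mem (hp x hx) (hq x hx)
  | mul_X p i hp =>
    intro x hx
    rw [mul_assoc]
    exact hp _ (hX i x hx)

/-- The main theorem: the lex-plus-powers subspace is an ideal, for all degrees. -/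
theorem lexPlusPowers_ideal3 (a b c : ℕ) (ha : 1 ≤ a) (hab : a ≤ b) (hbc : b ≤ c)
    (f : Fin 3 → S3 K) (hf : ∀ i, (f i).IsHomogeneous (![a, b, c] i)) (hreg : IsRegularSeq f)
    (I : Ideal (S3 K)) (hfI : ∀ i, f i ∈ I) :
    ∃ J : Ideal (S3 K), J.restrictScalars K = lexPlusPowers (le_refl 3) ![a, b, c] I := by
  have hf0 : f 0 ≠ 0 := by
    intro h0
    have h1 := hreg 0 1 (by
      rw [h0, zero_mul]
      exact Ideal.zero_mem _)
    have h2 : f '' {j | j < (0 : Fin 3)} = ∅ := by
      ext x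
      simp
    rw [h2, Ideal.span_empty] at h1
    simp at h1
  have T : RS (f 0) (f 1) (f 2) a b c := by
    refine ⟨hf 0, hf 1, hf 2, ha, by omega, by omega, hf0, ?_, ?_⟩
    · have h2 : f '' {j | j < (1 : Fin 3)} = {f 0} := by
        ext x
        simp only [Set.mem_image, Set.mem_ofPred_eq, Set.mem_singleton_iff]
        constructor
        · rintro ⟨j, hj, rfl⟩
          have : j = 0 := by
            fin_cases j
            · rfl
            · exact absurd hj (by decide)
            · exact absurd hj (by decide)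
          rw [this]
        · rintro rfl
          exact ⟨0, by decide, rfl⟩
      intro u hu
      have h3 := hreg 1 u (by
        rw [h2]
        rw [adj, bot_sup_eq] at hu
        exact hu)
      rw [h2] at h3
      rw [adj, bot_sup_eq]
      exact h3
    · have h2 : f '' {j | j < (2 : Fin 3)} = {f 0, f 1} := by
        ext x
        simp only [Set.mem_image, Set.mem_ofPred_eq, Set.mem_insert_iff, Set.mem_singleton_iff]
        constructor
        · rintro ⟨j, hj, rfl⟩
          fin_cases j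
          · exact Or.inl rfl
          · exact Or.inr rfl
          · exact absurd hj (by decide)
        · rintro (rfl | rfl)
          · exact ⟨0, by decide, rfl⟩
          · exact ⟨1, by decide, rfl⟩
      have h4 : Ideal.span (f '' {j | j < (2 : Fin 3)}) = adj (adj ⊥ (f 0)) (f 1) := by
        rw [h2, Ideal.span_insert]
        unfold adj
        rw [bot_sup_eq]
      intro u hu
      have h3 := hreg 2 u (by rw [h4]; exact hu)
      rwa [h4] at h3
  have hI : T3 (f 0) (f 1) (f 2) ≤ I := adj_le (adj_le (adj_le bot_le (hfI 0)) (hfI 1)) (hfI 2)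
  have hX : ∀ i, ∀ x ∈ lexPlusPowers (le_refl 3) ![a, b, c] I,
      X i * x ∈ lexPlusPowers (le_refl 3) ![a, b, c] I := by
    intro i x hx
    refine Submodule.iSup_induction (motive := fun x =>
      X i * x ∈ lexPlusPowers (le_refl 3) ![a, b, c] I) _ hx ?_ ?_ ?_
    · intro d y hy
      exact Submodule.mem_iSup_of_mem (d + 1) (piece_step T hab hbc hI i d hy)
    · rw [mul_zero]
      exact Submodule.zero_mem _
    · intro y z hy hz
      rw [mul_add]
      exact Submodule.add_mem _ hy hz
  refine ⟨{ carrier := lexPlusPowers (le_refl 3) ![a, b, c] I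
            add_mem' := fun ha hb => Submodule.add_mem _ ha hb
            zero_mem' := Submodule.zero_mem _
            smul_mem' := fun c x hx => mul_mem_of_X hX c x hx }, ?_⟩
  ext x
  rfl

end Vale.Agent.Lib.P200
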