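import Vale.Agent.Lib.P200.Factor

/-!
Growth of subspaces of forms modulo one form of degree at most three.
-/

noncomputable section

namespace Vale.Agent.Lib.P200

open MvPolynomial Module

variable {K : Type*} [Field K]

theorem one_not_mem_adj {A : Ideal (S3 K)} (hA : HomIdeal A) (h1 : (1 : S3 K) ∉ A) {c : ℕ}
    {r : S3 K} (hr : r ∈ HH K c) (hc : 1 ≤ c) : (1 : S3 K) ∉ adj A r := by
  intro h
  rcases mem_adj_hom hA hr (isHomogeneous_one (Fin 3) K) h with ⟨-, h2⟩ | ⟨e, he, -⟩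
  · exact h1 h2
  · omega

theorem one_not_mem_bot : (1 : S3 K) ∉ (⊥ : Ideal (S3 K)) := by
  simp

theorem ne_zero_of_nz {A : Ideal (S3 K)} (h1 : (1 : S3 K) ∉ A) {g : S3 K} (hg : NZ A g) : g ≠ 0 := by
  rintro rfl
  exact h1 (hg 1 (by simp))

theorem dim1 {f : S3 K} (hf : f ∈ HH K 1) (hf0 : f ≠ 0) (m : ℕ) :
    finrank K (comp (adj ⊥ f) m) + m + 1 = DD m := by
  cases m with
  | zero =>
    rw [finrank_comp_prin_lt hf (by omega)]
    simp [DD]
  | succ e =>
    rw [finrank_comp_prin hf hf0, DD_succ]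
    omega

theorem dim2 {f : S3 K} (hf : f ∈ HH K 2) (hf0 : f ≠ 0) (m : ℕ) :
    finrank K (comp (adj ⊥ f) m) + 2 * m + 1 = DD m := by
  match m with
  | 0 =>
    rw [finrank_comp_prin_lt hf (by omega)]
    simp [DD]
  | 1 =>
    rw [finrank_comp_prin_lt hf (by omega)]
    simp [DD]
  | e + 2 =>
    rw [finrank_comp_prin hf hf0, DD_succ, DD_succ]
    omega

theorem dim3 {f : S3 K} (hf : f ∈ HH K 3) (hf0 : f ≠ 0) (m : ℕ) (hm : 1 ≤ m) :
    finrank K (comp (adj ⊥ f) m) + 3 * m = DD m := by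
  match m, hm with
  | 1, _ =>
    rw [finrank_comp_prin_lt hf (by omega)]
    simp [DD]
  | 2, _ =>
    rw [finrank_comp_prin_lt hf (by omega)]
    simp [DD]
  | e + 3, _ =>
    rw [finrank_comp_prin hf hf0, DD_succ, DD_succ, DD_succ]
    omega

theorem DD_one : DD 1 = 3 := rfl
theorem DD_zero : DD 0 = 1 := rfl

/-- The inequality computed relative to an ideal `A`. -/
def GR (A : Ideal (S3 K)) (d : ℕ) (W : Submodule K (S3 K)) (k : ℕ) : Prop :=
  finrank K W + finrank K (comp A (d + 1)) + k ≤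
    finrank K ↥(HH K 1 * W ⊔ comp A (d + 1)) + finrank K (comp A d)

/-- Data of the ideal obtained by adjoining a nonzerodivisor from `W`. -/
theorem nzd_facts {f g : S3 K} {c d : ℕ} {W : Submodule K (S3 K)} (hf : f ∈ HH K c) (hc : 1 ≤ c)
    (hf0 : f ≠ 0) (h1 : comp (adj ⊥ f) d ≤ W) (h2 : W ≤ HH K d) (hgW : g ∈ W)
    (hg : NZ (adj ⊥ f) g) :
    comp (adj (adj ⊥ f) g) d ≤ W ∧
    finrank K (comp (adj (adj ⊥ f) g) d) = finrank K (comp (adj ⊥ f) d) + 1 ∧
    finrank K (comp (adj (adj ⊥ f) g) (d + 1)) + finrank K (comp (adj ⊥ f) 1) =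
      finrank K (comp (adj ⊥ f) (d + 1)) + 3 ∧
    HH K 1 * W ⊔ comp (adj (adj ⊥ f) g) (d + 1) = HH K 1 * W ⊔ comp (adj ⊥ f) (d + 1) := by
  have hA : HomIdeal (adj ⊥ f) := homIdeal_adj homIdeal_bot hf
  have hone : (1 : S3 K) ∉ adj ⊥ f := one_not_mem_adj homIdeal_bot one_not_mem_bot hf hc
  have hg0 : g ≠ 0 := ne_zero_of_nz hone hg
  have hgd : g ∈ HH K d := h2 hgW
  have e0 : comp (adj (adj ⊥ f) g) d = comp (adj ⊥ f) d ⊔ (HH K 0).map (LinearMap.mulLeft K g) := by
    have := comp_adj_eq (e := 0) hA hgd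
    rwa [zero_add] at this
  have e1 : comp (adj (adj ⊥ f) g) (d + 1) =
      comp (adj ⊥ f) (d + 1) ⊔ (HH K 1).map (LinearMap.mulLeft K g) := by
    have := comp_adj_eq (e := 1) hA hgd
    rwa [add_comm] at this
  refine ⟨?_, ?_, ?_, ?_⟩
  · rw [e0]
    apply sup_le h1
    intro u hu
    obtain ⟨v, hv, rfl⟩ := mem_map_mul.1 hu
    obtain ⟨k, rfl⟩ := const_of_HH0 hv
    rw [mul_comm, ← smul_eq_C_mul]
    exact W.smul_mem k hgW
  · have := finrank_comp_adj (e := 0) hA hgd hg0 hg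
    rw [finrank_comp_prin_lt hf (by omega), zero_add, DD_zero] at this
    omega
  · have := finrank_comp_adj (e := 1) hA hgd hg0 hg
    rw [DD_one, add_comm 1 d] at this
    exact this
  · apply le_antisymm
    · apply sup_le le_sup_left
      rw [e1]
      apply sup_le le_sup_right
      apply le_trans _ le_sup_left
      intro u hu
      obtain ⟨v, hv, rfl⟩ := mem_map_mul.1 hu
      rw [mul_comm g v]
      exact Submodule.mul_mem_mul hv hgW
    · exact sup_le_sup_left (comp_mono (le_adj _ _) _) _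

/-- Relative growth in the presence of a nonzerodivisor. -/
theorem nzd_E0 [Infinite K] {f g : S3 K} {c d : ℕ} {W : Submodule K (S3 K)} (hf : f ∈ HH K c)
    (hc : 1 ≤ c) (hf0 : f ≠ 0) (h1 : comp (adj ⊥ f) d ≤ W) (h2 : W ≤ HH K d) (hgW : g ∈ W)
    (hg : NZ (adj ⊥ f) g) :
    finrank K W + finrank K (comp (adj ⊥ f) (d + 1)) + 2 ≤
      finrank K ↥(HH K 1 * W ⊔ comp (adj ⊥ f) (d + 1)) + finrank K (comp (adj ⊥ f) d) +
        finrank K (comp (adj ⊥ f) 1) := by
  obtain ⟨h3, h4, h5, h6⟩ := nzd_facts hf hc hf0 h1 h2 hgW hg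
  obtain ⟨l, hl, hl1⟩ := exists_linear hf hf0 hg
  have h7 := E0 hl hl1 h3 h2
  rw [h6] at h7
  omega

/-- Strict relative growth in the presence of a nonzerodivisor, for a cubic. -/
theorem nzd_E1 [Infinite K] {f g : S3 K} {d : ℕ} {W : Submodule K (S3 K)} (hf : f ∈ HH K 3)
    (hf0 : f ≠ 0) (hd : 1 ≤ d) (h1 : comp (adj ⊥ f) d ≤ W) (h2 : W ≤ HH K d) (hgW : g ∈ W)
    (hg : NZ (adj ⊥ f) g) (hw : finrank K (comp (adj ⊥ f) d) + 2 ≤ finrank K W) :
    GR (adj ⊥ f) d W 3 := by
  obtain ⟨h3, h4, h5, h6⟩ := nzd_facts hf (by omega) hf0 h1 h2 hgW hg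
  obtain ⟨l, hl, hl1⟩ := exists_linear hf hf0 hg
  have hC : HomIdeal (adj (adj ⊥ f) g) := homIdeal_adj (homIdeal_adj homIdeal_bot hf) (h2 hgW)
  have hne : ∃ w ∈ W, w ∉ adj (adj ⊥ f) g := by
    by_contra hcon
    push Not at hcon
    have h7 : W ≤ comp (adj (adj ⊥ f) g) d := fun w hw => mem_comp.2 ⟨hcon w hw, h2 hw⟩
    have := Submodule.finrank_mono h7
    omega
  have hsoc : ∀ e ≤ d, ∀ u ∈ HH K e, (∀ i, X i * u ∈ adj (adj (adj ⊥ f) g) l) →
      u ∈ adj (adj (adj ⊥ f) g) l := by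
    intro e he u hu hX
    by_contra hnot
    have := socle_reg hf (h2 hgW) hl (by omega) hd hf0 hg hl1 e u hu hX hnot
    omega
  have h7 := E1 hC hl hl1 h3 h2 hne hsoc
  rw [h6] at h7
  have h8 : finrank K (comp (adj ⊥ f) 1) = 0 := finrank_comp_prin_lt hf (by omega)
  unfold GR
  omega

/-- The growth theorem. -/
theorem growthT [Infinite K] : ∀ (c : ℕ), 1 ≤ c → c ≤ 3 → ∀ (f : S3 K), f ∈ HH K c → f ≠ 0 →
    ∀ (d : ℕ) (W : Submodule K (S3 K)), comp (adj ⊥ f) d ≤ W → W ≤ HH K d →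
    finrank K (comp (adj ⊥ f) d) + 1 ≤ finrank K W →
    GR (adj ⊥ f) d W 1 ∧
    (2 ≤ c → d + 3 + finrank K (comp (adj ⊥ f) d) ≤ finrank K W + c → GR (adj ⊥ f) d W 2) ∧
    (3 ≤ c → 1 ≤ d → 2 * d + finrank K (comp (adj ⊥ f) d) ≤ finrank K W → GR (adj ⊥ f) d W 3) := by
  intro c
  induction c using Nat.strong_induction_on with
  | _ c ih =>
    intro hc1 hc3 f hf hf0 d W h1 h2 hw
    rcases dichotomy (adj ⊥ f) W with ⟨g, hgW, hg⟩ | ⟨u, hu, hann⟩
    · have h3 := nzd_E0 hf hc1 hf0 h1 h2 hgW hg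
      have hf1 : finrank K (comp (adj ⊥ f) 1) ≤ 1 := by
        by_cases hc : c = 1
        · subst hc
          have := dim1 hf hf0 1
          rw [DD_one] at this
          omega
        · rw [finrank_comp_prin_lt hf (by omega)]
          omega
      have hf2 : 2 ≤ c → finrank K (comp (adj ⊥ f) 1) = 0 := fun hc =>
        finrank_comp_prin_lt hf (by omega)
      unfold GR
      refine ⟨by omega, ?_, ?_⟩
      · intro hc _
        have := hf2 hc
        omega
      · intro hc hd hw2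
        have hc' : c = 3 := by omega
        subst hc'
        exact nzd_E1 hf hf0 hd h1 h2 hgW hg (by omega)
    · have hnd : ¬ f ∣ u := fun h => hu (mem_prin.2 h)
      obtain ⟨f1, f0, c1, c0, rfl, hf1, hf00, hcc, hc11, hdiv⟩ :=
        ann_factor hf hf0 hnd (fun w hw => mem_prin.1 (hann w hw))
      have hf10 : f1 ≠ 0 := left_ne_zero_of_mul hf0
      have hf000 : f0 ≠ 0 := right_ne_zero_of_mul hf0
      have hex : ∃ w ∈ W, w ≠ 0 := by
        by_contra hcon
        push Not at hcon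
        have h3 : W = ⊥ := by
          rw [eq_bot_iff]
          intro w hw
          exact hcon w hw
        rw [h3] at hw
        simp at hw
      obtain ⟨d0, W0, rfl, h3, h4, h5, h6⟩ := ann_reduce hf1 hf10 hex h1 h2 hdiv
      have e1 := finrank_comp_prin_mul (f0 := f0) (d0 := d0) hf1 hf10
      have e2 := finrank_comp_prin_mul (f0 := f0) (d0 := d0 + 1) hf1 hf10
      rw [show d0 + 1 + c1 = d0 + c1 + 1 by omega] at e2
      have hc00 : 1 ≤ c0 := by
        by_contra hc0
        have hc0' : c0 = 0 := by omega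
        subst hc0'
        obtain ⟨k, rfl⟩ := const_of_HH0 hf00
        have hk : k ≠ 0 := by
          rintro rfl
          simp at hf000
        have h7 : W0 ≤ comp (adj ⊥ (C k)) d0 := by
          intro v hv
          refine mem_comp.2 ⟨mem_prin.2 ⟨C k⁻¹ * v, ?_⟩, h4 hv⟩
          have : C k * C k⁻¹ = (1 : S3 K) := by
            rw [← C_mul, mul_inv_cancel₀ hk, C_1]
          linear_combination (-v) * this
        have := Submodule.finrank_mono h7
        omega
      obtain ⟨a0, b0, -⟩ := ih c0 (by omega) hc00 (by omega) f0 hf00 hf000 d0 W0 h3 h4 (by omega)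
      unfold GR at a0 b0 ⊢
      have h8 := Submodule.finrank_mono h4
      rw [finrank_HH] at h8
      refine ⟨by omega, ?_, ?_⟩
      · intro hc hle
        by_cases hc01 : c0 = 1
        · subst hc01
          have := dim1 hf00 hf000 d0
          omega
        · have hc02 : c0 = 2 := by omega
          subst hc02
          have := b0 le_rfl (by omega)
          omega
      · intro hc hd hle
        by_cases hc01 : c0 = 1
        · subst hc01
          have := dim1 hf00 hf000 d0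
          omega
        · have hc02 : c0 = 2 := by omega
          subst hc02
          have := dim2 hf00 hf000 d0
          omega

end Vale.Agent.Lib.P200
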