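import Mathlib.LinearAlgebra.Matrix.Adjugate
import Mathlib.LinearAlgebra.Matrix.ToLinearEquiv
import Mathlib.RingTheory.Ideal.Span
import Mathlib.Tactic.LinearCombination

/-!
A determinantal lemma of Hilbert-Burch type over a domain.
-/

noncomputable section

namespace Vale.Agent.Lib.P200

open Matrix

variable {R : Type*} [CommRing R] [IsDomain R] {κ N : Type*} [Fintype κ] [Fintype N]
  [DecidableEq κ] [DecidableEq N]

/-- Splitting a sum over `N` along two distinguished indices. -/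
theorem sum_split {f₀ n₁ : N} (hne : f₀ ≠ n₁) (e : κ ≃ {n // n ≠ f₀ ∧ n ≠ n₁}) (φ : N → R) :
    ∑ n, φ n = φ f₀ + φ n₁ + ∑ k, φ (e k).1 := by
  have h1 : ∑ k, φ (e k).1 = ∑ x : {n // n ≠ f₀ ∧ n ≠ n₁}, φ x.1 :=
    Equiv.sum_comp e (fun x : {n // n ≠ f₀ ∧ n ≠ n₁} => φ x.1)
  rw [h1]
  have h2 : ∑ x : {n // n ≠ f₀ ∧ n ≠ n₁}, φ x.1 = ∑ n ∈ Finset.univ.filter (fun n => n ≠ f₀ ∧ n ≠ n₁), φ n := by
    exact (Finset.sum_subtype (Finset.univ.filter (fun n => n ≠ f₀ ∧ n ≠ n₁)) (fun x => by simp) φ).symm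
  rw [h2]
  have h3 : (Finset.univ : Finset N) =
      insert f₀ (insert n₁ (Finset.univ.filter (fun n => n ≠ f₀ ∧ n ≠ n₁))) := by
    ext n
    simp only [Finset.mem_univ, Finset.mem_insert, Finset.mem_filter, true_and, true_iff]
    tauto
  conv_lhs => rw [h3]
  rw [Finset.sum_insert, Finset.sum_insert, add_assoc]
  · simp
  · simp [hne]

variable {f₀ p₀ q₀ n₁ : N}

/-- The square part of a rectangular matrix. -/
def bSq (e : κ ≃ {n // n ≠ f₀ ∧ n ≠ n₁}) (L : Matrix κ N R) : Matrix κ κ R :=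
  fun k k' => L k (e k').1

theorem dvd_det (hne : f₀ ≠ n₁) (e : κ ≃ {n // n ≠ f₀ ∧ n ≠ n₁}) (L : Matrix κ N R) (g ν : N → R)
    (hLg : ∀ k, ∑ n, L k n * g n = 0) (hLν : ∀ k, ∑ n, L k n * ν n = 0)
    (hνf : ν f₀ = 0) (hνp : ν p₀ = 0) (hp1 : p₀ ≠ f₀) (hp2 : p₀ ≠ n₁) (hν : ν n₁ ≠ 0)
    (hp : ∀ u, g f₀ ∣ g p₀ * u → g f₀ ∣ u) : g f₀ ∣ (bSq e L).det := by
  set B := bSq e L with hB
  let g2 : κ → R := fun k => ν n₁ * g (e k).1 - g n₁ * ν (e k).1
  let Lf : κ → R := fun k => L k f₀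
  have h1 : B *ᵥ g2 = (-(ν n₁ * g f₀)) • Lf := by
    ext k
    have h2 := hLg k
    have h3 := hLν k
    rw [sum_split hne e] at h2 h3
    simp only [hνf, mul_zero, zero_add] at h3
    simp only [mulVec, dotProduct, Pi.smul_apply, smul_eq_mul, B, bSq, g2, Lf, mul_sub, Finset.sum_sub_distrib]
    have h4 : ∑ x, L k (e x).1 * (ν n₁ * g (e x).1) = ν n₁ * ∑ x, L k (e x).1 * g (e x).1 := by
      rw [Finset.mul_sum]
      exact Finset.sum_congr rfl fun _ _ => by ring
    have h5 : ∑ x, L k (e x).1 * (g n₁ * ν (e x).1) = g n₁ * ∑ x, L k (e x).1 * ν (e x).1 := by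
      rw [Finset.mul_sum]
      exact Finset.sum_congr rfl fun _ _ => by ring
    rw [h4, h5]
    linear_combination ν n₁ * h2 - g n₁ * h3
  have h2 : B.det • g2 = (-(ν n₁ * g f₀)) • (B.adjugate *ᵥ Lf) := by
    have h3 := congrArg (fun v => B.adjugate *ᵥ v) h1
    simp only [mulVec_mulVec, adjugate_mul, smul_mulVec, one_mulVec, mulVec_smul] at h3
    exact h3
  let kp : κ := e.symm ⟨p₀, hp1, hp2⟩
  have h3 : ((e kp).1 : N) = p₀ := by simp [kp]
  have h4 := congrFun h2 kp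
  simp only [Pi.smul_apply, smul_eq_mul, g2, h3, hνp, mul_zero, sub_zero] at h4
  have h5 : g p₀ * B.det = g f₀ * (-(B.adjugate *ᵥ Lf) kp) := by
    apply mul_left_cancel₀ hν
    linear_combination h4
  exact hp _ ⟨_, h5⟩

/-- The row span contains multiples of every syzygy orthogonal to `ν`, when the determinant is
a multiple of the first generator. -/
theorem solve_row (hne : f₀ ≠ n₁) (e : κ ≃ {n // n ≠ f₀ ∧ n ≠ n₁}) (T : Matrix κ N R) (g ν : N → R)
    (hTg : ∀ k, ∑ n, T k n * g n = 0) (hTν : ∀ k, ∑ n, T k n * ν n = 0)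
    (hνf : ν f₀ = 0) (hνp : ν p₀ = 0) (hp1 : p₀ ≠ f₀) (hp2 : p₀ ≠ n₁) (hν : ν n₁ ≠ 0)
    (hf : g f₀ ≠ 0) (hp : ∀ u, g f₀ ∣ g p₀ * u → g f₀ ∣ u) {P : R}
    (hP : (bSq e T).det = g f₀ * P) (σ : N → R) (hσg : ∑ n, σ n * g n = 0)
    (hσν : ∑ n, σ n * ν n = 0) : ∃ ζ : κ → R, ∀ n, ∑ k, ζ k * T k n = P * σ n := by
  set B := bSq e T with hB
  let s : κ → R := fun k => σ (e k).1
  have hdvd : ∀ k, g f₀ ∣ (B.updateRow k s).det := by
    intro k
    have h1 : B.updateRow k s = bSq e (T.updateRow k σ) := by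
      ext i j
      by_cases hi : i = k
      · subst hi
        simp [B, bSq, s]
      · simp [B, bSq, hi, updateRow_ne]
    rw [h1]
    apply dvd_det hne e _ g ν _ _ hνf hνp hp1 hp2 hν hp
    · intro i
      by_cases hi : i = k
      · subst hi
        simpa using hσg
      · simpa [updateRow_ne hi] using hTg i
    · intro i
      by_cases hi : i = k
      · subst hi
        simpa using hσν
      · simpa [updateRow_ne hi] using hTν i
  choose ζ hζ using hdvd
  have h2 : (fun k => (B.updateRow k s).det) = s ᵥ* B.adjugate := by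
    ext k
    have h3 : (B.updateRow k s).det = cramer Bᵀ s k := by
      rw [cramer_apply, ← det_transpose]
      congr 1
      ext i j
      simp [updateCol_apply, updateRow_apply]
    rw [h3, cramer_eq_adjugate_mulVec, ← adjugate_transpose, mulVec_transpose]
  have h3 : (fun k => (B.updateRow k s).det) ᵥ* B = B.det • s := by
    rw [h2, vecMul_vecMul, adjugate_mul, vecMul_smul, vecMul_one]
  have h4 : ζ ᵥ* B = P • s := by
    ext k'
    have h5 := congrFun h3 k'
    simp only [vecMul, dotProduct, Pi.smul_apply, smul_eq_mul, hζ] at h5 ⊢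
    apply mul_left_cancel₀ hf
    rw [Finset.mul_sum]
    calc ∑ i, g f₀ * (ζ i * B i k') = ∑ i, g f₀ * ζ i * B i k' :=
          Finset.sum_congr rfl fun _ _ => by ring
      _ = B.det * s k' := h5
      _ = g f₀ * (P * s k') := by rw [hP]; ring
  refine ⟨ζ, ?_⟩
  let z : N → R := fun n => ∑ k, ζ k * T k n - P * σ n
  have hz1 : ∀ k', z (e k').1 = 0 := by
    intro k'
    have h5 := congrFun h4 k'
    simp only [vecMul, dotProduct, Pi.smul_apply, smul_eq_mul, B, bSq, s] at h5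
    simp only [z, h5, sub_self]
  have hz2 : ∑ n, z n * g n = 0 := by
    simp only [z, sub_mul, Finset.sum_sub_distrib, Finset.sum_mul]
    rw [Finset.sum_comm]
    have h6 : ∑ y, ∑ x, ζ y * T y x * g x = 0 := by
      apply Finset.sum_eq_zero
      intro y _
      simp only [mul_assoc]
      rw [← Finset.mul_sum, hTg y, mul_zero]
    rw [h6]
    have h7 : ∑ x, P * σ x * g x = P * ∑ x, σ x * g x := by
      rw [Finset.mul_sum]
      exact Finset.sum_congr rfl fun _ _ => by ring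
    rw [h7, hσg]
    ring
  have hz3 : ∑ n, z n * ν n = 0 := by
    simp only [z, sub_mul, Finset.sum_sub_distrib, Finset.sum_mul]
    rw [Finset.sum_comm]
    have h6 : ∑ y, ∑ x, ζ y * T y x * ν x = 0 := by
      apply Finset.sum_eq_zero
      intro y _
      simp only [mul_assoc]
      rw [← Finset.mul_sum, hTν y, mul_zero]
    rw [h6]
    have h7 : ∑ x, P * σ x * ν x = P * ∑ x, σ x * ν x := by
      rw [Finset.mul_sum]
      exact Finset.sum_congr rfl fun _ _ => by ring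
    rw [h7, hσν]
    ring
  rw [sum_split hne e] at hz2 hz3
  simp only [hz1, zero_mul, Finset.sum_const_zero, add_zero, hνf, mul_zero, zero_add] at hz2 hz3
  have h8 : z n₁ = 0 := by
    rcases mul_eq_zero.1 hz3 with h | h
    · exact h
    · exact absurd h hν
  rw [h8, zero_mul, add_zero] at hz2
  have h9 : z f₀ = 0 := by
    rcases mul_eq_zero.1 hz2 with h | h
    · exact h
    · exact absurd h hf
  intro n
  have h10 : z n = 0 := by
    by_cases hn1 : n = f₀
    · rw [hn1]; exact h9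
    by_cases hn2 : n = n₁
    · rw [hn2]; exact h8
    have := hz1 (e.symm ⟨n, hn1, hn2⟩)
    simpa using this
  simp only [z] at h10
  exact sub_eq_zero.1 h10

/-- The determinant of the square part does not vanish. -/
theorem det_ne (hne : f₀ ≠ n₁) (e : κ ≃ {n // n ≠ f₀ ∧ n ≠ n₁}) (T : Matrix κ N R) (g ν : N → R)
    (hTg : ∀ k, ∑ n, T k n * g n = 0) (hTν : ∀ k, ∑ n, T k n * ν n = 0)
    (hinj : ∀ y : κ → R, (∀ n, ∑ k, y k * T k n = 0) → y = 0)
    (hνf : ν f₀ = 0) (hν : ν n₁ ≠ 0) (hf : g f₀ ≠ 0) : (bSq e T).det ≠ 0 := by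
  intro h0
  obtain ⟨y, hy0, hy⟩ := exists_vecMul_eq_zero_iff.2 h0
  apply hy0
  apply hinj
  let z : N → R := fun n => ∑ k, y k * T k n
  have hz1 : ∀ k', z (e k').1 = 0 := by
    intro k'
    have h5 := congrFun hy k'
    simpa [vecMul, dotProduct, bSq] using h5
  have hz2 : ∑ n, z n * g n = 0 := by
    simp only [z, Finset.sum_mul]
    rw [Finset.sum_comm]
    apply Finset.sum_eq_zero
    intro k _
    simp only [mul_assoc]
    rw [← Finset.mul_sum, hTg k, mul_zero]
  have hz3 : ∑ n, z n * ν n = 0 := by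
    simp only [z, Finset.sum_mul]
    rw [Finset.sum_comm]
    apply Finset.sum_eq_zero
    intro k _
    simp only [mul_assoc]
    rw [← Finset.mul_sum, hTν k, mul_zero]
  rw [sum_split hne e] at hz2 hz3
  simp only [hz1, zero_mul, Finset.sum_const_zero, add_zero, hνf, mul_zero, zero_add] at hz2 hz3
  have h8 : z n₁ = 0 := by
    rcases mul_eq_zero.1 hz3 with h | h
    · exact h
    · exact absurd h hν
  rw [h8, zero_mul, add_zero] at hz2
  have h9 : z f₀ = 0 := by
    rcases mul_eq_zero.1 hz2 with h | h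
    · exact h
    · exact absurd h hf
  intro n
  by_cases hn1 : n = f₀
  · rw [hn1]; exact h9
  by_cases hn2 : n = n₁
  · rw [hn2]; exact h8
  have := hz1 (e.symm ⟨n, hn1, hn2⟩)
  simpa using this

omit [IsDomain R] in
/-- The Koszul syzygy of two generators. -/
def kz (g : N → R) (x y : N) : N → R := fun n => (if n = x then g y else 0) - (if n = y then g x else 0)

omit [IsDomain R] in
theorem kz_dot (g ν : N → R) (x y : N) :
    ∑ n, kz g x y n * ν n = g y * ν x - g x * ν y := by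
  simp only [kz, sub_mul, ite_mul, zero_mul, Finset.sum_sub_distrib, Finset.sum_ite_eq',
    Finset.mem_univ, if_true]

/-- The main determinantal statement. -/
theorem hb_main (hne : f₀ ≠ n₁) (e : κ ≃ {n // n ≠ f₀ ∧ n ≠ n₁}) (T : Matrix κ N R) (g ν : N → R)
    (hTg : ∀ k, ∑ n, T k n * g n = 0) (hTν : ∀ k, ∑ n, T k n * ν n = 0)
    (hinj : ∀ y : κ → R, (∀ n, ∑ k, y k * T k n = 0) → y = 0)
    (hνf : ν f₀ = 0) (hνp : ν p₀ = 0) (hνq : ν q₀ = 0) (hp1 : p₀ ≠ f₀) (hp2 : p₀ ≠ n₁)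
    (hq1 : q₀ ≠ f₀) (hq2 : q₀ ≠ p₀) (hν : ν n₁ ≠ 0)
    (hf : g f₀ ≠ 0) (hp0 : g p₀ ≠ 0) (hp : ∀ u, g f₀ ∣ g p₀ * u → g f₀ ∣ u)
    (hf' : ∀ u, g p₀ ∣ g f₀ * u → g p₀ ∣ u)
    (hq : ∀ u s t, g q₀ * u = g f₀ * s + g p₀ * t → ∃ A B, u = g f₀ * A + g p₀ * B)
    {P : R} (hP : (bSq e T).det = g f₀ * P) : P ∈ Ideal.span (Set.range g) := by
  have hsol := fun σ hσg hσν => solve_row (p₀ := p₀) hne e T g ν hTg hTν hνf hνp hp1 hp2 hν hf hp hP σ hσg hσν
  obtain ⟨α, hα⟩ := hsol (kz g f₀ p₀) (by rw [kz_dot]; ring) (by rw [kz_dot, hνf, hνp]; ring)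
  obtain ⟨β, hβ⟩ := hsol (kz g f₀ q₀) (by rw [kz_dot]; ring) (by rw [kz_dot, hνf, hνq]; ring)
  obtain ⟨γ, hγ⟩ := hsol (kz g p₀ q₀) (by rw [kz_dot]; ring) (by rw [kz_dot, hνp, hνq]; ring)
  have h1 : (fun k => g q₀ * α k - g p₀ * β k + g f₀ * γ k) = 0 := by
    apply hinj
    intro n
    have h2 : ∑ k, (g q₀ * α k - g p₀ * β k + g f₀ * γ k) * T k n =
        g q₀ * ∑ k, α k * T k n - g p₀ * ∑ k, β k * T k n + g f₀ * ∑ k, γ k * T k n := by
      rw [Finset.mul_sum, Finset.mul_sum, Finset.mul_sum, ← Finset.sum_sub_distrib,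
        ← Finset.sum_add_distrib]
      exact Finset.sum_congr rfl fun _ _ => by ring
    rw [h2, hα, hβ, hγ]
    simp only [kz]
    split_ifs <;> ring
  have h2 : ∀ k, ∃ A B, α k = g f₀ * A + g p₀ * B := by
    intro k
    have h3 := congrFun h1 k
    simp only [Pi.zero_apply] at h3
    exact hq (α k) (-γ k) (β k) (by linear_combination h3)
  choose A' B' hAB using h2
  let A : N → R := fun n => ∑ k, A' k * T k n
  let B : N → R := fun n => ∑ k, B' k * T k n
  have hPAB : ∀ n, P * kz g f₀ p₀ n = g f₀ * A n + g p₀ * B n := by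
    intro n
    rw [← hα]
    simp only [A, B, Finset.mul_sum]
    rw [← Finset.sum_add_distrib]
    refine Finset.sum_congr rfl fun k _ => ?_
    rw [hAB k]
    ring
  have hAg : ∑ n, A n * g n = 0 := by
    simp only [A, Finset.sum_mul]
    rw [Finset.sum_comm]
    apply Finset.sum_eq_zero
    intro k _
    simp only [mul_assoc]
    rw [← Finset.mul_sum, hTg k, mul_zero]
  have h3 := hPAB p₀
  simp only [kz, if_neg hp1, if_true, zero_sub] at h3
  obtain ⟨B2, hB2⟩ : g f₀ ∣ B p₀ := by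
    apply hp
    refine ⟨-P - A p₀, ?_⟩
    linear_combination -h3
  have h4 : P = - A p₀ - g p₀ * B2 := by
    apply mul_left_cancel₀ hf
    rw [hB2] at h3
    linear_combination -h3
  have h5 : ∀ n, n ≠ p₀ → g p₀ ∣ A n := by
    intro n hn
    apply hf'
    have h6 := hPAB n
    simp only [kz, if_neg hn, sub_zero] at h6
    by_cases hn2 : n = f₀
    · rw [if_pos hn2] at h6
      exact ⟨P - B n, by linear_combination -h6⟩
    · rw [if_neg hn2] at h6
      exact ⟨- B n, by linear_combination -h6⟩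
  have h6 : ∀ n, ∃ a, n ≠ p₀ → A n = g p₀ * a := by
    intro n
    by_cases hn : n = p₀
    · exact ⟨0, fun h => absurd hn h⟩
    · obtain ⟨a, ha⟩ := h5 n hn
      exact ⟨a, fun _ => ha⟩
  choose a ha using h6
  have h7 : A p₀ = - ∑ n ∈ Finset.univ.erase p₀, a n * g n := by
    apply mul_left_cancel₀ hp0
    have h8 := Finset.add_sum_erase Finset.univ (fun n => A n * g n) (Finset.mem_univ p₀)
    rw [hAg] at h8
    have h9 : ∑ n ∈ Finset.univ.erase p₀, A n * g n = g p₀ * ∑ n ∈ Finset.univ.erase p₀, a n * g n := by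
      rw [Finset.mul_sum]
      refine Finset.sum_congr rfl fun n hn => ?_
      rw [ha n (Finset.ne_of_mem_erase hn)]
      ring
    rw [h9] at h8
    linear_combination h8
  rw [h4, h7]
  have hmem : ∀ n, g n ∈ Ideal.span (Set.range g) := fun n => Ideal.subset_span ⟨n, rfl⟩
  refine Ideal.sub_mem _ ?_ (Ideal.mul_mem_right _ _ (hmem p₀))
  rw [neg_neg]
  exact sum_mem fun n _ => Ideal.mul_mem_left _ _ (hmem n)

end Vale.Agent.Lib.P200
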