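import Mathlib.Algebra.BigOperators.Group.Finset.Basic
import Mathlib.Algebra.Order.BigOperators.Group.Finset
import Mathlib.Tactic.Linarith
import Mathlib.Tactic.Ring
import Mathlib.Tactic.Positivity
import Mathlib.Data.Int.Order.Basic

/-!
Numerics of layers: the Hilbert function of a complete intersection in three variables,
sliced according to the exponent of the first variable.
-/

namespace Vale.Agent.Lib.P200

open Finset

/-- The number of monomials `y^j z^l` of degree `e` with `j < b`, `l < c`. -/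
def eta (b c e : ℤ) : ℤ := max 0 (min (e + 1) (min b (min c (b + c - 1 - e))))

/-- The sum of the first `i` layers in degree `d`. -/
def PP (b c : ℤ) (i : ℕ) (d : ℤ) : ℤ := ∑ k ∈ range i, eta b c (d - k)

/-- One when the top of a layer is lost on passing to the next degree. -/
def dl (c e : ℤ) : ℤ := if c - 1 ≤ e then 1 else 0

/-- The lexicographic growth bound, in relational form. -/
def Bd (a : ℕ) (b c d H H' : ℤ) : Prop :=
  ∀ (i : ℕ) (t : ℤ), i < a → 0 ≤ t → t < eta b c (d - i) → H = PP b c i d + t →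
    H' ≤ PP b c i (d + 1) + max (t - dl c (d - i)) 0

variable {a : ℕ} {b c d : ℤ}

theorem PP_zero (b c d : ℤ) : PP b c 0 d = 0 := by simp [PP]

theorem PP_succ (b c : ℤ) (i : ℕ) (d : ℤ) : PP b c (i + 1) d = PP b c i d + eta b c (d - i) := by
  simp [PP, sum_range_succ]

theorem eta_nonneg (b c e : ℤ) : 0 ≤ eta b c e := le_max_left _ _

theorem PP_mono (b c : ℤ) {i j : ℕ} (h : i ≤ j) (d : ℤ) : PP b c i d ≤ PP b c j d := by
  induction j, h using Nat.le_induction with
  | base => exact le_rfl
  | succ j _ ih =>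
    rw [PP_succ]
    have := eta_nonneg b c (d - j)
    omega

theorem PP_shift (b c : ℤ) (i : ℕ) (d : ℤ) :
    PP b c (i + 1) (d + 1) = eta b c (d + 1) + PP b c i d := by
  induction i with
  | zero => simp [PP]
  | succ i ih =>
    rw [PP_succ, ih, PP_succ]
    push_cast
    rw [show d + 1 - ((i : ℤ) + 1) = d - i by ring]
    ring

theorem exists_lay {X : ℤ} (hX : 0 ≤ X) {i : ℕ} (h : X < PP b c (i + 1) d) :
    ∃ i' ≤ i, ∃ t', 0 ≤ t' ∧ t' < eta b c (d - i') ∧ X = PP b c i' d + t' := by
  induction i with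
  | zero =>
    refine ⟨0, le_rfl, X, hX, ?_, by simp [PP_zero]⟩
    rw [PP_succ, PP_zero] at h
    simpa using h
  | succ i ih =>
    by_cases h2 : X < PP b c (i + 1) d
    · obtain ⟨i', hi', t', h3, h4, h5⟩ := ih h2
      exact ⟨i', by omega, t', h3, h4, h5⟩
    · refine ⟨i + 1, le_rfl, X - PP b c (i + 1) d, by omega, ?_, by ring⟩
      rw [PP_succ] at h
      omega

theorem eta_up (hb : 1 ≤ b) (hbc : b ≤ c) {e : ℤ} (h : e < c - 1) : eta b c e ≤ eta b c (e + 1) := by
  unfold eta; omega

theorem eta_le_succ (hb : 1 ≤ b) (hbc : b ≤ c) (e : ℤ) : eta b c (e + 1) ≤ eta b c e + 1 := by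
  unfold eta; omega

theorem eta_ge_pred (hb : 1 ≤ b) (hbc : b ≤ c) (e : ℤ) : eta b c e ≤ eta b c (e + 1) + 1 := by
  unfold eta; omega

theorem eta_down (hb : 1 ≤ b) (hbc : b ≤ c) {e : ℤ} (h : c - 1 ≤ e) :
    eta b c (e + 1) ≤ eta b c e := by
  unfold eta; omega

theorem eta_c (hb : 1 ≤ b) (hbc : b ≤ c) : eta b c (c - 1) = b := by
  unfold eta; omega

theorem eta_zero_up (hb : 1 ≤ b) (hbc : b ≤ c) {e f : ℤ} (h : eta b c e = 0) (he : c - 1 ≤ e)
    (hf : e ≤ f) : eta b c f = 0 := by
  unfold eta at *; omega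

/-- The second difference of `eta`. -/
theorem eta_second (hb : 1 ≤ b) (hbc : b ≤ c) (e : ℤ) :
    2 * eta b c e - eta b c (e + 1) - eta b c (e - 1) ≤
      (if e = b - 1 then 1 else 0) + (if e = c - 1 then 1 else 0) := by
  unfold eta; split_ifs <;> omega

/-- The second difference of the sums of layers. -/
def QQ (b c : ℤ) (i : ℕ) (d : ℤ) : ℤ := 2 * PP b c i d - PP b c i (d + 1) - PP b c i (d - 1)

theorem QQ_le (hb : 1 ≤ b) (hbc : b ≤ c) (i : ℕ) (d : ℤ) :
    QQ b c i d ≤ (if 0 ≤ d + 1 - b ∧ d + 1 - b < i then 1 else 0) +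
      (if 0 ≤ d + 1 - c ∧ d + 1 - c < i then 1 else 0) := by
  induction i with
  | zero =>
    have h1 : ¬ (0 ≤ d + 1 - b ∧ d + 1 - b < ((0 : ℕ) : ℤ)) := by push_cast; omega
    have h2 : ¬ (0 ≤ d + 1 - c ∧ d + 1 - c < ((0 : ℕ) : ℤ)) := by push_cast; omega
    rw [if_neg h1, if_neg h2]
    simp [QQ, PP_zero]
  | succ i ih =>
    have h3 := eta_second hb hbc (d - i)
    have h4 : QQ b c (i + 1) d =
        QQ b c i d + (2 * eta b c (d - i) - eta b c (d - i + 1) - eta b c (d - i - 1)) := by
      simp only [QQ, PP_succ]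
      rw [show d + 1 - (i : ℤ) = d - i + 1 by ring, show d - 1 - (i : ℤ) = d - i - 1 by ring]
      ring
    rw [h4]
    push_cast
    split_ifs at ih h3 ⊢ <;> omega

/-- The first difference of the sums of layers. -/
theorem Dl_le (hb : 1 ≤ b) (hbc : b ≤ c) (i : ℕ) (d : ℤ) :
    PP b c i d - PP b c i (d + 1) ≤ max 0 (min (i : ℤ) (d + 2 - c)) := by
  induction i with
  | zero => simp [PP_zero]
  | succ i ih =>
    rw [PP_succ, PP_succ]
    rw [show d + 1 - (i : ℤ) = d - i + 1 by ring]
    by_cases h : (i : ℤ) < d + 2 - c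
    · have h1 := eta_ge_pred hb hbc (d - i)
      push_cast
      omega
    · have h1 := eta_up hb hbc (e := d - i) (by omega)
      push_cast
      omega

/-- On layers below the corner the first difference does not grow. -/
theorem Dl_anti (hb : 1 ≤ b) (hbc : b ≤ c) {i j : ℕ} (hij : i ≤ j) {d : ℤ} (h : d - i < c - 1) :
    PP b c j d - PP b c j (d + 1) ≤ PP b c i d - PP b c i (d + 1) := by
  induction j, hij using Nat.le_induction with
  | base => exact le_rfl
  | succ j hj ih =>
    rw [PP_succ, PP_succ]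
    rw [show d + 1 - (j : ℤ) = d - j + 1 by ring]
    have h1 := eta_up hb hbc (e := d - j) (by have : (i : ℤ) ≤ j := by exact_mod_cast hj
                                              omega)
    omega

theorem dl_nonneg (c e : ℤ) : 0 ≤ dl c e := by unfold dl; split_ifs <;> omega

theorem dl_le_one (c e : ℤ) : dl c e ≤ 1 := by unfold dl; split_ifs <;> omega

/-- All layers from some point on vanish when the first one beyond the top vanishes. -/
theorem PP_zero_of (hb : 1 ≤ b) (hbc : b ≤ c) {i : ℕ} {d e : ℤ} (h : eta b c e = 0)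
    (he : c - 1 ≤ e) (hd : e ≤ d - i) : PP b c i d = 0 := by
  apply sum_eq_zero
  intro k hk
  have : (k : ℤ) < i := by exact_mod_cast mem_range.1 hk
  exact eta_zero_up hb hbc h he (by omega)

/-- The lower bound for the previous Hilbert value. -/
theorem V2 (hb : 1 ≤ b) (hbc : b ≤ c) {u H t : ℤ} {i : ℕ} (hE : Bd a b c (d - 1) u H)
    (hi : i < a) (ht0 : 0 ≤ t) (ht : t < eta b c (d - i)) (hH : H = PP b c i d + t) (hH0 : 0 < H)
    (hu : 0 ≤ u) :
    PP b c i (d - 1) + (if 0 < t then t + dl c (d - 1 - i) else 0) ≤ u := by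
  by_contra hcon
  push Not at hcon
  have hlt : u < PP b c (i + 1) (d - 1) := by
    rw [PP_succ]
    have h1 : (if 0 < t then t + dl c (d - 1 - i) else 0) ≤ eta b c (d - 1 - i) := by
      split_ifs with h0
      · unfold dl
        split_ifs with h2
        · have h3 := eta_down hb hbc h2
          rw [show d - 1 - (i : ℤ) + 1 = d - i by ring] at h3
          omega
        · have h3 := eta_le_succ hb hbc (d - 1 - i)
          rw [show d - 1 - (i : ℤ) + 1 = d - i by ring] at h3
          omega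
      · exact eta_nonneg _ _ _
    omega
  obtain ⟨i', hi', t', h3, h4, h5⟩ := exists_lay hu hlt
  have h6 := hE i' t' (by omega) h3 h4 h5
  rw [show d - 1 + 1 = d by ring] at h6
  rcases hi'.lt_or_eq with h7 | h7
  · -- a lower layer
    have h8 : PP b c (i' + 1) d ≤ PP b c i d := PP_mono b c h7 d
    rw [PP_succ] at h8
    have hII : (i' : ℤ) < i := by exact_mod_cast h7
    rw [show d - (i' : ℤ) = d - 1 - i' + 1 by ring] at h8
    by_cases h9 : c - 1 ≤ d - 1 - i'
    · have h10 : dl c (d - 1 - i') = 1 := by unfold dl; rw [if_pos h9]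
      rw [h10] at h6
      have h11 := eta_ge_pred hb hbc (d - 1 - i')
      by_cases h12 : eta b c (d - 1 - i' + 1) = 0
      · have h13 : PP b c i' d = 0 :=
          PP_zero_of hb hbc (i := i') h12 (by omega) (by omega)
        have h14 : t' - 1 ≤ 0 := by omega
        rw [h13, max_eq_right h14] at h6
        omega
      · have h14 := eta_nonneg b c (d - 1 - i' + 1)
        have h15 : max (t' - 1) 0 < eta b c (d - 1 - i' + 1) := by
          apply max_lt <;> omega
        omega
    · have h10 : dl c (d - 1 - i') = 0 := by unfold dl; rw [if_neg h9]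
      rw [h10] at h6
      have h11 := eta_up hb hbc (e := d - 1 - i') (by omega)
      have h15 : max (t' - 0) 0 < eta b c (d - 1 - i' + 1) := by
        apply max_lt <;> omega
      omega
  · subst h7
    split_ifs at hcon with h0
    · have h8 := dl_nonneg c (d - 1 - i')
      have h9 : max (t' - dl c (d - 1 - i')) 0 < t := by
        apply max_lt <;> omega
      omega
    · omega

/-- Numerics in the region below the second degree. -/
theorem NL_A (hb : 1 ≤ b) (hbc : b ≤ c) {H H' u t : ℤ} {i : ℕ} (ht0 : 0 ≤ t)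
    (hH : H = PP b c i d + t)
    (hV : PP b c i (d + 1) + max (t - dl c (d - i)) 0 + 1 ≤ H')
    (hU : PP b c i (d - 1) + (if 0 < t then t + dl c (d - 1 - i) else 0) ≤ u) (hd : d + 1 < b) :
    2 * H - H' - u < 0 := by
  have h1 := QQ_le hb hbc i d
  unfold QQ at h1
  have h2 : dl c (d - i) = 0 := by unfold dl; rw [if_neg]; have : (0 : ℤ) ≤ i := by positivity
                                   omega
  rw [h2] at hV
  have hq1 : (if 0 ≤ d + 1 - b ∧ d + 1 - b < (i : ℤ) then (1 : ℤ) else 0) = 0 := if_neg (by omega)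
  have hq2 : (if 0 ≤ d + 1 - c ∧ d + 1 - c < (i : ℤ) then (1 : ℤ) else 0) = 0 := if_neg (by omega)
  rw [hq1, hq2] at h1
  split_ifs at hU with h0
  · have h3 := dl_nonneg c (d - 1 - i)
    have h4 : max (t - 0) 0 = t := by rw [max_eq_left] <;> omega
    rw [h4] at hV
    omega
  · have h4 : t = 0 := by omega
    subst h4
    simp at hV
    omega

theorem NL_B (hb : 1 ≤ b) (hbc : b ≤ c) {H H' u t : ℤ} {i : ℕ} (ht0 : 0 ≤ t)
    (hH : H = PP b c i d + t)
    (hV : PP b c i (d + 1) + max (t - dl c (d - i)) 0 + 1 ≤ H')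
    (hU : PP b c i (d - 1) + (if 0 < t then t + dl c (d - 1 - i) else 0) ≤ u) (hd : d + 1 < c) :
    2 * H - H' - u ≤ 0 ∧ H - H' < 0 := by
  have h1 := QQ_le hb hbc i d
  unfold QQ at h1
  have hi0 : (0 : ℤ) ≤ i := by positivity
  have h2 : dl c (d - i) = 0 := by unfold dl; rw [if_neg]; omega
  have h2' : dl c (d - 1 - i) = 0 := by unfold dl; rw [if_neg]; omega
  rw [h2] at hV
  rw [h2'] at hU
  have hq1 : (if 0 ≤ d + 1 - c ∧ d + 1 - c < (i : ℤ) then (1 : ℤ) else 0) = 0 := if_neg (by omega)
  rw [hq1] at h1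
  have h4 : max (t - 0) 0 = t := by rw [max_eq_left] <;> omega
  rw [h4] at hV
  have h5 := Dl_le hb hbc i d
  have h6 : max 0 (min (i : ℤ) (d + 2 - c)) = 0 := by omega
  rw [h6] at h5
  constructor
  · split_ifs at hU h1 <;> omega
  · omega

/-- Numerics in the main region. -/
theorem NL_C (hb : 1 ≤ b) (hbc : b ≤ c) {H H' u t : ℤ} {i : ℕ} (hi : i < a) (ht0 : 0 ≤ t)
    (hH : H = PP b c i d + t)
    (hV : PP b c i (d + 1) + max (t - dl c (d - i)) 0 + 1 ≤ H')
    (hU : PP b c i (d - 1) + (if 0 < t then t + dl c (d - 1 - i) else 0) ≤ u) (hd : c ≤ d + 1) :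
    2 * H - H' - u ≤ 1 ∧
    (2 * H - H' - u = 0 → ∀ π : ℕ, (π : ℤ) ≤ H - H' → π < a ∧ PP b c π d < H) ∧
    (2 * H - H' - u = 1 → H - H' < d + 2 - c ∧
      ∀ π : ℕ, (π : ℤ) ≤ H - H' - 1 → π < a ∧ PP b c π d < H) := by
  have h1 := QQ_le hb hbc i d
  unfold QQ at h1
  have hi0 : (0 : ℤ) ≤ i := by positivity
  have h5 := Dl_le hb hbc i d
  obtain ⟨r, hr⟩ : ∃ r : ℕ, d + 1 - c = r := ⟨(d + 1 - c).toNat, by omega⟩
  rcases lt_trichotomy i r with h7 | h7 | h7
  · -- strictly below the corner
    have h7' : (i : ℤ) < r := by exact_mod_cast h7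
    have h2 : dl c (d - i) = 1 := by unfold dl; rw [if_pos]; omega
    have h2' : dl c (d - 1 - i) = 1 := by unfold dl; rw [if_pos]; omega
    rw [h2] at hV
    rw [h2'] at hU
    have hq1 : (if 0 ≤ d + 1 - b ∧ d + 1 - b < (i : ℤ) then (1 : ℤ) else 0) = 0 := if_neg (by omega)
    have hq2 : (if 0 ≤ d + 1 - c ∧ d + 1 - c < (i : ℤ) then (1 : ℤ) else 0) = 0 := if_neg (by omega)
    rw [hq1, hq2] at h1
    have hneg : 2 * H - H' - u < 0 := by
      split_ifs at hU with h0
      · have h4 : max (t - 1) 0 = t - 1 := by rw [max_eq_left]; omega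
        rw [h4] at hV
        omega
      · have h4 : t = 0 := by omega
        subst h4
        simp at hV
        omega
    refine ⟨by omega, fun h => by omega, fun h => by omega⟩
  · -- the corner layer
    subst h7
    have h2 : dl c (d - i) = 1 := by unfold dl; rw [if_pos]; omega
    have h2' : dl c (d - 1 - i) = 0 := by unfold dl; rw [if_neg]; omega
    rw [h2] at hV
    rw [h2'] at hU
    have hq1 : (if 0 ≤ d + 1 - b ∧ d + 1 - b < (i : ℤ) then (1 : ℤ) else 0) = 0 := if_neg (by omega)
    have hq2 : (if 0 ≤ d + 1 - c ∧ d + 1 - c < (i : ℤ) then (1 : ℤ) else 0) = 0 := if_neg (by omega)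
    rw [hq1, hq2] at h1
    have h6 : max 0 (min (i : ℤ) (d + 2 - c)) = i := by omega
    rw [h6] at h5
    split_ifs at hU with h0
    · have h4 : max (t - 1) 0 = t - 1 := by rw [max_eq_left]; omega
      rw [h4] at hV
      refine ⟨by omega, fun _ π hπ => ?_, fun h => by omega⟩
      have h8 : (π : ℤ) ≤ i := by omega
      have h9 : π ≤ i := by exact_mod_cast h8
      refine ⟨by omega, ?_⟩
      have := PP_mono b c h9 d
      omega
    · have h4 : t = 0 := by omega
      subst h4
      simp at hV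
      omega
  · -- above the corner
    have h7' : (r : ℤ) < i := by exact_mod_cast h7
    have h2 : dl c (d - i) = 0 := by unfold dl; rw [if_neg]; omega
    have h2' : dl c (d - 1 - i) = 0 := by unfold dl; rw [if_neg]; omega
    rw [h2] at hV
    rw [h2'] at hU
    have h4 : max (t - 0) 0 = t := by rw [max_eq_left] <;> omega
    rw [h4] at hV
    have h6 : max 0 (min (i : ℤ) (d + 2 - c)) = r + 1 := by omega
    rw [h6] at h5
    have hb1 : PP b c r d < PP b c i d := by
      have h8 : PP b c (r + 1) d ≤ PP b c i d := PP_mono b c (by omega) d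
      rw [PP_succ, show d - (r : ℤ) = c - 1 by omega, eta_c hb hbc] at h8
      omega
    have key : ∀ π : ℕ, (π : ℤ) ≤ H - H' → π < a ∧ PP b c π d < H := by
      intro π hπ
      have h8 : (π : ℤ) ≤ r := by omega
      have h9 : π ≤ r := by exact_mod_cast h8
      refine ⟨by omega, ?_⟩
      have := PP_mono b c h9 d
      omega
    refine ⟨?_, fun _ => key, fun _ => ⟨by omega, fun π hπ => key π (by omega)⟩⟩
    have hq2 : (if 0 ≤ d + 1 - c ∧ d + 1 - c < (i : ℤ) then (1 : ℤ) else 0) = 1 := if_pos (by omega)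
    rw [hq2] at h1
    split_ifs at hU h1 <;> omega

/-- The numerical Hall inequality. -/
theorem NH (hb : 1 ≤ b) (hbc : b ≤ c) {H' c' : ℤ} {i j : ℕ} {t s : ℤ}
    (ht0 : 0 ≤ t) (ht : t < eta b c (d - i)) (hs0 : 0 ≤ s) (hs : s < eta b c (d - j))
    (hlt : PP b c j d + s < PP b c i d + t)
    (hV : PP b c i (d + 1) + max (t - dl c (d - i)) 0 + 1 ≤ H')
    (hU : H' ≤ PP b c j d + s + c') (hc' : c' ≤ eta b c (d + 1)) :
    PP b c j (d + 1) + max (s - dl c (d - j)) 0 + (PP b c i d + t - (PP b c j d + s)) ≤ H' := by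
  have hji : j ≤ i := by
    by_contra hcon
    have h1 : PP b c (i + 1) d ≤ PP b c j d := PP_mono b c (by omega) d
    rw [PP_succ] at h1
    omega
  rcases hji.lt_or_eq with h2 | h2
  · have h2' : (j : ℤ) < i := by exact_mod_cast h2
    by_cases h3 : c - 1 ≤ d - j
    · -- corner situation
      have h4 : dl c (d - j) = 1 := by unfold dl; rw [if_pos h3]
      rw [h4]
      have h5 : PP b c (j + 1) (d + 1) = eta b c (d + 1) + PP b c j d := PP_shift b c j d
      have h6 : max (t - dl c (d - i)) 0 ≥ 0 := le_max_right _ _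
      have h7 : i = j + 1 := by
        by_contra hne
        have h8 : PP b c (j + 1 + 1) (d + 1) ≤ PP b c i (d + 1) := PP_mono b c (by omega) _
        rw [PP_succ] at h8
        push_cast at h8
        rw [show d + 1 - ((j : ℤ) + 1) = d - j by ring] at h8
        omega
      subst h7
      rw [PP_succ b c j d]
      rw [PP_succ b c j (d + 1)] at hV h5
      rw [show d + 1 - (j : ℤ) = d - j + 1 by ring] at hV h5
      have h9 : 1 ≤ s := by omega
      have h10 : max (s - 1) 0 = s - 1 := by rw [max_eq_left]; omega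
      rw [h10]
      have h11 := eta_ge_pred hb hbc (d - j)
      have h12 := dl_nonneg c (d - ((j + 1 : ℕ) : ℤ))
      have h13 := dl_le_one c (d - ((j + 1 : ℕ) : ℤ))
      have h14 : t ≤ max (t - dl c (d - ((j + 1 : ℕ) : ℤ))) 0 + 1 := by
        have := le_max_left (t - dl c (d - ((j + 1 : ℕ) : ℤ))) 0
        omega
      omega
    · have h4 : dl c (d - j) = 0 := by unfold dl; rw [if_neg h3]
      have h4' : dl c (d - i) = 0 := by unfold dl; rw [if_neg]; omega
      rw [h4]
      rw [h4'] at hV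
      have h5 := Dl_anti hb hbc h2.le (d := d) (by omega)
      have h6 : max (t - 0) 0 = t := by rw [max_eq_left] <;> omega
      have h7 : max (s - 0) 0 = s := by rw [max_eq_left] <;> omega
      rw [h6] at hV
      rw [h7]
      omega
  · subst h2
    have h4 := dl_nonneg c (d - j)
    have h5 := dl_le_one c (d - j)
    have h6 : max (s - dl c (d - j)) 0 + t - s ≤ max (t - dl c (d - j)) 0 + 1 := by
      have h7 : s ≤ t := by omega
      rcases max_cases (s - dl c (d - j)) 0 with ⟨h8, h9⟩ | ⟨h8, h9⟩ <;>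
        rcases max_cases (t - dl c (d - j)) 0 with ⟨h10, h11⟩ | ⟨h10, h11⟩ <;> omega
    omega

/-- Monotonicity of the growth bound. -/
theorem F_mono (hb : 1 ≤ b) (hbc : b ≤ c) {i j : ℕ} {t s : ℤ}
    (hs0 : 0 ≤ s) (ht : t < eta b c (d - i)) (hs : s < eta b c (d - j))
    (hle : PP b c j d + s ≤ PP b c i d + t) :
    PP b c j (d + 1) + max (s - dl c (d - j)) 0 ≤ PP b c i (d + 1) + max (t - dl c (d - i)) 0 := by
  have hji : j ≤ i := by
    by_contra hcon
    have h1 : PP b c (i + 1) d ≤ PP b c j d := PP_mono b c (by omega) d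
    rw [PP_succ] at h1
    omega
  rcases hji.lt_or_eq with h2 | h2
  · have h3 : PP b c (j + 1) (d + 1) ≤ PP b c i (d + 1) := PP_mono b c (by omega) _
    rw [PP_succ] at h3
    rw [show d + 1 - (j : ℤ) = d - j + 1 by ring] at h3
    have h4 : max (s - dl c (d - j)) 0 ≤ eta b c (d - j + 1) := by
      apply max_le
      · unfold dl
        split_ifs with h5
        · have := eta_ge_pred hb hbc (d - j)
          omega
        · have := eta_up hb hbc (e := d - j) (by omega)
          omega
      · exact eta_nonneg _ _ _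
    have h5 : 0 ≤ max (t - dl c (d - i)) 0 := le_max_right _ _
    omega
  · subst h2
    have h7 : s ≤ t := by omega
    have : max (s - dl c (d - j)) 0 ≤ max (t - dl c (d - j)) 0 :=
      max_le_max (by omega) le_rfl
    omega

end Vale.Agent.Lib.P200
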