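import Vale.Agent.Lib.P200.GrowthT
import Vale.Agent.Lib.P200.Num

/-!
Hilbert functions of complete intersections in three variables.
-/

noncomputable section

namespace Vale.Agent.Lib.P200

open MvPolynomial Module

variable {K : Type*} [Field K]

/-- Number of monomials in two variables. -/
def Lf (x : ℤ) : ℤ := max 0 (x + 1)

/-- Number of monomials in three variables, for an integer degree. -/
def Df (x : ℤ) : ℤ := if x < 0 then 0 else (DD x.toNat : ℤ)

theorem Df_of_nat (n : ℕ) : Df (n : ℤ) = DD n := by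
  unfold Df
  rw [if_neg (by omega)]
  simp

theorem Df_of_neg {x : ℤ} (h : x < 0) : Df x = 0 := by
  unfold Df
  rw [if_pos h]

theorem Df_sub (x : ℤ) : Df x - Df (x - 1) = Lf x := by
  unfold Lf
  by_cases h0 : x < 0
  · rw [Df_of_neg h0, Df_of_neg (by omega), max_eq_left (by omega)]
    simp
  · by_cases h1 : x = 0
    · subst h1
      have h2 : (0 : ℤ) - 1 < 0 := by omega
      rw [Df_of_neg h2]
      have := Df_of_nat 0
      simp only [Nat.cast_zero] at this
      rw [this]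
      simp [DD]
    · obtain ⟨n, rfl⟩ : ∃ n : ℕ, x = n + 1 := ⟨(x - 1).toNat, by omega⟩
      have h2 : ((n : ℤ) + 1) = ((n + 1 : ℕ) : ℤ) := by push_cast; ring
      rw [h2, Df_of_nat]
      have h3 : ((n + 1 : ℕ) : ℤ) - 1 = (n : ℤ) := by push_cast; ring
      rw [h3, Df_of_nat, DD_succ]
      push_cast
      omega

theorem eta_eq {β γ : ℤ} (hb : 1 ≤ β) (hc : 1 ≤ γ) (x : ℤ) :
    eta β γ x = Lf x - Lf (x - β) - Lf (x - γ) + Lf (x - β - γ) := by
  unfold eta Lf
  omega

theorem sum_Lf (α : ℕ) (x : ℤ) : ∑ k ∈ Finset.range α, Lf (x - k) = Df x - Df (x - α) := by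
  induction α with
  | zero => simp
  | succ α ih =>
    rw [Finset.sum_range_succ, ih]
    have := Df_sub (x - α)
    push_cast
    rw [show x - ((α : ℤ) + 1) = x - α - 1 by ring]
    omega

/-- The Hilbert function after one element, as a function of an integer degree. -/
def G1 (α : ℕ) (x : ℤ) : ℤ := Df x - Df (x - α)

theorem PP_eq {β γ : ℤ} (hb : 1 ≤ β) (hc : 1 ≤ γ) (α : ℕ) (x : ℤ) :
    PP β γ α x = G1 α x - G1 α (x - β) - G1 α (x - γ) + G1 α (x - β - γ) := by
  unfold PP G1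
  simp only [eta_eq hb hc]
  rw [Finset.sum_add_distrib, Finset.sum_sub_distrib, Finset.sum_sub_distrib, sum_Lf]
  have h1 : ∑ k ∈ Finset.range α, Lf (x - k - β) = Df (x - β) - Df (x - β - α) := by
    rw [← sum_Lf]
    exact Finset.sum_congr rfl fun k _ => by rw [show x - k - β = x - β - k by ring]
  have h2 : ∑ k ∈ Finset.range α, Lf (x - k - γ) = Df (x - γ) - Df (x - γ - α) := by
    rw [← sum_Lf]
    exact Finset.sum_congr rfl fun k _ => by rw [show x - k - γ = x - γ - k by ring]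
  have h3 : ∑ k ∈ Finset.range α, Lf (x - k - β - γ) = Df (x - β - γ) - Df (x - β - γ - α) := by
    rw [← sum_Lf]
    exact Finset.sum_congr rfl fun k _ => by rw [show x - k - β - γ = x - β - γ - k by ring]
  rw [h1, h2, h3]

/-- The codimension of the graded piece of an ideal, as a function of an integer degree. -/
def GG (A : Ideal (S3 K)) (x : ℤ) : ℤ :=
  if x < 0 then 0 else (DD x.toNat : ℤ) - finrank K (comp A x.toNat)

theorem GG_nat (A : Ideal (S3 K)) (n : ℕ) : GG A n = (DD n : ℤ) - finrank K (comp A n) := by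
  unfold GG
  rw [if_neg (by omega)]
  simp

theorem GG_bot (x : ℤ) : GG (⊥ : Ideal (S3 K)) x = Df x := by
  unfold GG Df
  split_ifs with h
  · rfl
  · rw [finrank_comp_bot]
    simp

theorem GG_adj {A : Ideal (S3 K)} (hA : HomIdeal A) {c : ℕ} {r : S3 K} (hr : r ∈ HH K c)
    (hr0 : r ≠ 0) (hn : NZ A r) (x : ℤ) : GG (adj A r) x = GG A x - GG A (x - c) := by
  by_cases h0 : x < 0
  · unfold GG
    rw [if_pos h0, if_pos h0, if_pos (by omega)]
    simp
  · obtain ⟨n, rfl⟩ : ∃ n : ℕ, x = n := ⟨x.toNat, by omega⟩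
    by_cases h1 : n < c
    · rw [GG_nat, GG_nat, comp_adj_of_lt hA hr h1]
      have : GG A ((n : ℤ) - c) = 0 := by
        unfold GG
        rw [if_pos (by omega)]
      rw [this]
      ring
    · obtain ⟨e, rfl⟩ : ∃ e, n = e + c := ⟨n - c, by omega⟩
      have h2 : ((e + c : ℕ) : ℤ) - c = (e : ℤ) := by push_cast; ring
      rw [h2, GG_nat, GG_nat, GG_nat]
      have h3 := finrank_comp_adj (e := e) hA hr hr0 hn
      have h4 : (finrank K (comp (adj A r) (e + c)) : ℤ) + finrank K (comp A e) =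
          finrank K (comp A (e + c)) + DD e := by exact_mod_cast h3
      linarith

/-- The ideal generated by three forms. -/
def T3 (u v w : S3 K) : Ideal (S3 K) := adj (adj (adj ⊥ u) v) w

/-- A regular sequence of three forms with given degrees. -/
structure RS (u v w : S3 K) (α β γ : ℕ) : Prop where
  hu : u ∈ HH K α
  hv : v ∈ HH K β
  hw : w ∈ HH K γ
  ha : 1 ≤ α
  hb : 1 ≤ β
  hc : 1 ≤ γ
  u0 : u ≠ 0
  nz1 : NZ (adj ⊥ u) v
  nz2 : NZ (adj (adj ⊥ u) v) w

namespace RS

variable {u v w : S3 K} {α β γ : ℕ}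

theorem hA1 (h : RS u v w α β γ) : HomIdeal (adj ⊥ u) := homIdeal_adj homIdeal_bot h.hu

theorem hA2 (h : RS u v w α β γ) : HomIdeal (adj (adj ⊥ u) v) := homIdeal_adj h.hA1 h.hv

theorem hA3 (h : RS u v w α β γ) : HomIdeal (T3 u v w) := homIdeal_adj h.hA2 h.hw

theorem one1 (h : RS u v w α β γ) : (1 : S3 K) ∉ adj ⊥ u :=
  one_not_mem_adj homIdeal_bot one_not_mem_bot h.hu h.ha

theorem one2 (h : RS u v w α β γ) : (1 : S3 K) ∉ adj (adj ⊥ u) v :=
  one_not_mem_adj h.hA1 h.one1 h.hv h.hb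

theorem v0 (h : RS u v w α β γ) : v ≠ 0 := ne_zero_of_nz h.one1 h.nz1

theorem w0 (h : RS u v w α β γ) : w ≠ 0 := ne_zero_of_nz h.one2 h.nz2

/-- The Hilbert function of a complete intersection. -/
theorem hf (h : RS u v w α β γ) (e : ℕ) :
    (DD e : ℤ) - finrank K (comp (T3 u v w) e) = PP β γ α e := by
  rw [← GG_nat, T3, GG_adj h.hA2 h.hw h.w0 h.nz2, GG_adj h.hA1 h.hv h.v0 h.nz1,
    GG_adj h.hA1 h.hv h.v0 h.nz1, GG_adj homIdeal_bot h.hu h.u0 (nz_bot h.u0),
    GG_adj homIdeal_bot h.hu h.u0 (nz_bot h.u0), GG_adj homIdeal_bot h.hu h.u0 (nz_bot h.u0),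
    GG_adj homIdeal_bot h.hu h.u0 (nz_bot h.u0)]
  simp only [GG_bot]
  rw [PP_eq (by exact_mod_cast h.hb) (by exact_mod_cast h.hc)]
  unfold G1
  rw [show (e : ℤ) - γ - β = (e : ℤ) - β - γ by ring]
  ring

end RS

end Vale.Agent.Lib.P200
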