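import Vale.Agent.Lib.P200.Rows
import Mathlib.LinearAlgebra.Matrix.ToLinearEquiv

/-!
Syzygy rows are independent at a point; consequences for ranks and dimensions.
-/

noncomputable section

namespace Vale.Agent.Lib.P200

open MvPolynomial Module Matrix

variable {K : Type*} [Field K]

variable {N : Type*} [Fintype N]
variable {W : ℕ → Submodule K (S3 K)} {D : ℕ} {g : N → S3 K} {dg : N → ℕ}
variable {κ : Type*} [Fintype κ] {τ : κ → ℕ} {T : κ → N → S3 K}
variable {m₁ m₂ m₃ : S3 K} {v : Fin 3 → K}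

omit [Fintype N] in
/-- A member of the degree `j` coefficient space vanishing at the point is a combination of
the two forms vanishing there. -/
theorem YY_split (P : Pt m₁ m₂ m₃ v) {j : ℕ} {n : N} {u : S3 K}
    (hu : u ∈ (YY dg j n : Submodule K (S3 K))) (h0 : eval v u = 0) :
    ∃ A B : S3 K, A ∈ (YY dg (j - 1) n : Submodule K (S3 K)) ∧
      B ∈ (YY dg (j - 1) n : Submodule K (S3 K)) ∧ (j = 0 → A = 0 ∧ B = 0) ∧ u = m₁ * A + m₂ * B := by
  rcases mem_YY.1 hu with ⟨h1, h2⟩ | ⟨h1, h2⟩
  · obtain ⟨A, B, hA, hB, h3, h4⟩ := pt_decomp P _ u h2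
    rw [h0] at h4
    simp only [map_zero, zero_mul, zero_add] at h4
    by_cases h5 : dg n = j
    · have hj0 : j - dg n = 0 := by omega
      have h6 := h3 hj0
      refine ⟨0, 0, Submodule.zero_mem _, Submodule.zero_mem _, fun _ => ⟨rfl, rfl⟩, ?_⟩
      rw [h4, h6.1, h6.2]
    · refine ⟨A, B, ?_, ?_, fun hj => by omega, h4⟩
      · rw [YY_of_le (by omega), show j - 1 - dg n = j - dg n - 1 by omega]
        exact hA
      · rw [YY_of_le (by omega), show j - 1 - dg n = j - dg n - 1 by omega]
        exact hB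
  · refine ⟨0, 0, Submodule.zero_mem _, Submodule.zero_mem _, fun _ => ⟨rfl, rfl⟩, ?_⟩
    rw [h2]
    ring

theorem zs_mem_RR (hF : Fam W D) (hG : Gens W D g dg) (P : Pt m₁ m₂ m₃ v)
    (hQ : ∀ e, e + 1 ≤ D → ∀ w ∈ HH K e, m₁ * w ∈ W (e + 1) → m₂ * w ∈ W (e + 1) → w ∈ W e)
    {j : ℕ} (hj : j ≤ D) {σ : N → S3 K} (hσ : σ ∈ Zs g dg j) (h0 : ∀ n, eval v (σ n) = 0) :
    σ ∈ RR g dg j := by
  obtain ⟨hσ1, hσ2⟩ := mem_Zs.1 hσ
  have h1 := fun n => YY_split (n := n) P (hσ1 n) (h0 n)
  choose A B hA hB hj0 hAB using h1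
  cases j with
  | zero =>
    have : σ = 0 := by
      funext n
      have := hj0 n rfl
      rw [hAB n, this.1, this.2]
      simp
    rw [this]
    exact Submodule.zero_mem _
  | succ j =>
    simp only [Nat.add_sub_cancel] at hA hB
    have hAp : A ∈ (piY dg j : Submodule K (N → S3 K)) := mem_piY.2 hA
    have hBp : B ∈ (piY dg j : Submodule K (N → S3 K)) := mem_piY.2 hB
    have hu1 := lc_mem hF hG (by omega : j ≤ D) hAp
    have hu2 := lc_mem hF hG (by omega : j ≤ D) hBp
    have hrel : m₁ * (∑ n, A n * g n) + m₂ * (∑ n, B n * g n) = 0 := by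
      rw [← hσ2, Finset.mul_sum, Finset.mul_sum, ← Finset.sum_add_distrib]
      refine Finset.sum_congr rfl fun n _ => ?_
      rw [hAB n]
      ring
    obtain ⟨h3, w, hw, h4, h5⟩ := pt_coprime P (hF.le j (by omega) hu2) hrel
    cases j with
    | zero =>
      obtain ⟨h6, h7⟩ := h3 rfl
      have hA0 : A ∈ Zs g dg 0 := mem_Zs.2 ⟨hA, h6⟩
      have hB0 : B ∈ Zs g dg 0 := mem_Zs.2 ⟨hB, h7⟩
      have h8 : σ = mulF m₁ A + mulF m₂ B := by
        funext n
        simp [hAB n]
      rw [h8]
      exact Submodule.add_mem _ (mulF_mem_RR P.h1 hA0) (mulF_mem_RR P.h2 hB0)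
    | succ j =>
      simp only [Nat.add_sub_cancel] at hw
      have hw1 : m₂ * w ∈ W (j + 1) := by rw [← h4]; exact hu1
      have hw2 : m₁ * w ∈ W (j + 1) := by
        have := Submodule.neg_mem _ hu2
        rwa [h5, neg_neg] at this
      have hwW := hQ j (by omega) w hw hw2 hw1
      obtain ⟨c, hc, hcw⟩ := hG.gen j (by omega) w hwW
      have hc' := mem_piY.1 hc
      have hA' : (fun n => A n - m₂ * c n) ∈ Zs g dg (j + 1) := by
        refine mem_Zs.2 ⟨fun n => Submodule.sub_mem _ (hA n) (YY_mul P.h2 (hc' n)), ?_⟩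
        simp only [sub_mul, Finset.sum_sub_distrib]
        rw [h4, hcw, Finset.mul_sum]
        rw [sub_eq_zero]
        exact Finset.sum_congr rfl fun n _ => by ring
      have hB' : (fun n => B n + m₁ * c n) ∈ Zs g dg (j + 1) := by
        refine mem_Zs.2 ⟨fun n => Submodule.add_mem _ (hB n) (YY_mul P.h1 (hc' n)), ?_⟩
        simp only [add_mul, Finset.sum_add_distrib]
        rw [h5, hcw, Finset.mul_sum]
        rw [neg_add_eq_zero]
        exact Finset.sum_congr rfl fun n _ => by ring
      have h8 : σ = mulF m₁ (fun n => A n - m₂ * c n) + mulF m₂ (fun n => B n + m₁ * c n) := by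
        funext n
        simp only [Pi.add_apply, mulF_apply]
        rw [hAB n]
        ring
      rw [h8]
      exact Submodule.add_mem _ (mulF_mem_RR P.h1 hA') (mulF_mem_RR P.h2 hB')

/-- The key independence of the rows at the point. -/
theorem rows_point (hF : Fam W D) (hG : Gens W D g dg) (hR : RowsD g dg D τ T) (P : Pt m₁ m₂ m₃ v)
    (hQ : ∀ e, e + 1 ≤ D → ∀ w ∈ HH K e, m₁ * w ∈ W (e + 1) → m₂ * w ∈ W (e + 1) → w ∈ W e)
    (α : κ → K) (hα : ∀ n, ∑ k, α k * eval v (T k n) = 0) : α = 0 := by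
  classical
  by_contra hne
  have hex : ∃ k, α k ≠ 0 := by
    by_contra hcon
    push Not at hcon
    exact hne (funext hcon)
  obtain ⟨k₀, hk₀⟩ := hex
  obtain ⟨k₁, hk₁, hmax⟩ := Finset.exists_max_image (Finset.univ.filter fun k => α k ≠ 0) τ
    ⟨k₀, by simp [hk₀]⟩
  have hk₁' : α k₁ ≠ 0 := by simpa using hk₁
  set j := τ k₁ with hj
  have hmax' : ∀ k, α k ≠ 0 → τ k ≤ j := fun k hk => hmax k (by simp [hk])
  have hjD : j ≤ D := hR.tle k₁
  -- the combination
  have hterm : ∀ k, α k • mulF (m₃ ^ (j - τ k)) (T k) ∈ Zs g dg j := by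
    intro k
    by_cases hk : α k = 0
    · rw [hk, zero_smul]
      exact Submodule.zero_mem _
    · have h1 := hmax' k hk
      have h2 : m₃ ^ (j - τ k) ∈ HH K (j - τ k) := by
        have := (show m₃.IsHomogeneous 1 from P.h3).pow (j - τ k)
        simpa using this
      have h3 := mulF_mem_Zs h2 (hR.mem k)
      rw [show τ k + (j - τ k) = j by omega] at h3
      exact Submodule.smul_mem _ _ h3
  let σ : N → S3 K := ∑ k, α k • mulF (m₃ ^ (j - τ k)) (T k)
  have hσ : σ ∈ Zs g dg j := sum_mem fun k _ => hterm k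
  have hev : ∀ n, eval v (σ n) = 0 := by
    intro n
    simp only [σ, Finset.sum_apply, Pi.smul_apply, mulF_apply, map_sum, smul_eq_C_mul, map_mul,
      map_pow, P.e3, one_pow, one_mul, eval_C]
    exact hα n
  have hRR := zs_mem_RR hF hG P hQ hjD hσ hev
  -- split off the lower terms
  have hsplit : (∑ k, if τ k = j then α k • T k else 0) ∈ RR g dg j := by
    have h1 : (∑ k, if τ k = j then α k • T k else 0) =
        σ - ∑ k, if τ k = j then 0 else α k • mulF (m₃ ^ (j - τ k)) (T k) := by
      simp only [σ]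
      rw [← Finset.sum_sub_distrib]
      refine Finset.sum_congr rfl fun k _ => ?_
      by_cases hk : τ k = j
      · simp only [hk, if_true, sub_zero, Nat.sub_self, pow_zero]
        congr 1
        funext n
        simp
      · simp [hk]
    rw [h1]
    refine Submodule.sub_mem _ hRR (sum_mem fun k _ => ?_)
    by_cases hk : τ k = j
    · rw [if_pos hk]
      exact Submodule.zero_mem _
    · rw [if_neg hk]
      by_cases hk2 : α k = 0
      · rw [hk2, zero_smul]
        exact Submodule.zero_mem _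
      · refine Submodule.smul_mem _ _ ?_
        have h2 := hmax' k hk2
        obtain ⟨e, he⟩ : ∃ e, j - τ k = e + 1 := ⟨j - τ k - 1, by omega⟩
        have h3 : m₃ ^ e ∈ HH K e := by
          have := (show m₃.IsHomogeneous 1 from P.h3).pow e
          simpa using this
        have h4 := mulF_mem_Zs h3 (hR.mem k)
        have h5 : τ k + e + 1 = j := by omega
        have h6 : mulF (m₃ ^ (j - τ k)) (T k) = mulF m₃ (mulF (m₃ ^ e) (T k)) := by
          funext n
          simp only [mulF_apply, he, pow_succ]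
          ring
        rw [h6]
        have h7 := mulF_mem_RR P.h3 h4
        rwa [h5] at h7
  exact hk₁' (hR.min j hjD α hsplit k₁ rfl)

/-- The evaluation matrix of the rows has a right inverse, so the rows are independent over the
polynomial ring. -/
theorem rows_left_inj [DecidableEq κ] [DecidableEq N]
    (h : ∀ α : κ → K, (∀ n, ∑ k, α k * eval v (T k n) = 0) → α = 0)
    (y : κ → S3 K) (hy : ∀ n, ∑ k, y k * T k n = 0) : y = 0 := by
  let M : Matrix κ N K := fun k n => eval v (T k n)
  have hinj : LinearMap.ker M.vecMulLinear = ⊥ := by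
    rw [LinearMap.ker_eq_bot']
    intro α hα
    apply h
    intro n
    have := congrFun hα n
    rw [Matrix.vecMulLinear_apply] at this
    simpa [Matrix.vecMul, dotProduct, M] using this
  obtain ⟨G, hG⟩ := LinearMap.exists_leftInverse_of_injective M.vecMulLinear hinj
  let Cm : Matrix κ N K := LinearMap.toMatrix' G
  have h1 : M * Cm.transpose = 1 := by
    have h2 : Cm * M.transpose = 1 := by
      have h3 : LinearMap.toMatrix' (G ∘ₗ M.vecMulLinear) = 1 := by
        rw [hG]
        exact LinearMap.toMatrix'_id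
      rw [LinearMap.toMatrix'_comp] at h3
      have h4 : LinearMap.toMatrix' M.vecMulLinear = M.transpose := by
        ext i j
        simp [LinearMap.toMatrix'_apply, Matrix.vecMul, dotProduct, Matrix.transpose_apply,
          Pi.single_apply]
      rwa [h4] at h3
    have := congrArg Matrix.transpose h2
    rwa [Matrix.transpose_mul, Matrix.transpose_transpose, Matrix.transpose_one] at this
  let T' : Matrix κ κ (S3 K) := (Matrix.of T) * (Cm.transpose.map C)
  have h2 : T'.map (eval v) = 1 := by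
    ext k k'
    simp only [T', Matrix.map_apply, Matrix.mul_apply, map_sum, map_mul, eval_C, Matrix.of_apply]
    exact congrFun (congrFun h1 k) k'
  have hdet : T'.det ≠ 0 := by
    intro h0
    have h3 : (T'.map (eval v)).det = 1 := by rw [h2, Matrix.det_one]
    have h4 : (T'.map (eval v)).det = eval v T'.det := by
      exact ((eval v).map_det T').symm
    rw [h4, h0, map_zero] at h3
    exact zero_ne_one h3
  by_contra hy0
  apply hdet
  refine Matrix.exists_vecMul_eq_zero_iff.1 ⟨y, hy0, ?_⟩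
  have h3 : Matrix.vecMul y (Matrix.of T) = 0 := by
    funext n
    simpa [Matrix.vecMul, dotProduct] using hy n
  simp only [T']
  rw [← Matrix.vecMul_vecMul, h3, Matrix.zero_vecMul]

theorem Zs_eq_map (hR : RowsD g dg D τ T) {j : ℕ} (hj : j ≤ D) :
    Zs g dg j = (piY τ j).map (Phi T) := by
  apply le_antisymm (hR.gen j hj)
  rintro _ ⟨y, hy, rfl⟩
  have h1 : Phi T y = ∑ k, mulF (y k) (T k) := by
    funext n
    simp [Phi_apply, Finset.sum_apply]
  rw [h1]
  refine sum_mem fun k _ => ?_
  rcases mem_YY.1 (mem_piY.1 hy k) with ⟨h2, h3⟩ | ⟨-, h3⟩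
  · have h4 := mulF_mem_Zs h3 (hR.mem k)
    rwa [show τ k + (j - τ k) = j by omega] at h4
  · rw [h3]
    have : mulF 0 (T k) = 0 := by
      funext n
      simp
    rw [this]
    exact Submodule.zero_mem _

/-- The dimension count for a family of rows. -/
theorem count (hF : Fam W D) (hG : Gens W D g dg) (hR : RowsD g dg D τ T)
    (hinj : ∀ y : κ → S3 K, (∀ n, ∑ k, y k * T k n = 0) → y = 0) {j : ℕ} (hj : j ≤ D) :
    ∑ n, (if dg n ≤ j then DD (j - dg n) else 0) =
      ∑ k, (if τ k ≤ j then DD (j - τ k) else 0) + finrank K (W j) := by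
  have h1 : finrank K (Zs g dg j) = finrank K (piY τ j : Submodule K (κ → S3 K)) := by
    rw [Zs_eq_map hR hj]
    have hPhi : Function.Injective (Phi T) := by
      rw [injective_iff_map_eq_zero]
      intro y hy
      exact hinj y fun n => congrFun hy n
    exact (LinearEquiv.finrank_eq (Submodule.equivMapOfInjective (Phi T) hPhi _)).symm
  have h2 := LinearMap.finrank_range_add_finrank_ker ((lc g).domRestrict (piY dg j))
  rw [LinearMap.range_domRestrict, LinearMap.ker_domRestrict] at h2
  have h3 : (piY dg j : Submodule K (N → S3 K)).map (lc g) = W j := by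
    apply le_antisymm
    · rintro _ ⟨c, hc, rfl⟩
      rw [lc_apply]
      exact lc_mem hF hG hj hc
    · intro u hu
      obtain ⟨c, hc, rfl⟩ := hG.gen j hj u hu
      exact ⟨c, hc, lc_apply g c⟩
  have h4 : finrank K (Submodule.comap (piY dg j : Submodule K (N → S3 K)).subtype (LinearMap.ker (lc g))) =
      finrank K (Zs g dg j) := by
    have h5 : Submodule.comap (piY dg j : Submodule K (N → S3 K)).subtype (LinearMap.ker (lc g)) =
        Submodule.comap (piY dg j : Submodule K (N → S3 K)).subtype (Zs g dg j) := by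
      ext x
      simp [Zs]
    rw [h5]
    exact LinearEquiv.finrank_eq (Submodule.comapSubtypeEquivOfLe inf_le_left)
  rw [h3, h4, h1, finrank_piY, finrank_piY] at h2
  simp only [finrank_YY] at h2
  rw [← h2, add_comm]

theorem T_zero_of_gt (hR : RowsD g dg D τ T) (k : κ) {n : N} (hn : D < dg n) : T k n = 0 := by
  have h1 := (mem_Zs.1 (hR.mem k)).1 n
  rcases mem_YY.1 h1 with ⟨h2, -⟩ | ⟨-, h2⟩
  · have := hR.tle k
    omega
  · exact h2

theorem T_wt (hR : RowsD g dg D τ T) (k : κ) (n : N) : Wt (T k n) ((τ k : ℤ) - dg n) := by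
  have h1 := (mem_Zs.1 (hR.mem k)).1 n
  rcases mem_YY.1 h1 with ⟨h2, h3⟩ | ⟨-, h3⟩
  · have h4 := wt_of_mem h3
    rwa [Nat.cast_sub h2] at h4
  · rw [h3]
    exact wt_zero _

theorem T_g (hR : RowsD g dg D τ T) (k : κ) : ∑ n, T k n * g n = 0 :=
  (mem_Zs.1 (hR.mem k)).2

/-- There are fewer rows than generators of degree at most `D`. -/
theorem rows_lt [DecidableEq κ] [DecidableEq N] (hR : RowsD g dg D τ T)
    (hinj : ∀ y : κ → S3 K, (∀ n, ∑ k, y k * T k n = 0) → y = 0) {n₀ : N} (hn₀ : dg n₀ ≤ D)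
    (hg : g n₀ ≠ 0) : (Fintype.card κ : ℤ) < ∑ n, (if dg n ≤ D then (1 : ℤ) else 0) := by
  by_contra hcon
  push Not at hcon
  have hr : (∑ n, (if dg n ≤ D then (1 : ℤ) else 0)) = (Fintype.card {n // dg n ≤ D} : ℤ) := by
    rw [Fintype.card_subtype, Finset.card_filter]
    push_cast
    rfl
  rw [hr] at hcon
  have hcon' : Fintype.card {n // dg n ≤ D} ≤ Fintype.card κ := by exact_mod_cast hcon
  obtain ⟨s, hs⟩ := Nat.exists_eq_add_of_le hcon'
  have hcard : Fintype.card κ = Fintype.card ({n // dg n ≤ D} ⊕ Fin s) := by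
    rw [Fintype.card_sum, Fintype.card_fin, hs]
  let e : κ ≃ ({n // dg n ≤ D} ⊕ Fin s) := Fintype.equivOfCardEq hcard
  let col : ({n // dg n ≤ D} ⊕ Fin s) → κ → S3 K := fun x k =>
    Sum.elim (fun n => T k n.1) (fun _ => 0) x
  let vv : ({n // dg n ≤ D} ⊕ Fin s) → S3 K := Sum.elim (fun n => g n.1) (fun _ => 0)
  let M : Matrix κ κ (S3 K) := fun k k' => col (e k') k
  let v' : κ → S3 K := fun k' => vv (e k')
  have hMv : M *ᵥ v' = 0 := by
    funext k
    simp only [Matrix.mulVec, dotProduct, M, v', Pi.zero_apply]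
    rw [Equiv.sum_comp e (fun x => col x k * vv x), Fintype.sum_sum_type]
    simp only [col, vv, Sum.elim_inl, Sum.elim_inr, zero_mul, Finset.sum_const_zero, add_zero]
    have h1 := T_g hR k
    rw [← h1]
    rw [← Finset.sum_subtype (Finset.univ.filter fun n => dg n ≤ D) (fun x => by simp)
      (fun n => T k n * g n)]
    apply Finset.sum_subset (Finset.filter_subset _ _)
    intro n _ hn
    have h2 : D < dg n := by
      simp only [Finset.mem_filter, Finset.mem_univ, true_and] at hn
      omega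
    rw [T_zero_of_gt hR k h2, zero_mul]
  have hv0 : v' ≠ 0 := by
    intro h0
    have h1 := congrFun h0 (e.symm (Sum.inl ⟨n₀, hn₀⟩))
    simp only [v', Equiv.apply_symm_apply, vv, Sum.elim_inl, Pi.zero_apply] at h1
    exact hg h1
  have hdet : M.det = 0 := Matrix.exists_mulVec_eq_zero_iff.1 ⟨v', hv0, hMv⟩
  obtain ⟨y, hy0, hy⟩ := Matrix.exists_vecMul_eq_zero_iff.2 hdet
  apply hy0
  apply hinj
  intro n
  by_cases hn : dg n ≤ D
  · have h1 := congrFun hy (e.symm (Sum.inl ⟨n, hn⟩))
    simpa [Matrix.vecMul, dotProduct, M, col] using h1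
  · apply Finset.sum_eq_zero
    intro k _
    rw [T_zero_of_gt hR k (by omega), mul_zero]

end Vale.Agent.Lib.P200
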