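import Vale.Agent.Lib.P200.Pencil
import Vale.Agent.Lib.P200.Rows2

/-!
The relative version of the pencil lemma and the choice of adapted linear forms.
-/

noncomputable section

namespace Vale.Agent.Lib.P200

open MvPolynomial Module

variable {K : Type*} [Field K]

section relative

variable {E E' : Type*} [AddCommGroup E] [Module K E] [AddCommGroup E'] [Module K E']

/-- Dimension of the image in a quotient. -/
theorem finrank_map_mkQ (Y Z : Submodule K E') [FiniteDimensional K Z] (h : Y ≤ Z) :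
    finrank K (Z.map Y.mkQ) + finrank K Y = finrank K Z := by
  have h1 := LinearMap.finrank_range_add_finrank_ker (Y.mkQ.domRestrict Z)
  rw [LinearMap.range_domRestrict, LinearMap.ker_domRestrict, Submodule.ker_mkQ] at h1
  have h2 : finrank K (Submodule.comap Z.subtype Y) = finrank K Y := by
    exact LinearEquiv.finrank_eq (Submodule.comapSubtypeEquivOfLe h)
  rw [h2] at h1
  exact h1

theorem pencil_mod [Infinite K] (A B : E →ₗ[K] E') (V₀ V₁ : Submodule K E) (Y : Submodule K E')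
    [FiniteDimensional K V₁] [FiniteDimensional K Y] (h01 : V₀ ≤ V₁)
    (hA : ∀ u ∈ V₀, A u ∈ Y) (hB : ∀ u ∈ V₀, B u ∈ Y)
    (hall : ∀ U : Submodule K E, V₀ ≤ U → U ≤ V₁ →
      finrank K U + finrank K Y ≤ finrank K ↥(Y ⊔ U.map A ⊔ U.map B) + finrank K V₀) :
    ∃ t : K, ∀ u ∈ V₁, A u + t • B u ∈ Y → u ∈ V₀ := by
  let V₀' : Submodule K V₁ := V₀.comap V₁.subtype
  obtain ⟨Cc, hC⟩ := Submodule.exists_isCompl V₀'
  let ι : Cc →ₗ[K] E := V₁.subtype ∘ₗ Cc.subtype
  have hι : Function.Injective ι := by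
    intro x y hxy
    exact Subtype.ext (Subtype.ext hxy)
  let A' : Cc →ₗ[K] (E' ⧸ Y) := Y.mkQ ∘ₗ A ∘ₗ ι
  let B' : Cc →ₗ[K] (E' ⧸ Y) := Y.mkQ ∘ₗ B ∘ₗ ι
  have : FiniteDimensional K V₀ := Submodule.finiteDimensional_of_le h01
  have hfin : FiniteDimensional K Cc := inferInstance
  have hall' : ∀ U' : Submodule K Cc, finrank K U' ≤ finrank K ↥(U'.map A' ⊔ U'.map B') := by
    intro U'
    let Uc : Submodule K E := U'.map ι
    have hUc : finrank K Uc = finrank K U' :=
      (LinearEquiv.finrank_eq (Submodule.equivMapOfInjective ι hι U')).symm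
    have hUcle : Uc ≤ V₁ := by
      rintro _ ⟨x, -, rfl⟩
      exact (x.1).2
    have hdisj : V₀ ⊓ Uc = ⊥ := by
      rw [eq_bot_iff]
      rintro u ⟨hu1, x, -, rfl⟩
      have h1 : (x.1 : V₁) ∈ V₀' := hu1
      have h2 : (x.1 : V₁) ∈ V₀' ⊓ Cc := ⟨h1, x.2⟩
      rw [hC.inf_eq_bot, Submodule.mem_bot] at h2
      rw [Submodule.mem_bot]
      simp [ι, h2]
    have : FiniteDimensional K Uc := Submodule.finiteDimensional_of_le hUcle
    have h1 := Submodule.finrank_sup_add_finrank_inf_eq V₀ Uc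
    rw [hdisj, finrank_bot, add_zero] at h1
    have h2 := hall (V₀ ⊔ Uc) le_sup_left (sup_le h01 hUcle)
    let Z : Submodule K E' := Y ⊔ (Uc.map A ⊔ Uc.map B)
    have hZ : Y ⊔ (V₀ ⊔ Uc).map A ⊔ (V₀ ⊔ Uc).map B = Z := by
      apply le_antisymm
      · rw [Submodule.map_sup, Submodule.map_sup]
        simp only [Z]
        refine sup_le (sup_le le_sup_left (sup_le ?_ ?_)) (sup_le ?_ ?_)
        · rintro _ ⟨u, hu, rfl⟩
          exact Submodule.mem_sup_left (hA u hu)
        · exact le_sup_of_le_right le_sup_left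
        · rintro _ ⟨u, hu, rfl⟩
          exact Submodule.mem_sup_left (hB u hu)
        · exact le_sup_of_le_right le_sup_right
      · simp only [Z]
        refine sup_le (le_sup_of_le_left le_sup_left) (sup_le ?_ ?_)
        · exact le_sup_of_le_left (le_sup_of_le_right (Submodule.map_mono le_sup_right))
        · exact le_sup_of_le_right (Submodule.map_mono le_sup_right)
    rw [hZ] at h2
    have : FiniteDimensional K Z := by
      simp only [Z]
      infer_instance
    have h3 := finrank_map_mkQ Y Z le_sup_left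
    have h4 : Z.map Y.mkQ = U'.map A' ⊔ U'.map B' := by
      simp only [Z]
      rw [Submodule.map_sup, Submodule.map_sup]
      have h5 : Y.map Y.mkQ = ⊥ := by
        rw [eq_bot_iff]
        rintro _ ⟨y, hy, rfl⟩
        exact (Submodule.Quotient.mk_eq_zero Y).2 hy
      rw [h5, bot_sup_eq]
      congr 1
      · simp only [Uc, A', Submodule.map_comp]
      · simp only [Uc, B', Submodule.map_comp]
    rw [h4] at h3
    omega
  obtain ⟨t, ht⟩ := pencil A' B' hall'
  refine ⟨t, fun u hu h => ?_⟩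
  have h1 : (⟨u, hu⟩ : V₁) ∈ V₀' ⊔ Cc := by
    rw [hC.sup_eq_top]
    trivial
  obtain ⟨x, hx, y, hy, hxy⟩ := Submodule.mem_sup.1 h1
  have hy0 : (⟨y, hy⟩ : Cc) = 0 := by
    apply ht
    have hu' : u = (x : E) + (y : E) := by
      have := congrArg Subtype.val hxy
      simpa using this.symm
    have hx' : (x : E) ∈ V₀ := hx
    have h2 : A (y : E) + t • B (y : E) ∈ Y := by
      have h3 : A (y : E) + t • B (y : E) = (A u + t • B u) - (A x + t • B x) := by
        rw [hu', map_add, map_add, smul_add]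
        abel
      rw [h3]
      exact Y.sub_mem h (Y.add_mem (hA _ hx') (Y.smul_mem _ (hB _ hx')))
    have h3 : A' ⟨y, hy⟩ + t • B' ⟨y, hy⟩ = Y.mkQ (A (y : E) + t • B (y : E)) := by
      simp [A', B', ι]
    rw [h3]
    exact (Submodule.Quotient.mk_eq_zero Y).2 h2
  have hy1 : y = 0 := congrArg Subtype.val hy0
  rw [hy1, add_zero] at hxy
  have hxu : (x : E) = u := congrArg Subtype.val hxy
  rw [← hxu]
  exact hx

end relative

/-- An auxiliary form of the frame lemma. -/
theorem frame_aux (i₀ i₁ i₂ : Fin 3) (h01 : i₀ ≠ i₁) (h02 : i₀ ≠ i₂) (h12 : i₁ ≠ i₂)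
    (hi : ∀ i, i = i₀ ∨ i = i₁ ∨ i = i₂) {l : S3 K} (c0 c1 c2 : K) (hc : c0 ≠ 0)
    (hl : l = C c0 * X i₀ + C c1 * X i₁ + C c2 * X i₂) (hlH : l ∈ HH K 1) :
    (∀ i, ∃ α β γ : K, (X i : S3 K) = C α * l + C β * X i₁ + C γ * X i₂) ∧
    ∀ t : K, ∃ v : Fin 3 → K, Pt l (X i₁ + C t * X i₂) (X i₂) v := by
  have hc0 : C c0 * C c0⁻¹ = (1 : S3 K) := by
    rw [← C_mul, mul_inv_cancel₀ hc, C_1]
  have hl0 : l ≠ 0 := by
    intro h0
    have h1 := congrArg (eval (Pi.single i₀ 1 : Fin 3 → K)) h0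
    rw [hl] at h1
    simp [Pi.single_apply, h01.symm, h02.symm] at h1
    exact hc h1
  have hspan : ∀ i, ∃ α β γ : K, (X i : S3 K) = C α * l + C β * X i₁ + C γ * X i₂ := by
    intro i
    rcases hi i with rfl | rfl | rfl
    · refine ⟨c0⁻¹, -c1 * c0⁻¹, -c2 * c0⁻¹, ?_⟩
      rw [hl]
      simp only [C_mul, C_neg]
      linear_combination (- (X i : S3 K)) * hc0
    · exact ⟨0, 1, 0, by simp⟩
    · exact ⟨0, 0, 1, by simp⟩
  refine ⟨hspan, fun t => ?_⟩
  refine ⟨fun i => if i = i₀ then (c1 * t - c2) * c0⁻¹ else if i = i₁ then -t else 1, ?_⟩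
  have hm2 : (X i₁ + C t * X i₂ : S3 K) ∈ HH K 1 :=
    (isHomogeneous_X K i₁).add (isHomogeneous_C_mul_X t i₂)
  have hm20 : (X i₁ + C t * X i₂ : S3 K) ≠ 0 := by
    intro h0
    have h1 := congrArg (eval (Pi.single i₁ 1 : Fin 3 → K)) h0
    simp [Pi.single_apply, h12.symm] at h1
  refine ⟨hlH, hm2, isHomogeneous_X K i₂, ?_, ?_, ?_, ?_, ?_, hl0⟩
  · rw [hl]
    simp only [map_add, map_mul, eval_C, eval_X, if_true, if_neg h01.symm, if_neg h02.symm, if_neg h12.symm]
    field_simp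
    ring
  · simp [h01.symm, h02.symm, h12.symm]
  · simp [h02.symm, h12.symm]
  · intro i
    rcases hi i with rfl | rfl | rfl
    · refine ⟨c0⁻¹, -c1 * c0⁻¹, (c1 * t - c2) * c0⁻¹, ?_⟩
      rw [hl]
      simp only [C_mul, C_neg, C_sub]
      linear_combination (- (X i : S3 K)) * hc0
    · refine ⟨0, 1, -t, ?_⟩
      simp only [C_0, C_1, C_neg]
      ring
    · exact ⟨0, 0, 1, by simp⟩
  · -- the non-zero-divisor property
    let rho : S3 K →ₐ[K] S3 K :=
      aeval fun i => if i = i₀ then C (-c1 * c0⁻¹) * X i₁ + C (-c2 * c0⁻¹) * X i₂ else X i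
    have hr1 : rho (X i₁) = X i₁ := by simp [rho, h01.symm]
    have hr2 : rho (X i₂) = X i₂ := by simp [rho, h02.symm]
    have hr0 : rho (X i₀) = C (-c1 * c0⁻¹) * X i₁ + C (-c2 * c0⁻¹) * X i₂ := by simp [rho]
    have hrl : rho l = 0 := by
      rw [hl]
      simp only [map_add, map_mul, algHom_C, hr0, hr1, hr2, algebraMap_eq, C_mul, C_neg]
      linear_combination (- (C c1 * X i₁ + C c2 * X i₂ : S3 K)) * hc0
    have hrm : rho (X i₁ + C t * X i₂) = X i₁ + C t * X i₂ := by
      simp only [map_add, map_mul, algHom_C, hr1, hr2, algebraMap_eq]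
    have hsub : ∀ u, u - rho u ∈ adj ⊥ l := by
      apply sub_mem_of_gen
      intro i
      by_cases h : i = i₀
      · subst h
        rw [hr0]
        have h3 : (X i : S3 K) - (C (-c1 * c0⁻¹) * X i₁ + C (-c2 * c0⁻¹) * X i₂) = C c0⁻¹ * l := by
          rw [hl]
          simp only [C_mul, C_neg]
          linear_combination (- (X i : S3 K)) * hc0
        rw [h3]
        exact Ideal.mul_mem_left _ _ (self_mem_adj _ _)
      · have : rho (X i) = X i := by simp [rho, h]
        rw [this, sub_self]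
        exact Ideal.zero_mem _
    intro u hu
    obtain ⟨a, ha, w, hw⟩ := mem_adj.1 hu
    have ha0 : a = 0 := by simpa using ha
    have h5 : rho ((X i₁ + C t * X i₂) * u) = 0 := by
      rw [hw, ha0]
      simp [hrl]
    rw [map_mul, hrm] at h5
    have h6 : rho u = 0 := by
      rcases mul_eq_zero.1 h5 with h7 | h7
      · exact absurd h7 hm20
      · exact h7
    have := hsub u
    rwa [h6, sub_zero] at this

/-- Given a nonzero linear form, choose two further linear forms completing it to a basis, with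
the points needed along the pencil they span. -/
theorem exists_frame {l : S3 K} (hl : l ∈ HH K 1) (hl0 : l ≠ 0) :
    ∃ mA mB : S3 K, mA ∈ HH K 1 ∧ mB ∈ HH K 1 ∧
      (∀ i, ∃ α β γ : K, (X i : S3 K) = C α * l + C β * mA + C γ * mB) ∧
      ∀ t : K, ∃ v : Fin 3 → K, Pt l (mA + C t * mB) mB v := by
  obtain ⟨c, hc⟩ := form1_eq hl
  rw [Fin.sum_univ_three] at hc
  by_cases h0 : c 0 ≠ 0
  · obtain ⟨h1, h2⟩ := frame_aux 0 1 2 (by decide) (by decide) (by decide) (by decide) (c 0) (c 1) (c 2) h0 hc hl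
    exact ⟨_, _, isHomogeneous_X K 1, isHomogeneous_X K 2, h1, h2⟩
  by_cases h1 : c 1 ≠ 0
  · obtain ⟨h2, h3⟩ := frame_aux 1 0 2 (by decide) (by decide) (by decide) (by decide) (c 1) (c 0) (c 2) h1
      (by rw [hc]; ring) hl
    exact ⟨_, _, isHomogeneous_X K 0, isHomogeneous_X K 2, h2, h3⟩
  by_cases h2 : c 2 ≠ 0
  · obtain ⟨h3, h4⟩ := frame_aux 2 0 1 (by decide) (by decide) (by decide) (by decide) (c 2) (c 0) (c 1) h2
      (by rw [hc]; ring) hl
    exact ⟨_, _, isHomogeneous_X K 0, isHomogeneous_X K 1, h3, h4⟩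
  exfalso
  push Not at h0 h1 h2
  apply hl0
  rw [hc, h0, h1, h2]
  simp

end Vale.Agent.Lib.P200
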