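import Mathlib.LinearAlgebra.Matrix.NonsingularInverse
import Mathlib.LinearAlgebra.LinearIndependent.Lemmas
import Mathlib.RingTheory.Localization.Integer
import Mathlib.RingTheory.Localization.FractionRing
import Mathlib.LinearAlgebra.FiniteDimensional.Lemmas
import Mathlib.LinearAlgebra.Matrix.Determinant.Basic
import Mathlib.Algebra.Field.Equiv

/-!
A rectangular matrix all of whose maximal minors vanish has dependent columns.
-/

noncomputable section

namespace Vale.Agent.Lib.P200

open Matrix Module

variable {R : Type*} [CommRing R] [IsDomain R] {κ ρ : Type*} [Fintype κ] [Fintype ρ]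
  [DecidableEq κ] [DecidableEq ρ]

/-- The square matrix with columns those of `U` and one further column. -/
def augM (e : κ ≃ Option ρ) (U : Matrix κ ρ R) (b : κ → R) : Matrix κ κ R :=
  fun k k' => match e k' with
    | none => b k
    | some n => U k n

theorem minor_ker (e : κ ≃ Option ρ) (U : Matrix κ ρ R)
    (h : ∀ b : κ → R, (augM e U b).det = 0) :
    ∃ ν : ρ → R, ν ≠ 0 ∧ ∀ k, ∑ n, U k n * ν n = 0 := by
  classical
  let L := FractionRing R
  let φ : R →+* L := algebraMap R L
  have hφ : Function.Injective φ := IsFractionRing.injective R L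
  let v : ρ → (κ → L) := fun n k => φ (U k n)
  have hnot : ¬ LinearIndependent L v := by
    intro hli
    have hcard : Fintype.card κ = Fintype.card ρ + 1 := by
      rw [Fintype.card_congr e, Fintype.card_option]
    obtain ⟨k₀, hk₀⟩ : ∃ k₀ : κ, (Pi.single k₀ 1 : κ → L) ∉ Submodule.span L (Set.range v) := by
      by_contra hcon
      push Not at hcon
      have htop : Submodule.span L (Set.range v) = ⊤ := by
        rw [eq_top_iff, ← Pi.basisFun L κ |>.span_eq]
        rw [Submodule.span_le]
        rintro _ ⟨k, rfl⟩
        have := hcon k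
        simpa [Pi.basisFun_apply] using this
      have h1 := finrank_span_eq_card hli
      rw [htop, finrank_top] at h1
      simp only [finrank_fintype_fun_eq_card] at h1
      omega
    have hli2 : LinearIndependent L (fun o : Option ρ => Option.casesOn' o (Pi.single k₀ 1 : κ → L) v) :=
      linearIndependent_option'.2 ⟨hli, hk₀⟩
    have hli3 := hli2.comp e e.injective
    let A : Matrix κ κ L := ((augM e U (Pi.single k₀ 1)).map φ)
    have hcols : A.col = fun k' => (fun o : Option ρ => Option.casesOn' o (Pi.single k₀ 1 : κ → L) v) (e k') := by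
      ext k' k
      simp only [A, Matrix.col, Matrix.map_apply, augM, transpose_apply, Matrix.of_apply]
      cases hek : e k' with
      | none =>
        simp only [Option.casesOn'_none]
        by_cases hk : k = k₀
        · subst hk; simp
        · simp [Pi.single_eq_of_ne hk]
      | some n => simp [v]
    have hunit : IsUnit A := by
      rw [← linearIndependent_cols_iff_isUnit, hcols]
      exact hli3
    have hdet : A.det ≠ 0 := by
      have := (isUnit_iff_isUnit_det A).1 hunit
      exact this.ne_zero
    apply hdet
    have h2 : A.det = φ (augM e U (Pi.single k₀ 1)).det := by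
      simp only [A]
      exact (RingHom.map_det φ _).symm
    rw [h2, h, map_zero]
  rw [Fintype.not_linearIndependent_iff] at hnot
  obtain ⟨g, hg, n₀, hn₀⟩ := hnot
  obtain ⟨b, hb⟩ := IsLocalization.exist_integer_multiples_of_finite (nonZeroDivisors R) g
  choose ν hν using hb
  have hb0 : φ (b : R) ≠ 0 := by
    intro h1
    rw [map_eq_zero_iff φ hφ] at h1
    exact (nonZeroDivisors.ne_zero b.2) h1
  have h3 : ∀ i, φ (ν i) = φ (b : R) * g i := fun i =>
    (hν i).trans (Algebra.smul_def _ _)
  refine ⟨ν, ?_, ?_⟩
  · intro h0
    have h1 := h3 n₀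
    rw [h0] at h1
    simp only [Pi.zero_apply, map_zero] at h1
    rcases mul_eq_zero.1 h1.symm with h2 | h2
    · exact hb0 h2
    · exact hn₀ h2
  · intro k
    apply hφ
    rw [map_zero, map_sum]
    have h1 := congrFun hg k
    simp only [Finset.sum_apply, Pi.smul_apply, smul_eq_mul, Pi.zero_apply, v] at h1
    have h2 : ∀ n, φ (U k n * ν n) = φ (b : R) * (g n * φ (U k n)) := by
      intro n
      rw [map_mul, h3]
      ring
    simp only [h2]
    rw [← Finset.mul_sum, h1, mul_zero]

end Vale.Agent.Lib.P200
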