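import Vale.Agent.Lib.P200.HF
import Vale.Agent.Lib.P200.Hall

/-!
A form of degree lower than the first generator forces a small Hilbert function.
-/

noncomputable section

namespace Vale.Agent.Lib.P200

open MvPolynomial Module

variable {K : Type*} [Field K]

theorem x0_x1 : NZ (⊥ : Ideal (S3 K)) (X 0) ∧ NZ (adj (⊥ : Ideal (S3 K)) (X 0)) (X 1) := by
  have h1 := lin1_nz (K := K) ![0, 0, 1] (by simp)
  have h2 := lin2_nz (K := K) ![0, 0, 1] (by simp)
  have e1 : lin1 (K := K) ![0, 0, 1] = X 0 := by simp [lin1]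
  have e2 : lin2 (K := K) ![0, 0, 1] = X 1 := by simp [lin2]
  rw [e1] at h1 h2
  rw [e2] at h2
  exact ⟨h1, h2⟩

/-- A divisor of all multiples of `u` by forms of a given degree divides `u`. -/
theorem dvd_of_forms {f1 u : S3 K} (hf1 : f1 ≠ 0) : ∀ n : ℕ, (∀ m ∈ HH K n, f1 ∣ u * m) → f1 ∣ u := by
  intro n
  induction n with
  | zero =>
    intro h
    have := h 1 (isHomogeneous_one (Fin 3) K)
    simpa using this
  | succ n ih =>
    intro h
    apply ih
    intro m hm
    have h0 := x0_x1 (K := K)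
    have h1 := h (X 0 * m) (by
      have := mul_mem_HH (isHomogeneous_X K (0 : Fin 3)) hm
      exact this)
    have h2 := h (X 1 * m) (by
      have := mul_mem_HH (isHomogeneous_X K (1 : Fin 3)) hm
      exact this)
    have h3 : (u * m) ∈ adj ⊥ f1 := by
      apply lemG (nz_bot hf1) h0.1 h0.2
      · rw [mem_prin]
        rwa [show X 0 * (u * m) = u * (X 0 * m) by ring]
      · rw [mem_prin]
        rwa [show X 1 * (u * m) = u * (X 1 * m) by ring]
    exact mem_prin.1 h3

theorem nz_pow {A : Ideal (S3 K)} {l : S3 K} (h : NZ A l) : ∀ n, NZ A (l ^ n) := by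
  intro n
  induction n with
  | zero =>
    intro u hu
    simpa using hu
  | succ n ih =>
    intro u hu
    apply ih
    apply h
    rwa [show l * (l ^ n * u) = l ^ (n + 1) * u by ring]

theorem pow_mem_HH {l : S3 K} (h : l ∈ HH K 1) (n : ℕ) : l ^ n ∈ HH K n := by
  have := (show l.IsHomogeneous 1 from h).pow n
  simpa using this

/-- Large degree forms belong to a complete intersection. -/
theorem RS.mem_large {u v w : S3 K} {α β γ : ℕ} (h : RS u v w α β γ) {m : S3 K}
    (hm : m ∈ HH K (α + β + γ)) : m ∈ T3 u v w := by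
  have h1 := h.hf (α + β + γ)
  have h2 : PP (β : ℤ) γ α ((α + β + γ : ℕ) : ℤ) = 0 := by
    apply Finset.sum_eq_zero
    intro k hk
    have hk' : (k : ℤ) < α := by exact_mod_cast Finset.mem_range.1 hk
    unfold eta
    push_cast
    omega
  rw [h2] at h1
  have h3 : finrank K (comp (T3 u v w) (α + β + γ)) = finrank K (HH K (α + β + γ)) := by
    rw [finrank_HH]
    omega
  have h4 := Submodule.eq_of_le_of_finrank_eq (comp_le _ _) h3
  rw [← h4] at hm
  exact (mem_comp.1 hm).1

theorem constCoeff_zero {u : S3 K} {n : ℕ} (hu : u ∈ HH K n) (hn : 1 ≤ n) : constantCoeff u = 0 := by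
  rw [constantCoeff_eq]
  apply (show u.IsHomogeneous n from hu).coeff_eq_zero
  simp
  omega

/-- The comparison: from a form of lower degree produce a new regular sequence. -/
theorem exists_rs [Infinite K] {f p q : S3 K} {a b c π : ℕ} (h : RS f p q a b c) (hab : a ≤ b)
    (hbc : b ≤ c) {P : S3 K} (hπ1 : 1 ≤ π) (hP : P ∈ HH K π) (hP0 : P ≠ 0) :
    ∃ p' q', p' ∈ comp (adj (adj ⊥ f) p) b ∧ q' ∈ comp (T3 f p q) c ∧ RS P p' q' π b c := by
  -- the second element
  obtain ⟨p', hp', hp'nz⟩ : ∃ p' ∈ comp (adj (adj ⊥ f) p) b, NZ (adj ⊥ P) p' := by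
    rcases dichotomy (adj ⊥ P) (comp (adj (adj ⊥ f) p) b) with h1 | ⟨u, hu, hw⟩
    · exact h1
    · exfalso
      have hu' : ¬ P ∣ u := fun h2 => hu (mem_prin.2 h2)
      obtain ⟨f1, f0, c1, c0, hPf, hf1, -, -, hc1, hdiv⟩ := ann_factor hP hP0 hu'
        (fun w hw' => mem_prin.1 (hw w hw'))
      have hf10 : f1 ≠ 0 := by
        rintro rfl
        apply hP0
        rw [hPf, zero_mul]
      have h2 : f1 ∣ p := hdiv p (mem_comp.2 ⟨self_mem_adj _ _, h.hv⟩)
      have h3 : f1 ∣ f := by
        apply dvd_of_forms hf10 (b - a)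
        intro m hm
        apply hdiv
        refine mem_comp.2 ⟨Ideal.mul_mem_right _ _ (le_adj _ _ (self_mem_adj _ _)), ?_⟩
        have := mul_mem_HH h.hu hm
        rwa [show b - a + a = b by omega] at this
      obtain ⟨s, hs⟩ := h2
      obtain ⟨t, ht⟩ := h3
      have h4 : t ∈ adj ⊥ f := by
        apply h.nz1
        refine mem_prin.2 ⟨s, ?_⟩
        rw [hs]
        nth_rewrite 1 [ht]
        ring
      obtain ⟨r, hr⟩ := mem_prin.1 h4
      have h5 : f1 * r = 1 := by
        apply mul_left_cancel₀ h.u0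
        rw [mul_one]
        calc f * (f1 * r) = f1 * (f * r) := by ring
          _ = f1 * t := by rw [hr]
          _ = f := ht.symm
      have h6 := congrArg constantCoeff h5
      rw [map_mul, constCoeff_zero hf1 hc1, zero_mul, map_one] at h6
      exact zero_ne_one h6
  have hp'1 := mem_comp.1 hp'
  -- the third element
  have hAP : HomIdeal (adj ⊥ P) := homIdeal_adj homIdeal_bot hP
  obtain ⟨q', hq', hq'nz⟩ : ∃ q' ∈ comp (T3 f p q) c, NZ (adj (adj ⊥ P) p') q' := by
    rcases dichotomy (adj (adj ⊥ P) p') (comp (T3 f p q) c) with h1 | ⟨u, hu, hw⟩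
    · exact h1
    · exfalso
      obtain ⟨l', hl', hl'nz⟩ := exists_linear hP hP0 hp'nz
      have hmem : ∀ (x : S3 K) (e : ℕ), x ∈ T3 f p q → x ∈ HH K e → e ≤ c → x * u ∈ adj (adj ⊥ P) p' := by
        intro x e hx hxe hec
        apply nz_pow hl'nz (c - e)
        have h1 : l' ^ (c - e) * x ∈ comp (T3 f p q) c := by
          refine mem_comp.2 ⟨Ideal.mul_mem_left _ _ hx, ?_⟩
          have := mul_mem_HH (pow_mem_HH hl' (c - e)) hxe
          rwa [show e + (c - e) = c by omega] at this
        have := hw _ h1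
        rwa [mul_assoc] at this
      have hf : f * u ∈ adj (adj ⊥ P) p' := hmem f a
        (le_adj _ _ (le_adj _ _ (self_mem_adj _ _))) h.hu (by omega)
      have hp : p * u ∈ adj (adj ⊥ P) p' := hmem p b
        (le_adj _ _ (self_mem_adj _ _)) h.hv hbc
      have hq : q * u ∈ adj (adj ⊥ P) p' := hmem q c
        (self_mem_adj _ _) h.hw le_rfl
      have hall : ∀ x ∈ T3 f p q, x * u ∈ adj (adj ⊥ P) p' := by
        intro x hx
        obtain ⟨y, hy, r3, rfl⟩ := mem_adj.1 hx
        obtain ⟨z, hz, r2, rfl⟩ := mem_adj.1 hy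
        obtain ⟨t, ht, r1, rfl⟩ := mem_adj.1 hz
        have ht0 : t = 0 := by simpa using ht
        rw [ht0]
        have e1 : (0 + r1 * f + r2 * p + r3 * q) * u = r1 * (f * u) + r2 * (p * u) + r3 * (q * u) := by
          ring
        rw [e1]
        exact Ideal.add_mem _ (Ideal.add_mem _ (Ideal.mul_mem_left _ _ hf) (Ideal.mul_mem_left _ _ hp))
          (Ideal.mul_mem_left _ _ hq)
      have h1 : l' ^ (a + b + c) ∈ T3 f p q := h.mem_large (pow_mem_HH hl' _)
      exact hu (nz_pow hl'nz _ u (hall _ h1))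
  have hq'1 := mem_comp.1 hq'
  exact ⟨p', q', hp', hq', hP, hp'1.2, hq'1.2, hπ1, h.hb, h.hc, hP0, hp'nz, hq'nz⟩

/-- A nonzero form of low degree in the family forces a small Hilbert function. -/
theorem low [Infinite K] {f p q : S3 K} {a b c π d D : ℕ} (h : RS f p q a b c) (hab : a ≤ b)
    (hbc : b ≤ c) {W : ℕ → Submodule K (S3 K)} (hF : Fam W D) (hd : d ≤ D)
    (hC : comp (T3 f p q) d ≤ W d) {P : S3 K} (hP : P ∈ W π) (hπD : π ≤ D) (hP0 : P ≠ 0) :
    (DD d : ℤ) - finrank K (W d) ≤ PP b c π d := by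
  have hPH : P ∈ HH K π := hF.le π hπD hP
  by_cases hπ : π = 0
  · subst hπ
    obtain ⟨k, hk⟩ := const_of_HH0 hPH
    have hk0 : k ≠ 0 := by
      rintro rfl
      apply hP0
      rw [hk]
      simp
    have hle : HH K d ≤ W d := by
      intro u hu
      have h1 : C k⁻¹ * u ∈ HH K d := by
        rw [← smul_eq_C_mul]
        exact Submodule.smul_mem _ _ hu
      have h2 := hF.mul_mem (e := d) (j := 0) h1 hP (by omega)
      rw [zero_add] at h2
      have h3 : C k⁻¹ * u * P = u := by
        rw [hk]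
        have : C k * C k⁻¹ = (1 : S3 K) := by
          rw [← C_mul, mul_inv_cancel₀ hk0, C_1]
        linear_combination u * this
      rwa [h3] at h2
    have h1 : W d = HH K d := le_antisymm (hF.le d hd) hle
    rw [h1, finrank_HH, PP_zero]
    simp
  · obtain ⟨p', q', hp', hq', hRS⟩ := exists_rs h hab hbc (by omega) hPH hP0
    have h1 := hRS.hf d
    rw [← h1]
    have hA3 : HomIdeal (T3 f p q) := h.hA3
    have hle : comp (T3 P p' q') d ≤ W d := by
      intro u hu
      obtain ⟨hu1, hu2⟩ := mem_comp.1 hu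
      have hu3 : u ∈ adj (T3 f p q) P := by
        have h2 : T3 P p' q' ≤ adj (T3 f p q) P := by
          unfold T3
          refine sup_le (sup_le (sup_le bot_le ?_) ?_) ?_
          · rw [Ideal.span_le, Set.singleton_subset_iff]
            exact self_mem_adj _ _
          · rw [Ideal.span_le, Set.singleton_subset_iff]
            exact le_adj _ _ (le_adj _ _ (mem_comp.1 hp').1)
          · rw [Ideal.span_le, Set.singleton_subset_iff]
            exact le_adj _ _ (mem_comp.1 hq').1
        exact h2 hu1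
      rcases mem_adj_hom hA3 hPH hu2 hu3 with ⟨-, h3⟩ | ⟨e, he, v, hv, x, hx, rfl⟩
      · exact hC (mem_comp.2 ⟨h3, hu2⟩)
      · refine Submodule.add_mem _ (hC hx) ?_
        have h3 := hF.mul_mem hv hP (by omega)
        rwa [show π + e = d by omega] at h3
    have := fd_of_le (hF.le d hd)
    have h2 := Submodule.finrank_mono hle
    have h3 : (finrank K (comp (T3 P p' q') d) : ℤ) ≤ finrank K (W d) := by exact_mod_cast h2
    linarith

end Vale.Agent.Lib.P200
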