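import Vale.Agent.Lib.P200.Dual

/-!
The main growth estimates for a regular sequence of type `(3, e+1, e+1)`.
-/

noncomputable section

namespace Vale.Agent.Lib.P200

open MvPolynomial Module

variable {K : Type*} [Field K]

/-- A regular sequence `f, p, p'` of degrees `3, e+1, e+1`. -/
structure Tri (f p p' : S3 K) (e : ℕ) : Prop where
  hf : f ∈ HH K 3
  hf0 : f ≠ 0
  hp : p ∈ HH K (e + 1)
  hp' : p' ∈ HH K (e + 1)
  h1 : NZ (adj ⊥ f) p
  h2 : NZ (adj (adj ⊥ f) p) p'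

/-- The ideal generated by a triple. -/
abbrev T3 (f p p' : S3 K) : Ideal (S3 K) := adj (adj (adj ⊥ f) p) p'

theorem finrank_succ_le {U T : Submodule K (S3 K)} [FiniteDimensional K T] (hle : U ≤ T) {x : S3 K}
    (hx : x ∈ T) (hnot : x ∉ U) : finrank K U + 1 ≤ finrank K T := by
  have h : U < T := lt_of_le_of_ne hle (fun h => hnot (h ▸ hx))
  exact Submodule.finrank_lt_finrank_of_lt h

namespace Tri

variable {f p p' : S3 K} {e : ℕ}

theorem homA (T : Tri f p p' e) : HomIdeal (adj ⊥ f) := homIdeal_adj homIdeal_bot T.hf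

theorem homB (T : Tri f p p' e) : HomIdeal (adj (adj ⊥ f) p) := homIdeal_adj T.homA T.hp

theorem one_notA (T : Tri f p p' e) : (1 : S3 K) ∉ adj ⊥ f :=
  one_not_mem_adj homIdeal_bot one_not_mem_bot T.hf (by omega)

theorem one_notB (T : Tri f p p' e) : (1 : S3 K) ∉ adj (adj ⊥ f) p :=
  one_not_mem_adj T.homA T.one_notA T.hp (by omega)

theorem comp_low (T : Tri f p p' e) {d : ℕ} (hd : d < e + 1) :
    comp (T3 f p p') d = comp (adj ⊥ f) d := by
  rw [T3, comp_adj_of_lt T.homB T.hp' hd, comp_adj_of_lt T.homA T.hp hd]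

theorem finrank_up (T : Tri f p p' e) :
    finrank K (comp (T3 f p p') (e + 1)) = finrank K (comp (adj ⊥ f) (e + 1)) + 2 := by
  have h1 := finrank_comp_adj (e := 0) T.homB T.hp' (ne_zero_of_nz T.one_notB T.h2) T.h2
  have h2 := finrank_comp_adj (e := 0) T.homA T.hp (ne_zero_of_nz T.one_notA T.h1) T.h1
  rw [zero_add, DD_zero, comp_adj_of_lt T.homA T.hp (by omega : 0 < e + 1),
    finrank_comp_prin_lt T.hf (by omega)] at h1
  rw [zero_add, DD_zero, finrank_comp_prin_lt T.hf (by omega)] at h2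
  unfold T3
  omega

theorem p_mem (T : Tri f p p' e) : p ∈ comp (T3 f p p') (e + 1) :=
  mem_comp.2 ⟨le_adj _ _ (self_mem_adj _ _), T.hp⟩

theorem p'_mem (T : Tri f p p' e) : p' ∈ comp (T3 f p p') (e + 1) :=
  mem_comp.2 ⟨self_mem_adj _ _, T.hp'⟩

theorem comp_mono_up (_T : Tri f p p' e) (d : ℕ) : comp (adj ⊥ f) d ≤ comp (T3 f p p') d :=
  comp_mono ((le_adj _ _).trans (le_adj _ _)) d

end Tri

/-- Independence modulo a proper factor. -/
theorem indep {f1 f0 p p' : S3 K} {c1 c0 e1 : ℕ} (hf1 : f1 ∈ HH K c1) (hc1 : 1 ≤ c1)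
    (hf0 : f0 ∈ HH K c0) (hne : f1 * f0 ≠ 0) (hp : p ∈ HH K e1) (he1 : 1 ≤ e1)
    (h1 : NZ (adj ⊥ (f1 * f0)) p) (h2 : NZ (adj (adj ⊥ (f1 * f0)) p) p') (α β : K)
    (h : f1 ∣ C α * p + C β * p') : α = 0 ∧ β = 0 := by
  have hf10 : f1 ≠ 0 := left_ne_zero_of_mul hne
  have hf00 : f0 ≠ 0 := right_ne_zero_of_mul hne
  have hfd : f1 * f0 ∈ HH K (c1 + c0) := (show f1.IsHomogeneous c1 from hf1).mul hf0
  have hA : HomIdeal (adj ⊥ (f1 * f0)) := homIdeal_adj homIdeal_bot hfd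
  have ha : ¬ (f1 * f0 ∣ f0) := by
    rintro ⟨t, ht⟩
    have h3 : f0 * (1 - f1 * t) = 0 := by linear_combination ht
    have h4 : 1 - f1 * t = 0 := by
      rcases mul_eq_zero.1 h3 with h5 | h5
      · exact absurd h5 hf00
      · exact h5
    apply one_not_mem_adj homIdeal_bot one_not_mem_bot hf1 hc1
    refine mem_prin.2 ⟨t, ?_⟩
    linear_combination h4
  have hb : ∀ t : S3 K, 1 - t * p ≠ 0 := by
    intro t h3
    apply one_not_mem_adj homIdeal_bot one_not_mem_bot hp he1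
    refine mem_prin.2 ⟨t, ?_⟩
    linear_combination h3
  obtain ⟨t, ht⟩ := h
  have hβ : β = 0 := by
    by_contra hβ
    have hCβ : C β * C β⁻¹ = (1 : S3 K) := by
      rw [← C_mul, mul_inv_cancel₀ hβ, C_1]
    have h3 : p' * (C β * f0) ∈ adj (adj ⊥ (f1 * f0)) p := by
      refine mem_adj.2 ⟨(f1 * f0) * t, mem_prin.2 ⟨t, rfl⟩, - C α * f0, ?_⟩
      linear_combination f0 * ht
    have h4 := h2 _ h3
    have h5 : f0 ∈ adj (adj ⊥ (f1 * f0)) p := by
      have h6 := Ideal.mul_mem_left _ (C β⁻¹) h4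
      rwa [show C β⁻¹ * (C β * f0) = f0 by linear_combination f0 * hCβ] at h6
    rcases mem_adj_hom hA hp hf0 h5 with ⟨-, h6⟩ | ⟨x, hx, v, -, a, ha', hav⟩
    · exact ha (mem_prin.1 h6)
    · have ha0 : a = 0 := by
        have h7 : comp (adj ⊥ (f1 * f0)) c0 = comp ⊥ c0 :=
          comp_adj_of_lt homIdeal_bot hfd (by omega)
        rw [h7, comp_bot] at ha'
        simpa using ha'
      rw [ha0, zero_add] at hav
      have h7 : p * (f1 * v) ∈ adj ⊥ (f1 * f0) := by
        refine mem_prin.2 ⟨1, ?_⟩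
        linear_combination (- f1) * hav
      obtain ⟨t', ht'⟩ := mem_prin.1 (h1 _ h7)
      have h8 : f1 * (v - f0 * t') = 0 := by linear_combination ht'
      have h9 : v - f0 * t' = 0 := by
        rcases mul_eq_zero.1 h8 with h10 | h10
        · exact absurd h10 hf10
        · exact h10
      have h10 : f0 * (1 - t' * p) = 0 := by
        linear_combination hav + p * h9
      rcases mul_eq_zero.1 h10 with h11 | h11
      · exact hf00 h11
      · exact hb t' h11
  refine ⟨?_, hβ⟩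
  by_contra hα
  have hCα : C α * C α⁻¹ = (1 : S3 K) := by
    rw [← C_mul, mul_inv_cancel₀ hα, C_1]
  have h3 : p * (C α * f0) ∈ adj ⊥ (f1 * f0) := by
    refine mem_prin.2 ⟨t, ?_⟩
    rw [hβ] at ht
    simp only [C_0, zero_mul, add_zero] at ht
    linear_combination f0 * ht
  obtain ⟨t', ht'⟩ := mem_prin.1 (h1 _ h3)
  apply ha
  refine ⟨C α⁻¹ * t', ?_⟩
  linear_combination (-f0) * hCα + C α⁻¹ * ht'

/-- In the annihilated case `p`, `p'` add two dimensions. -/
theorem ann_branch {f p p' : S3 K} {e : ℕ} (T : Tri f p p' e) {W : Submodule K (S3 K)}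
    (h2 : W ≤ HH K e) (hann : ∃ u, u ∉ adj ⊥ f ∧ ∀ w ∈ W, w * u ∈ adj ⊥ f) :
    finrank K ↥(HH K 1 * W ⊔ comp (adj ⊥ f) (e + 1)) + 2 ≤
      finrank K ↥(HH K 1 * W ⊔ comp (T3 f p p') (e + 1)) := by
  obtain ⟨u, hu, hann⟩ := hann
  have hnd : ¬ f ∣ u := fun h => hu (mem_prin.2 h)
  obtain ⟨f1, f0, c1, c0, hfac, hf1, hf00, hcc, hc11, hdiv⟩ :=
    ann_factor T.hf T.hf0 hnd (fun w hw => mem_prin.1 (hann w hw))
  have hin := indep hf1 hc11 hf00 (hfac ▸ T.hf0) T.hp (by omega) (hfac ▸ T.h1) (hfac ▸ T.h2)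
  have hUp : HH K 1 * W ⊔ comp (T3 f p p') (e + 1) ≤ HH K (e + 1 + 0) :=
    sup_le (mul_le_HH h2) (comp_le _ _)
  have hfd : FiniteDimensional K ↥(HH K 1 * W ⊔ comp (T3 f p p') (e + 1)) := fd_of_le hUp
  have hUdiv : ∀ x ∈ HH K 1 * W ⊔ comp (adj ⊥ f) (e + 1), f1 ∣ x := by
    intro x hx
    obtain ⟨y, hy, z, hz, rfl⟩ := Submodule.mem_sup.1 hx
    apply dvd_add
    · refine Submodule.mul_induction_on hy ?_ ?_
      · intro m _ w hw
        exact (hdiv w hw).mul_left m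
      · intro a b ha hb
        exact dvd_add ha hb
    · have := mem_prin.1 (mem_comp.1 hz).1
      rw [hfac] at this
      exact (dvd_mul_right f1 f0).trans this
  let U := HH K 1 * W ⊔ comp (adj ⊥ f) (e + 1)
  let T' := HH K 1 * W ⊔ comp (T3 f p p') (e + 1)
  have hUT : U ≤ T' := sup_le_sup_left (T.comp_mono_up _) _
  let U1 := U ⊔ Submodule.span K {p}
  have hpT : p ∈ T' := Submodule.mem_sup_right T.p_mem
  have hp'T : p' ∈ T' := Submodule.mem_sup_right T.p'_mem
  have hU1T : U1 ≤ T' := sup_le hUT ((Submodule.span_singleton_le_iff_mem _ _).2 hpT)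
  have hfU1 : FiniteDimensional K U1 := Submodule.finiteDimensional_of_le hU1T
  have hpU : p ∉ U := by
    intro h
    have h3 := hUdiv p h
    have h4 := hin 1 0 (by simpa using h3)
    exact one_ne_zero h4.1
  have hp'U1 : p' ∉ U1 := by
    intro h
    obtain ⟨y, hy, z, hz, hyz⟩ := Submodule.mem_sup.1 h
    obtain ⟨k, rfl⟩ := Submodule.mem_span_singleton.1 hz
    have h3 := hUdiv y hy
    have h4 := hin (-k) 1 (by
      have : C (-k) * p + C 1 * p' = y := by
        rw [← hyz, smul_eq_C_mul, C_neg, C_1]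
        ring
      rw [this]
      exact h3)
    exact one_ne_zero h4.2
  have h5 : finrank K U + 1 ≤ finrank K U1 :=
    finrank_succ_le le_sup_left (Submodule.mem_sup_right (Submodule.mem_span_singleton_self p)) hpU
  have h6 : finrank K U1 + 1 ≤ finrank K T' := finrank_succ_le hU1T hp'T hp'U1
  change finrank K U + 2 ≤ finrank K T'
  omega

/-- The first estimate at the critical degree. -/
theorem Qstep [Infinite K] {f p p' : S3 K} {e : ℕ} (T : Tri f p p' e) (he : 1 ≤ e)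
    {W : Submodule K (S3 K)} (h1 : comp (adj ⊥ f) e ≤ W) (h2 : W ≤ HH K e)
    (hw : finrank K (comp (adj ⊥ f) e) + 1 ≤ finrank K W) : GR (T3 f p p') e W 1 := by
  have hUp : HH K 1 * W ⊔ comp (T3 f p p') (e + 1) ≤ HH K (e + 1 + 0) :=
    sup_le (mul_le_HH h2) (comp_le _ _)
  have hfd : FiniteDimensional K ↥(HH K 1 * W ⊔ comp (T3 f p p') (e + 1)) := fd_of_le hUp
  have hUT : HH K 1 * W ⊔ comp (adj ⊥ f) (e + 1) ≤ HH K 1 * W ⊔ comp (T3 f p p') (e + 1) :=
    sup_le_sup_left (T.comp_mono_up _) _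
  have hmono := Submodule.finrank_mono hUT
  have e1 := T.finrank_up
  unfold GR
  rw [T.comp_low (by omega : e < e + 1), e1]
  rcases dichotomy (adj ⊥ f) W with ⟨g, hgW, hg⟩ | hann
  · by_cases hw2 : finrank K (comp (adj ⊥ f) e) + 2 ≤ finrank K W
    · have h3 := nzd_E1 T.hf T.hf0 he h1 h2 hgW hg hw2
      unfold GR at h3
      omega
    · have h3 := nzd_E0 T.hf (by omega) T.hf0 h1 h2 hgW hg
      have h30 : finrank K (comp (adj ⊥ f) 1) = 0 := finrank_comp_prin_lt T.hf (by omega)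
      have : FiniteDimensional K W := fd_of_le h2
      obtain ⟨h4, h5, h6, h7⟩ := nzd_facts T.hf (by omega) T.hf0 h1 h2 hgW hg
      have hWeq : comp (adj (adj ⊥ f) g) e = W :=
        Submodule.eq_of_le_of_finrank_le h4 (by omega)
      have hUC : ∀ x ∈ HH K 1 * W ⊔ comp (adj ⊥ f) (e + 1), x ∈ adj (adj ⊥ f) g := by
        intro x hx
        obtain ⟨y, hy, z, hz, rfl⟩ := Submodule.mem_sup.1 hx
        apply Ideal.add_mem
        · refine Submodule.mul_induction_on hy ?_ ?_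
          · intro m _ w hw
            rw [← hWeq] at hw
            exact Ideal.mul_mem_left _ _ (mem_comp.1 hw).1
          · intro a b ha hb
            exact Ideal.add_mem _ ha hb
        · exact le_adj _ _ (mem_comp.1 hz).1
      have hone : (1 : S3 K) ∉ adj (adj ⊥ f) g :=
        one_not_mem_adj T.homA T.one_notA (h2 hgW) he
      have hnot : ¬ (p ∈ HH K 1 * W ⊔ comp (adj ⊥ f) (e + 1) ∧
          p' ∈ HH K 1 * W ⊔ comp (adj ⊥ f) (e + 1)) := by
        rintro ⟨hp1, hp2⟩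
        apply hone
        apply lemG hg T.h1 T.h2
        · rw [mul_one]; exact hUC p hp1
        · rw [mul_one]; exact hUC p' hp2
      have h8 : finrank K ↥(HH K 1 * W ⊔ comp (adj ⊥ f) (e + 1)) + 1 ≤
          finrank K ↥(HH K 1 * W ⊔ comp (T3 f p p') (e + 1)) := by
        by_cases hp1 : p ∈ HH K 1 * W ⊔ comp (adj ⊥ f) (e + 1)
        · have hp2 : p' ∉ HH K 1 * W ⊔ comp (adj ⊥ f) (e + 1) := fun h => hnot ⟨hp1, h⟩
          exact finrank_succ_le hUT (Submodule.mem_sup_right T.p'_mem) hp2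
        · exact finrank_succ_le hUT (Submodule.mem_sup_right T.p_mem) hp1
      omega
  · have h3 := ann_branch T h2 hann
    have h4 := (growthT 3 (by omega) le_rfl f T.hf T.hf0 e W h1 h2 hw).1
    unfold GR at h4
    omega

theorem comp_adj_le {A : Ideal (S3 K)} (hA : HomIdeal A) {r : S3 K} {d : ℕ} (hr : r ∈ HH K d)
    {W : Submodule K (S3 K)} (h1 : comp A d ≤ W) (hrW : r ∈ W) : comp (adj A r) d ≤ W := by
  have := comp_adj_eq (e := 0) hA hr
  rw [zero_add] at this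
  rw [this]
  apply sup_le h1
  intro u hu
  obtain ⟨v, hv, rfl⟩ := mem_map_mul.1 hu
  obtain ⟨k, rfl⟩ := const_of_HH0 hv
  rw [mul_comm, ← smul_eq_C_mul]
  exact W.smul_mem k hrW

theorem comp_adj_up {A : Ideal (S3 K)} (hA : HomIdeal A) {r : S3 K} {d : ℕ} (hr : r ∈ HH K d)
    {W : Submodule K (S3 K)} (hrW : r ∈ W) :
    comp (adj A r) (d + 1) ≤ HH K 1 * W ⊔ comp A (d + 1) := by
  have := comp_adj_eq (e := 1) hA hr
  rw [add_comm 1 d] at this
  rw [this]
  apply sup_le le_sup_right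
  apply le_trans _ le_sup_left
  intro u hu
  obtain ⟨v, hv, rfl⟩ := mem_map_mul.1 hu
  rw [mul_comm r v]
  exact Submodule.mul_mem_mul hv hrW

/-- Duality estimate when `W` contains a complete intersection with `f`. -/
theorem dual_bound [Infinite K] {f g g' : S3 K} {e : ℕ} (T : Tri f g g' e) (he : 1 ≤ e)
    {W : Submodule K (S3 K)} (h1 : comp (adj ⊥ f) (e + 1) ≤ W) (h2 : W ≤ HH K (e + 1))
    (hgW : g ∈ W) (hgW' : g' ∈ W)
    (hw3 : finrank K W + 1 ≤ finrank K (comp (adj ⊥ f) (e + 1)) + 3 * (e + 1)) :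
    finrank K W + finrank K (comp (adj ⊥ f) (e + 1 + 1)) + 4 ≤
      finrank K ↥(HH K 1 * W ⊔ comp (adj ⊥ f) (e + 1 + 1)) + finrank K (comp (adj ⊥ f) (e + 1)) := by
  have hA := T.homA
  have hB := T.homB
  have hg0 : g ≠ 0 := ne_zero_of_nz T.one_notA T.h1
  have hg'0 : g' ≠ 0 := ne_zero_of_nz T.one_notB T.h2
  have hS : SocA (T3 f g g') (3 + (e + 1) + (e + 1)) :=
    socle_reg T.hf T.hp T.hp' (by omega) (by omega) T.hf0 T.h1 T.h2
  have hnd1 := nondeg hS e (e + 1 + 1) (by omega)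
  have hnd2 := nondeg hS (e + 1) (e + 1) (by omega)
  obtain ⟨h3, h4, h5, h6⟩ := nzd_facts T.hf (by omega) T.hf0 h1 h2 hgW T.h1
  have hf1 : finrank K (comp (adj ⊥ f) 1) = 0 := finrank_comp_prin_lt T.hf (by omega)
  have f1 := finrank_comp_adj (e := e + 1) hA T.hp hg0 T.h1
  have f2 : finrank K (comp (T3 f g g') ((e + 1) + (e + 1))) +
      finrank K (comp (adj (adj ⊥ f) g) (e + 1)) =
      finrank K (comp (adj (adj ⊥ f) g) ((e + 1) + (e + 1))) + DD (e + 1) :=
    finrank_comp_adj (e := e + 1) hB T.hp' hg'0 T.h2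
  have d1 := dim3 T.hf T.hf0 ((e + 1) + (e + 1)) (by omega)
  have d2 := dim3 T.hf T.hf0 (e + 1) (by omega)
  have d3 := dim3 T.hf T.hf0 (e + 1 + 1) (by omega)
  have d4 := dim3 T.hf T.hf0 e he
  have d5 := DD_succ e
  have d6 := DD_succ (e + 1)
  have htop : ∀ s, s = (e + 1) + (e + 1) → DD s = finrank K (comp (T3 f g g') s) + 1 := by
    rintro s rfl
    omega
  have D1 := dual_dim hnd1 (htop _ (by omega))
    (A := HH K 1 * W ⊔ comp (adj ⊥ f) (e + 1 + 1)) (sup_le (mul_le_HH h2) (comp_le _ _))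
  have D2 := dual_dim hnd2 (htop _ (by omega)) h2
  have hle1 : comp (T3 f g g') (e + 1) ≤ W := comp_adj_le hB T.hp' h3 hgW'
  have hle2 : comp (T3 f g g') (e + 1 + 1) ≤ HH K 1 * W ⊔ comp (adj ⊥ f) (e + 1 + 1) := by
    refine (comp_adj_up hB T.hp' hgW').trans (sup_le le_sup_left ?_)
    exact comp_adj_up hA T.hp hgW
  rw [inf_eq_right.2 hle1, T.finrank_up] at D2
  rw [inf_eq_right.2 hle2] at D1
  have f3 : finrank K (comp (T3 f g g') (e + 1 + 1)) +
      finrank K (comp (adj (adj ⊥ f) g) 1) =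
      finrank K (comp (adj (adj ⊥ f) g) (e + 1 + 1)) + DD 1 := by
    have := finrank_comp_adj (e := 1) hB T.hp' hg'0 T.h2
    rwa [add_comm 1 (e + 1)] at this
  rw [comp_adj_of_lt hA T.hp (by omega : 1 < e + 1), hf1, DD_one] at f3
  have hle3 : comp (adj ⊥ f) e ≤ perp (T3 f g g') (HH K 1 * W ⊔ comp (adj ⊥ f) (e + 1 + 1)) e := by
    intro x hx
    refine ⟨(mem_comp.1 hx).2, fun a _ => ?_⟩
    exact Ideal.mul_mem_left _ _ (le_adj _ _ (le_adj _ _ (mem_comp.1 hx).1))
  have : FiniteDimensional K (perp (T3 f g g') (HH K 1 * W ⊔ comp (adj ⊥ f) (e + 1 + 1)) e) :=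
    fd_of_le (perp_le _ _ _)
  have hle4 := Submodule.finrank_mono hle3
  have : FiniteDimensional K (perp (T3 f g g') W (e + 1)) := fd_of_le (perp_le _ _ _)
  by_cases hw2 : finrank K (comp (adj ⊥ f) e) + 1 ≤
      finrank K (perp (T3 f g g') (HH K 1 * W ⊔ comp (adj ⊥ f) (e + 1 + 1)) e)
  · have Q := Qstep T he hle3 (perp_le _ _ _) hw2
    unfold GR at Q
    rw [T.comp_low (by omega : e < e + 1), T.finrank_up] at Q
    have hle5 : HH K 1 * perp (T3 f g g') (HH K 1 * W ⊔ comp (adj ⊥ f) (e + 1 + 1)) e ⊔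
        comp (T3 f g g') (e + 1) ≤ perp (T3 f g g') W (e + 1) := by
      apply sup_le
      · rw [Submodule.mul_le]
        intro m hm b hb
        refine ⟨?_, fun a ha => ?_⟩
        · rw [add_comm]
          exact (show m.IsHomogeneous 1 from hm).mul hb.1
        · have : a * (m * b) = (m * a) * b := by ring
          rw [this]
          exact hb.2 _ (Submodule.mem_sup_left (Submodule.mul_mem_mul hm ha))
      · intro x hx
        exact ⟨(mem_comp.1 hx).2, fun a _ => Ideal.mul_mem_left _ _ (mem_comp.1 hx).1⟩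
    have hle6 := Submodule.finrank_mono hle5
    omega
  · omega

/-- The second estimate at the critical degree. -/
theorem Mstep [Infinite K] {f p p' : S3 K} {e : ℕ} (T : Tri f p p' (e + 1)) (he : 1 ≤ e)
    {W : Submodule K (S3 K)} (h1 : comp (adj ⊥ f) (e + 1) ≤ W) (h2 : W ≤ HH K (e + 1))
    (hwe : e + 1 + finrank K (comp (adj ⊥ f) (e + 1)) ≤ finrank K W)
    (hw3 : finrank K W + 1 ≤ finrank K (comp (adj ⊥ f) (e + 1)) + 3 * (e + 1)) :
    GR (T3 f p p') (e + 1) W 2 := by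
  have hUp : HH K 1 * W ⊔ comp (T3 f p p') (e + 1 + 1) ≤ HH K (e + 1 + 1) :=
    sup_le (mul_le_HH h2) (comp_le _ _)
  have hfd : FiniteDimensional K ↥(HH K 1 * W ⊔ comp (T3 f p p') (e + 1 + 1)) := fd_of_le hUp
  have hUT : HH K 1 * W ⊔ comp (adj ⊥ f) (e + 1 + 1) ≤ HH K 1 * W ⊔ comp (T3 f p p') (e + 1 + 1) :=
    sup_le_sup_left (T.comp_mono_up _) _
  have hmono := Submodule.finrank_mono hUT
  have e1 := T.finrank_up
  unfold GR
  rw [T.comp_low (by omega : e + 1 < e + 1 + 1), e1]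
  rcases dichotomy (adj ⊥ f) W with ⟨g, hgW, hg⟩ | hann
  · have h3 := nzd_E1 T.hf T.hf0 (by omega) h1 h2 hgW hg (by omega)
    unfold GR at h3
    by_cases hpp : p ∈ HH K 1 * W ⊔ comp (adj ⊥ f) (e + 1 + 1) ∧
        p' ∈ HH K 1 * W ⊔ comp (adj ⊥ f) (e + 1 + 1)
    · obtain ⟨hp1, hp2⟩ := hpp
      rcases dichotomy (adj (adj ⊥ f) g) W with ⟨g', hgW', hg'⟩ | ⟨u, hu, hann⟩
      · have T' : Tri f g g' e := ⟨T.hf, T.hf0, h2 hgW, h2 hgW', hg, hg'⟩
        have h4 := dual_bound T' he h1 h2 hgW hgW' hw3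
        omega
      · exfalso
        apply hu
        have hUC : ∀ x ∈ HH K 1 * W ⊔ comp (adj ⊥ f) (e + 1 + 1), x * u ∈ adj (adj ⊥ f) g := by
          intro x hx
          obtain ⟨y, hy, z, hz, rfl⟩ := Submodule.mem_sup.1 hx
          rw [add_mul]
          apply Ideal.add_mem
          · refine Submodule.mul_induction_on hy ?_ ?_
            · intro m _ w hw
              rw [mul_assoc]
              exact Ideal.mul_mem_left _ _ (hann w hw)
            · intro a b ha hb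
              rw [add_mul]
              exact Ideal.add_mem _ ha hb
          · exact Ideal.mul_mem_right _ _ (le_adj _ _ (mem_comp.1 hz).1)
        exact lemG hg T.h1 T.h2 (hUC p hp1) (hUC p' hp2)
    · have h8 : finrank K ↥(HH K 1 * W ⊔ comp (adj ⊥ f) (e + 1 + 1)) + 1 ≤
          finrank K ↥(HH K 1 * W ⊔ comp (T3 f p p') (e + 1 + 1)) := by
        by_cases hp1 : p ∈ HH K 1 * W ⊔ comp (adj ⊥ f) (e + 1 + 1)
        · have hp2 : p' ∉ HH K 1 * W ⊔ comp (adj ⊥ f) (e + 1 + 1) := fun h => hpp ⟨hp1, h⟩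
          exact finrank_succ_le hUT (Submodule.mem_sup_right T.p'_mem) hp2
        · exact finrank_succ_le hUT (Submodule.mem_sup_right T.p_mem) hp1
      omega
  · have h3 := ann_branch T h2 hann
    have h4 := (growthT 3 (by omega) le_rfl f T.hf T.hf0 (e + 1) W h1 h2 (by omega)).2.1 (by omega)
      (by omega)
    unfold GR at h4
    omega

end Vale.Agent.Lib.P200
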