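import Vale.Agent.Lib.P200.Main
import Vale.Agent.Lib.P200.Comb

/-!
The monomial complete intersection `(x^3, y^a, z^a)`.
-/

noncomputable section

namespace Vale.Agent.Lib.P200

open MvPolynomial Module

variable {K : Type*} [Field K]

theorem X_pow_mono (i : Fin 3) (n : ℕ) : (X i ^ n : S3 K) = monomial (Finsupp.single i n) 1 :=
  X_pow_eq_monomial

theorem adj_mono (s : Set (Fin 3 →₀ ℕ)) (e : Fin 3 →₀ ℕ) :
    adj (Ideal.span ((fun s => monomial s (1 : K)) '' s)) (monomial e 1) =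
      Ideal.span ((fun s => monomial s (1 : K)) '' (insert e s)) := by
  unfold adj
  rw [Set.image_insert_eq, Ideal.span_insert, sup_comm]

theorem bot_mono : (⊥ : Ideal (S3 K)) =
    Ideal.span ((fun s => monomial s (1 : K)) '' (∅ : Set (Fin 3 →₀ ℕ))) := by
  simp

theorem mem1 {u : S3 K} {a0 : ℕ} : u ∈ adj ⊥ (X 0 ^ a0 : S3 K) ↔ ∀ m ∈ u.support, a0 ≤ m 0 := by
  rw [bot_mono, X_pow_mono, adj_mono, mem_ideal_span_monomial_image]
  simp [Finsupp.single_le_iff]

theorem mem2 {u : S3 K} {a0 a1 : ℕ} : u ∈ adj (adj ⊥ (X 0 ^ a0 : S3 K)) (X 1 ^ a1) ↔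
    ∀ m ∈ u.support, a0 ≤ m 0 ∨ a1 ≤ m 1 := by
  rw [bot_mono, X_pow_mono, X_pow_mono, adj_mono, adj_mono, mem_ideal_span_monomial_image]
  simp only [Set.mem_insert_iff, exists_eq_or_imp, Finsupp.single_le_iff]
  simp only [Set.mem_empty_iff_false, false_and, exists_false, or_false]
  exact forall₂_congr fun m _ => or_comm

theorem mem3 {u : S3 K} {a0 a1 a2 : ℕ} :
    u ∈ T3 (X 0 ^ a0 : S3 K) (X 1 ^ a1) (X 2 ^ a2) ↔
      ∀ m ∈ u.support, a0 ≤ m 0 ∨ a1 ≤ m 1 ∨ a2 ≤ m 2 := by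
  rw [T3, bot_mono, X_pow_mono, X_pow_mono, X_pow_mono, adj_mono, adj_mono, adj_mono,
    mem_ideal_span_monomial_image]
  simp only [Set.mem_insert_iff, exists_eq_or_imp, Finsupp.single_le_iff]
  simp only [Set.mem_empty_iff_false, false_and, exists_false, or_false]
  refine forall₂_congr fun m _ => ?_
  tauto

theorem support_shift {i : Fin 3} {n : ℕ} {u : S3 K} {m : Fin 3 →₀ ℕ} (hm : m ∈ u.support) :
    Finsupp.single i n + m ∈ (X i ^ n * u).support := by
  rw [mem_support_iff] at hm ⊢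
  rw [X_pow_mono, coeff_monomial_mul, one_mul]
  exact hm

theorem tri_mono (e : ℕ) : Tri (X 0 ^ 3 : S3 K) (X 1 ^ (e + 1)) (X 2 ^ (e + 1)) e where
  hf := isHomogeneous_X_pow _ 3
  hf0 := pow_ne_zero _ (X_ne_zero _)
  hp := isHomogeneous_X_pow _ _
  hp' := isHomogeneous_X_pow _ _
  h1 := by
    intro u hu
    rw [mem1] at hu ⊢
    intro m hm
    have := hu _ (support_shift (i := 1) (n := e + 1) hm)
    simpa using this
  h2 := by
    intro u hu
    rw [mem2] at hu ⊢
    intro m hm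
    have := hu _ (support_shift (i := 2) (n := e + 1) hm)
    simpa using this

/-- The Hilbert function along a regular sequence depends only on the degrees. -/
theorem finrank_adj_congr {A A' : Ideal (S3 K)} (hA : HomIdeal A) (hA' : HomIdeal A') {c : ℕ}
    {r r' : S3 K} (hr : r ∈ HH K c) (hr' : r' ∈ HH K c) (h0 : r ≠ 0) (h0' : r' ≠ 0) (hn : NZ A r)
    (hn' : NZ A' r') (h : ∀ d, finrank K (comp A d) = finrank K (comp A' d)) (d : ℕ) :
    finrank K (comp (adj A r) d) = finrank K (comp (adj A' r') d) := by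
  by_cases hd : d < c
  · rw [comp_adj_of_lt hA hr hd, comp_adj_of_lt hA' hr' hd, h]
  · obtain ⟨e, rfl⟩ : ∃ e, d = e + c := ⟨d - c, by omega⟩
    have h1 := finrank_comp_adj hA hr h0 hn (e := e)
    have h2 := finrank_comp_adj hA' hr' h0' hn' (e := e)
    have h3 := h e
    have h4 := h (e + c)
    omega

/-- Two regular sequences of the same type have the same Hilbert function. -/
theorem finrank_tri_congr {f p p' f₂ p₂ p₂' : S3 K} {e : ℕ} (T : Tri f p p' e)
    (T₂ : Tri f₂ p₂ p₂' e) (d : ℕ) :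
    finrank K (comp (T3 f p p') d) = finrank K (comp (T3 f₂ p₂ p₂') d) := by
  have h1 : ∀ d, finrank K (comp (adj ⊥ f) d) = finrank K (comp (adj ⊥ f₂) d) :=
    finrank_adj_congr homIdeal_bot homIdeal_bot T.hf T₂.hf T.hf0 T₂.hf0 (nz_bot T.hf0) (nz_bot T₂.hf0)
      (fun d => by simp only [finrank_comp_bot])
  have h2 : ∀ d, finrank K (comp (adj (adj ⊥ f) p) d) = finrank K (comp (adj (adj ⊥ f₂) p₂) d) :=
    finrank_adj_congr T.homA T₂.homA T.hp T₂.hp (ne_zero_of_nz T.one_notA T.h1)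
      (ne_zero_of_nz T₂.one_notA T₂.h1) T.h1 T₂.h1 h1
  exact finrank_adj_congr T.homB T₂.homB T.hp' T₂.hp' (ne_zero_of_nz T.one_notB T.h2)
    (ne_zero_of_nz T₂.one_notB T₂.h2) T.h2 T₂.h2 h2 d

theorem mem_antidiag {m : Fin 3 →₀ ℕ} {d : ℕ} :
    m ∈ Finset.finsuppAntidiag (Finset.univ : Finset (Fin 3)) d ↔ m 0 + m 1 + m 2 = d := by
  simp [Finset.mem_finsuppAntidiag, Fin.sum_univ_three]

open Classical in
/-- Dimension of a graded piece of the monomial ideal. -/
theorem finrank_mono_comp (a0 a1 a2 d : ℕ) :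
    finrank K (comp (T3 (X 0 ^ a0 : S3 K) (X 1 ^ a1) (X 2 ^ a2)) d) =
      ((Finset.finsuppAntidiag (Finset.univ : Finset (Fin 3)) d).filter
        (fun m => a0 ≤ m 0 ∨ a1 ≤ m 1 ∨ a2 ≤ m 2)).card := by
  have key : comp (T3 (X 0 ^ a0 : S3 K) (X 1 ^ a1) (X 2 ^ a2)) d = restrictSupport K
      (((Finset.finsuppAntidiag (Finset.univ : Finset (Fin 3)) d).filter
        (fun m => a0 ≤ m 0 ∨ a1 ≤ m 1 ∨ a2 ≤ m 2) : Finset (Fin 3 →₀ ℕ)) : Set (Fin 3 →₀ ℕ)) := by
    ext u
    rw [mem_comp, mem3, HH_eq_restrict, mem_restrictSupport_iff, mem_restrictSupport_iff]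
    constructor
    · rintro ⟨h1, h2⟩ m hm
      simp only [Finset.mem_coe, Finset.mem_filter]
      exact ⟨h2 hm, h1 m hm⟩
    · intro h
      refine ⟨fun m hm => ?_, fun m hm => ?_⟩
      · have := h hm
        simp only [Finset.mem_coe, Finset.mem_filter] at this
        exact this.2
      · have := h hm
        simp only [Finset.mem_coe, Finset.mem_filter] at this
        exact this.1
  rw [key]
  exact finrank_restrict _

/-- A monomial exponent from its exponents of `x`, `y`, `z`. -/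
def expo (i j k : ℕ) : Fin 3 →₀ ℕ := Finsupp.equivFunOnFinite.symm ![i, j, k]

@[simp] theorem expo_0 (i j k : ℕ) : expo i j k 0 = i := rfl
@[simp] theorem expo_1 (i j k : ℕ) : expo i j k 1 = j := rfl
@[simp] theorem expo_2 (i j k : ℕ) : expo i j k 2 = k := rfl

theorem expo_ext {m n : Fin 3 →₀ ℕ} (h0 : m 0 = n 0) (h1 : m 1 = n 1) (h2 : m 2 = n 2) : m = n := by
  ext i
  fin_cases i
  · exact h0
  · exact h1
  · exact h2

open Classical in
theorem card_out (a d : ℕ) :
    ((Finset.finsuppAntidiag (Finset.univ : Finset (Fin 3)) d).filter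
      (fun m => ¬ (3 ≤ m 0 ∨ a ≤ m 1 ∨ a ≤ m 2))).card = (BB a d).card := by
  apply Finset.card_bij (fun m _ => ((m 0, m 1) : ℕ × ℕ))
  · intro m hm
    rw [Finset.mem_filter, mem_antidiag] at hm
    rw [mem_BB]
    simp only
    omega
  · intro m hm n hn h
    rw [Finset.mem_filter, mem_antidiag] at hm hn
    simp only [Prod.mk.injEq] at h
    exact expo_ext h.1 h.2 (by omega)
  · rintro ⟨i, j⟩ h
    rw [mem_BB] at h
    simp only at h
    refine ⟨expo i j (d - i - j), ?_, by simp⟩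
    rw [Finset.mem_filter, mem_antidiag]
    simp only [expo_0, expo_1, expo_2]
    omega

/-- Monomial count. -/
theorem card_BB_add (e d : ℕ) :
    (BB (e + 1) d).card + finrank K (comp (T3 (X 0 ^ 3 : S3 K) (X 1 ^ (e + 1)) (X 2 ^ (e + 1))) d) =
      DD d := by
  classical
  rw [finrank_mono_comp, ← card_out, add_comm, Finset.card_filter_add_card_filter_not,
    Finset.card_finsuppAntidiag_nat_eq_choose, DD_eq_choose]
  simp
  congr 1
  omega

/-- The Hilbert function of a regular sequence of type `(3, e+1, e+1)`. -/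
theorem hBB {f p p' : S3 K} {e : ℕ} (T : Tri f p p' e) (d : ℕ) :
    (BB (e + 1) d).card + finrank K (comp (T3 f p p') d) = DD d := by
  rw [finrank_tri_congr T (tri_mono e) d]
  exact card_BB_add e d

end Vale.Agent.Lib.P200
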