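import Mathlib.RingTheory.MvPolynomial.Homogeneous
import Mathlib.RingTheory.MvPolynomial.Ideal
import Mathlib.RingTheory.Ideal.AssociatedPrime.Finiteness
import Mathlib.RingTheory.Polynomial.UniqueFactorization
import Mathlib.GroupTheory.CosetCover
import Mathlib.LinearAlgebra.Dual.Lemmas
import Mathlib.RingTheory.Polynomial.Basic
import Mathlib.Tactic.LinearCombination
import Mathlib.RingTheory.Noetherian.Basic
import Mathlib.RingTheory.Polynomial.Basic

/-!
Polynomial rings in `n` variables: ideals generated by adjoining one element,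
non-zero-divisors, exchange of regular sequences and general linear forms.
-/

noncomputable section

namespace Vale.Agent.Lib.P200.NV

open MvPolynomial Module

variable {K : Type*} [Field K] {n : ℕ}

/-- The polynomial ring in `n` variables. -/
abbrev SN (K : Type*) [Field K] (n : ℕ) := MvPolynomial (Fin n) K

/-- Forms of degree `d`. -/
abbrev HN (K : Type*) [Field K] (n d : ℕ) : Submodule K (SN K n) := homogeneousSubmodule (Fin n) K d

/-- Graded piece of an ideal. -/
def compN (A : Ideal (SN K n)) (d : ℕ) : Submodule K (SN K n) :=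
  A.restrictScalars K ⊓ HN K n d

theorem mem_compN {A : Ideal (SN K n)} {d : ℕ} {u : SN K n} :
    u ∈ compN A d ↔ u ∈ A ∧ u ∈ HN K n d := by
  simp [compN]

/-- Homogeneity of an ideal, through components. -/
def HomI (A : Ideal (SN K n)) : Prop := ∀ u ∈ A, ∀ m, homogeneousComponent m u ∈ A

/-- Adjoin one generator. -/
def adjN (A : Ideal (SN K n)) (r : SN K n) : Ideal (SN K n) := A ⊔ Ideal.span {r}

/-- Non-zero-divisor modulo an ideal. -/
def NZN (A : Ideal (SN K n)) (r : SN K n) : Prop := ∀ u, r * u ∈ A → u ∈ A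

/-- The ideal generated by three elements. -/
def TN (u v w : SN K n) : Ideal (SN K n) := adjN (adjN (adjN ⊥ u) v) w

/-- Nothing outside the ideal is multiplied into the ideal by all variables. -/
def Sc (A : Ideal (SN K n)) : Prop := ∀ u, (∀ i, X i * u ∈ A) → u ∈ A

theorem mem_adjN {A : Ideal (SN K n)} {r u : SN K n} :
    u ∈ adjN A r ↔ ∃ a ∈ A, ∃ v, u = a + v * r := by
  unfold adjN
  constructor
  · intro h
    obtain ⟨a, ha, b, hb, rfl⟩ := Submodule.mem_sup.1 h
    obtain ⟨v, rfl⟩ := Ideal.mem_span_singleton'.1 hb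
    exact ⟨a, ha, v, rfl⟩
  · rintro ⟨a, ha, v, rfl⟩
    exact Submodule.add_mem_sup ha (Ideal.mem_span_singleton'.2 ⟨v, rfl⟩)

theorem le_adjN (A : Ideal (SN K n)) (r : SN K n) : A ≤ adjN A r := le_sup_left

theorem self_mem_adjN (A : Ideal (SN K n)) (r : SN K n) : r ∈ adjN A r :=
  mem_adjN.2 ⟨0, A.zero_mem, 1, by simp⟩

theorem adjN_comm (A : Ideal (SN K n)) (q r : SN K n) : adjN (adjN A q) r = adjN (adjN A r) q := by
  unfold adjN
  exact sup_right_comm _ _ _

theorem hc_mul_mem {c : ℕ} {r : SN K n} (hr : r ∈ HN K n c) (v : SN K n) (m : ℕ) :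
    homogeneousComponent (m + c) (v * r) = homogeneousComponent m v * r := by
  conv_lhs => rw [← sum_homogeneousComponent v]
  rw [Finset.sum_mul, map_sum]
  rw [Finset.sum_eq_single m]
  · exact homogeneousComponent_of_mem (by
      exact (homogeneousComponent_isHomogeneous m v).mul hr) |>.trans (by simp)
  · intro b _ hb
    rw [homogeneousComponent_of_mem ((homogeneousComponent_isHomogeneous b v).mul hr)]
    rw [if_neg]; omega
  · intro hm
    have : homogeneousComponent m v = 0 := by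
      apply homogeneousComponent_eq_zero
      simpa using hm
    simp [this]

theorem hc_mul_lt {c : ℕ} {r : SN K n} (hr : r ∈ HN K n c) (v : SN K n) {m : ℕ} (hm : m < c) :
    homogeneousComponent m (v * r) = 0 := by
  conv_lhs => rw [← sum_homogeneousComponent v]
  rw [Finset.sum_mul, map_sum]
  apply Finset.sum_eq_zero
  intro b _
  rw [homogeneousComponent_of_mem ((homogeneousComponent_isHomogeneous b v).mul hr)]
  rw [if_neg]; omega

theorem homI_bot : HomI (⊥ : Ideal (SN K n)) := by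
  intro u hu m
  have : u = 0 := by simpa using hu
  simp [this]

theorem homI_adj {A : Ideal (SN K n)} (hA : HomI A) {c : ℕ} {r : SN K n} (hr : r ∈ HN K n c) :
    HomI (adjN A r) := by
  intro u hu m
  obtain ⟨a, ha, v, rfl⟩ := mem_adjN.1 hu
  rw [map_add]
  refine Ideal.add_mem _ (le_adjN A r (hA a ha m)) ?_
  by_cases hn : m < c
  · rw [hc_mul_lt hr v hn]; exact Ideal.zero_mem _
  · obtain ⟨m', rfl⟩ : ∃ m', m = m' + c := ⟨m - c, by omega⟩
    rw [hc_mul_mem hr]
    exact Ideal.mul_mem_left _ _ (self_mem_adjN A r)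

/-- A form of positive degree is a combination of the variables with coefficients forms. -/
theorem form_succN {u : SN K n} {e : ℕ} (hu : u ∈ HN K n (e + 1)) :
    ∃ w : Fin n → SN K n, (∀ i, w i ∈ HN K n e) ∧ u = ∑ i, X i * w i := by
  have h1 : u ∈ Ideal.span (X '' (Set.univ : Set (Fin n)) : Set (SN K n)) := by
    rw [mem_ideal_span_X_image]
    intro m hm
    have h2 := (show u.IsHomogeneous (e + 1) from hu).degree_eq_sum_deg_support hm
    by_contra h3
    push Not at h3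
    have h4 : m = 0 := by
      ext i
      exact h3 i (Set.mem_univ i)
    rw [h4] at h2
    simp at h2
  have h2 : ∃ c : Fin n → SN K n, u = ∑ i, c i * X i := by
    rw [Set.image_univ] at h1
    obtain ⟨c, hc⟩ := (Ideal.mem_span_range_iff_exists_fun).1 h1
    exact ⟨c, hc.symm⟩
  obtain ⟨c, hc⟩ := h2
  refine ⟨fun i => homogeneousComponent e (c i), fun i => homogeneousComponent_mem _ _, ?_⟩
  have h3 : u = homogeneousComponent (e + 1) u := by
    rw [homogeneousComponent_of_mem hu]; simp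
  rw [h3, hc, map_sum]
  refine Finset.sum_congr rfl fun i _ => ?_
  rw [hc_mul_mem (isHomogeneous_X K i), mul_comm]

/-- If all variables multiply an element into an ideal, then so does a form of positive degree. -/
theorem form_mul_mem {A : Ideal (SN K n)} {u r : SN K n} {e : ℕ} (hr : r ∈ HN K n (e + 1))
    (h : ∀ i, X i * u ∈ A) : r * u ∈ A := by
  obtain ⟨w, -, rfl⟩ := form_succN hr
  rw [Finset.sum_mul]
  refine Ideal.sum_mem _ fun i _ => ?_
  have : X i * w i * u = w i * (X i * u) := by ring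
  rw [this]
  exact Ideal.mul_mem_left _ _ (h i)

/-- A non-zero-divisor of positive degree shows the condition `Sc`. -/
theorem sc_of_nz {A : Ideal (SN K n)} {r : SN K n} {e : ℕ} (hr : r ∈ HN K n (e + 1))
    (h : NZN A r) : Sc A :=
  fun _ hu => h _ (form_mul_mem hr hu)

/-- Swapping a non-zero-divisor with the next element. -/
theorem swapN {A : Ideal (SN K n)} {q r : SN K n} (h1 : NZN A q) (h2 : NZN (adjN A q) r) :
    NZN (adjN A r) q := by
  intro u hu
  obtain ⟨a, ha, v, hv⟩ := mem_adjN.1 hu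
  have h3 : v ∈ adjN A q := by
    apply h2
    refine mem_adjN.2 ⟨-a, A.neg_mem ha, u, ?_⟩
    linear_combination hv.symm
  obtain ⟨a', ha', w, rfl⟩ := mem_adjN.1 h3
  have h4 : u - w * r ∈ A := by
    apply h1
    have : q * (u - w * r) = a + a' * r := by linear_combination hv
    rw [this]
    exact Ideal.add_mem _ ha (Ideal.mul_mem_right _ _ ha')
  exact mem_adjN.2 ⟨_, h4, w, by ring⟩

/-- Exchange of one non-zero-divisor for another. -/
theorem exch {A : Ideal (SN K n)} {x y : SN K n} {e : ℕ} (hxm : x ∈ HN K n (e + 1))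
    (hx : NZN A x) (hy : NZN A y) (h : Sc (adjN A x)) : Sc (adjN A y) := by
  intro u hu
  have h1 : x * u ∈ adjN A y := form_mul_mem hxm hu
  obtain ⟨a, ha, v, hv⟩ := mem_adjN.1 h1
  have h2 : v ∈ adjN A x := by
    apply h
    intro i
    obtain ⟨ai, hai, wi, hwi⟩ := mem_adjN.1 (hu i)
    have h3 : X i * v - x * wi ∈ A := by
      apply hy
      have : y * (X i * v - x * wi) = x * ai - X i * a := by
        linear_combination X i * (- hv) + x * hwi
      rw [this]
      exact Ideal.sub_mem _ (Ideal.mul_mem_left _ _ hai) (Ideal.mul_mem_left _ _ ha)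
    exact mem_adjN.2 ⟨_, h3, wi, by ring⟩
  obtain ⟨a', ha', t, rfl⟩ := mem_adjN.1 h2
  have h4 : u - t * y ∈ A := by
    apply hx
    have : x * (u - t * y) = a + a' * y := by linear_combination hv
    rw [this]
    exact Ideal.add_mem _ ha (Ideal.mul_mem_right _ _ ha')
  exact mem_adjN.2 ⟨_, h4, t, by ring⟩

/-- Prime avoidance: a general linear form is a non-zero-divisor modulo finitely many ideals. -/
theorem avoid [Infinite K] {ι : Type} [Finite ι] (As : ι → Ideal (SN K n)) (hAs : ∀ t, Sc (As t))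
    (P₀ : Subspace K (HN K n 1)) (hP₀ : P₀ ≠ ⊤) :
    ∃ l : HN K n 1, l ∉ P₀ ∧ ∀ t, NZN (As t) (l : SN K n) := by
  by_contra hcon
  push Not at hcon
  let Idx := Option (Σ t : ι, associatedPrimes (SN K n) (SN K n ⧸ As t))
  have hfin : ∀ t, Finite (associatedPrimes (SN K n) (SN K n ⧸ As t)) := fun t =>
    (associatedPrimes.finite (SN K n) (SN K n ⧸ As t)).to_subtype
  have hIdx : Finite Idx := by
    unfold Idx
    infer_instance
  let p : Idx → Subspace K (HN K n 1) := fun i =>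
    match i with
    | none => P₀
    | some ⟨_, P⟩ => ((P.1 : Ideal (SN K n)).restrictScalars K).comap (HN K n 1).subtype
  have hcov : ⋃ i, (p i : Set (HN K n 1)) = Set.univ := by
    apply Set.eq_univ_of_forall
    intro g
    by_cases hg0 : g ∈ P₀
    · exact Set.mem_iUnion.2 ⟨none, hg0⟩
    obtain ⟨t, ht⟩ := hcon g hg0
    unfold NZN at ht
    push Not at ht
    obtain ⟨u, hu1, hu2⟩ := ht
    let M := SN K n ⧸ As t
    have hmem : (g : SN K n) ∈ { r : SN K n | ∃ x : M, x ≠ 0 ∧ r • x = 0 } := by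
      refine ⟨Ideal.Quotient.mk (As t) u, ?_, ?_⟩
      · exact fun h0 => hu2 (Ideal.Quotient.eq_zero_iff_mem.1 h0)
      · change Ideal.Quotient.mk (As t) ((g : SN K n) * u) = 0
        exact Ideal.Quotient.eq_zero_iff_mem.2 hu1
    rw [← biUnion_associatedPrimes_eq_zero_divisors (SN K n) M] at hmem
    simp only [Set.mem_iUnion] at hmem
    obtain ⟨P, hP, hgP⟩ := hmem
    refine Set.mem_iUnion.2 ⟨some ⟨t, ⟨P, hP⟩⟩, ?_⟩
    exact hgP
  obtain ⟨i, hi⟩ := Subspace.exists_eq_top_of_iUnion_eq_univ hcov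
  match i, hi with
  | none, hi => exact hP₀ hi
  | some ⟨t, ⟨P, hP⟩⟩, hi =>
    obtain ⟨hprime, x, hx⟩ := (isAssociatedPrime_iff).1 hP
    obtain ⟨u, rfl⟩ := Ideal.Quotient.mk_surjective x
    have hW : ∀ w ∈ HN K n 1, w ∈ P := by
      intro w hw
      have : (⟨w, hw⟩ : HN K n 1) ∈ p (some ⟨t, ⟨P, hP⟩⟩) := by rw [hi]; trivial
      exact this
    have hu : u ∈ As t := by
      apply hAs t
      intro k
      have h1 := hW (X k) (isHomogeneous_X K k)
      rw [hx, Submodule.mem_colon_singleton] at h1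
      have h2 : Ideal.Quotient.mk (As t) (X k * u) = 0 := by
        have : (X k : SN K n) • (Ideal.Quotient.mk (As t) u) =
            Ideal.Quotient.mk (As t) (X k * u) := rfl
        rw [← this]
        simpa using h1
      exact Ideal.Quotient.eq_zero_iff_mem.1 h2
    apply hprime.ne_top
    rw [hx]
    have : Ideal.Quotient.mk (As t) u = 0 := Ideal.Quotient.eq_zero_iff_mem.2 hu
    rw [this, Ideal.eq_top_iff_one, Submodule.mem_colon_singleton]
    simp

/-- A linear form which is a non-zero-divisor modulo finitely many ideals. -/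
theorem avoid0 [Infinite K] {ι : Type} [Finite ι] (As : ι → Ideal (SN K n)) (hAs : ∀ t, Sc (As t))
    (hn : 1 ≤ n) : ∃ l ∈ HN K n 1, ∀ t, NZN (As t) l := by
  have hX : (X ⟨0, by omega⟩ : SN K n) ∈ HN K n 1 := isHomogeneous_X K _
  have hne : (⊥ : Subspace K (HN K n 1)) ≠ ⊤ := by
    intro h
    have h1 : (⟨X ⟨0, by omega⟩, hX⟩ : HN K n 1) ∈ (⊥ : Subspace K (HN K n 1)) := by
      rw [h]
      trivial
    have h2 := (Submodule.mem_bot K).1 h1
    exact X_ne_zero _ (congrArg Subtype.val h2)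
  obtain ⟨l, -, hl⟩ := avoid As hAs ⊥ hne
  exact ⟨l, l.2, hl⟩

section exchange

variable [Infinite K]

/-- Exchange of regular sequences of length two. -/
theorem K2 {A : Ideal (SN K n)} {x₁ x₂ f₁ f₂ : SN K n} {e₁ e₂ e₃ e₄ : ℕ} (hn : 1 ≤ n)
    (hx₁ : x₁ ∈ HN K n (e₁ + 1)) (hx₂ : x₂ ∈ HN K n (e₂ + 1))
    (hf₁ : f₁ ∈ HN K n (e₃ + 1)) (hf₂ : f₂ ∈ HN K n (e₄ + 1))
    (n₁ : NZN A x₁) (n₂ : NZN (adjN A x₁) x₂) (m₁ : NZN A f₁) (m₂ : NZN (adjN A f₁) f₂)
    (h : Sc (adjN (adjN A x₁) x₂)) : Sc (adjN (adjN A f₁) f₂) := by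
  obtain ⟨z, hz, hnz⟩ := avoid0 (ι := Fin 3) ![A, adjN A x₁, adjN A f₁]
    (by
      intro t
      fin_cases t
      · exact sc_of_nz hx₁ n₁
      · exact sc_of_nz hx₂ n₂
      · exact sc_of_nz hf₂ m₂) hn
  have z0 : NZN A z := hnz 0
  have z1 : NZN (adjN A x₁) z := hnz 1
  have z2 : NZN (adjN A f₁) z := hnz 2
  have s1 : Sc (adjN (adjN A x₁) z) := exch hx₂ n₂ z1 h
  rw [adjN_comm] at s1
  have s2 : Sc (adjN (adjN A z) f₁) := exch hx₁ (swapN n₁ z1) (swapN m₁ z2) s1
  rw [adjN_comm] at s2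
  exact exch hz z2 m₂ s2

/-- Exchange of regular sequences of length three. -/
theorem K3 {x₁ x₂ x₃ f₁ f₂ f₃ : SN K n} {e₁ e₂ e₃ e₄ e₅ e₆ : ℕ} (hn : 1 ≤ n)
    (hx₁ : x₁ ∈ HN K n (e₁ + 1)) (hx₂ : x₂ ∈ HN K n (e₂ + 1)) (hx₃ : x₃ ∈ HN K n (e₃ + 1))
    (hf₁ : f₁ ∈ HN K n (e₄ + 1)) (hf₂ : f₂ ∈ HN K n (e₅ + 1)) (hf₃ : f₃ ∈ HN K n (e₆ + 1))
    {A : Ideal (SN K n)}
    (n₁ : NZN A x₁) (n₂ : NZN (adjN A x₁) x₂) (n₃ : NZN (adjN (adjN A x₁) x₂) x₃)
    (m₁ : NZN A f₁) (m₂ : NZN (adjN A f₁) f₂) (m₃ : NZN (adjN (adjN A f₁) f₂) f₃)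
    (h : Sc (adjN (adjN (adjN A x₁) x₂) x₃)) : Sc (adjN (adjN (adjN A f₁) f₂) f₃) := by
  obtain ⟨z, hz, hnz⟩ := avoid0 (ι := Fin 5)
    ![A, adjN A x₁, adjN A f₁, adjN (adjN A x₁) x₂, adjN (adjN A f₁) f₂]
    (by
      intro t
      fin_cases t
      · exact sc_of_nz hx₁ n₁
      · exact sc_of_nz hx₂ n₂
      · exact sc_of_nz hf₂ m₂
      · exact sc_of_nz hx₃ n₃
      · exact sc_of_nz hf₃ m₃) hn
  have z0 : NZN A z := hnz 0
  have z1 : NZN (adjN A x₁) z := hnz 1
  have z2 : NZN (adjN A f₁) z := hnz 2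
  have z3 : NZN (adjN (adjN A x₁) x₂) z := hnz 3
  have z4 : NZN (adjN (adjN A f₁) f₂) z := hnz 4
  have s1 : Sc (adjN (adjN (adjN A x₁) x₂) z) := exch hx₃ n₃ z3 h
  have s1' : Sc (adjN (adjN (adjN A z) x₁) x₂) := by
    have e : adjN (adjN (adjN A z) x₁) x₂ = adjN (adjN (adjN A x₁) x₂) z := by
      rw [adjN_comm A z x₁, adjN_comm (adjN A x₁) z x₂]
    rw [e]
    exact s1
  have n₂' : NZN (adjN (adjN A z) x₁) x₂ := by
    rw [adjN_comm A z x₁]
    exact swapN n₂ z3
  have m₂' : NZN (adjN (adjN A z) f₁) f₂ := by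
    rw [adjN_comm A z f₁]
    exact swapN m₂ z4
  have s2 : Sc (adjN (adjN (adjN A z) f₁) f₂) :=
    K2 hn hx₁ hx₂ hf₁ hf₂ (swapN n₁ z1) n₂' (swapN m₁ z2) m₂' s1'
  have s2' : Sc (adjN (adjN (adjN A f₁) f₂) z) := by
    have e : adjN (adjN (adjN A f₁) f₂) z = adjN (adjN (adjN A z) f₁) f₂ := by
      rw [adjN_comm A z f₁, adjN_comm (adjN A f₁) z f₂]
    rw [e]
    exact s2
  exact exch hz z4 m₃ s2'

end exchange

/-- Variables form a regular sequence. -/
theorem nz_span_X {s : Set (Fin n)} {i : Fin n} (hi : i ∉ s) :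
    NZN (Ideal.span (X '' s) : Ideal (SN K n)) (X i) := by
  intro u hu
  rw [mem_ideal_span_X_image] at hu ⊢
  intro m hm
  have h1 : m + Finsupp.single i 1 ∈ (X i * u : SN K n).support := by
    rw [mem_support_iff, mul_comm, coeff_mul_X]
    exact mem_support_iff.1 hm
  obtain ⟨k, hk, hk2⟩ := hu _ h1
  refine ⟨k, hk, ?_⟩
  have hki : k ≠ i := fun h => hi (h ▸ hk)
  simpa [Finsupp.single_apply, hki.symm] using hk2

theorem adjN_span_X (s : Set (Fin n)) (i : Fin n) :
    adjN (Ideal.span (X '' s) : Ideal (SN K n)) (X i) = Ideal.span (X '' (insert i s)) := by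
  unfold adjN
  rw [Set.image_insert_eq, Ideal.span_insert, sup_comm]

theorem bot_eq_span : (⊥ : Ideal (SN K n)) = Ideal.span (X '' (∅ : Set (Fin n))) := by
  simp

/-- The condition `Sc` for a complete intersection of three forms in at least four variables. -/
theorem sc_T [Infinite K] (hn : 4 ≤ n) {u v w : SN K n} {α β γ : ℕ}
    (hu : u ∈ HN K n (α + 1)) (hv : v ∈ HN K n (β + 1)) (hw : w ∈ HN K n (γ + 1))
    (nu : NZN ⊥ u) (nv : NZN (adjN ⊥ u) v) (nw : NZN (adjN (adjN ⊥ u) v) w) :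
    Sc (adjN (adjN (adjN ⊥ u) v) w) := by
  let i₀ : Fin n := ⟨0, by omega⟩
  let i₁ : Fin n := ⟨1, by omega⟩
  let i₂ : Fin n := ⟨2, by omega⟩
  let i₃ : Fin n := ⟨3, by omega⟩
  have e0 : (⊥ : Ideal (SN K n)) = Ideal.span (X '' (∅ : Set (Fin n))) := bot_eq_span
  have h1 : NZN (⊥ : Ideal (SN K n)) (X i₀) := by
    rw [e0]
    exact nz_span_X (by simp)
  have h2 : NZN (adjN (⊥ : Ideal (SN K n)) (X i₀)) (X i₁) := by
    rw [e0, adjN_span_X]
    apply nz_span_X
    simp [i₀, i₁, Fin.ext_iff]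
  have h3 : NZN (adjN (adjN (⊥ : Ideal (SN K n)) (X i₀)) (X i₁)) (X i₂) := by
    rw [e0, adjN_span_X, adjN_span_X]
    apply nz_span_X
    simp [i₀, i₁, i₂, Fin.ext_iff]
  have h4 : NZN (adjN (adjN (adjN (⊥ : Ideal (SN K n)) (X i₀)) (X i₁)) (X i₂)) (X i₃) := by
    rw [e0, adjN_span_X, adjN_span_X, adjN_span_X]
    apply nz_span_X
    simp [i₀, i₁, i₂, i₃, Fin.ext_iff]
  have hX : ∀ k : Fin n, (X k : SN K n) ∈ HN K n (0 + 1) := fun k => isHomogeneous_X K k
  exact K3 (by omega) (hX i₀) (hX i₁) (hX i₂) hu hv hw h1 h2 h3 nu nv nw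
    (sc_of_nz (hX i₃) h4)

end Vale.Agent.Lib.P200.NV
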