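import Vale.Agent.Lib.P200.NV1
import Mathlib.LinearAlgebra.FiniteDimensional.Lemmas
import Mathlib.Algebra.Order.Antidiag.Finsupp

/-!
Reduction modulo a linear form, and the decomposition of a family of subspaces into rows.
-/

noncomputable section

namespace Vale.Agent.Lib.P200.NV

open MvPolynomial Module

variable {K : Type*} [Field K] {n : ℕ}

instance fdHN (n d : ℕ) : FiniteDimensional K (HN K n d) :=
  Module.Finite.iff_fg.2 (homogeneousSubmodule_fg (σ := Fin n) (R := K) d)

/-- A linear form with last coefficient one. -/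
def lF (c : Fin n → K) : SN K (n + 1) := X (Fin.last n) + ∑ i, C (c i) * X (Fin.castSucc i)

/-- The substitution killing the linear form `lF c`. -/
def piL (c : Fin n → K) : SN K (n + 1) →ₐ[K] SN K n :=
  aeval (Fin.snoc (α := fun _ => SN K n) (fun i => X i) (- ∑ i, C (c i) * X i))

/-- The inclusion of the polynomial ring in fewer variables. -/
def iotaF : SN K n →ₐ[K] SN K (n + 1) := rename Fin.castSucc

@[simp] theorem piL_castSucc (c : Fin n → K) (i : Fin n) :
    piL c (X (Fin.castSucc i)) = X i := by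
  simp [piL]

@[simp] theorem piL_last (c : Fin n → K) :
    piL c (X (Fin.last n)) = - ∑ i, C (c i) * X i := by
  simp [piL]

@[simp] theorem piL_C (c : Fin n → K) (k : K) : piL c (C k) = C k := by
  simp [piL]

theorem piL_lF (c : Fin n → K) : piL c (lF c) = 0 := by
  simp [lF, map_sum, map_mul]

theorem piL_iota (c : Fin n → K) (u : SN K n) : piL c (iotaF u) = u := by
  have h : (piL c).comp (iotaF (K := K) (n := n)) = AlgHom.id K _ := by
    apply MvPolynomial.algHom_ext
    intro i
    simp [iotaF]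
  exact DFunLike.congr_fun h u

theorem piL_surj (c : Fin n → K) : Function.Surjective (piL c) :=
  fun u => ⟨iotaF u, piL_iota c u⟩

theorem sub_iota_mem (c : Fin n → K) (u : SN K (n + 1)) :
    u - iotaF (piL c u) ∈ Ideal.span {lF c} := by
  let A : Ideal (SN K (n + 1)) := Ideal.span {lF c}
  have h : (Ideal.Quotient.mkₐ K A).comp ((iotaF (K := K) (n := n)).comp (piL c)) =
      Ideal.Quotient.mkₐ K A := by
    apply MvPolynomial.algHom_ext
    intro i
    refine Fin.lastCases ?_ (fun k => ?_) i
    · simp only [AlgHom.comp_apply, Ideal.Quotient.mkₐ_eq_mk, piL_last]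
      apply Ideal.Quotient.eq.2
      have e : iotaF (- ∑ i, C (c i) * X i : SN K n) - X (Fin.last n) = - lF c := by
        simp [iotaF, lF, map_sum]
        ring
      rw [e]
      exact Ideal.neg_mem_iff _ |>.2 (Ideal.subset_span rfl)
    · simp [iotaF]
  have h2 := DFunLike.congr_fun h u
  simp only [AlgHom.comp_apply, Ideal.Quotient.mkₐ_eq_mk] at h2
  exact Ideal.Quotient.eq.1 h2.symm

theorem ker_piL {c : Fin n → K} {u : SN K (n + 1)} (h : piL c u = 0) : lF c ∣ u := by
  have h1 := sub_iota_mem c u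
  rw [h, map_zero, sub_zero] at h1
  exact Ideal.mem_span_singleton.1 h1

theorem lF_mem (c : Fin n → K) : lF c ∈ HN K (n + 1) 1 := by
  refine (isHomogeneous_X K _).add ?_
  refine IsHomogeneous.sum _ _ _ fun i _ => ?_
  have := (isHomogeneous_C (Fin (n + 1)) (c i)).mul (isHomogeneous_X K (Fin.castSucc i))
  simpa using this

theorem lF_ne (c : Fin n → K) : lF c ≠ 0 := by
  intro h
  have h1 := congrArg (coeff (Finsupp.single (Fin.last n) 1)) h
  simp only [lF, coeff_add, coeff_X, coeff_zero, if_true] at h1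
  rw [coeff_sum] at h1
  have h2 : ∀ i : Fin n, coeff (Finsupp.single (Fin.last n) 1) (C (c i) * X (Fin.castSucc i) :
      SN K (n + 1)) = 0 := by
    intro i
    rw [coeff_C_mul, coeff_X]
    have : Finsupp.single (Fin.castSucc i) 1 ≠ (Finsupp.single (Fin.last n) 1 : Fin (n + 1) →₀ ℕ) := by
      intro h3
      have h4 := (Finsupp.single_left_inj (one_ne_zero)).1 h3
      exact (Fin.castSucc_lt_last i).ne h4
    rw [if_neg this, mul_zero]
  simp [h2] at h1

theorem piL_mem {c : Fin n → K} {u : SN K (n + 1)} {d : ℕ} (hu : u ∈ HN K (n + 1) d) :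
    piL c u ∈ HN K n d := by
  have h1 : ∀ i : Fin (n + 1), ((Fin.snoc (α := fun _ => SN K n) (fun i => X i)
      (- ∑ i, C (c i) * X i)) i : SN K n).IsHomogeneous 1 := by
    intro i
    refine Fin.lastCases ?_ (fun k => ?_) i
    · simp only [Fin.snoc_last]
      refine IsHomogeneous.neg ?_
      refine IsHomogeneous.sum _ _ _ fun j _ => ?_
      have := (isHomogeneous_C (Fin n) (c j)).mul (isHomogeneous_X K j)
      simpa using this
    · simp only [Fin.snoc_castSucc]
      exact isHomogeneous_X K k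
  have h2 := IsHomogeneous.aeval (show u.IsHomogeneous d from hu) _ h1
  rw [one_mul] at h2
  exact h2

theorem iota_mem {u : SN K n} {d : ℕ} (hu : u ∈ HN K n d) : iotaF u ∈ HN K (n + 1) d :=
  IsHomogeneous.rename_isHomogeneous (show u.IsHomogeneous d from hu)

theorem hc_piL (c : Fin n → K) (u : SN K (n + 1)) (e : ℕ) :
    homogeneousComponent e (piL c u) = piL c (homogeneousComponent e u) := by
  conv_lhs => rw [← sum_homogeneousComponent u]
  rw [map_sum, map_sum]
  rw [Finset.sum_eq_single e]
  · exact homogeneousComponent_of_mem (piL_mem (homogeneousComponent_mem _ _)) |>.trans (by simp)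
  · intro b _ hb
    rw [homogeneousComponent_of_mem (piL_mem (homogeneousComponent_mem _ _))]
    rw [if_neg]
    omega
  · intro hm
    have : homogeneousComponent e u = 0 := by
      apply homogeneousComponent_eq_zero
      simpa using hm
    simp [this]

/-! ### Families -/

/-- A family of subspaces of forms containing the graded pieces of `T`, stable under variables. -/
structure GoodN (T : Ideal (SN K n)) (W : ℕ → Submodule K (SN K n)) : Prop where
  le : ∀ j, W j ≤ HN K n j
  step : ∀ j i x, x ∈ W j → (X i : SN K n) * x ∈ W (j + 1)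
  con : ∀ j, compN T j ≤ W j

theorem GoodN.step_lF {T : Ideal (SN K (n + 1))} {W : ℕ → Submodule K (SN K (n + 1))}
    (h : GoodN T W) (c : Fin n → K) {j : ℕ} {x : SN K (n + 1)} (hx : x ∈ W j) :
    lF c * x ∈ W (j + 1) := by
  rw [lF, add_mul, Finset.sum_mul]
  refine Submodule.add_mem _ (h.step _ _ _ hx) (Submodule.sum_mem _ fun i _ => ?_)
  rw [mul_assoc, ← smul_eq_C_mul]
  exact Submodule.smul_mem _ _ (h.step _ _ _ hx)

/-- The colon family. -/
def colonF (c : Fin n → K) (W : ℕ → Submodule K (SN K (n + 1))) : ℕ → Submodule K (SN K (n + 1)) :=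
  fun e => HN K (n + 1) e ⊓ (W (e + 1)).comap (LinearMap.mulLeft K (lF c))

theorem mem_colonF {c : Fin n → K} {W : ℕ → Submodule K (SN K (n + 1))} {e : ℕ}
    {u : SN K (n + 1)} : u ∈ colonF c W e ↔ u ∈ HN K (n + 1) e ∧ lF c * u ∈ W (e + 1) := by
  simp [colonF]

theorem mul_mem_HN {r v : SN K n} {m e : ℕ} (hr : r ∈ HN K n m) (hv : v ∈ HN K n e) :
    r * v ∈ HN K n (e + m) := by
  have := IsHomogeneous.mul hr hv
  rwa [add_comm] at this

theorem colon_good {T : Ideal (SN K (n + 1))} {W : ℕ → Submodule K (SN K (n + 1))}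
    (h : GoodN T W) (c : Fin n → K) : GoodN T (colonF c W) := by
  refine ⟨fun j => inf_le_left, ?_, ?_⟩
  · intro j i x hx
    obtain ⟨h1, h2⟩ := mem_colonF.1 hx
    refine mem_colonF.2 ⟨mul_mem_HN (isHomogeneous_X K i) h1, ?_⟩
    have h3 := h.step _ i _ h2
    rwa [show X i * (lF c * x) = lF c * (X i * x) by ring] at h3
  · intro j x hx
    obtain ⟨h1, h2⟩ := mem_compN.1 hx
    refine mem_colonF.2 ⟨h2, h.con _ (mem_compN.2 ⟨Ideal.mul_mem_left _ _ h1, ?_⟩)⟩
    exact mul_mem_HN (lF_mem c) h2

theorem le_colon {T : Ideal (SN K (n + 1))} {W : ℕ → Submodule K (SN K (n + 1))}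
    (h : GoodN T W) (c : Fin n → K) (j : ℕ) : W j ≤ colonF c W j :=
  fun _ hx => mem_colonF.2 ⟨h.le j hx, h.step_lF c hx⟩

theorem colon_mono {W W' : ℕ → Submodule K (SN K (n + 1))} (h : ∀ j, W j ≤ W' j)
    (c : Fin n → K) (j : ℕ) : colonF c W j ≤ colonF c W' j := by
  intro u hu
  obtain ⟨h1, h2⟩ := mem_colonF.1 hu
  exact mem_colonF.2 ⟨h1, h _ h2⟩

/-- Iterated colon families. -/
def CpF (c : Fin n → K) : ℕ → (ℕ → Submodule K (SN K (n + 1))) → ℕ → Submodule K (SN K (n + 1))
  | 0, W => W
  | j + 1, W => CpF c j (colonF c W)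

theorem Cp_good {T : Ideal (SN K (n + 1))} (c : Fin n → K) (j : ℕ) :
    ∀ {W : ℕ → Submodule K (SN K (n + 1))}, GoodN T W → GoodN T (CpF c j W) := by
  induction j with
  | zero => exact fun h => h
  | succ j ih => exact fun h => ih (colon_good h c)

theorem Cp_mono (c : Fin n → K) (j : ℕ) :
    ∀ {W W' : ℕ → Submodule K (SN K (n + 1))}, (∀ e, W e ≤ W' e) → ∀ e, CpF c j W e ≤ CpF c j W' e := by
  induction j with
  | zero => exact fun h => h
  | succ j ih => exact fun h => ih (colon_mono h c)

theorem Cp_le_succ {T : Ideal (SN K (n + 1))} {W : ℕ → Submodule K (SN K (n + 1))}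
    (h : GoodN T W) (c : Fin n → K) (j e : ℕ) : CpF c j W e ≤ CpF c (j + 1) W e :=
  Cp_mono c j (le_colon h c) e

/-- The rows of a family. -/
def RwF (c : Fin n → K) (j : ℕ) (W : ℕ → Submodule K (SN K (n + 1))) : ℕ → Submodule K (SN K n) :=
  fun e => (CpF c j W e).map (piL c).toLinearMap

theorem Rw_mono (c : Fin n → K) (j : ℕ) {W W' : ℕ → Submodule K (SN K (n + 1))}
    (h : ∀ e, W e ≤ W' e) (e : ℕ) : RwF c j W e ≤ RwF c j W' e :=
  Submodule.map_mono (Cp_mono c j h e)

theorem Rw_le_succ {T : Ideal (SN K (n + 1))} {W : ℕ → Submodule K (SN K (n + 1))}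
    (h : GoodN T W) (c : Fin n → K) (j e : ℕ) : RwF c j W e ≤ RwF c (j + 1) W e :=
  Submodule.map_mono (Cp_le_succ h c j e)

theorem piL_map_comp {c : Fin n → K} {T : Ideal (SN K (n + 1))} (hT : HomI T) {e : ℕ}
    {u : SN K n} (hu : u ∈ compN (T.map (piL c : SN K (n + 1) →+* SN K n)) e) :
    ∃ v ∈ compN T e, piL c v = u := by
  obtain ⟨h1, h2⟩ := mem_compN.1 hu
  obtain ⟨v, hv, rfl⟩ :=
    (Ideal.mem_map_iff_of_surjective (piL c : SN K (n + 1) →+* SN K n) (piL_surj c)).1 h1
  refine ⟨homogeneousComponent e v, mem_compN.2 ⟨hT v hv e, homogeneousComponent_mem _ _⟩, ?_⟩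
  have h2' : piL c v ∈ HN K n e := h2
  have h3 := hc_piL c v e
  rw [homogeneousComponent_of_mem h2', if_pos rfl] at h3
  exact h3.symm

theorem Rw_good {T : Ideal (SN K (n + 1))} (hT : HomI T) {W : ℕ → Submodule K (SN K (n + 1))}
    (h : GoodN T W) (c : Fin n → K) (j : ℕ) :
    GoodN (T.map (piL c : SN K (n + 1) →+* SN K n)) (RwF c j W) := by
  have hC := Cp_good c j h
  refine ⟨?_, ?_, ?_⟩
  · rintro e _ ⟨x, hx, rfl⟩
    exact piL_mem (hC.le e hx)
  · rintro e i _ ⟨x, hx, rfl⟩
    refine ⟨X (Fin.castSucc i) * x, hC.step _ _ _ hx, ?_⟩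
    change piL c _ = _
    rw [map_mul, piL_castSucc]
    rfl
  · intro e u hu
    obtain ⟨v, hv, rfl⟩ := piL_map_comp hT hu
    exact ⟨v, hC.con e hv, rfl⟩

/-- Rank-nullity for the substitution. -/
theorem finrank_split {T : Ideal (SN K (n + 1))} {W : ℕ → Submodule K (SN K (n + 1))}
    (h : GoodN T W) (c : Fin n → K) (d : ℕ) :
    finrank K (W (d + 1)) = finrank K ((W (d + 1)).map (piL c).toLinearMap) +
      finrank K (colonF c W d) := by
  have hfd : FiniteDimensional K (W (d + 1)) := Submodule.finiteDimensional_of_le (h.le _)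
  have h1 := LinearMap.finrank_range_add_finrank_ker
    ((piL c).toLinearMap.domRestrict (W (d + 1)))
  rw [LinearMap.range_domRestrict, LinearMap.ker_domRestrict] at h1
  rw [← h1]
  congr 1
  -- the kernel
  have hinj : Function.Injective (LinearMap.mulLeft K (lF c)) :=
    mul_right_injective₀ (lF_ne c)
  have e1 : Submodule.comap (W (d + 1)).subtype (LinearMap.ker (piL c).toLinearMap) =
      Submodule.comap (W (d + 1)).subtype
        ((colonF c W d).map (LinearMap.mulLeft K (lF c))) := by
    ext ⟨x, hx⟩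
    simp only [Submodule.mem_comap, Submodule.subtype_apply, LinearMap.mem_ker]
    constructor
    · intro h0
      have h2 : piL c x = 0 := h0
      obtain ⟨t, rfl⟩ := ker_piL h2
      have hH := h.le _ hx
      have e2 : lF c * t = lF c * homogeneousComponent d t := by
        have h3 := hc_mul_mem (lF_mem c) t d
        rw [mul_comm t, homogeneousComponent_of_mem hH, if_pos rfl] at h3
        rw [h3, mul_comm]
      rw [e2] at hx ⊢
      exact ⟨homogeneousComponent d t, mem_colonF.2 ⟨homogeneousComponent_mem _ _, hx⟩, rfl⟩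
    · rintro ⟨t, ht, rfl⟩
      change piL c (lF c * t) = 0
      rw [map_mul, piL_lF, zero_mul]
  rw [e1]
  have e2 : finrank K ↥(Submodule.comap (W (d + 1)).subtype
      ((colonF c W d).map (LinearMap.mulLeft K (lF c)))) =
      finrank K ↥((colonF c W d).map (LinearMap.mulLeft K (lF c))) := by
    refine LinearEquiv.finrank_eq (Submodule.comapSubtypeEquivOfLe ?_)
    rintro _ ⟨t, ht, rfl⟩
    exact (mem_colonF.1 ht).2
  rw [e2]
  exact (LinearEquiv.finrank_eq (Submodule.equivMapOfInjective _ hinj (colonF c W d))).symm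

theorem finrank_zero_split {T : Ideal (SN K (n + 1))} {W : ℕ → Submodule K (SN K (n + 1))}
    (h : GoodN T W) (c : Fin n → K) :
    finrank K (W 0) = finrank K ((W 0).map (piL c).toLinearMap) := by
  have hfd : FiniteDimensional K (W 0) := Submodule.finiteDimensional_of_le (h.le _)
  have h1 := LinearMap.finrank_range_add_finrank_ker
    ((piL c).toLinearMap.domRestrict (W 0))
  rw [LinearMap.range_domRestrict, LinearMap.ker_domRestrict] at h1
  have e1 : Submodule.comap (W 0).subtype (LinearMap.ker (piL c).toLinearMap) = ⊥ := by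
    rw [eq_bot_iff]
    rintro ⟨x, hx⟩ h0
    have h2 : piL c x = 0 := h0
    obtain ⟨t, rfl⟩ := ker_piL h2
    have hH := h.le _ hx
    have h3 := hc_mul_lt (lF_mem c) t (m := 0) (by omega)
    rw [mul_comm t, homogeneousComponent_of_mem hH, if_pos rfl] at h3
    rw [Submodule.mem_bot]
    exact Subtype.ext h3
  rw [e1, finrank_bot, add_zero] at h1
  exact h1.symm

/-- The dimensions of the pieces of a family in terms of its rows. -/
theorem finrank_rows {T : Ideal (SN K (n + 1))} (c : Fin n → K) (d : ℕ) :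
    ∀ {W : ℕ → Submodule K (SN K (n + 1))}, GoodN T W →
      finrank K (W d) = ∑ j ∈ Finset.range (d + 1), finrank K (RwF c j W (d - j)) := by
  induction d with
  | zero =>
    intro W h
    simp only [zero_add, Finset.sum_range_one]
    exact finrank_zero_split h c
  | succ d ih =>
    intro W h
    rw [finrank_split h c, ih (colon_good h c), Finset.sum_range_succ' _ (d + 1), add_comm]
    congr 1
    refine Finset.sum_congr rfl fun j hj => ?_
    have : d + 1 - (j + 1) = d - j := by omega
    rw [this]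
    rfl

end Vale.Agent.Lib.P200.NV
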