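import Vale.Agent.Lib.P200.NV2

/-!
Monomial sets attached to families: passage from `n` to `n + 1` variables.
-/

noncomputable section

namespace Vale.Agent.Lib.P200.NV

open MvPolynomial Module

variable {K : Type*} [Field K] {n : ℕ}

/-- Restriction of an exponent vector to the first `n` variables. -/
def resF (m : Fin (n + 1) →₀ ℕ) : Fin n →₀ ℕ :=
  Finsupp.equivFunOnFinite.symm (fun i => m (Fin.castSucc i))

/-- Extension of an exponent vector by a last exponent. -/
def extF (m : Fin n →₀ ℕ) (j : ℕ) : Fin (n + 1) →₀ ℕ :=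
  Finsupp.equivFunOnFinite.symm (Fin.snoc (α := fun _ => ℕ) (fun i => m i) j)

@[simp] theorem resF_apply (m : Fin (n + 1) →₀ ℕ) (i : Fin n) : resF m i = m (Fin.castSucc i) := rfl

@[simp] theorem extF_last (m : Fin n →₀ ℕ) (j : ℕ) : extF m j (Fin.last n) = j := by
  simp [extF]

@[simp] theorem extF_castSucc (m : Fin n →₀ ℕ) (j : ℕ) (i : Fin n) :
    extF m j (Fin.castSucc i) = m i := by
  simp [extF]

@[simp] theorem resF_extF (m : Fin n →₀ ℕ) (j : ℕ) : resF (extF m j) = m := by
  ext i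
  simp

theorem extF_resF (m : Fin (n + 1) →₀ ℕ) : extF (resF m) (m (Fin.last n)) = m := by
  ext i
  refine Fin.lastCases ?_ (fun k => ?_) i <;> simp

theorem mem_antidiagN {m : Fin n →₀ ℕ} {d : ℕ} :
    m ∈ Finset.finsuppAntidiag (Finset.univ : Finset (Fin n)) d ↔ ∑ i, m i = d := by
  simp [Finset.mem_finsuppAntidiag]

theorem sum_resF (m : Fin (n + 1) →₀ ℕ) : ∑ i, m i = ∑ i, resF m i + m (Fin.last n) := by
  rw [Fin.sum_univ_castSucc]
  rfl

open Classical in
/-- The number of elements of degree `d` of a set of exponent vectors. -/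
def monoCount (s : Set (Fin n →₀ ℕ)) (d : ℕ) : ℕ :=
  ((Finset.finsuppAntidiag (Finset.univ : Finset (Fin n)) d).filter (· ∈ s)).card

open Classical in
theorem monoCount_rows (Ψ : ℕ → Set (Fin n →₀ ℕ)) (d : ℕ) :
    monoCount {m : Fin (n + 1) →₀ ℕ | resF m ∈ Ψ (m (Fin.last n))} d =
      ∑ j ∈ Finset.range (d + 1), monoCount (Ψ j) (d - j) := by
  unfold monoCount
  rw [Finset.card_eq_sum_card_fiberwise (f := fun m : Fin (n + 1) →₀ ℕ => m (Fin.last n))
    (t := Finset.range (d + 1))]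
  · refine Finset.sum_congr rfl fun j hj => ?_
    have hj' : j ≤ d := by
      have := Finset.mem_range.1 hj
      omega
    apply Finset.card_bij (fun m _ => resF m)
    · intro m hm
      rw [Finset.mem_filter, Finset.mem_filter, mem_antidiagN] at hm
      rw [Finset.mem_filter, mem_antidiagN]
      obtain ⟨⟨h1, h2⟩, h3⟩ := hm
      have h4 := sum_resF m
      refine ⟨by omega, ?_⟩
      have h5 : resF m ∈ Ψ (m (Fin.last n)) := h2
      rwa [h3] at h5
    · intro m hm m' hm' h
      rw [Finset.mem_filter] at hm hm'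
      rw [← extF_resF m, ← extF_resF m', h, hm.2, hm'.2]
    · intro x hx
      rw [Finset.mem_filter, mem_antidiagN] at hx
      refine ⟨extF x j, ?_, resF_extF x j⟩
      rw [Finset.mem_filter, Finset.mem_filter, mem_antidiagN, sum_resF, resF_extF, extF_last]
      refine ⟨⟨by omega, ?_⟩, ?_⟩
      · change resF (extF x j) ∈ Ψ (extF x j (Fin.last n))
        rw [resF_extF, extF_last]
        exact hx.2
      · rfl
  · intro m hm
    rw [Finset.mem_coe, Finset.mem_filter, mem_antidiagN] at hm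
    have h4 := sum_resF m
    rw [Finset.mem_coe, Finset.mem_range]
    change m (Fin.last n) < d + 1
    omega

/-- The conclusion to be proved for a number of variables. -/
def EC (hn : 3 ≤ n) (a b c : ℕ) (T : Ideal (SN K n)) : Prop :=
  ∃ Φ : (ℕ → Submodule K (SN K n)) → Set (Fin n →₀ ℕ),
    (∀ W W', GoodN T W → GoodN T W' → (∀ j, W j ≤ W' j) → Φ W ⊆ Φ W') ∧
    ∀ W, GoodN T W →
      (∀ m ∈ Φ W, ∀ i, Finsupp.single i 1 + m ∈ Φ W) ∧
      Finsupp.single (Fin.castLE hn 0) a ∈ Φ W ∧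
      Finsupp.single (Fin.castLE hn 1) b ∈ Φ W ∧
      Finsupp.single (Fin.castLE hn 2) c ∈ Φ W ∧
      ∀ d, monoCount (Φ W) d = finrank K (W d)

theorem resF_single_castSucc (k : Fin n) (e : ℕ) :
    resF (Finsupp.single (Fin.castSucc k) e) = Finsupp.single k e := by
  ext i
  rw [resF_apply]
  simp only [Finsupp.single_apply, Fin.castSucc_inj]

theorem resF_single_last (e : ℕ) : resF (Finsupp.single (Fin.last n) e) = 0 := by
  ext i
  rw [resF_apply]
  simp

theorem resF_add (m m' : Fin (n + 1) →₀ ℕ) : resF (m + m') = resF m + resF m' := by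
  ext i
  simp

theorem last_single_castSucc (k : Fin n) (e : ℕ) :
    (Finsupp.single (Fin.castSucc k) e : Fin (n + 1) →₀ ℕ) (Fin.last n) = 0 := by
  simp

/-- One step: from the rows to the family. -/
theorem EC_step {hn : 3 ≤ n} {a b c' : ℕ} {T : Ideal (SN K (n + 1))} (hT : HomI T)
    (c : Fin n → K) (h : EC hn a b c' (T.map (piL c : SN K (n + 1) →+* SN K n))) :
    EC (by omega : 3 ≤ n + 1) a b c' T := by
  obtain ⟨Φ, hmono, hΦ⟩ := h
  refine ⟨fun W => {m | resF m ∈ Φ (RwF c (m (Fin.last n)) W)}, ?_, ?_⟩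
  · intro W W' hW hW' hle m hm
    exact hmono _ _ (Rw_good hT hW c _) (Rw_good hT hW' c _) (Rw_mono c _ hle) hm
  · intro W hW
    have hR := fun j => hΦ _ (Rw_good hT hW c j)
    have hpow : ∀ (x : Fin n) (e : ℕ), Finsupp.single x e ∈ Φ (RwF c 0 W) →
        Finsupp.single (Fin.castSucc x) e ∈
          {m : Fin (n + 1) →₀ ℕ | resF m ∈ Φ (RwF c (m (Fin.last n)) W)} := by
      intro x e hx
      change resF _ ∈ Φ (RwF c _ W)
      rw [resF_single_castSucc, last_single_castSucc]
      exact hx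
    refine ⟨?_, ?_, ?_, ?_, ?_⟩
    · intro m hm i
      refine Fin.lastCases ?_ (fun k => ?_) i
      · change resF _ ∈ Φ (RwF c _ W)
        rw [resF_add, resF_single_last, zero_add]
        have hm' : resF m ∈ Φ (RwF c (m (Fin.last n)) W) := hm
        have h1 := hmono _ _ (Rw_good hT hW c (m (Fin.last n)))
          (Rw_good hT hW c (m (Fin.last n) + 1)) (Rw_le_succ hW c _) hm'
        have h2 : (Finsupp.single (Fin.last n) 1 + m : Fin (n + 1) →₀ ℕ) (Fin.last n) =
            m (Fin.last n) + 1 := by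
          simp
          omega
        rw [h2]
        exact h1
      · change resF _ ∈ Φ (RwF c _ W)
        rw [resF_add, resF_single_castSucc]
        have h2 : (Finsupp.single (Fin.castSucc k) 1 + m : Fin (n + 1) →₀ ℕ) (Fin.last n) =
            m (Fin.last n) := by
          rw [Finsupp.add_apply, last_single_castSucc, zero_add]
        rw [h2]
        exact (hR _).1 _ hm _
    · exact hpow _ _ (hR 0).2.1
    · exact hpow _ _ (hR 0).2.2.1
    · exact hpow _ _ (hR 0).2.2.2.1
    · intro d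
      rw [monoCount_rows (fun j => Φ (RwF c j W)) d, finrank_rows c d hW]
      exact Finset.sum_congr rfl fun j _ => (hR j).2.2.2.2 _

/-- A regular triple of forms. -/
structure RSN (u v w : SN K n) (α β γ : ℕ) : Prop where
  hu : u ∈ HN K n α
  hv : v ∈ HN K n β
  hw : w ∈ HN K n γ
  ha : 1 ≤ α
  hb : 1 ≤ β
  hc : 1 ≤ γ
  u0 : u ≠ 0
  nz1 : NZN (adjN ⊥ u) v
  nz2 : NZN (adjN (adjN ⊥ u) v) w

theorem nz_bot {u : SN K n} (h : u ≠ 0) : NZN ⊥ u := by
  intro x hx
  rw [Ideal.mem_bot] at hx ⊢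
  exact (mul_eq_zero.1 hx).resolve_left h

theorem RSN.homI {u v w : SN K n} {α β γ : ℕ} (h : RSN u v w α β γ) : HomI (TN u v w) :=
  homI_adj (homI_adj (homI_adj homI_bot h.hu) h.hv) h.hw

theorem map_adjN (c : Fin n → K) (A : Ideal (SN K (n + 1))) (r : SN K (n + 1)) :
    (adjN A r).map (piL c : SN K (n + 1) →+* SN K n) =
      adjN (A.map (piL c : SN K (n + 1) →+* SN K n)) (piL c r) := by
  unfold adjN
  rw [Ideal.map_sup, Ideal.map_span, Set.image_singleton]
  rfl

theorem map_TN (c : Fin n → K) (u v w : SN K (n + 1)) :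
    (TN u v w).map (piL c : SN K (n + 1) →+* SN K n) = TN (piL c u) (piL c v) (piL c w) := by
  unfold TN
  rw [map_adjN, map_adjN, map_adjN, Ideal.map_bot]

theorem nz_piL {c : Fin n → K} {A : Ideal (SN K (n + 1))} {r : SN K (n + 1)}
    (h : NZN (adjN A (lF c)) r) :
    NZN (A.map (piL c : SN K (n + 1) →+* SN K n)) (piL c r) := by
  intro x hx
  obtain ⟨a, ha, hax⟩ :=
    (Ideal.mem_map_iff_of_surjective (piL c : SN K (n + 1) →+* SN K n) (piL_surj c)).1 hx
  have hax' : piL c a = piL c r * x := hax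
  have h1 : r * iotaF x - a ∈ Ideal.span {lF c} := by
    obtain ⟨t, ht⟩ := ker_piL (c := c) (u := r * iotaF x - a) (by
      rw [map_sub, map_mul, piL_iota, hax', sub_self])
    rw [ht]
    exact Ideal.mem_span_singleton'.2 ⟨t, mul_comm _ _⟩
  obtain ⟨t, ht⟩ := Ideal.mem_span_singleton'.1 h1
  have h2 : iotaF x ∈ adjN A (lF c) := by
    apply h
    exact mem_adjN.2 ⟨a, ha, t, by linear_combination -ht⟩
  obtain ⟨a', ha', t', ht'⟩ := mem_adjN.1 h2
  have h3 := congrArg (piL c) ht'
  rw [piL_iota, map_add, map_mul, piL_lF, mul_zero, add_zero] at h3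
  rw [h3]
  exact Ideal.mem_map_of_mem (piL c : SN K (n + 1) →+* SN K n) ha'

theorem one_not_mem_lF (c : Fin n → K) : (1 : SN K (n + 1)) ∉ adjN ⊥ (lF c) := by
  intro h
  obtain ⟨a, ha, t, ht⟩ := mem_adjN.1 h
  have ha0 : a = 0 := by simpa using ha
  rw [ha0, zero_add] at ht
  have h1 := hc_mul_lt (lF_mem c) t (m := 0) (by omega)
  rw [← ht] at h1
  have h2 : homogeneousComponent 0 (1 : SN K (n + 1)) = 1 :=
    homogeneousComponent_of_mem (isHomogeneous_one _ _) |>.trans (by simp)
  rw [h2] at h1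
  exact one_ne_zero h1

/-- Reduction of a regular triple modulo a general linear form. -/
theorem RSN.map_piL {u v w : SN K (n + 1)} {α β γ : ℕ} (h : RSN u v w α β γ) {c : Fin n → K}
    (h1 : NZN (adjN ⊥ u) (lF c)) (h2 : NZN (adjN (adjN ⊥ u) v) (lF c))
    (h3 : NZN (TN u v w) (lF c)) :
    RSN (piL c u) (piL c v) (piL c w) α β γ := by
  refine ⟨piL_mem h.hu, piL_mem h.hv, piL_mem h.hw, h.ha, h.hb, h.hc, ?_, ?_, ?_⟩
  · intro h0
    obtain ⟨t, ht⟩ := ker_piL h0
    have h4 : NZN (adjN ⊥ (lF c)) u := swapN (nz_bot h.u0) h1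
    apply one_not_mem_lF c
    apply h4
    rw [mul_one, ht]
    exact Ideal.mul_mem_right _ _ (self_mem_adjN _ _)
  · have h4 : NZN (adjN (adjN ⊥ u) (lF c)) v := swapN h.nz1 h2
    have h5 := nz_piL h4
    rwa [map_adjN, Ideal.map_bot] at h5
  · have h4 : NZN (adjN (adjN (adjN ⊥ u) v) (lF c)) w := swapN h.nz2 h3
    have h5 := nz_piL h4
    rwa [map_adjN, map_adjN, Ideal.map_bot] at h5

theorem const_of_HN0 {s : SN K n} (hs : s ∈ HN K n 0) : s = C (coeff 0 s) := by
  have := (show s.IsHomogeneous 0 from hs).totalDegree_le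
  exact totalDegree_eq_zero_iff_eq_C.1 (by omega)

/-- A general linear form with last coefficient one. -/
theorem exists_lF [Infinite K] {ι : Type} [Finite ι] (As : ι → Ideal (SN K (n + 1)))
    (hAs : ∀ t, Sc (As t)) : ∃ c : Fin n → K, ∀ t, NZN (As t) (lF c) := by
  classical
  let φ : HN K (n + 1) 1 →ₗ[K] K :=
    { toFun := fun l => coeff (Finsupp.single (Fin.last n) 1) (l : SN K (n + 1))
      map_add' := fun x y => by simp
      map_smul' := fun k x => by simp }
  have hne : LinearMap.ker φ ≠ ⊤ := by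
    intro h
    have h1 : (⟨X (Fin.last n), isHomogeneous_X K _⟩ : HN K (n + 1) 1) ∈ LinearMap.ker φ := by
      rw [h]
      trivial
    have h2 : coeff (Finsupp.single (Fin.last n) 1) (X (Fin.last n) : SN K (n + 1)) = 0 := h1
    simp at h2
  obtain ⟨⟨l, hl⟩, hl1, hl2⟩ := avoid As hAs (LinearMap.ker φ) hne
  obtain ⟨w, hw, hlw⟩ := form_succN (show l ∈ HN K (n + 1) (0 + 1) from hl)
  have hk : coeff (Finsupp.single (Fin.last n) 1) l ≠ 0 := fun h => hl1 h
  set k := coeff (Finsupp.single (Fin.last n) 1) l with hkdef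
  have hC : ∀ i, w i = C (coeff 0 (w i)) := fun i => const_of_HN0 (hw i)
  have hcoef : coeff 0 (w (Fin.last n)) = k := by
    rw [hkdef, hlw, coeff_sum]
    rw [Finset.sum_eq_single (Fin.last n)]
    · rw [mul_comm, hC (Fin.last n), coeff_mul_X' ]
      simp
    · intro i _ hi
      rw [mul_comm, hC i, coeff_mul_X']
      rw [if_neg]
      intro h0
      have := (Finsupp.mem_support_iff.1 h0)
      simp [hi.symm] at this
    · simp
  let c : Fin n → K := fun i => k⁻¹ * coeff 0 (w (Fin.castSucc i))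
  have hle : lF c = C k⁻¹ * l := by
    rw [hlw, Fin.sum_univ_castSucc, mul_add, lF, add_comm (X (Fin.last n))]
    congr 1
    · rw [Finset.mul_sum]
      refine Finset.sum_congr rfl fun i _ => ?_
      rw [hC (Fin.castSucc i)]
      simp only [c, map_mul]
      ring
    · rw [hC (Fin.last n), hcoef]
      have : (C k⁻¹ * C k : SN K (n + 1)) = 1 := by
        rw [← C_mul, inv_mul_cancel₀ hk, C_1]
      linear_combination (- X (Fin.last n)) * this
  refine ⟨c, fun t u hu => hl2 t u ?_⟩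
  have e : l * u = C k * (lF c * u) := by
    rw [hle]
    have : (C k * C k⁻¹ : SN K (n + 1)) = 1 := by
      rw [← C_mul, mul_inv_cancel₀ hk, C_1]
    linear_combination (- (l * u)) * this
  rw [e]
  exact Ideal.mul_mem_left _ _ hu

/-- The induction on the number of variables. -/
theorem EC_succ [Infinite K] {hn : 3 ≤ n} {a b c' : ℕ}
    (IH : ∀ u v w : SN K n, RSN u v w a b c' → EC hn a b c' (TN u v w))
    {u v w : SN K (n + 1)} (h : RSN u v w a b c') :
    EC (by omega : 3 ≤ n + 1) a b c' (TN u v w) := by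
  have hmem : ∀ {r : SN K (n + 1)} {e : ℕ}, r ∈ HN K (n + 1) e → 1 ≤ e →
      ∃ e', r ∈ HN K (n + 1) (e' + 1) := by
    intro r e hr he
    obtain ⟨e', rfl⟩ : ∃ e', e = e' + 1 := ⟨e - 1, by omega⟩
    exact ⟨e', hr⟩
  obtain ⟨_, hv'⟩ := hmem h.hv h.hb
  obtain ⟨_, hw'⟩ := hmem h.hw h.hc
  obtain ⟨_, hu'⟩ := hmem h.hu h.ha
  have s3 : Sc (TN u v w) := sc_T (by omega) hu' hv' hw' (nz_bot h.u0) h.nz1 h.nz2
  obtain ⟨c, hc⟩ := exists_lF (ι := Fin 3) ![adjN ⊥ u, adjN (adjN ⊥ u) v, TN u v w]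
    (by
      intro t
      fin_cases t
      · exact sc_of_nz hv' h.nz1
      · exact sc_of_nz hw' h.nz2
      · exact s3)
  have h0 : NZN (adjN ⊥ u) (lF c) := hc 0
  have h1 : NZN (adjN (adjN ⊥ u) v) (lF c) := hc 1
  have h2 : NZN (TN u v w) (lF c) := hc 2
  have hR := h.map_piL h0 h1 h2
  refine EC_step (hn := hn) h.homI c ?_
  rw [map_TN]
  exact IH _ _ _ hR

end Vale.Agent.Lib.P200.NV
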