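import Vale.Agent.Lib.P200.Q2a

/-!
The Betti numbers of homological degree three.
-/

noncomputable section

namespace Vale.Agent.Lib.P200

open MvPolynomial Module Defs BettiDefs

variable {K : Type*} [Field K] {f p q : S3 K} {a b c : ℕ}

/-- The forms of degree `n` multiplied into `A` by all variables. -/
def Z3 (A : Ideal (S3 K)) (n : ℕ) : Submodule K (S3 K) := HH K n ⊓ (idealVec A).comap (kd3 K)

theorem mem_Z3 {A : Ideal (S3 K)} {n : ℕ} {u : S3 K} :
    u ∈ Z3 A n ↔ u ∈ HH K n ∧ ∀ i, X i * u ∈ A := by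
  simp [Z3, mem_idealVec, kd3_apply]

theorem Z3_le (A : Ideal (S3 K)) (n : ℕ) : Z3 A n ≤ HH K n := inf_le_left

theorem comp_le_Z3 (A : Ideal (S3 K)) (n : ℕ) : comp A n ≤ Z3 A n := by
  intro u hu
  obtain ⟨h1, h2⟩ := mem_comp.1 hu
  exact mem_Z3.2 ⟨h2, fun i => Ideal.mul_mem_left _ _ h1⟩

theorem X_mul_mono (i : Fin 3) (m : Fin 3 →₀ ℕ) :
    X i * monomial m (1 : K) = monomial (Finsupp.single i 1 + m) (1 : K) := by
  rw [X, monomial_mul, one_mul]

theorem shift_sum (i : Fin 3) (m : Fin 3 →₀ ℕ) :
    (Finsupp.single i 1 + m : Fin 3 →₀ ℕ) 0 + (Finsupp.single i 1 + m : Fin 3 →₀ ℕ) 1 +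
        (Finsupp.single i 1 + m : Fin 3 →₀ ℕ) 2 = m 0 + m 1 + m 2 + 1 := by
  fin_cases i <;> simp <;> omega

theorem shift_ge (i : Fin 3) (m : Fin 3 →₀ ℕ) (k : Fin 3) :
    m k ≤ (Finsupp.single i 1 + m : Fin 3 →₀ ℕ) k := by
  simp

theorem pMono_step {d : ℕ} (i : Fin 3) {m : Fin 3 →₀ ℕ} (hm : m ∈ pMono a b c d) :
    Finsupp.single i 1 + m ∈ pMono a b c (d + 1) := by
  rw [mem_pMono] at hm ⊢
  have h0 := shift_ge i m 0
  have h1 := shift_ge i m 1
  have h2 := shift_ge i m 2
  have h3 := shift_sum i m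
  omega

theorem dvd_shift (i : Fin 3) (m : Fin 3 →₀ ℕ) :
    Dvd1 (toPair m) (toPair (Finsupp.single i 1 + m)) := by
  fin_cases i
  · right; right
    simp [toPair]
    omega
  · right; left
    simp [toPair]
    omega
  · left
    simp [toPair]

/-- The lexicographic step in terms of monomials. -/
theorem high_step {d X X' : ℕ} (ha : 1 ≤ a) (hb : 1 ≤ b) (hbc : b ≤ c)
    (hB : Bd a (b : ℤ) (c : ℤ) (d : ℤ) (X : ℤ) (X' : ℤ)) (i : Fin 3) {m : Fin 3 →₀ ℕ}
    (hm : m ∈ highMono a b c d X) :
    Finsupp.single i 1 + m ∈ pMono a b c (d + 1) ∪ highMono a b c (d + 1) X' := by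
  rw [highMono, Finset.mem_filter] at hm
  obtain ⟨hm1, hm2⟩ := hm
  have hm3 := mem_outside.1 hm1
  have hdeg := shift_sum i m
  rw [Finset.mem_union]
  by_cases hout : Finsupp.single i 1 + m ∈ outside (le_refl 3) ![a, b, c] (d + 1)
  · right
    rw [highMono, Finset.mem_filter]
    refine ⟨hout, ?_⟩
    have hk := key_step ha hb hbc (H := (X : ℤ)) (H' := (X' : ℤ)) (by positivity) hB
      (toPair_mem hm1) (toPair_mem hout) (dvd_shift i m) (by
        have : (X : ℤ) + 1 ≤ (trc a b c d (toPair m) : ℤ) := by exact_mod_cast hm2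
        exact this)
    have : X' + 1 ≤ trc a b c (d + 1) (toPair (Finsupp.single i 1 + m)) := by exact_mod_cast hk
    exact this
  · left
    rw [mem_pMono]
    refine ⟨by omega, ?_⟩
    by_contra hcon
    apply hout
    rw [mem_outside]
    omega

/-- Comparison of the socles. -/
theorem Z3_compare (h : RS f p q a b c) (hab : a ≤ b) (hbc : b ≤ c) {I J : Ideal (S3 K)}
    (hI : T3 f p q ≤ I) (hJ : J.restrictScalars K = lexPlusPowers (le_refl 3) ![a, b, c] I)
    (n : ℕ) : finrank K (Z3 I n) ≤ finrank K (Z3 J n) := by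
  classical
  let W : ℕ → Submodule K (S3 K) := fun k => if k = n then Z3 I n else comp I k
  have hWn : W n = Z3 I n := if_pos rfl
  have hWs : W (n + 1) = comp I (n + 1) := if_neg (by omega)
  have hW : CFam (T3 f p q) W (n + 1) := by
    refine ⟨⟨?_, ?_⟩, ?_⟩
    · intro j _
      by_cases hj : j = n
      · subst hj
        rw [hWn]
        exact Z3_le _ _
      · change (if j = n then Z3 I n else comp I j) ≤ _
        rw [if_neg hj]
        exact comp_le _ _
    · intro j hj i u hu
      by_cases hj2 : j = n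
      · subst hj2
        rw [hWn] at hu
        rw [hWs]
        obtain ⟨h1, h2⟩ := mem_Z3.1 hu
        exact mem_comp.2 ⟨h2 i, mul_mem_HH (isHomogeneous_X K i) h1⟩
      · have hu' : u ∈ comp I j := by
          change u ∈ (if j = n then Z3 I n else comp I j) at hu
          rwa [if_neg hj2] at hu
        obtain ⟨h1, h2⟩ := mem_comp.1 hu'
        have h3 : X i * u ∈ comp I (j + 1) :=
          mem_comp.2 ⟨Ideal.mul_mem_left _ _ h1, mul_mem_HH (isHomogeneous_X K i) h2⟩
        by_cases hj3 : j + 1 = n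
        · rw [hj3, hWn]
          rw [hj3] at h3
          exact comp_le_Z3 _ _ h3
        · change X i * u ∈ (if j + 1 = n then Z3 I n else comp I (j + 1))
          rw [if_neg hj3]
          exact h3
    · intro j _
      by_cases hj : j = n
      · subst hj
        rw [hWn]
        exact (comp_mono hI j).trans (comp_le_Z3 _ _)
      · change _ ≤ (if j = n then Z3 I n else comp I j)
        rw [if_neg hj]
        exact comp_mono hI j
  have hB := growth_any h hab hbc n W hW
  have hfd : FiniteDimensional K (Z3 I n) := fd_of_le (Z3_le I n)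
  have hfdJ : FiniteDimensional K (Z3 J n) := fd_of_le (Z3_le J n)
  have hle := Submodule.finrank_mono (Z3_le I n)
  rw [finrank_HH] at hle
  have hle' := Submodule.finrank_mono (comp_le I (n + 1))
  rw [finrank_HH] at hle'
  set X₀ : ℕ := DD n - finrank K (Z3 I n) with hX₀
  set X₁ : ℕ := DD (n + 1) - finrank K (comp I (n + 1)) with hX₁
  have e0 : HW W n = (X₀ : ℤ) := by
    unfold HW
    rw [hWn, hX₀]
    omega
  have e1 : HW W (n + 1) = (X₁ : ℤ) := by
    unfold HW
    rw [hWs, hX₁]
    omega
  rw [e0, e1] at hB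
  -- the number of monomials
  have hX₀le : X₀ ≤ (BC a b c n).card := by
    have h1 := numbers h (le_refl _) n
    have h2 := Submodule.finrank_mono ((comp_mono hI n).trans (comp_le_Z3 I n))
    omega
  have hcard := card_highMono (a := a) (b := b) (c := c) (d := n) hX₀le
  have hp := card_pMono_add (a := a) (b := b) (c := c) (d := n)
  let R : Finset (Fin 3 →₀ ℕ) := pMono a b c n ∪ highMono a b c n X₀
  have hR : R.card + X₀ = DD n := by
    have h1 : Disjoint (pMono a b c n) (highMono a b c n X₀) := by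
      rw [Finset.disjoint_left]
      intro m hm1 hm2
      exact Finset.disjoint_left.1 pMono_outside_disj hm1 (Finset.mem_filter.1 hm2).1
    have h2 : R.card = (pMono a b c n).card + (highMono a b c n X₀).card :=
      Finset.card_union_of_disjoint h1
    omega
  have hsub : restrictSupport K (R : Set (Fin 3 →₀ ℕ)) ≤ Z3 J n := by
    rw [restrictSupport_eq_span, Submodule.span_le]
    rintro _ ⟨m, hm, rfl⟩
    have hm' : m ∈ R := hm
    have hdeg : m 0 + m 1 + m 2 = n := by
      rcases Finset.mem_union.1 hm' with h1 | h1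
      · exact (mem_pMono.1 h1).1
      · exact (mem_outside.1 (Finset.mem_filter.1 h1).1).1
    have hq : X₁ + qNum (le_refl 3) ![a, b, c] I (n + 1) = (BC a b c (n + 1)).card := by
      have := numbers h hI (n + 1)
      omega
    have hTop := lexTop_eq (a := a) (b := b) (c := c) (d := n + 1)
      (q := qNum (le_refl 3) ![a, b, c] I (n + 1)) (F := X₁) (by omega)
    refine mem_Z3.2 ⟨?_, fun i => ?_⟩
    · change monomial m (1 : K) ∈ HH K n
      rw [HH_eq_restrict, monomial_mem_restrictSupport]
      left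
      simp only [Finset.mem_coe, mem_antidiag]
      exact hdeg
    · have h1 : X i * monomial m (1 : K) ∈ comp J (n + 1) := by
        rw [comp_J hJ, X_mul_mono, monomial_mem_restrictSupport]
        left
        rw [Finset.mem_coe, mem_Md, hTop]
        rcases Finset.mem_union.1 hm' with h2 | h2
        · exact Or.inl (pMono_step i h2)
        · exact Finset.mem_union.1 (high_step h.ha h.hb hbc hB i h2)
      exact (mem_comp.1 h1).1
  have h1 : finrank K (restrictSupport K (R : Set (Fin 3 →₀ ℕ))) ≤ finrank K (Z3 J n) :=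
    Submodule.finrank_mono hsub
  rw [finrank_restrict] at h1
  omega

/-- Comparison of the socles, with integer degrees. -/
theorem hC_compare (h : RS f p q a b c) (hab : a ≤ b) (hbc : b ≤ c) {I J : Ideal (S3 K)}
    (hI : T3 f p q ≤ I) (hJ : J.restrictScalars K = lexPlusPowers (le_refl 3) ![a, b, c] I)
    (j : ℤ) : finrank K ↥(formsZ K (j - 3) ⊓ (idealVec I).comap (kd3 K)) ≤
      finrank K ↥(formsZ K (j - 3) ⊓ (idealVec J).comap (kd3 K)) := by
  generalize j - 3 = e
  by_cases he : e < 0
  · rw [formsZ_neg he, bot_inf_eq]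
    simp
  · obtain ⟨n, rfl⟩ : ∃ n : ℕ, e = n := ⟨e.toNat, by omega⟩
    rw [formsZ_nat]
    exact Z3_compare h hab hbc hI hJ n

end Vale.Agent.Lib.P200
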