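import Vale.Agent.Lib.P200.NV3
import Vale.Agent.Lib.P200.Q2b

/-!
The monomial sets in three variables, and the induction on the number of variables.
-/

noncomputable section

namespace Vale.Agent.Lib.P200.NV

open MvPolynomial Module Defs

variable {K : Type*} [Field K]

theorem rs_of_rsn {u v w : SN K 3} {a b c : ℕ} (h : RSN u v w a b c) : RS u v w a b c :=
  ⟨h.hu, h.hv, h.hw, h.ha, h.hb, h.hc, h.u0, h.nz1, h.nz2⟩

/-- The monomial set in three variables. -/
def Phi3 (a b c : ℕ) (W : ℕ → Submodule K (SN K 3)) : Set (Fin 3 →₀ ℕ) :=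
  {m | ∃ d, m ∈ Md a b c d (finrank K (W d) - (pMono a b c d).card)}

section base

variable {u v w : SN K 3} {a b c : ℕ}

theorem cfam_of_good {W : ℕ → Submodule K (SN K 3)} (G : GoodN (TN u v w) W) (D : ℕ) :
    CFam (T3 u v w) W D :=
  ⟨⟨fun j _ => G.le j, fun j _ i x hx => G.step j i x hx⟩, fun j _ => G.con j⟩

theorem card_pMono_le (h : RS u v w a b c) {W : ℕ → Submodule K (SN K 3)}
    (G : GoodN (TN u v w) W) (d : ℕ) : (pMono a b c d).card ≤ finrank K (W d) := by
  have h2 := h.hf d
  have h2' := (rs_mono (K := K) h.ha h.hb h.hc).hf d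
  have h3 : finrank K (comp (T3 u v w) d) =
      finrank K (comp (T3 (X 0 ^ a : S3 K) (X 1 ^ b) (X 2 ^ c)) d) := by
    rw [← h2'] at h2
    omega
  rw [finrank_power_comp] at h3
  rw [← h3]
  have : FiniteDimensional K (W d) := fd_of_le (G.le d)
  exact Submodule.finrank_mono (G.con d)

theorem finrank_W_le {W : ℕ → Submodule K (SN K 3)} {T : Ideal (SN K 3)} (G : GoodN T W) (d : ℕ) :
    finrank K (W d) ≤ DD d := by
  have := Submodule.finrank_mono (G.le d)
  rwa [show finrank K (HN K 3 d) = DD d from finrank_HH d] at this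

theorem lexTop_W (h : RS u v w a b c) {W : ℕ → Submodule K (SN K 3)}
    (G : GoodN (TN u v w) W) (d : ℕ) :
    lexTop (outside (le_refl 3) ![a, b, c] d) (finrank K (W d) - (pMono a b c d).card) =
      highMono a b c d (DD d - finrank K (W d)) := by
  apply lexTop_eq
  have h1 := card_pMono_le h G d
  have h2 := finrank_W_le G d
  have h3 := card_pMono_add (a := a) (b := b) (c := c) (d := d)
  omega

theorem lexTop_mono {q q' d : ℕ} (h : q ≤ q') {m : Fin 3 →₀ ℕ}
    (hm : m ∈ lexTop (outside (le_refl 3) ![a, b, c] d) q) :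
    m ∈ lexTop (outside (le_refl 3) ![a, b, c] d) q' := by
  rw [mem_lexTop_iff] at hm ⊢
  exact ⟨hm.1, by omega⟩

end base

theorem EC_base {u v w : SN K 3} {a b c : ℕ} (h : RSN u v w a b c) (hab : a ≤ b) (hbc : b ≤ c) :
    EC (le_refl 3) a b c (TN u v w) := by
  classical
  have hRS := rs_of_rsn h
  refine ⟨Phi3 a b c, ?_, ?_⟩
  · rintro W W' G G' hle m ⟨d, hd⟩
    refine ⟨d, ?_⟩
    rw [mem_Md] at hd ⊢
    refine hd.imp id (lexTop_mono ?_)
    have : FiniteDimensional K (W' d) := fd_of_le (G'.le d)
    have := Submodule.finrank_mono (hle d)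
    omega
  · intro W G
    have hP : ∀ m : Fin 3 →₀ ℕ, m ∈ pMono a b c (m 0 + m 1 + m 2) → m ∈ Phi3 a b c W :=
      fun m hm => ⟨_, mem_Md.2 (Or.inl hm)⟩
    refine ⟨?_, ?_, ?_, ?_, ?_⟩
    · rintro m ⟨d, hd⟩ i
      refine ⟨d + 1, ?_⟩
      rw [mem_Md] at hd ⊢
      rw [lexTop_W hRS G] at hd ⊢
      rcases hd with hd | hd
      · exact Or.inl (pMono_step i hd)
      · have hB := growth_any hRS hab hbc d W (cfam_of_good G (d + 1))
        have h1 := finrank_W_le G d
        have h2 := finrank_W_le G (d + 1)
        have e0 : HW W d = ((DD d - finrank K (W d) : ℕ) : ℤ) := by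
          have hh : HW W d = (DD d : ℤ) - (finrank K (W d) : ℤ) := rfl
          rw [hh]
          omega
        have e1 : HW W (d + 1) = ((DD (d + 1) - finrank K (W (d + 1)) : ℕ) : ℤ) := by
          have hh : HW W (d + 1) = (DD (d + 1) : ℤ) - (finrank K (W (d + 1)) : ℤ) := rfl
          rw [hh]
          omega
        rw [e0, e1] at hB
        exact Finset.mem_union.1 (high_step h.ha h.hb hbc hB i hd)
    · apply hP
      rw [mem_pMono]
      simp
    · apply hP
      rw [mem_pMono]
      simp
    · apply hP
      rw [mem_pMono]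
      simp
    · intro d
      unfold monoCount
      have e1 : (Finset.finsuppAntidiag (Finset.univ : Finset (Fin 3)) d).filter
          (· ∈ Phi3 a b c W) = Md a b c d (finrank K (W d) - (pMono a b c d).card) := by
        ext m
        rw [Finset.mem_filter, mem_antidiag]
        constructor
        · rintro ⟨h1, d', hd'⟩
          have h2 := Md_deg hd'
          have h3 : d' = d := by omega
          rw [← h3]
          exact hd'
        · intro h1
          exact ⟨Md_deg h1, d, h1⟩
      rw [e1]
      have h1 := card_pMono_le hRS G d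
      have h2 := finrank_W_le G d
      have h3 := card_pMono_add (a := a) (b := b) (c := c) (d := d)
      rw [Md, Finset.card_union_of_disjoint, lexTop_W hRS G]
      · have h4 := card_highMono (a := a) (b := b) (c := c) (d := d)
          (F := DD d - finrank K (W d)) (by omega)
        omega
      · rw [Finset.disjoint_left]
        intro m hm1 hm2
        exact Finset.disjoint_left.1 pMono_outside_disj hm1 (Finset.mem_filter.1 hm2).1

/-- All numbers of variables, over an infinite field. -/
theorem EC_all [Infinite K] {a b c : ℕ} (hab : a ≤ b) (hbc : b ≤ c) (n : ℕ) (hn : 3 ≤ n) :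
    ∀ u v w : SN K n, RSN u v w a b c → EC hn a b c (TN u v w) := by
  induction n, hn using Nat.le_induction with
  | base => exact fun u v w h => EC_base h hab hbc
  | succ n hn ih => exact fun u v w h => EC_succ ih h

end Vale.Agent.Lib.P200.NV
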