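import Vale.Agent.Lib.P200.NV5

/-!
The Eisenbud-Green-Harris statement for a regular sequence of three forms in any number of variables:
a monomial ideal containing the powers has the Hilbert function of the given ideal.
-/

noncomputable section

namespace Vale.Agent.Lib.P200.NV

open MvPolynomial Module Defs

variable {K : Type*} [Field K] {n : ℕ}

/-- A regular sequence of three forms in the sense of the statement. -/
theorem rsn_of_regular {a b c : ℕ} (ha : 1 ≤ a) (hab : a ≤ b) (hbc : b ≤ c) (f : Fin 3 → SN K n)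
    (hf : ∀ i, (f i).IsHomogeneous (![a, b, c] i)) (hreg : IsRegularSeq f) :
    RSN (f 0) (f 1) (f 2) a b c := by
  have hf0 : f 0 ≠ 0 := by
    intro h0
    have h1 := hreg 0 1 (by
      rw [h0, zero_mul]
      exact Ideal.zero_mem _)
    have h2 : f '' {j | j < (0 : Fin 3)} = ∅ := by
      ext x
      simp
    rw [h2, Ideal.span_empty] at h1
    simp at h1
  refine ⟨hf 0, hf 1, hf 2, ha, by omega, by omega, hf0, ?_, ?_⟩
  · have h2 : f '' {j | j < (1 : Fin 3)} = {f 0} := by
      ext x
      simp only [Set.mem_image, Set.mem_ofPred_eq, Set.mem_singleton_iff]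
      constructor
      · rintro ⟨j, hj, rfl⟩
        have : j = 0 := by
          fin_cases j
          · rfl
          · exact absurd hj (by decide)
          · exact absurd hj (by decide)
        rw [this]
      · rintro rfl
        exact ⟨0, by decide, rfl⟩
    intro u hu
    have h3 := hreg 1 u (by
      rw [h2]
      rw [adjN, bot_sup_eq] at hu
      exact hu)
    rw [h2] at h3
    rw [adjN, bot_sup_eq]
    exact h3
  · have h2 : f '' {j | j < (2 : Fin 3)} = {f 0, f 1} := by
      ext x
      simp only [Set.mem_image, Set.mem_ofPred_eq, Set.mem_insert_iff, Set.mem_singleton_iff]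
      constructor
      · rintro ⟨j, hj, rfl⟩
        fin_cases j
        · exact Or.inl rfl
        · exact Or.inr rfl
        · exact absurd hj (by decide)
      · rintro (rfl | rfl)
        · exact ⟨0, by decide, rfl⟩
        · exact ⟨1, by decide, rfl⟩
    have h4 : Ideal.span (f '' {j | j < (2 : Fin 3)}) = adjN (adjN ⊥ (f 0)) (f 1) := by
      rw [h2, Ideal.span_insert]
      unfold adjN
      rw [bot_sup_eq]
    intro u hu
    have h3 := hreg 2 u (by rw [h4]; exact hu)
    rwa [h4] at h3

theorem adjN_le {A Q : Ideal (SN K n)} {r : SN K n} (h : A ≤ Q) (hr : r ∈ Q) : adjN A r ≤ Q := by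
  unfold adjN
  exact sup_le h ((Ideal.span_singleton_le_iff_mem _).2 hr)

/-- Upward closure. -/
theorem up_all {s : Set (Fin n →₀ ℕ)} (h : ∀ m ∈ s, ∀ i, Finsupp.single i 1 + m ∈ s) :
    ∀ m ∈ s, ∀ m', m ≤ m' → m' ∈ s := by
  have key : ∀ t : Fin n →₀ ℕ, ∀ m ∈ s, m + t ∈ s := by
    intro t
    induction t using Finsupp.induction_linear with
    | zero => simp
    | add f g hf hg =>
      intro m hm
      rw [← add_assoc]
      exact hg _ (hf m hm)
    | single i k =>
      induction k with
      | zero => simp
      | succ k ih =>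
        intro m hm
        have h1 := h _ (ih m hm) i
        have e : m + Finsupp.single i (k + 1) = Finsupp.single i 1 + (m + Finsupp.single i k) := by
          rw [Finsupp.single_add]
          abel
        rw [e]
        exact h1
  intro m hm m' hle
  have := key (m' - m) m hm
  rwa [add_tsub_cancel_of_le hle] at this

theorem finrank_restrictN (T : Finset (Fin n →₀ ℕ)) :
    finrank K (restrictSupport K (T : Set (Fin n →₀ ℕ))) = T.card := by
  rw [Module.finrank_eq_nat_card_basis (basisRestrictSupport K (T : Set (Fin n →₀ ℕ)))]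
  simp

theorem HN_eq_restrict (d : ℕ) :
    HN K n d = restrictSupport K ((Finset.finsuppAntidiag Finset.univ d : Finset (Fin n →₀ ℕ)) :
      Set (Fin n →₀ ℕ)) := by
  rw [HN, homogeneousSubmodule_eq_finsupp_supported]
  congr 1
  ext m
  simp [Finset.mem_finsuppAntidiag, Finsupp.degree_eq_sum]

open Classical in
/-- The graded pieces of a monomial ideal with an upward closed set of exponents. -/
theorem finrank_mono_ideal {s : Set (Fin n →₀ ℕ)} (h : ∀ m ∈ s, ∀ i, Finsupp.single i 1 + m ∈ s)
    (d : ℕ) : finrank K (gradedPiece (Ideal.span ((fun e => monomial e (1 : K)) '' s)) d) =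
      monoCount s d := by
  have e1 : gradedPiece (Ideal.span ((fun e => monomial e (1 : K)) '' s)) d =
      restrictSupport K (((Finset.finsuppAntidiag (Finset.univ : Finset (Fin n)) d).filter (· ∈ s) :
        Finset (Fin n →₀ ℕ)) : Set (Fin n →₀ ℕ)) := by
    ext u
    have h1 : u ∈ gradedPiece (Ideal.span ((fun e => monomial e (1 : K)) '' s)) d ↔
        u ∈ Ideal.span ((fun e => monomial e (1 : K)) '' s) ∧ u ∈ HN K n d := by
      simp [gradedPiece]
    rw [h1, mem_ideal_span_monomial_image, HN_eq_restrict, mem_restrictSupport_iff,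
      mem_restrictSupport_iff]
    constructor
    · rintro ⟨h2, h3⟩ m hm
      obtain ⟨si, hsi, hle⟩ := h2 m hm
      simp only [Finset.coe_filter, Set.mem_setOf_eq]
      exact ⟨h3 hm, up_all h si hsi m hle⟩
    · intro h2
      have h3 : ∀ m ∈ u.support, m ∈ Finset.finsuppAntidiag (Finset.univ : Finset (Fin n)) d ∧ m ∈ s := by
        intro m hm
        have := h2 hm
        simpa using this
      refine ⟨fun m hm => ⟨m, (h3 m hm).2, le_rfl⟩, fun m hm => ?_⟩
      exact Finset.mem_coe.2 (h3 m hm).1
  rw [e1, finrank_restrictN]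
  rfl

/-- Some monomial ideal containing the powers has the Hilbert function of `I`. -/
theorem monomial_same_hilbert {a b c : ℕ} (hn : 3 ≤ n) (ha : 1 ≤ a) (hab : a ≤ b) (hbc : b ≤ c)
    (f : Fin 3 → SN K n) (hf : ∀ i, (f i).IsHomogeneous (![a, b, c] i)) (hreg : IsRegularSeq f)
    (I : Ideal (SN K n)) (hfI : ∀ i, f i ∈ I) :
    ∃ s : Set (Fin n →₀ ℕ),
      (powerIdeal hn ![a, b, c] : Ideal (SN K n)) ≤ Ideal.span ((fun e => monomial e (1 : K)) '' s) ∧
      ∀ d, finrank K (gradedPiece (Ideal.span ((fun e => monomial e (1 : K)) '' s)) d) =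
        finrank K (gradedPiece I d) := by
  let L := AlgebraicClosure K
  have h := rsn_of_regular ha hab hbc f hf hreg
  have h' := RSN.map (L := L) h
  have hI : TN (f 0) (f 1) (f 2) ≤ I :=
    adjN_le (adjN_le (adjN_le bot_le (hfI 0)) (hfI 1)) (hfI 2)
  let W : ℕ → Submodule L (SN L n) := fun d => ext L (compN I d)
  have G : GoodN (TN (phi K L (f 0)) (phi K L (f 1)) (phi K L (f 2))) W := by
    refine ⟨fun j => ext_le_HN inf_le_right, ?_, ?_⟩
    · intro j i u hu
      refine Submodule.span_induction (p := fun u _ => X i * u ∈ W (j + 1)) ?_ ?_ ?_ ?_ hu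
      · rintro _ ⟨x, hx, rfl⟩
        have hx' := mem_compN.1 hx
        have h1 : (X i : SN K n) * x ∈ compN I (j + 1) :=
          mem_compN.2 ⟨Ideal.mul_mem_left _ _ hx'.1, mul_mem_HN (isHomogeneous_X K i) hx'.2⟩
        have h2 := phi_mem_ext (L := L) h1
        simpa using h2
      · rw [mul_zero]
        exact Submodule.zero_mem _
      · intro x y _ _ hx hy
        rw [mul_add]
        exact Submodule.add_mem _ hx hy
      · intro k x _ hx
        rw [mul_smul_comm]
        exact Submodule.smul_mem _ _ hx
    · intro j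
      rw [map_TN']
      refine comp_ext_le ?_
      intro u hu
      obtain ⟨h1, h2⟩ := mem_compN.1 hu
      exact mem_compN.2 ⟨hI h1, h2⟩
  obtain ⟨Φ, -, hΦ⟩ := EC_all (K := L) hab hbc n hn _ _ _ h'
  obtain ⟨hup, h0, h1, h2, hcount⟩ := hΦ W G
  refine ⟨Φ W, ?_, ?_⟩
  · rw [powerIdeal, Ideal.span_le]
    rintro _ ⟨i, rfl⟩
    have hmem : ∀ (x : Fin n) (e : ℕ), Finsupp.single x e ∈ Φ W →
        (X x ^ e : SN K n) ∈ Ideal.span ((fun e => monomial e (1 : K)) '' Φ W) := by
      intro x e hx
      apply Ideal.subset_span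
      exact ⟨_, hx, (X_pow_eq_monomial).symm⟩
    fin_cases i
    · exact hmem _ _ h0
    · exact hmem _ _ h1
    · exact hmem _ _ h2
  · intro d
    rw [finrank_mono_ideal hup d, hcount d]
    have : FiniteDimensional K (compN I d) :=
      Submodule.finiteDimensional_of_le (inf_le_right)
    exact finrank_ext

end Vale.Agent.Lib.P200.NV
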