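import Mathlib.LinearAlgebra.FiniteDimensional.Lemmas
import Mathlib.LinearAlgebra.Dimension.OrzechProperty
import Mathlib.LinearAlgebra.Basis.VectorSpace
import Mathlib.LinearAlgebra.Dimension.Constructions

/-!
A pencil of linear maps satisfying a Hall-type condition contains an injective member.
-/

noncomputable section

namespace Vale.Agent.Lib.P200

open Module

variable {K : Type*} [Field K] [Infinite K]
variable {V V' : Type*} [AddCommGroup V] [Module K V] [AddCommGroup V'] [Module K V']
  [FiniteDimensional K V]

theorem pencil (A B : V →ₗ[K] V')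
    (hall : ∀ U : Submodule K V, finrank K U ≤ finrank K ↥(U.map A ⊔ U.map B)) :
    ∃ t : K, ∀ u, A u + t • B u = 0 → u = 0 := by
  classical
  by_contra hcon
  push Not at hcon
  choose u hu hu0 using hcon
  obtain ⟨b, hbT, hbspan, hbind⟩ := exists_linearIndependent K (Set.range u)
  have hbfin : b.Finite := hbind.setFinite
  obtain ⟨tt, htt⟩ : ∃ tt : V → K, ∀ x ∈ b, u (tt x) = x := by
    have h1 : ∀ x : V, ∃ t : K, x ∈ b → u t = x := by
      intro x
      by_cases hx : x ∈ b
      · obtain ⟨t, ht⟩ := hbT hx
        exact ⟨t, fun _ => ht⟩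
      · exact ⟨0, fun h => absurd h hx⟩
    choose tt htt using h1
    exact ⟨tt, htt⟩
  let bs : Finset V := hbfin.toFinset
  have hbs : ∀ x, x ∈ bs ↔ x ∈ b := fun x => hbfin.mem_toFinset
  obtain ⟨t₀, ht₀⟩ := Infinite.exists_notMem_finset (bs.image tt)
  have hmem : u t₀ ∈ Submodule.span K (bs : Set V) := by
    have h1 : (bs : Set V) = b := by
      ext x
      simp [hbs]
    rw [h1, hbspan]
    exact Submodule.subset_span ⟨t₀, rfl⟩
  obtain ⟨c, hc1, hc2⟩ := Submodule.mem_span_finset.1 hmem
  let s' : Finset V := bs.filter fun x => c x ≠ 0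
  have hs'sub : (s' : Set V) ⊆ b := by
    intro x hx
    exact (hbs x).1 (Finset.mem_filter.1 hx).1
  have hsum : ∑ x ∈ s', c x • x = u t₀ := by
    rw [← hc2]
    apply Finset.sum_subset (Finset.filter_subset _ _)
    intro x hx hx2
    have : c x = 0 := by
      by_contra h
      exact hx2 (Finset.mem_filter.2 ⟨hx, h⟩)
    rw [this, zero_smul]
  have hAx : ∀ x ∈ s', A x = - (tt x • B x) := by
    intro x hx
    have h1 := hu (tt x)
    rw [htt x (hs'sub hx)] at h1
    exact eq_neg_of_add_eq_zero_left h1
  -- the relation among the images under `B`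
  have hrel : ∑ x ∈ s', (c x * (t₀ - tt x)) • B x = 0 := by
    have h1 := hu t₀
    rw [← hsum, map_sum, map_sum, Finset.smul_sum, ← Finset.sum_add_distrib] at h1
    rw [← h1]
    refine Finset.sum_congr rfl fun x hx => ?_
    rw [map_smul, map_smul, hAx x hx, mul_sub, sub_smul, mul_smul, mul_smul, smul_neg,
      smul_comm t₀ (c x)]
    abel
  let φ : ↥s' → V' := fun x => B x.1
  have hdep : ¬ LinearIndependent K φ := by
    intro hli
    by_cases hne : s'.Nonempty
    · obtain ⟨x₀, hx₀⟩ := hne
      have h1 := Fintype.linearIndependent_iff.1 hli (fun x => c x.1 * (t₀ - tt x.1)) (by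
        rw [← hrel]
        exact Finset.sum_coe_sort s' (fun x => (c x * (t₀ - tt x)) • B x)) ⟨x₀, hx₀⟩
      simp only at h1
      rcases mul_eq_zero.1 h1 with h2 | h2
      · exact (Finset.mem_filter.1 hx₀).2 h2
      · apply ht₀
        rw [Finset.mem_image]
        exact ⟨x₀, (Finset.mem_filter.1 hx₀).1, (sub_eq_zero.1 h2).symm⟩
    · rw [Finset.not_nonempty_iff_eq_empty] at hne
      rw [hne] at hsum
      simp only [Finset.sum_empty] at hsum
      exact hu0 t₀ hsum.symm
  let U : Submodule K V := Submodule.span K (s' : Set V)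
  have hU : finrank K U = s'.card := by
    have h0 : LinearIndepOn K id b := hbind
    have h1 : LinearIndepOn K id (s' : Set V) := h0.mono hs'sub
    have h2 := finrank_span_finset_eq_card h1
    exact h2
  have hle : U.map A ⊔ U.map B ≤ Submodule.span K (Set.range φ) := by
    have hB : ∀ x ∈ s', B x ∈ Submodule.span K (Set.range φ) := fun x hx =>
      Submodule.subset_span ⟨⟨x, hx⟩, rfl⟩
    rw [sup_le_iff]
    constructor
    · rw [Submodule.map_span, Submodule.span_le]
      rintro _ ⟨x, hx, rfl⟩
      rw [hAx x hx]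
      exact Submodule.neg_mem _ (Submodule.smul_mem _ _ (hB x hx))
    · rw [Submodule.map_span, Submodule.span_le]
      rintro _ ⟨x, hx, rfl⟩
      exact hB x hx
  have hfd : FiniteDimensional K (Submodule.span K (Set.range φ)) :=
    FiniteDimensional.span_of_finite K (Set.finite_range φ)
  have h1 := Submodule.finrank_mono hle
  have h2 := hall U
  have h3 : finrank K (Submodule.span K (Set.range φ)) < s'.card := by
    have h4 : Fintype.card ↥s' ≠ (Set.range φ).finrank K := fun h =>
      hdep (linearIndependent_iff_card_eq_finrank_span.2 h)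
    have h5 : (Set.range φ).finrank K ≤ Fintype.card ↥s' := finrank_range_le_card φ
    have h6 : Fintype.card ↥s' = s'.card := Fintype.card_coe s'
    have h7 : finrank K (Submodule.span K (Set.range φ)) = (Set.range φ).finrank K := rfl
    omega
  omega

end Vale.Agent.Lib.P200
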