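import Vale.Agent.Lib.P200.Betti

/-!
The graded pieces of the lex-plus-powers ideal in terms of monomials.
-/

noncomputable section

namespace Vale.Agent.Lib.P200

open MvPolynomial Module Defs BettiDefs

variable {K : Type*} [Field K]

section count

variable {a b c d : ℕ}

theorem trc_pos {m : ℕ × ℕ} (hm : m ∈ BC a b c d) : 1 ≤ trc a b c d m :=
  Finset.card_pos.2 ⟨m, Finset.mem_filter.2 ⟨hm, lexLE_refl m⟩⟩

theorem trc_le (m : ℕ × ℕ) : trc a b c d m ≤ (BC a b c d).card :=
  Finset.card_le_card (Finset.filter_subset _ _)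

theorem trc_mono {m n : ℕ × ℕ} (h : lexLE m n) : trc a b c d m ≤ trc a b c d n := by
  apply Finset.card_le_card
  intro x hx
  rw [Finset.mem_filter] at hx ⊢
  exact ⟨hx.1, lexLE_trans hx.2 h⟩

theorem trc_lt {m n : ℕ × ℕ} (h : lexLE m n) (hne : m ≠ n) (hn : n ∈ BC a b c d) :
    trc a b c d m < trc a b c d n := by
  apply Finset.card_lt_card
  rw [Finset.ssubset_iff_of_subset]
  · refine ⟨n, Finset.mem_filter.2 ⟨hn, lexLE_refl n⟩, ?_⟩
    intro h1
    exact hne (lexLE_antisymm h (Finset.mem_filter.1 h1).2)
  · intro x hx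
    rw [Finset.mem_filter] at hx ⊢
    exact ⟨hx.1, lexLE_trans hx.2 h⟩

theorem trc_injOn : Set.InjOn (trc a b c d) (BC a b c d : Set (ℕ × ℕ)) := by
  intro m hm n hn h
  by_contra hne
  rcases lexLE_total m n with h1 | h1
  · exact absurd h (trc_lt h1 hne hn).ne
  · exact absurd h (trc_lt h1 (Ne.symm hne) hm).ne'

theorem trc_image : (BC a b c d).image (trc a b c d) = Finset.Icc 1 (BC a b c d).card := by
  apply Finset.eq_of_subset_of_card_le
  · intro t ht
    obtain ⟨m, hm, rfl⟩ := Finset.mem_image.1 ht
    exact Finset.mem_Icc.2 ⟨trc_pos hm, trc_le m⟩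
  · rw [Finset.card_image_of_injOn trc_injOn]
    simp

theorem card_low {F : ℕ} (hF : F ≤ (BC a b c d).card) :
    ((BC a b c d).filter (fun m => trc a b c d m ≤ F)).card = F := by
  have h1 : ((BC a b c d).filter (fun m => trc a b c d m ≤ F)).image (trc a b c d) =
      Finset.Icc 1 F := by
    ext t
    simp only [Finset.mem_image, Finset.mem_filter, Finset.mem_Icc]
    constructor
    · rintro ⟨m, ⟨hm, h2⟩, rfl⟩
      exact ⟨trc_pos hm, h2⟩
    · rintro ⟨h2, h3⟩
      have h4 : t ∈ (BC a b c d).image (trc a b c d) := by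
        rw [trc_image]
        exact Finset.mem_Icc.2 ⟨h2, h3.trans hF⟩
      obtain ⟨m, hm, rfl⟩ := Finset.mem_image.1 h4
      exact ⟨m, ⟨hm, h3⟩, rfl⟩
  have h2 := Finset.card_image_of_injOn (s := (BC a b c d).filter (fun m => trc a b c d m ≤ F))
    (f := trc a b c d) (trc_injOn.mono (by
      intro x hx
      exact (Finset.mem_filter.1 hx).1))
  rw [h1] at h2
  simp at h2
  omega

theorem card_high {F : ℕ} (hF : F ≤ (BC a b c d).card) :
    ((BC a b c d).filter (fun m => F < trc a b c d m)).card + F = (BC a b c d).card := by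
  have h1 := Finset.card_filter_add_card_filter_not (s := BC a b c d)
    (fun m => trc a b c d m ≤ F)
  have h2 : (BC a b c d).filter (fun m => ¬ trc a b c d m ≤ F) =
      (BC a b c d).filter (fun m => F < trc a b c d m) := by
    ext m
    simp
  rw [h2, card_low hF] at h1
  omega

/-- The bijection of the monomials outside `P` with exponent pairs. -/
theorem card_outside_filter (p : ℕ × ℕ → Prop) [DecidablePred p] :
    ((outside (le_refl 3) ![a, b, c] d).filter (fun m => p (toPair m))).card =
      ((BC a b c d).filter p).card := by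
  apply Finset.card_bij (fun e _ => toPair e)
  · intro e he
    rw [Finset.mem_filter] at he ⊢
    exact ⟨toPair_mem he.1, he.2⟩
  · intro e he e' he' h
    rw [Finset.mem_filter] at he he'
    have h1 := mem_outside.1 he.1
    have h2 := mem_outside.1 he'.1
    simp only [toPair, Prod.mk.injEq] at h
    exact of_same_degree (by omega) h.1 h.2
  · rintro ⟨i, j⟩ hx
    rw [Finset.mem_filter, mem_BC] at hx
    simp only at hx
    have hx2 := hx.1
    have hexp : expo i j (d - i - j) ∈ outside (le_refl 3) ![a, b, c] d := by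
      rw [mem_outside]
      simp only [expo_0, expo_1, expo_2]
      omega
    refine ⟨expo i j (d - i - j), ?_, rfl⟩
    rw [Finset.mem_filter]
    exact ⟨hexp, hx.2⟩

theorem card_outside : (outside (le_refl 3) ![a, b, c] d).card = (BC a b c d).card := by
  have h := card_outside_filter (a := a) (b := b) (c := c) (d := d) (fun _ => True)
  simpa using h

/-- The monomials of degree `d` in `P`. -/
def pMono (a b c d : ℕ) : Finset (Fin 3 →₀ ℕ) :=
  (Finset.finsuppAntidiag (Finset.univ : Finset (Fin 3)) d).filter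
    (fun m => a ≤ m 0 ∨ b ≤ m 1 ∨ c ≤ m 2)

theorem mem_pMono {m : Fin 3 →₀ ℕ} :
    m ∈ pMono a b c d ↔ m 0 + m 1 + m 2 = d ∧ (a ≤ m 0 ∨ b ≤ m 1 ∨ c ≤ m 2) := by
  rw [pMono, Finset.mem_filter, mem_antidiag]

/-- The lowest monomials outside `P`. -/
def lowMono (a b c d F : ℕ) : Finset (Fin 3 →₀ ℕ) :=
  (outside (le_refl 3) ![a, b, c] d).filter (fun m => trc a b c d (toPair m) ≤ F)

/-- The highest monomials outside `P`. -/
def highMono (a b c d F : ℕ) : Finset (Fin 3 →₀ ℕ) :=
  (outside (le_refl 3) ![a, b, c] d).filter (fun m => F < trc a b c d (toPair m))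

theorem card_lowMono {F : ℕ} (hF : F ≤ (BC a b c d).card) : (lowMono a b c d F).card = F := by
  rw [lowMono, card_outside_filter (fun m => trc a b c d m ≤ F), card_low hF]

theorem card_highMono {F : ℕ} (hF : F ≤ (BC a b c d).card) :
    (highMono a b c d F).card + F = (BC a b c d).card := by
  rw [highMono, card_outside_filter (fun m => F < trc a b c d m), card_high hF]

theorem lexTop_eq {q F : ℕ} (hq : q + F = (BC a b c d).card) :
    lexTop (outside (le_refl 3) ![a, b, c] d) q = highMono a b c d F := by
  ext m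
  rw [mem_lexTop_iff, highMono, Finset.mem_filter]
  refine and_congr_right fun _ => ?_
  omega

/-- The monomials of degree `d` of the lex-plus-powers ideal. -/
def Md (a b c d q : ℕ) : Finset (Fin 3 →₀ ℕ) :=
  pMono a b c d ∪ lexTop (outside (le_refl 3) ![a, b, c] d) q

theorem mem_Md {q : ℕ} {m : Fin 3 →₀ ℕ} :
    m ∈ Md a b c d q ↔ (m ∈ pMono a b c d ∨ m ∈ lexTop (outside (le_refl 3) ![a, b, c] d) q) := by
  rw [Md, Finset.mem_union]

theorem Md_deg {q : ℕ} {m : Fin 3 →₀ ℕ} (hm : m ∈ Md a b c d q) : m 0 + m 1 + m 2 = d := by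
  rcases mem_Md.1 hm with h | h
  · exact (mem_pMono.1 h).1
  · exact (mem_outside.1 (Finset.mem_filter.1 h).1).1

theorem pMono_outside_disj : Disjoint (pMono a b c d) (outside (le_refl 3) ![a, b, c] d) := by
  rw [Finset.disjoint_left]
  intro m h1 h2
  have h3 := mem_pMono.1 h1
  have h4 := mem_outside.1 h2
  omega

theorem pMono_union : pMono a b c d ∪ outside (le_refl 3) ![a, b, c] d =
    Finset.finsuppAntidiag (Finset.univ : Finset (Fin 3)) d := by
  ext m
  rw [Finset.mem_union, mem_pMono, mem_outside, mem_antidiag]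
  omega

theorem card_pMono_add : (pMono a b c d).card + (BC a b c d).card = DD d := by
  rw [← card_outside, ← Finset.card_union_of_disjoint pMono_outside_disj, pMono_union,
    Finset.card_finsuppAntidiag_nat_eq_choose, DD_eq_choose]
  simp
  congr 1
  omega

/-- The elements of an ideal of degree `d` in the monomial case. -/
theorem comp_power (a b c d : ℕ) :
    comp (T3 (X 0 ^ a : S3 K) (X 1 ^ b) (X 2 ^ c)) d =
      restrictSupport K (pMono a b c d : Set (Fin 3 →₀ ℕ)) := by
  ext u
  rw [mem_comp, mem3, HH_eq_restrict, mem_restrictSupport_iff, mem_restrictSupport_iff]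
  constructor
  · rintro ⟨h1, h2⟩ m hm
    simp only [pMono, Finset.mem_coe, Finset.mem_filter]
    exact ⟨h2 hm, h1 m hm⟩
  · intro h
    refine ⟨fun m hm => ?_, fun m hm => ?_⟩
    · have := h hm
      simp only [pMono, Finset.mem_coe, Finset.mem_filter] at this
      exact this.2
    · have := h hm
      simp only [pMono, Finset.mem_coe, Finset.mem_filter] at this
      exact this.1

theorem restrict_sup (s t : Set (Fin 3 →₀ ℕ)) :
    restrictSupport K s ⊔ restrictSupport K t = restrictSupport K (s ∪ t) :=
  by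
  simp only [restrictSupport_eq_span]
  rw [← Submodule.span_union, Set.image_union]

theorem span_mono_eq (s : Set (Fin 3 →₀ ℕ)) :
    Submodule.span K ((fun e => monomial e (1 : K)) '' s) = restrictSupport K s := by
  apply le_antisymm
  · rw [Submodule.span_le]
    rintro _ ⟨e, he, rfl⟩
    rw [SetLike.mem_coe, mem_restrictSupport_iff]
    intro m hm
    have h1 := support_monomial_subset hm
    rw [Finset.mem_singleton] at h1
    rw [h1]
    exact he
  · intro u hu
    rw [mem_restrictSupport_iff] at hu
    rw [← support_sum_monomial_coeff u]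
    refine Submodule.sum_mem _ fun m hm => ?_
    have h1 : monomial m (coeff m u) = coeff m u • monomial m (1 : K) := by
      rw [smul_monomial, smul_eq_mul, mul_one]
    rw [h1]
    exact Submodule.smul_mem _ _ (Submodule.subset_span ⟨m, hu hm, rfl⟩)

/-- The graded piece of the lex-plus-powers subspace in terms of monomials. -/
theorem lexPiece_eq (I : Ideal (S3 K)) (d : ℕ) :
    lexPiece (le_refl 3) ![a, b, c] I d =
      restrictSupport K (Md a b c d (qNum (le_refl 3) ![a, b, c] I d) : Set (Fin 3 →₀ ℕ)) := by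
  unfold lexPiece
  rw [show gradedPiece (powerIdeal (le_refl 3) ![a, b, c] : Ideal (S3 K)) d =
    comp (powerIdeal (le_refl 3) ![a, b, c] : Ideal (S3 K)) d from rfl, powerIdeal_eq, comp_power,
    span_mono_eq, restrict_sup, Md, Finset.coe_union]

/-- The subspace is supported on the union of the sets `Md`. -/
theorem mem_lexPlusPowers (I : Ideal (S3 K)) {u : S3 K} :
    u ∈ lexPlusPowers (le_refl 3) ![a, b, c] I ↔
      ∀ m ∈ u.support, ∃ j, m ∈ Md a b c j (qNum (le_refl 3) ![a, b, c] I j) := by
  have h : lexPlusPowers (le_refl 3) ![a, b, c] I =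
      restrictSupport K (⋃ j, (Md a b c j (qNum (le_refl 3) ![a, b, c] I j) : Set (Fin 3 →₀ ℕ))) := by
    unfold lexPlusPowers
    simp only [lexPiece_eq, restrictSupport_eq_span]
    rw [Set.image_iUnion, Submodule.span_iUnion]
  rw [h, mem_restrictSupport_iff]
  simp [Set.subset_def]

/-- The graded pieces of the ideal with the prescribed underlying subspace. -/
theorem comp_J {I J : Ideal (S3 K)}
    (hJ : J.restrictScalars K = lexPlusPowers (le_refl 3) ![a, b, c] I) (d : ℕ) :
    comp J d = restrictSupport K (Md a b c d (qNum (le_refl 3) ![a, b, c] I d) : Set (Fin 3 →₀ ℕ)) := by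
  ext u
  have h1 : u ∈ J ↔ u ∈ lexPlusPowers (le_refl 3) ![a, b, c] I := by
    rw [← hJ]
    rfl
  rw [mem_comp, h1, mem_lexPlusPowers, HH_eq_restrict, mem_restrictSupport_iff,
    mem_restrictSupport_iff]
  constructor
  · rintro ⟨h2, h3⟩ m hm
    obtain ⟨j, hj⟩ := h2 m hm
    have h4 := h3 hm
    simp only [Finset.mem_coe, mem_antidiag] at h4
    have h5 := Md_deg hj
    have h6 : j = d := by omega
    subst h6
    exact hj
  · intro h2
    refine ⟨fun m hm => ⟨d, h2 hm⟩, fun m hm => ?_⟩
    have h3 := Md_deg (h2 hm)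
    simp only [Finset.mem_coe, mem_antidiag]
    exact h3

theorem finrank_power_comp (a b c d : ℕ) :
    finrank K (comp (T3 (X 0 ^ a : S3 K) (X 1 ^ b) (X 2 ^ c)) d) = (pMono a b c d).card := by
  rw [comp_power, finrank_restrict]

end count

section main

variable {f p q : S3 K} {a b c : ℕ}

theorem qNum_add (h : RS f p q a b c) {I : Ideal (S3 K)} (hI : T3 f p q ≤ I) (d : ℕ) :
    (pMono a b c d).card + qNum (le_refl 3) ![a, b, c] I d = finrank K (comp I d) := by
  have h2 := h.hf d
  have h2' := (rs_mono (K := K) h.ha h.hb h.hc).hf d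
  have h2'' : finrank K (comp (T3 f p q) d) =
      finrank K (comp (T3 (X 0 ^ a : S3 K) (X 1 ^ b) (X 2 ^ c)) d) := by
    rw [← h2'] at h2
    omega
  have h3 := Submodule.finrank_mono (comp_mono hI d)
  have h5 : qNum (le_refl 3) ![a, b, c] I d =
      finrank K (comp I d) -
        finrank K (comp (T3 (X 0 ^ a : S3 K) (X 1 ^ b) (X 2 ^ c)) d) := by
    unfold qNum
    rw [powerIdeal_eq]
    rfl
  rw [finrank_power_comp] at h2'' h5
  omega

/-- The graded pieces of `J` have the dimensions of those of `I`. -/
theorem finrank_comp_J (h : RS f p q a b c) {I J : Ideal (S3 K)} (hI : T3 f p q ≤ I)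
    (hJ : J.restrictScalars K = lexPlusPowers (le_refl 3) ![a, b, c] I) (d : ℕ) :
    finrank K (comp J d) = finrank K (comp I d) := by
  have hn := numbers h hI d
  have hle := Submodule.finrank_mono (comp_le I d)
  rw [finrank_HH] at hle
  have h1 : lexTop (outside (le_refl 3) ![a, b, c] d) (qNum (le_refl 3) ![a, b, c] I d) =
      highMono a b c d (DD d - finrank K (comp I d)) := lexTop_eq (by omega)
  rw [comp_J hJ, finrank_restrict, Md, Finset.card_union_of_disjoint, h1]
  · have h2 := card_highMono (a := a) (b := b) (c := c) (d := d)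
      (F := DD d - finrank K (comp I d)) (by omega)
    have h3 := qNum_add h hI d
    omega
  · rw [Finset.disjoint_left]
    intro m hm1 hm2
    exact Finset.disjoint_left.1 pMono_outside_disj hm1 (Finset.mem_filter.1 hm2).1

end main

end Vale.Agent.Lib.P200
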