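import Vale.Agent.Lib.P200.Q2b

/-!
A lower bound for the multiples of a subspace by the variables.
-/

noncomputable section

namespace Vale.Agent.Lib.P200

open MvPolynomial Module Defs BettiDefs

variable {K : Type*} [Field K]

/-- The sums of the multiples by the variables of the elements of a subspace. -/
def S1 (V : Submodule K (S3 K)) : Submodule K (S3 K) :=
  (Submodule.pi Set.univ (fun _ : Fin 3 => V)).map (kd1 K)

theorem mem_S1 {V : Submodule K (S3 K)} {u : S3 K} :
    u ∈ S1 V ↔ ∃ σ : Fin 3 → S3 K, (∀ i, σ i ∈ V) ∧ u = X 0 * σ 0 + X 1 * σ 1 + X 2 * σ 2 := by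
  constructor
  · rintro ⟨σ, hσ, rfl⟩
    refine ⟨σ, fun i => ?_, kd1_apply σ⟩
    have := (Submodule.mem_pi.1 hσ) i (Set.mem_univ i)
    exact this
  · rintro ⟨σ, hσ, rfl⟩
    exact ⟨σ, Submodule.mem_pi.2 fun i _ => hσ i, kd1_apply σ⟩

theorem X_mul_mem_S1 {V : Submodule K (S3 K)} (i : Fin 3) {x : S3 K} (hx : x ∈ V) :
    X i * x ∈ S1 V := by
  refine mem_S1.2 ⟨fun k => if k = i then x else 0, fun k => ?_, ?_⟩
  · by_cases hk : k = i
    · simp only [hk, if_true]
      exact hx
    · simp only [hk, if_false]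
      exact Submodule.zero_mem _
  · fin_cases i <;> simp

theorem S1_le_HH {V : Submodule K (S3 K)} {d : ℕ} (hV : V ≤ HH K d) : S1 V ≤ HH K (d + 1) := by
  intro u hu
  obtain ⟨σ, hσ, rfl⟩ := mem_S1.1 hu
  exact Submodule.add_mem _ (Submodule.add_mem _ (mul_mem_HH (isHomogeneous_X K 0) (hV (hσ 0)))
    (mul_mem_HH (isHomogeneous_X K 1) (hV (hσ 1)))) (mul_mem_HH (isHomogeneous_X K 2) (hV (hσ 2)))

theorem sum_X_mem_S1 {V : Submodule K (S3 K)} (w : Fin 3 → S3 K) (hw : ∀ i, w i ∈ V) :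
    ∑ i, X i * w i ∈ S1 V :=
  sum_mem fun i _ => X_mul_mem_S1 i (hw i)

/-- One step of the generation of a complete intersection in degree `d + 1`. -/
theorem step_all {A : Ideal (S3 K)} {r : S3 K} {ρ d : ℕ} {V Y : Submodule K (S3 K)}
    (hA : HomIdeal A) (hr : r ∈ HH K ρ) (hV : comp (adj A r) d ≤ V) (hY : S1 V ≤ Y)
    (hAY : comp A (d + 1) ≤ Y) (hrY : ρ = d + 1 → r ∈ Y) : comp (adj A r) (d + 1) ≤ Y := by
  intro u hu
  obtain ⟨h1, h2⟩ := mem_comp.1 hu
  rcases mem_adj_hom hA hr h2 h1 with ⟨-, h3⟩ | ⟨e, he, s, hs, x, hx, rfl⟩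
  · exact hAY (mem_comp.2 ⟨h3, h2⟩)
  · refine Submodule.add_mem _ (hAY hx) ?_
    cases e with
    | zero =>
      obtain ⟨k, rfl⟩ := const_of_HH0 hs
      rw [← smul_eq_C_mul]
      exact Submodule.smul_mem _ _ (hrY (by omega))
    | succ e =>
      obtain ⟨w, hw, rfl⟩ := form_succ hs
      apply hY
      rw [Finset.sum_mul]
      have e1 : ∑ i, X i * w i * r = ∑ i, X i * (w i * r) :=
        Finset.sum_congr rfl fun i _ => mul_assoc _ _ _
      rw [e1]
      apply sum_X_mem_S1
      intro i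
      apply hV
      refine mem_comp.2 ⟨Ideal.mul_mem_left _ _ (self_mem_adj _ _), ?_⟩
      have := mul_mem_HH hr (hw i)
      rwa [mul_comm, show e + ρ = d by omega] at this

theorem comp_T3_succ {u v w : S3 K} {α β γ d : ℕ} (h : RS u v w α β γ)
    {V Y : Submodule K (S3 K)} (hT : comp (T3 u v w) d ≤ V) (hY : S1 V ≤ Y)
    (hα : α ≠ d + 1) (hβ : β = d + 1 → v ∈ Y) (hγ : γ = d + 1 → w ∈ Y) :
    comp (T3 u v w) (d + 1) ≤ Y := by
  have h1 : comp (adj ⊥ u) (d + 1) ≤ Y := by
    apply step_all homIdeal_bot h.hu ?_ hY ?_ (fun h0 => absurd h0 hα)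
    · exact (comp_mono (le_adj _ _ |>.trans (le_adj _ _)) d).trans hT
    · rw [comp_bot]
      exact bot_le
  have h2 : comp (adj (adj ⊥ u) v) (d + 1) ≤ Y :=
    step_all h.hA1 h.hv ((comp_mono (le_adj _ _) d).trans hT) hY h1 hβ
  exact step_all h.hA2 h.hw hT hY h2 hγ

theorem finrank_span_one_le (v : S3 K) : finrank K (Submodule.span K {v}) ≤ 1 := by
  by_cases hv : v = 0
  · subst hv
    rw [Submodule.span_zero_singleton, finrank_bot]
    omega
  · rw [finrank_span_singleton hv]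

/-- The contribution of a generator in degree `d + 1`. -/
def ind (β d : ℕ) : ℕ := if β = d + 1 then 1 else 0

/-- The growth bound for a single subspace. -/
theorem growth_V {u v w : S3 K} {α β γ d : ℕ} (h : RS u v w α β γ) (hαβ : α ≤ β) (hβγ : β ≤ γ)
    {V : Submodule K (S3 K)} (hV : V ≤ HH K d) (hT : comp (T3 u v w) d ≤ V) (hαd : α ≤ d) :
    ∃ H' : ℕ, Bd α (β : ℤ) (γ : ℤ) (d : ℤ) ((DD d : ℤ) - finrank K V) (H' : ℤ) ∧
      (H' : ℤ) ≤ PP (β : ℤ) γ α ((d : ℤ) + 1) ∧
      DD (d + 1) ≤ finrank K (S1 V) + H' + ind β d + ind γ d := by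
  classical
  set T := T3 u v w with hTdef
  let W : ℕ → Submodule K (S3 K) := fun j =>
    if j = d + 1 then S1 V ⊔ comp T (d + 1) else if j = d then V else comp T j
  have hWs : W (d + 1) = S1 V ⊔ comp T (d + 1) := if_pos rfl
  have hWd : W d = V := by
    change (if d = d + 1 then _ else _) = _
    rw [if_neg (by omega), if_pos rfl]
  have hWj : ∀ j, j ≠ d + 1 → j ≠ d → W j = comp T j := by
    intro j h1 h2
    change (if j = d + 1 then _ else _) = _
    rw [if_neg h1, if_neg h2]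
  have hW : CFam T W (d + 1) := by
    refine ⟨⟨?_, ?_⟩, ?_⟩
    · intro j _
      by_cases h1 : j = d + 1
      · subst h1
        rw [hWs]
        exact sup_le (S1_le_HH hV) (comp_le _ _)
      · by_cases h2 : j = d
        · subst h2
          rw [hWd]
          exact hV
        · rw [hWj j h1 h2]
          exact comp_le _ _
    · intro j hj i x hx
      by_cases h2 : j = d
      · subst h2
        rw [hWd] at hx
        rw [hWs]
        exact Submodule.mem_sup_left (X_mul_mem_S1 i hx)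
      · rw [hWj j (by omega) h2] at hx
        obtain ⟨h3, h4⟩ := mem_comp.1 hx
        have h5 : X i * x ∈ comp T (j + 1) :=
          mem_comp.2 ⟨Ideal.mul_mem_left _ _ h3, mul_mem_HH (isHomogeneous_X K i) h4⟩
        by_cases h6 : j + 1 = d
        · rw [h6, hWd]
          rw [h6] at h5
          exact hT h5
        · rw [hWj (j + 1) (by omega) h6]
          exact h5
    · intro j _
      by_cases h1 : j = d + 1
      · subst h1
        rw [hWs]
        exact le_sup_right
      · by_cases h2 : j = d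
        · subst h2
          rw [hWd]
          exact hT
        · rw [hWj j h1 h2]
  have hB := growth_any h hαβ hβγ d W hW
  have hWle : W (d + 1) ≤ HH K (d + 1) := hW.fam.le (d + 1) le_rfl
  have h0 : 0 ≤ HW W (d + 1) := HW_nonneg hWle
  obtain ⟨H', hH'⟩ : ∃ H' : ℕ, HW W (d + 1) = H' := ⟨(HW W (d + 1)).toNat, by omega⟩
  have e0 : HW W d = (DD d : ℤ) - finrank K V := by
    unfold HW
    rw [hWd]
  rw [e0, hH'] at hB
  refine ⟨H', hB, ?_, ?_⟩
  · -- comparison with the complete intersection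
    have h1 := h.hf (d + 1)
    have h2 : finrank K (comp T (d + 1)) ≤ finrank K (W (d + 1)) := by
      have : FiniteDimensional K (W (d + 1)) := fd_of_le hWle
      exact Submodule.finrank_mono (hW.con (d + 1) le_rfl)
    have h3 : HW W (d + 1) = (DD (d + 1) : ℤ) - finrank K (W (d + 1)) := rfl
    push_cast at h1
    rw [← hTdef] at h1
    omega
  · -- the space generated in degree `d + 1`
    have h1 := Submodule.finrank_mono (S1_le_HH hV)
    have hex : ∀ (β' : ℕ) (v' : S3 K), v' ∈ HH K β' → ∃ Y : Submodule K (S3 K),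
        finrank K Y ≤ ind β' d ∧ Y ≤ HH K (d + 1) ∧ (β' = d + 1 → v' ∈ Y) := by
      intro β' v' hv'
      by_cases h2 : β' = d + 1
      · refine ⟨Submodule.span K {v'}, ?_, ?_, fun _ => Submodule.mem_span_singleton_self _⟩
        · rw [ind, if_pos h2]
          exact finrank_span_one_le _
        · rw [Submodule.span_le, Set.singleton_subset_iff, ← h2]
          exact hv'
      · refine ⟨⊥, by simp, bot_le, fun h3 => absurd h3 h2⟩
    obtain ⟨Yv, hYv, hYvH, hYv3⟩ := hex β v h.hv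
    obtain ⟨Yw, hYw, hYwH, hYw3⟩ := hex γ w h.hw
    have hfS : FiniteDimensional K (S1 V) := fd_of_le (S1_le_HH hV)
    have hfv : FiniteDimensional K Yv := fd_of_le hYvH
    have hfw : FiniteDimensional K Yw := fd_of_le hYwH
    have hT1 : comp T (d + 1) ≤ S1 V ⊔ Yv ⊔ Yw := by
      apply comp_T3_succ h hT (le_sup_left.trans le_sup_left) (by omega)
      · intro hb
        exact Submodule.mem_sup_left (Submodule.mem_sup_right (hYv3 hb))
      · intro hc
        exact Submodule.mem_sup_right (hYw3 hc)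
    have hWY : W (d + 1) ≤ S1 V ⊔ Yv ⊔ Yw := by
      rw [hWs]
      exact sup_le (le_sup_left.trans le_sup_left) hT1
    have h2 : finrank K (W (d + 1)) ≤ finrank K ↥(S1 V ⊔ Yv ⊔ Yw) := Submodule.finrank_mono hWY
    have h3 : finrank K ↥(S1 V ⊔ Yv ⊔ Yw) ≤ finrank K ↥(S1 V ⊔ Yv) + finrank K Yw :=
      Submodule.finrank_add_le_finrank_add_finrank _ _
    have h4 : finrank K ↥(S1 V ⊔ Yv) ≤ finrank K (S1 V) + finrank K Yv :=
      Submodule.finrank_add_le_finrank_add_finrank _ _
    have h5 : HW W (d + 1) = (DD (d + 1) : ℤ) - finrank K (W (d + 1)) := rfl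
    omega

/-- Generated elements of a complete intersection in low degree. -/
theorem comp_adj_le_of_mem {A : Ideal (S3 K)} {r : S3 K} {d : ℕ} {V : Submodule K (S3 K)}
    (hA : HomIdeal A) (hr : r ∈ HH K d) (hAV : comp A d ≤ V) (hrV : r ∈ V) :
    comp (adj A r) d ≤ V := by
  intro u hu
  obtain ⟨h1, h2⟩ := mem_comp.1 hu
  rcases mem_adj_hom hA hr h2 h1 with ⟨h3, -⟩ | ⟨e, he, s, hs, x, hx, rfl⟩
  · omega
  · obtain rfl : e = 0 := by omega
    obtain ⟨k, rfl⟩ := const_of_HH0 hs
    refine Submodule.add_mem _ (hAV hx) ?_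
    rw [← smul_eq_C_mul]
    exact Submodule.smul_mem _ _ hrV

theorem comp_adj_of_high {A : Ideal (S3 K)} {r : S3 K} {d ρ : ℕ} (hA : HomIdeal A)
    (hr : r ∈ HH K ρ) (hd : d < ρ) : comp (adj A r) d ≤ comp A d := by
  intro u hu
  obtain ⟨h1, h2⟩ := mem_comp.1 hu
  rcases mem_adj_hom hA hr h2 h1 with ⟨-, h3⟩ | ⟨e, he, s, hs, x, hx, rfl⟩
  · exact mem_comp.2 ⟨h3, h2⟩
  · omega

theorem DD_ge (d : ℕ) : d + 1 ≤ DD d := by
  induction d with
  | zero => simp [DD]
  | succ d ih =>
    rw [DD_succ]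
    omega

theorem DD_mono {m n : ℕ} (h : m ≤ n) : DD m ≤ DD n := by
  induction n, h using Nat.le_induction with
  | base => exact le_rfl
  | succ n _ ih =>
    rw [DD_succ]
    omega

/-- A subspace of small codimension contains a regular pair. -/
theorem exists_pair [Infinite K] {V : Submodule K (S3 K)} {d : ℕ} (hV : V ≤ HH K d)
    (hH : DD d ≤ finrank K V + d) :
    ∃ g₁ ∈ V, ∃ g₂ ∈ V, g₁ ≠ 0 ∧ NZ (adj ⊥ g₁) g₂ := by
  have hfd : FiniteDimensional K V := fd_of_le hV
  have hD := DD_ge d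
  have hV0 : V ≠ ⊥ := by
    intro h0
    rw [h0, finrank_bot] at hH
    omega
  obtain ⟨g₁, hg₁, hg₁0⟩ := Submodule.exists_mem_ne_zero_of_ne_bot hV0
  rcases dichotomy (adj ⊥ g₁) V with ⟨g₂, hg₂, hnz⟩ | ⟨u, hu, hw⟩
  · exact ⟨g₁, hg₁, g₂, hg₂, hg₁0, hnz⟩
  · exfalso
    have hu' : ¬ g₁ ∣ u := fun h2 => hu (mem_prin.2 h2)
    obtain ⟨f1, f0, c1, c0, hf, hf1, -, hcc, hc1, hdiv⟩ := ann_factor (hV hg₁) hg₁0 hu'
      (fun w hw' => mem_prin.1 (hw w hw'))
    have hf10 : f1 ≠ 0 := by
      rintro rfl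
      apply hg₁0
      rw [hf, zero_mul]
    have hle : V ≤ (HH K c0).map (LinearMap.mulLeft K f1) := by
      intro w hw'
      by_cases hw0 : w = 0
      · rw [hw0]
        exact Submodule.zero_mem _
      obtain ⟨t, rfl⟩ := hdiv w hw'
      obtain ⟨e, he, ht⟩ := hom_of_mul_left hf1 hf10 (hV hw') (right_ne_zero_of_mul hw0)
      have he' : e = c0 := by omega
      subst he'
      exact mem_map_mul.2 ⟨t, ht, rfl⟩
    have h1 : finrank K V ≤ finrank K ↥((HH K c0).map (LinearMap.mulLeft K f1)) :=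
      Submodule.finrank_mono hle
    rw [finrank_map_mul hf10, finrank_HH] at h1
    obtain ⟨d', rfl⟩ : ∃ d', d = d' + 1 := ⟨d - 1, by omega⟩
    have h2 := DD_mono (show c0 ≤ d' by omega)
    rw [DD_succ] at hH
    omega

/-- The bound when the codimension is small, over an infinite field. -/
theorem Iside_X [Infinite K] {V : Submodule K (S3 K)} {d : ℕ} (hV : V ≤ HH K d)
    (hH0 : finrank K V < DD d) (hH : DD d ≤ finrank K V + d) :
    DD (d + 1) + finrank K V ≤ finrank K (S1 V) + DD d := by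
  obtain ⟨g₁, hg₁, g₂, hg₂, hg₁0, hnz⟩ := exists_pair hV hH
  obtain ⟨l, hl, hlnz⟩ := exists_linear (hV hg₁) hg₁0 hnz
  have hd : 1 ≤ d := by
    by_contra hd
    have : d = 0 := by omega
    subst this
    omega
  have hRS : RS g₁ g₂ (l ^ (d + 2)) d d (d + 2) :=
    ⟨hV hg₁, hV hg₂, pow_mem_HH hl _, hd, hd, by omega, hg₁0, hnz, nz_pow hlnz _⟩
  have hT : comp (T3 g₁ g₂ (l ^ (d + 2))) d ≤ V := by
    refine (comp_adj_of_high hRS.hA2 hRS.hw (by omega)).trans ?_
    refine comp_adj_le_of_mem hRS.hA1 (hV hg₂) ?_ hg₂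
    refine comp_adj_le_of_mem homIdeal_bot (hV hg₁) ?_ hg₁
    rw [comp_bot]
    exact bot_le
  obtain ⟨H', hB, hP, hC⟩ := growth_V hRS le_rfl (by omega) hV hT le_rfl
  have e1 : ind d d = 0 := if_neg (by omega)
  have e2 : ind (d + 2) d = 0 := if_neg (by omega)
  rw [e1, e2] at hC
  suffices hs : H' + finrank K V ≤ DD d by omega
  have hd' : (1 : ℤ) ≤ d := by exact_mod_cast hd
  obtain ⟨H, hHdef⟩ : ∃ H : ℤ, H = (DD d : ℤ) - finrank K V := ⟨_, rfl⟩
  rw [← hHdef] at hB
  have hH1 : 0 < H := by omega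
  have hH2 : H ≤ d := by omega
  suffices hs : (H' : ℤ) ≤ H by omega
  rcases hH2.lt_or_eq with h3 | h3
  · -- the first layer
    have h4 := hB 0 H (by omega) hH1.le (by
      unfold eta
      push_cast
      omega) (by rw [PP_zero]; ring)
    rw [PP_zero] at h4
    unfold dl at h4
    rw [if_neg (by push_cast; omega)] at h4
    have h5 : max (H - 0) 0 = H := by
      rw [max_eq_left] <;> omega
    rw [h5] at h4
    omega
  · by_cases h4 : d = 1
    · subst h4
      have h5 : H = 1 := by push_cast at h3; omega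
      rw [PP_succ, PP_zero] at hP
      unfold eta at hP
      push_cast at hP
      omega
    · have h5 := hB 1 0 (by omega) le_rfl (by
        unfold eta
        push_cast
        omega) (by
        rw [PP_succ, PP_zero]
        unfold eta
        push_cast
        omega)
      rw [PP_succ, PP_zero] at h5
      unfold eta at h5
      unfold dl at h5
      rw [if_neg (by push_cast; omega)] at h5
      push_cast at h5
      omega

/-- The bound in general, over an infinite field. -/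
theorem Iside_Y [Infinite K] {f p q : S3 K} {a b c d : ℕ} (h : RS f p q a b c) (hab : a ≤ b)
    (hbc : b ≤ c) {V : Submodule K (S3 K)} (hV : V ≤ HH K d) (hT : comp (T3 f p q) d ≤ V)
    (hV0 : V ≠ ⊥) (hH : finrank K V < DD d) :
    ∃ H' : ℕ, Bd a (b : ℤ) (c : ℤ) (d : ℤ) ((DD d : ℤ) - finrank K V) (H' : ℤ) ∧
      (H' : ℤ) ≤ PP (b : ℤ) c a ((d : ℤ) + 1) ∧
      DD (d + 1) ≤ finrank K (S1 V) + H' + ind b d + ind c d := by
  by_cases had : a ≤ d
  · exact growth_V h hab hbc hV hT had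
  have hfd : FiniteDimensional K V := fd_of_le hV
  have hd : 1 ≤ d := by
    by_contra hd
    have h0 : d = 0 := by omega
    subst h0
    have h1 : finrank K V ≠ 0 := by
      intro h2
      exact hV0 (Submodule.finrank_eq_zero.1 h2)
    have h2 : DD 0 = 1 := rfl
    rw [h2] at hH
    omega
  obtain ⟨P, hP, hP0⟩ := Submodule.exists_mem_ne_zero_of_ne_bot hV0
  obtain ⟨p', q', hp', hq', hRS⟩ := exists_rs h hab hbc hd (hV hP) hP0
  have hT' : comp (T3 P p' q') d ≤ V := by
    intro u hu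
    obtain ⟨hu1, hu2⟩ := mem_comp.1 hu
    have hu3 : u ∈ adj (T3 f p q) P := by
      have h2 : T3 P p' q' ≤ adj (T3 f p q) P := by
        unfold T3
        refine sup_le (sup_le (sup_le bot_le ?_) ?_) ?_
        · rw [Ideal.span_le, Set.singleton_subset_iff]
          exact self_mem_adj _ _
        · rw [Ideal.span_le, Set.singleton_subset_iff]
          exact le_adj _ _ (le_adj _ _ (mem_comp.1 hp').1)
        · rw [Ideal.span_le, Set.singleton_subset_iff]
          exact le_adj _ _ (mem_comp.1 hq').1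
      exact h2 hu1
    exact comp_adj_le_of_mem h.hA3 (hV hP) hT hP (mem_comp.2 ⟨hu3, hu2⟩)
  obtain ⟨H', hB, hPP, hC⟩ := growth_V hRS (by omega) hbc hV hT' le_rfl
  have hle : H' ≤ H' := le_rfl
  have had' : d ≤ a := by omega
  refine ⟨H', ?_, hPP.trans (PP_mono _ _ had' _), hC⟩
  intro i t hi ht0 ht hHt
  by_cases hid : i < d
  · exact hB i t hid ht0 ht hHt
  · have h1 := hRS.hf d
    have h2 : finrank K (comp (T3 P p' q') d) ≤ finrank K V := Submodule.finrank_mono hT'
    have h3 := PP_mono (b : ℤ) c (show d ≤ i by omega) (d : ℤ)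
    have h4 : (DD d : ℤ) - finrank K V = PP (b : ℤ) c d d := by
      have h5 : (finrank K (comp (T3 P p' q') d) : ℤ) ≤ finrank K V := by exact_mod_cast h2
      omega
    have h6 := PP_mono (b : ℤ) c (show d ≤ i by omega) ((d : ℤ) + 1)
    have h7 : 0 ≤ max (t - dl c ((d : ℤ) - i)) 0 := le_max_right _ _
    omega

end Vale.Agent.Lib.P200
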