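import Vale.Agent.Lib.P200.Q2c

/-!
The Betti numbers of homological degree one and two, and the comparison theorem.
-/

noncomputable section

namespace Vale.Agent.Lib.P200

open MvPolynomial Module Defs BettiDefs

variable {K : Type*} [Field K]

section basechange

variable {L : Type*} [Field L] [Algebra K L]

theorem S1_ext_le {V : Submodule K (S3 K)} : S1 (ext L V) ≤ ext L (S1 V) := by
  intro u hu
  obtain ⟨σ, hσ, rfl⟩ := mem_S1.1 hu
  have key : ∀ (i : Fin 3) (τ : S3 L), τ ∈ ext L V → X i * τ ∈ ext L (S1 V) := by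
    intro i τ hτ
    refine Submodule.span_induction (p := fun τ _ => X i * τ ∈ ext L (S1 V)) ?_ ?_ ?_ ?_ hτ
    · rintro _ ⟨x, hx, rfl⟩
      have h1 := phi_mem_ext (L := L) (X_mul_mem_S1 i hx)
      simpa using h1
    · rw [mul_zero]
      exact Submodule.zero_mem _
    · intro x y _ _ hx hy
      rw [mul_add]
      exact Submodule.add_mem _ hx hy
    · intro c x _ hx
      rw [mul_smul_comm]
      exact Submodule.smul_mem _ _ hx
  exact Submodule.add_mem _ (Submodule.add_mem _ (key 0 _ (hσ 0)) (key 1 _ (hσ 1))) (key 2 _ (hσ 2))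

theorem finrank_S1_ext {V : Submodule K (S3 K)} {d : ℕ} (hV : V ≤ HH K d) :
    finrank L (S1 (ext L V)) ≤ finrank K (S1 V) := by
  have hS : FiniteDimensional K (S1 V) := fd_of_le (S1_le_HH hV)
  have e2 : finrank L (ext L (S1 V)) = finrank K (S1 V) := finrank_ext
  have : FiniteDimensional L (ext L (S1 V)) := fd_of_le (ext_le_HH (S1_le_HH hV))
  have h1 : finrank L (S1 (ext L V)) ≤ finrank L (ext L (S1 V)) :=
    Submodule.finrank_mono S1_ext_le
  omega

end basechange

theorem Iside_X_any {V : Submodule K (S3 K)} {d : ℕ} (hV : V ≤ HH K d)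
    (hH0 : finrank K V < DD d) (hH : DD d ≤ finrank K V + d) :
    DD (d + 1) + finrank K V ≤ finrank K (S1 V) + DD d := by
  let L := AlgebraicClosure K
  have : FiniteDimensional K V := fd_of_le hV
  have e1 : finrank L (ext L V) = finrank K V := finrank_ext
  have h1 := finrank_S1_ext (L := L) hV
  have h2 := Iside_X (K := L) (V := ext L V) (ext_le_HH hV) (by rw [e1]; exact hH0)
    (by rw [e1]; exact hH)
  rw [e1] at h2
  omega

theorem Iside_Y_any {f p q : S3 K} {a b c d : ℕ} (h : RS f p q a b c) (hab : a ≤ b)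
    (hbc : b ≤ c) {V : Submodule K (S3 K)} (hV : V ≤ HH K d) (hT : comp (T3 f p q) d ≤ V)
    (hV0 : V ≠ ⊥) (hH : finrank K V < DD d) :
    ∃ H' : ℕ, Bd a (b : ℤ) (c : ℤ) (d : ℤ) ((DD d : ℤ) - finrank K V) (H' : ℤ) ∧
      (H' : ℤ) ≤ PP (b : ℤ) c a ((d : ℤ) + 1) ∧
      DD (d + 1) ≤ finrank K (S1 V) + H' + ind b d + ind c d := by
  let L := AlgebraicClosure K
  have : FiniteDimensional K V := fd_of_le hV
  have e1 : finrank L (ext L V) = finrank K V := finrank_ext
  have h1 := finrank_S1_ext (L := L) hV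
  have hT' : comp (T3 (phi K L f) (phi K L p) (phi K L q)) d ≤ ext L V := by
    rw [map_T3]
    exact comp_ext_le hT
  have hV0' : ext L V ≠ ⊥ := by
    intro h0
    have h2 : finrank K V = 0 := by
      rw [← e1, h0, finrank_bot]
    exact hV0 (Submodule.finrank_eq_zero.1 h2)
  obtain ⟨H', hB, hP, hC⟩ := Iside_Y (K := L) (RS.map (L := L) h) hab hbc
    (V := ext L V) (ext_le_HH hV) hT' hV0' (by rw [e1]; exact hH)
  rw [e1] at hB
  exact ⟨H', hB, hP, by omega⟩

theorem card_antidiag (K : Type*) [Field K] (d : ℕ) :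
    (Finset.finsuppAntidiag (Finset.univ : Finset (Fin 3)) d).card = DD d := by
  rw [← finrank_HH (K := K), HH_eq_restrict, finrank_restrict]

/-- A subset of the monomials of degree `d + 1` not reached by a monomial subspace of degree `d`. -/
theorem S1_restrict_le {d : ℕ} {M R : Finset (Fin 3 →₀ ℕ)} (hM : ∀ m ∈ M, m 0 + m 1 + m 2 = d)
    (hR : ∀ m ∈ R, m 0 + m 1 + m 2 = d + 1) (hav : ∀ m ∈ M, ∀ i, Finsupp.single i 1 + m ∉ R) :
    finrank K (S1 (restrictSupport K (M : Set (Fin 3 →₀ ℕ)))) + R.card ≤ DD (d + 1) := by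
  classical
  let N : Finset (Fin 3 →₀ ℕ) := Finset.finsuppAntidiag (Finset.univ : Finset (Fin 3)) (d + 1) \ R
  have hsub : R ⊆ Finset.finsuppAntidiag (Finset.univ : Finset (Fin 3)) (d + 1) := by
    intro m hm
    rw [mem_antidiag]
    exact hR m hm
  have hN : N.card + R.card = DD (d + 1) := by
    rw [Finset.card_sdiff_add_card_eq_card hsub, card_antidiag K]
  have hstep : ∀ (i : Fin 3), restrictSupport K (M : Set (Fin 3 →₀ ℕ)) ≤
      (restrictSupport K (N : Set (Fin 3 →₀ ℕ))).comap (LinearMap.mulLeft K (X i)) := by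
    intro i
    rw [restrictSupport_eq_span, Submodule.span_le]
    rintro _ ⟨m, hm, rfl⟩
    have hm' : m ∈ M := hm
    simp only [SetLike.mem_coe, Submodule.mem_comap, LinearMap.mulLeft_apply]
    rw [X_mul_mono, monomial_mem_restrictSupport]
    left
    rw [Finset.mem_coe, Finset.mem_sdiff, mem_antidiag]
    refine ⟨?_, hav m hm' i⟩
    rw [shift_sum, hM m hm']
  have hle : S1 (restrictSupport K (M : Set (Fin 3 →₀ ℕ))) ≤
      restrictSupport K (N : Set (Fin 3 →₀ ℕ)) := by
    intro u hu
    obtain ⟨σ, hσ, rfl⟩ := mem_S1.1 hu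
    exact Submodule.add_mem _ (Submodule.add_mem _ (hstep 0 (hσ 0)) (hstep 1 (hσ 1))) (hstep 2 (hσ 2))
  have hfin : FiniteDimensional K (restrictSupport K (N : Set (Fin 3 →₀ ℕ))) :=
    Module.Finite.of_basis (basisRestrictSupport K (N : Set (Fin 3 →₀ ℕ)))
  have h1 := Submodule.finrank_mono hle
  rw [finrank_restrict] at h1
  omega

section jside

variable {a b c d : ℕ}

/-- The position of a monomial without the first variable. -/
theorem trc_first {y : ℕ} (ha : 1 ≤ a) (hy : y ≤ d) (hb : y < b) (hc : d < c) :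
    trc a b c d (0, y) = y + 1 := by
  have hm : ((0 : ℕ), y) ∈ BC a b c d := by
    rw [mem_BC]
    simp only
    omega
  have h1 := (rank3 (b := b) (c := c) (d := d) ha).2 _ hm
  change (trc a b c d (0, y) : ℤ) = _ at h1
  unfold rk ymin at h1
  rw [PP_zero] at h1
  simp only at h1
  push_cast at h1
  omega

theorem card_BC_eq (ha : 1 ≤ a) : ((BC a b c d).card : ℤ) = PP (b : ℤ) c a d :=
  (rank3 ha).1

theorem Jside_X {Q H : ℕ} (ha : 1 ≤ a) (hb : d + 1 ≤ b) (hbc : b ≤ c) (hH : H ≤ d)
    (hQ : lexTop (outside (le_refl 3) ![a, b, c] d) Q = highMono a b c d H) :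
    finrank K (S1 (restrictSupport K (Md a b c d Q : Set (Fin 3 →₀ ℕ)))) + H ≤ DD (d + 1) := by
  classical
  let R : Finset (Fin 3 →₀ ℕ) := (Finset.range H).image (fun y => expo 0 y (d + 1 - y))
  have hRcard : R.card = H := by
    rw [Finset.card_image_of_injective, Finset.card_range]
    intro x y hxy
    have := congrArg (fun m : Fin 3 →₀ ℕ => m 1) hxy
    simpa using this
  have hR : ∀ m ∈ R, m 0 + m 1 + m 2 = d + 1 := by
    intro m hm
    obtain ⟨y, hy, rfl⟩ := Finset.mem_image.1 hm
    rw [Finset.mem_range] at hy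
    simp only [expo_0, expo_1, expo_2]
    omega
  have h := S1_restrict_le (K := K) (d := d) (M := Md a b c d Q) (R := R) (fun m hm => Md_deg hm) hR ?_
  · rw [hRcard] at h
    exact h
  · intro m hm i hmem
    obtain ⟨y, hy, hyeq⟩ := Finset.mem_image.1 hmem
    rw [Finset.mem_range] at hy
    have h0 := shift_ge i m 0
    have h1 := shift_ge i m 1
    have hdeg := Md_deg hm
    rw [← hyeq] at h0 h1
    simp only [expo_0, expo_1] at h0 h1
    rcases mem_Md.1 hm with h3 | h3
    · rw [mem_pMono] at h3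
      omega
    · rw [hQ, highMono, Finset.mem_filter] at h3
      have h4 := h3.2
      have h5 : toPair m = (0, m 1) := by
        simp only [toPair]
        rw [show m 0 = 0 by omega]
      rw [h5, trc_first ha (by omega) (by omega) (by omega)] at h4
      omega

theorem Jside_Y {Q H H' : ℕ} (ha : 1 ≤ a) (hb : 1 ≤ b) (hbc : b ≤ c)
    (hB : Bd a (b : ℤ) (c : ℤ) (d : ℤ) (H : ℤ) (H' : ℤ))
    (hQ : lexTop (outside (le_refl 3) ![a, b, c] d) Q = highMono a b c d H)
    (hP : (H' : ℤ) ≤ PP (b : ℤ) c a ((d : ℤ) + 1)) (hH0 : 0 < H) (hb1 : b = d + 1 → d < H) :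
    finrank K (S1 (restrictSupport K (Md a b c d Q : Set (Fin 3 →₀ ℕ)))) + H' + ind b d + ind c d
      ≤ DD (d + 1) := by
  classical
  let Rb : Finset (Fin 3 →₀ ℕ) := if b = d + 1 then {expo 0 (d + 1) 0} else ∅
  let Rc : Finset (Fin 3 →₀ ℕ) := if c = d + 1 then {expo 0 0 (d + 1)} else ∅
  have hRb : Rb.card = ind b d := by
    simp only [Rb, ind]
    split_ifs <;> simp
  have hRc : Rc.card = ind c d := by
    simp only [Rc, ind]
    split_ifs <;> simp
  have hmemb : ∀ m ∈ Rb, b = d + 1 ∧ m = expo 0 (d + 1) 0 := by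
    intro m hm
    simp only [Rb] at hm
    split_ifs at hm with h0
    · exact ⟨h0, Finset.mem_singleton.1 hm⟩
    · simp at hm
  have hmemc : ∀ m ∈ Rc, c = d + 1 ∧ m = expo 0 0 (d + 1) := by
    intro m hm
    simp only [Rc] at hm
    split_ifs at hm with h0
    · exact ⟨h0, Finset.mem_singleton.1 hm⟩
    · simp at hm
  have hle : H' ≤ (BC a b c (d + 1)).card := by
    have h1 := card_BC_eq (a := a) (b := b) (c := c) (d := d + 1) ha
    push_cast at h1
    omega
  let R : Finset (Fin 3 →₀ ℕ) := lowMono a b c (d + 1) H' ∪ Rb ∪ Rc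
  have hlow : ∀ m ∈ lowMono a b c (d + 1) H', m ∈ outside (le_refl 3) ![a, b, c] (d + 1) ∧
      trc a b c (d + 1) (toPair m) ≤ H' := fun m hm => Finset.mem_filter.1 hm
  have hRcard : R.card = H' + ind b d + ind c d := by
    rw [Finset.card_union_of_disjoint, Finset.card_union_of_disjoint, card_lowMono hle, hRb, hRc]
    · rw [Finset.disjoint_left]
      intro m h1 h2
      have h3 := mem_outside.1 (hlow m h1).1
      obtain ⟨h4, rfl⟩ := hmemb m h2
      simp only [expo_1] at h3
      omega
    · rw [Finset.disjoint_left]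
      intro m h1 h2
      obtain ⟨h4, rfl⟩ := hmemc m h2
      rcases Finset.mem_union.1 h1 with h5 | h5
      · have h3 := mem_outside.1 (hlow _ h5).1
        simp only [expo_2] at h3
        omega
      · obtain ⟨-, h6⟩ := hmemb _ h5
        have := congrArg (fun m : Fin 3 →₀ ℕ => m 1) h6
        simp at this
  have hR : ∀ m ∈ R, m 0 + m 1 + m 2 = d + 1 := by
    intro m hm
    rcases Finset.mem_union.1 hm with h1 | h1
    · rcases Finset.mem_union.1 h1 with h2 | h2
      · exact (mem_outside.1 (hlow m h2).1).1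
      · obtain ⟨-, rfl⟩ := hmemb m h2
        simp
    · obtain ⟨-, rfl⟩ := hmemc m h1
      simp
  have h := S1_restrict_le (K := K) (d := d) (M := Md a b c d Q) (R := R) (fun m hm => Md_deg hm) hR ?_
  · rw [hRcard] at h
    omega
  · intro m hm i hmem
    have hdeg := Md_deg hm
    have hc : 1 ≤ c := by omega
    rcases Finset.mem_union.1 hmem with h1 | h1
    · rcases Finset.mem_union.1 h1 with h2 | h2
      · -- a low monomial
        obtain ⟨h3, h4⟩ := hlow _ h2
        rcases mem_Md.1 hm with h5 | h5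
        · exact Finset.disjoint_left.1 pMono_outside_disj (pMono_step i h5) h3
        · rw [hQ] at h5
          rcases Finset.mem_union.1 (high_step ha hb hbc hB i h5) with h6 | h6
          · exact Finset.disjoint_left.1 pMono_outside_disj h6 h3
          · have := (Finset.mem_filter.1 h6).2
            omega
      · -- the power of the second variable
        obtain ⟨h3, h4⟩ := hmemb _ h2
        have h0 := shift_ge i m 0
        have h5 := shift_ge i m 2
        rw [h4] at h0 h5
        simp only [expo_0, expo_2] at h0 h5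
        rcases mem_Md.1 hm with h6 | h6
        · rw [mem_pMono] at h6
          omega
        · rw [hQ, highMono, Finset.mem_filter] at h6
          have h7 := h6.2
          have h8 : toPair m = (0, d) := by
            simp only [toPair]
            rw [show m 0 = 0 by omega, show m 1 = d by omega]
          rw [h8, trc_first ha le_rfl (by omega) (by omega)] at h7
          have := hb1 h3
          omega
    · -- the power of the third variable
      obtain ⟨h3, h4⟩ := hmemc _ h1
      have h0 := shift_ge i m 0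
      have h5 := shift_ge i m 1
      rw [h4] at h0 h5
      simp only [expo_0, expo_1] at h0 h5
      rcases mem_Md.1 hm with h6 | h6
      · rw [mem_pMono] at h6
        omega
      · rw [hQ, highMono, Finset.mem_filter] at h6
        have h7 := h6.2
        have h8 : toPair m = (0, 0) := by
          simp only [toPair]
          rw [show m 0 = 0 by omega, show m 1 = 0 by omega]
        rw [h8, trc_first ha (by omega) (by omega) (by omega)] at h7
        omega

end jside

theorem GA_nat (A : Ideal (S3 K)) (d : ℕ) : GA A (d : ℤ) = S1 (comp A d) := by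
  unfold GA S1 idealVecZ idealZ
  rw [formsZ_nat]
  rfl

theorem S1_HH (d : ℕ) : S1 (HH K d) = HH K (d + 1) := by
  apply le_antisymm (S1_le_HH le_rfl)
  intro u hu
  obtain ⟨w, hw, rfl⟩ := form_succ hu
  exact sum_X_mem_S1 w hw

theorem S1_bot : S1 (⊥ : Submodule K (S3 K)) = ⊥ := by
  rw [eq_bot_iff]
  intro u hu
  obtain ⟨σ, hσ, rfl⟩ := mem_S1.1 hu
  have h0 : ∀ i, σ i = 0 := fun i => (Submodule.mem_bot K).1 (hσ i)
  rw [h0 0, h0 1, h0 2]
  simp

section main

variable {f p q : S3 K} {a b c : ℕ}

/-- The comparison of the multiples of the graded pieces by the variables. -/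
theorem hG_compare (h : RS f p q a b c) (hab : a ≤ b) (hbc : b ≤ c) {I J : Ideal (S3 K)}
    (hI : T3 f p q ≤ I) (hJ : J.restrictScalars K = lexPlusPowers (le_refl 3) ![a, b, c] I)
    (e : ℤ) : finrank K (GA J e) ≤ finrank K (GA I e) := by
  by_cases he : e < 0
  · have h0 : GA J e = ⊥ := by
      rw [eq_bot_iff]
      rintro _ ⟨σ, hσ, rfl⟩
      have h1 : σ = 0 := by
        funext i
        have h2 := ((mem_idealVecZ.1 hσ) i).2
        rwa [formsZ_neg he, Submodule.mem_bot] at h2
      rw [h1, map_zero]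
      exact Submodule.zero_mem _
    rw [h0, finrank_bot]
    omega
  obtain ⟨d, rfl⟩ : ∃ n : ℕ, e = n := ⟨e.toNat, by omega⟩
  rw [GA_nat, GA_nat]
  set V := comp I d with hVdef
  have hV : V ≤ HH K d := comp_le I d
  have hfd : FiniteDimensional K V := fd_of_le hV
  have hle : finrank K V ≤ DD d := by
    have := Submodule.finrank_mono hV
    rwa [finrank_HH] at this
  have hfdJ := fd_of_le (comp_le J d)
  have hSJ : S1 (comp J d) ≤ HH K (d + 1) := S1_le_HH (comp_le J d)
  have hSJd : finrank K (S1 (comp J d)) ≤ DD (d + 1) := by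
    have := Submodule.finrank_mono hSJ
    rwa [finrank_HH] at this
  by_cases hH0 : finrank K V = DD d
  · -- all forms of degree `d`
    have h1 : V = HH K d := Submodule.eq_of_le_of_finrank_eq hV (by rw [finrank_HH]; exact hH0)
    rw [h1, S1_HH, finrank_HH]
    exact hSJd
  by_cases hV0 : V = ⊥
  · have h1 := finrank_comp_J h hI hJ d
    rw [← hVdef, hV0, finrank_bot] at h1
    have h2 : comp J d = ⊥ := Submodule.finrank_eq_zero.1 h1
    rw [h2, S1_bot, finrank_bot]
    omega
  set Q := qNum (le_refl 3) ![a, b, c] I d with hQdef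
  set H := DD d - finrank K V with hHdef
  have hn := numbers h hI d
  rw [← hVdef, ← hQdef] at hn
  have hTop : lexTop (outside (le_refl 3) ![a, b, c] d) Q = highMono a b c d H :=
    lexTop_eq (by omega)
  have hcJ : comp J d = restrictSupport K (Md a b c d Q : Set (Fin 3 →₀ ℕ)) := comp_J hJ d
  rw [hcJ]
  have hT : comp (T3 f p q) d ≤ V := comp_mono hI d
  by_cases hX : d + 1 ≤ b ∧ H ≤ d
  · have h1 := Iside_X_any hV (by omega) (by omega)
    have h2 := Jside_X (K := K) (Q := Q) (H := H) h.ha hX.1 hbc hX.2 hTop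
    omega
  · obtain ⟨H', hB, hP, hC⟩ := Iside_Y_any h hab hbc hV hT hV0 (by omega)
    have e0 : (DD d : ℤ) - finrank K V = (H : ℤ) := by omega
    rw [e0] at hB
    have h2 := Jside_Y (K := K) (Q := Q) (H := H) (H' := H') h.ha h.hb hbc hB hTop hP (by omega)
      (by
        intro hb
        by_contra hcon
        exact hX ⟨by omega, by omega⟩)
    omega

theorem hA_compare (h : RS f p q a b c) {I J : Ideal (S3 K)} (hI : T3 f p q ≤ I)
    (hJ : J.restrictScalars K = lexPlusPowers (le_refl 3) ![a, b, c] I) (e : ℤ) :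
    finrank K (idealZ I e) = finrank K (idealZ J e) := by
  by_cases he : e < 0
  · unfold idealZ
    rw [formsZ_neg he, inf_bot_eq, inf_bot_eq]
  · obtain ⟨d, rfl⟩ : ∃ n : ℕ, e = n := ⟨e.toNat, by omega⟩
    have h1 := finrank_comp_J h hI hJ d
    have e1 : ∀ A : Ideal (S3 K), idealZ A (d : ℤ) = comp A d := by
      intro A
      unfold idealZ
      rw [formsZ_nat]
      rfl
    rw [e1, e1, h1]

/-- The Betti numbers of the lex-plus-powers ideal are at least those of `I`. -/
theorem betti_compare (h : RS f p q a b c) (hab : a ≤ b) (hbc : b ≤ c) {I J : Ideal (S3 K)}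
    (hI : T3 f p q ≤ I) (hJ : J.restrictScalars K = lexPlusPowers (le_refl 3) ![a, b, c] I)
    (n : ℕ) (j : ℤ) : betti3 I n j ≤ betti3 J n j :=
  betti_le (hA_compare h hI hJ) (hG_compare h hab hbc hI hJ) (hC_compare h hab hbc hI hJ) n j

/-- A regular sequence of three forms in the sense of the statement. -/
theorem rs_of_regular {a b c : ℕ} (ha : 1 ≤ a) (hab : a ≤ b) (hbc : b ≤ c) (f : Fin 3 → S3 K)
    (hf : ∀ i, (f i).IsHomogeneous (![a, b, c] i)) (hreg : IsRegularSeq f) :
    RS (f 0) (f 1) (f 2) a b c := by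
  have hf0 : f 0 ≠ 0 := by
    intro h0
    have h1 := hreg 0 1 (by
      rw [h0, zero_mul]
      exact Ideal.zero_mem _)
    have h2 : f '' {j | j < (0 : Fin 3)} = ∅ := by
      ext x
      simp
    rw [h2, Ideal.span_empty] at h1
    simp at h1
  refine ⟨hf 0, hf 1, hf 2, ha, by omega, by omega, hf0, ?_, ?_⟩
  · have h2 : f '' {j | j < (1 : Fin 3)} = {f 0} := by
      ext x
      simp only [Set.mem_image, Set.mem_ofPred_eq, Set.mem_singleton_iff]
      constructor
      · rintro ⟨j, hj, rfl⟩
        have : j = 0 := by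
          fin_cases j
          · rfl
          · exact absurd hj (by decide)
          · exact absurd hj (by decide)
        rw [this]
      · rintro rfl
        exact ⟨0, by decide, rfl⟩
    intro u hu
    have h3 := hreg 1 u (by
      rw [h2]
      rw [adj, bot_sup_eq] at hu
      exact hu)
    rw [h2] at h3
    rw [adj, bot_sup_eq]
    exact h3
  · have h2 : f '' {j | j < (2 : Fin 3)} = {f 0, f 1} := by
      ext x
      simp only [Set.mem_image, Set.mem_ofPred_eq, Set.mem_insert_iff, Set.mem_singleton_iff]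
      constructor
      · rintro ⟨j, hj, rfl⟩
        fin_cases j
        · exact Or.inl rfl
        · exact Or.inr rfl
        · exact absurd hj (by decide)
      · rintro (rfl | rfl)
        · exact ⟨0, by decide, rfl⟩
        · exact ⟨1, by decide, rfl⟩
    have h4 : Ideal.span (f '' {j | j < (2 : Fin 3)}) = adj (adj ⊥ (f 0)) (f 1) := by
      rw [h2, Ideal.span_insert]
      unfold adj
      rw [bot_sup_eq]
    intro u hu
    have h3 := hreg 2 u (by rw [h4]; exact hu)
    rwa [h4] at h3

/-- The lex-plus-powers conjecture for regular sequences of three forms in three variables. -/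
theorem lexPlusPowers_betti3 (a b c : ℕ) (ha : 1 ≤ a) (hab : a ≤ b) (hbc : b ≤ c)
    (f : Fin 3 → S3 K) (hf : ∀ i, (f i).IsHomogeneous (![a, b, c] i)) (hreg : IsRegularSeq f)
    (I : Ideal (S3 K)) (hfI : ∀ i, f i ∈ I) :
    ∃ J : Ideal (S3 K), J.restrictScalars K = lexPlusPowers (le_refl 3) ![a, b, c] I ∧
      ∀ (n : ℕ) (j : ℤ), betti3 I n j ≤ betti3 J n j := by
  obtain ⟨J, hJ⟩ := lexPlusPowers_ideal3 a b c ha hab hbc f hf hreg I hfI
  have T := rs_of_regular ha hab hbc f hf hreg
  have hI : T3 (f 0) (f 1) (f 2) ≤ I := adj_le (adj_le (adj_le bot_le (hfI 0)) (hfI 1)) (hfI 2)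
  exact ⟨J, hJ, betti_compare T hab hbc hI hJ⟩

end main

end Vale.Agent.Lib.P200
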