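import Vale.Agent.Lib.P200.Basic
import Mathlib.RingTheory.MvPolynomial.Ideal

/-!
Linear forms in general position and the socle degree of complete intersections in three variables.
-/

noncomputable section

namespace Vale.Agent.Lib.P200

open MvPolynomial Module

variable {K : Type*} [Field K]

/-- Evaluate all variables on a line through the origin. -/
def lineHom (v : Fin 3 → K) : S3 K →ₐ[K] Polynomial K :=
  aeval fun i => Polynomial.C (v i) * Polynomial.X

theorem eval_lineHom (v : Fin 3 → K) (u : S3 K) :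
    Polynomial.eval 1 (lineHom v u) = eval v u := by
  induction u using MvPolynomial.induction_on with
  | C a => simp [lineHom]
  | add p q hp hq => simp [map_add, hp, hq]
  | mul_X p i hp =>
    rw [map_mul, Polynomial.eval_mul, hp]
    simp [lineHom]

/-- Existence of a point where a nonzero form and the last variable do not vanish. -/
theorem exists_point [Infinite K] {p : S3 K} {c : ℕ} (hp : p ∈ HH K c) (hp0 : p ≠ 0) :
    ∃ v : Fin 3 → K, v 2 ≠ 0 ∧ eval v p ≠ 0 := by
  have h1 : (X 2 * p : S3 K).IsHomogeneous (1 + c) := (isHomogeneous_X K 2).mul hp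
  have h2 : (X 2 * p : S3 K) ≠ 0 := mul_ne_zero (X_ne_zero 2) hp0
  by_contra hcon
  push Not at hcon
  apply h2
  apply h1.eq_zero_of_forall_eval_eq_zero
  intro v
  by_cases hv : v 2 = 0
  · simp [hv]
  · simp [hcon v hv]

/-- A quotient-level identity: two algebra maps agreeing on generators. -/
theorem sub_mem_of_gen (A : Ideal (S3 K)) (rho : S3 K →ₐ[K] S3 K)
    (h : ∀ i, X i - rho (X i) ∈ A) (u : S3 K) : u - rho u ∈ A := by
  have : (Ideal.Quotient.mkₐ K A).comp rho = Ideal.Quotient.mkₐ K A := by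
    apply MvPolynomial.algHom_ext
    intro i
    have := h i
    simp only [AlgHom.comp_apply, Ideal.Quotient.mkₐ_eq_mk]
    exact (Ideal.Quotient.eq.2 this).symm
  have h2 := DFunLike.congr_fun this u
  simp only [AlgHom.comp_apply, Ideal.Quotient.mkₐ_eq_mk] at h2
  exact Ideal.Quotient.eq.1 h2.symm

/-- The two linear forms cutting out the line through `v`. -/
def lin1 (v : Fin 3 → K) : S3 K := C (v 2) * X 0 - C (v 0) * X 2
/-- The two linear forms cutting out the line through `v`. -/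
def lin2 (v : Fin 3 → K) : S3 K := C (v 2) * X 1 - C (v 1) * X 2

theorem lin1_mem (v : Fin 3 → K) : lin1 v ∈ HH K 1 :=
  ((isHomogeneous_C_mul_X (v 2) 0).sub (isHomogeneous_C_mul_X (v 0) 2))

theorem lin2_mem (v : Fin 3 → K) : lin2 v ∈ HH K 1 :=
  ((isHomogeneous_C_mul_X (v 2) 1).sub (isHomogeneous_C_mul_X (v 1) 2))

theorem nz_bot {r : S3 K} (hr : r ≠ 0) : NZ ⊥ r := by
  intro u hu
  have : r * u = 0 := by simpa using hu
  simpa [hr] using this

theorem lin1_nz (v : Fin 3 → K) (hv : v 2 ≠ 0) : NZ ⊥ (lin1 v) := by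
  apply nz_bot
  intro h
  have := congrArg (eval ![1, 0, 0]) h
  simp [lin1] at this
  exact hv this

theorem lin2_nz (v : Fin 3 → K) (hv : v 2 ≠ 0) : NZ (adj ⊥ (lin1 v)) (lin2 v) := by
  let rho : S3 K →ₐ[K] S3 K := aeval ![C (v 0 * (v 2)⁻¹) * X 2, X 1, X 2]
  have hrho : ∀ u, u - rho u ∈ adj ⊥ (lin1 v) := by
    apply sub_mem_of_gen
    intro i
    have h3 : X (0 : Fin 3) - C (v 0 * (v 2)⁻¹) * X 2 = C (v 2)⁻¹ * lin1 v := by
      have h4 : C (v 2)⁻¹ * C (v 2) = (1 : S3 K) := by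
        rw [← C_mul, inv_mul_cancel₀ hv, C_1]
      simp only [lin1, C_mul]
      linear_combination (- (X 0 : S3 K)) * h4 
    fin_cases i
    · simp only [rho, Fin.zero_eta, aeval_X, Matrix.cons_val_zero]
      rw [h3]
      exact Ideal.mul_mem_left _ _ (self_mem_adj _ _)
    · simp [rho]
    · simp [rho]
  have hr0 : rho (lin1 v) = 0 := by
    have h4 : C (v 2) * C (v 2)⁻¹ = (1 : S3 K) := by
      rw [← C_mul, mul_inv_cancel₀ hv, C_1]
    simp only [lin1, rho, map_sub, map_mul, aeval_X, algHom_C, Matrix.cons_val_zero, Matrix.cons_val]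
    simp only [algebraMap_eq]
    linear_combination (C (v 0) * X 2 : S3 K) * h4
  have hr1 : rho (lin2 v) = lin2 v := by
    simp [lin2, rho]
  have hl2 : lin2 v ≠ 0 := by
    intro h
    have := congrArg (eval ![0, 1, 0]) h
    simp [lin2] at this
    exact hv this
  intro u hu
  obtain ⟨a, ha, w, hw⟩ := mem_adj.1 hu
  have ha0 : a = 0 := by simpa using ha
  have h5 : rho (lin2 v * u) = 0 := by
    rw [hw, ha0]; simp [hr0]
  rw [map_mul, hr1] at h5
  have h6 : rho u = 0 := by
    rcases mul_eq_zero.1 h5 with h7 | h7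
    · exact absurd h7 hl2
    · exact h7
  have := hrho u
  rwa [h6, sub_zero] at this

theorem lin3_nz (v : Fin 3 → K) (hv : v 2 ≠ 0) {p : S3 K} (hp : eval v p ≠ 0) :
    NZ (adj (adj ⊥ (lin1 v)) (lin2 v)) p := by
  let psi : Polynomial K →ₐ[K] S3 K := Polynomial.aeval (C (v 2)⁻¹ * X 2)
  let rho : S3 K →ₐ[K] S3 K := psi.comp (lineHom v)
  have h4 : C (v 2)⁻¹ * C (v 2) = (1 : S3 K) := by
    rw [← C_mul, inv_mul_cancel₀ hv, C_1]
  have hrho : ∀ u, u - rho u ∈ adj (adj ⊥ (lin1 v)) (lin2 v) := by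
    apply sub_mem_of_gen
    intro i
    fin_cases i
    · have : (X (0 : Fin 3) : S3 K) - rho (X 0) = C (v 2)⁻¹ * lin1 v := by
        simp only [rho, psi, lineHom, AlgHom.comp_apply, aeval_X, map_mul, Polynomial.aeval_C,
          Polynomial.aeval_X, lin1, algebraMap_eq]
        linear_combination (- (X 0 : S3 K)) * h4
      simp only [Fin.zero_eta]
      rw [this]
      exact Ideal.mul_mem_left _ _ (le_adj _ _ (self_mem_adj _ _))
    · have : (X (1 : Fin 3) : S3 K) - rho (X 1) = C (v 2)⁻¹ * lin2 v := by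
        simp only [rho, psi, lineHom, AlgHom.comp_apply, aeval_X, map_mul, Polynomial.aeval_C,
          Polynomial.aeval_X, lin2, algebraMap_eq]
        linear_combination (- (X 1 : S3 K)) * h4
      simp only [Fin.mk_one]
      rw [this]
      exact Ideal.mul_mem_left _ _ (self_mem_adj _ _)
    · have : (X (2 : Fin 3) : S3 K) - rho (X 2) = 0 := by
        simp only [rho, psi, lineHom, AlgHom.comp_apply, aeval_X, map_mul, Polynomial.aeval_C,
          Polynomial.aeval_X, algebraMap_eq]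
        have h5 : C (v 2) * C (v 2)⁻¹ = (1 : S3 K) := by
          rw [← C_mul, mul_inv_cancel₀ hv, C_1]
        linear_combination (- (X 2 : S3 K)) * h5
      simp only [Fin.reduceFinMk]
      rw [this]
      exact Ideal.zero_mem _
  have hl1 : lineHom v (lin1 v) = 0 := by
    simp only [lineHom, lin1, map_sub, map_mul, aeval_X, algHom_C]
    simp only [Polynomial.algebraMap_eq]
    ring
  have hl2 : lineHom v (lin2 v) = 0 := by
    simp only [lineHom, lin2, map_sub, map_mul, aeval_X, algHom_C]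
    simp only [Polynomial.algebraMap_eq]
    ring
  have hp' : lineHom v p ≠ 0 := by
    intro h
    apply hp
    rw [← eval_lineHom, h]
    simp
  intro u hu
  obtain ⟨a, ha, w, hw⟩ := mem_adj.1 hu
  obtain ⟨a', ha', w', hw'⟩ := mem_adj.1 ha
  have ha0 : a' = 0 := by simpa using ha'
  have h5 : lineHom v (p * u) = 0 := by
    rw [hw, hw', ha0]; simp [hl1, hl2]
  rw [map_mul] at h5
  have h6 : lineHom v u = 0 := by
    rcases mul_eq_zero.1 h5 with h7 | h7
    · exact absurd h7 hp'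
    · exact h7
  have h7 : rho u = 0 := by simp [rho, h6]
  have := hrho u
  rwa [h7, sub_zero] at this

/-- A nonzero form can be followed by two linear forms in a regular sequence. -/
theorem linear_pair [Infinite K] {p : S3 K} {c : ℕ} (hp : p ∈ HH K c) (hp0 : p ≠ 0) :
    ∃ r r', r ∈ HH K 1 ∧ r' ∈ HH K 1 ∧ NZ (adj ⊥ p) r ∧ NZ (adj (adj ⊥ p) r) r' := by
  obtain ⟨v, hv, hvp⟩ := exists_point hp hp0
  refine ⟨lin1 v, lin2 v, lin1_mem v, lin2_mem v, ?_⟩
  have h1 := lin1_nz v hv
  have h2 := lin2_nz v hv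
  have h3 := lin3_nz v hv hvp
  have hA1 : HomIdeal (adj ⊥ (lin1 v)) := homIdeal_adj homIdeal_bot (lin1_mem v)
  obtain ⟨h4, h5⟩ := swap_nz hA1 (lin2_mem v) le_rfl hp h2 h3
  obtain ⟨h6, h7⟩ := swap_nz homIdeal_bot (lin1_mem v) le_rfl hp h1 h4
  refine ⟨h7, ?_⟩
  rw [adj_comm]
  exact h5

/-- Existence of a linear form continuing a regular sequence of length two. -/
theorem exists_linear [Infinite K] {p g : S3 K} {c : ℕ} (hp : p ∈ HH K c) (hp0 : p ≠ 0)
    (hg : NZ (adj ⊥ p) g) : ∃ l ∈ HH K 1, NZ (adj (adj ⊥ p) g) l := by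
  rcases dichotomy (adj (adj ⊥ p) g) (HH K 1) with h | ⟨u, hu, h⟩
  · exact h
  · obtain ⟨r, r', hr, hr', h1, h2⟩ := linear_pair hp hp0
    exact absurd (lemG hg h1 h2 (h r hr) (h r' hr')) hu

/-- Socle degree bound. -/
def SocA (A : Ideal (S3 K)) (N : ℕ) : Prop :=
  ∀ (e : ℕ) (u : S3 K), u ∈ HH K e → (∀ i, X i * u ∈ A) → u ∉ A → N ≤ e + 3

theorem mem_colon_of_forall_X {A : Ideal (S3 K)} {u : S3 K} (h : ∀ i, X i * u ∈ A) {c : ℕ}
    {r : S3 K} (hr : r ∈ HH K c) (hc : 1 ≤ c) : r * u ∈ A := by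
  have h1 : r ∈ Ideal.span (X '' (Set.univ : Set (Fin 3)) : Set (S3 K)) := by
    rw [mem_ideal_span_X_image]
    intro m hm
    have h2 := hr.degree_eq_sum_deg_support hm
    by_contra h3
    push Not at h3
    have h4 : m = 0 := by
      ext i
      exact h3 i (Set.mem_univ i)
    rw [h4] at h2
    simp at h2
    omega
  refine Submodule.span_induction (p := fun r _ => r * u ∈ A) ?_ ?_ ?_ ?_ h1
  · rintro _ ⟨i, -, rfl⟩
    exact h i
  · simp
  · intro x y _ _ hx hy
    rw [add_mul]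
    exact Ideal.add_mem _ hx hy
  · intro a x _ hx
    rw [smul_eq_mul, mul_assoc]
    exact Ideal.mul_mem_left _ _ hx

/-- Replacing the last element of a regular sequence. -/
theorem socA_swap {B : Ideal (S3 K)} (hB : HomIdeal B) {r r' : S3 K} {c c' M : ℕ}
    (hr : r ∈ HH K c) (hr' : r' ∈ HH K c') (hc' : 1 ≤ c') (h1 : NZ B r) (h2 : NZ B r')
    (h : SocA (adj B r') (M + c')) : SocA (adj B r) (M + c) := by
  intro e u hu hX hnot
  have h3 : r' * u ∈ adj B r := mem_colon_of_forall_X hX hr' hc'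
  have h3' : r' * u ∈ HH K (c' + e) := hr'.mul hu
  rcases mem_adj_hom hB hr h3' h3 with ⟨-, h4⟩ | ⟨e2, he2, w, hw, b, hb, hb2⟩
  · exact absurd (le_adj B r (h2 u h4)) hnot
  · have hb' := (mem_comp.1 hb).1
    have h5 : w ∉ adj B r' := by
      intro hw2
      obtain ⟨b', hb'', w', rfl⟩ := mem_adj.1 hw2
      have h6 : u - w' * r ∈ B := by
        apply h2
        have : r' * (u - w' * r) = b + b' * r := by linear_combination hb2
        rw [this]
        exact Ideal.add_mem _ hb' (Ideal.mul_mem_right _ _ hb'')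
      exact hnot (mem_adj.2 ⟨_, h6, w', by ring⟩)
    have h6 : ∀ i, X i * w ∈ adj B r' := by
      intro i
      obtain ⟨b1, hb1, t, ht⟩ := mem_adj.1 (hX i)
      have h7 : X i * w - t * r' ∈ B := by
        apply h1
        have : r * (X i * w - t * r') = r' * b1 - X i * b := by
          linear_combination X i * (-hb2) + r' * ht
        rw [this]
        exact Ideal.sub_mem _ (Ideal.mul_mem_left _ _ hb1) (Ideal.mul_mem_left _ _ hb')
      exact mem_adj.2 ⟨_, h7, t, by ring⟩
    have h8 := h e2 w hw h6 h5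
    omega

/-- Socle degree of a complete intersection in three variables. -/
theorem socle_reg [Infinite K] {p q r : S3 K} {c1 c2 c3 : ℕ} (hp : p ∈ HH K c1) (hq : q ∈ HH K c2)
    (hr : r ∈ HH K c3) (h1c : 1 ≤ c1) (h2c : 1 ≤ c2) (hp0 : p ≠ 0)
    (h1 : NZ (adj ⊥ p) q) (h2 : NZ (adj (adj ⊥ p) q) r) :
    SocA (adj (adj (adj ⊥ p) q) r) (c1 + c2 + c3) := by
  have hAp : HomIdeal (adj ⊥ p) := homIdeal_adj homIdeal_bot hp
  have hApq : HomIdeal (adj (adj ⊥ p) q) := homIdeal_adj hAp hq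
  obtain ⟨l, hl, hl1⟩ := exists_linear hp hp0 h1
  refine socA_swap (M := c1 + c2) (c' := 1) hApq hr hl le_rfl h2 hl1 ?_
  -- reorder
  obtain ⟨h3, h4⟩ := swap_nz hAp hq h2c hl h1 hl1
  rw [adj_comm]
  have hApl : HomIdeal (adj (adj ⊥ p) l) := homIdeal_adj hAp hl
  obtain ⟨l', hl', hl2⟩ := exists_linear hp hp0 h3
  have e1 : c1 + c2 + 1 = (c1 + 1) + c2 := by omega
  rw [e1]
  refine socA_swap (M := c1 + 1) (c' := 1) hApl hq hl' le_rfl h4 hl2 ?_
  -- reorder again
  obtain ⟨h5, h6⟩ := swap_nz homIdeal_bot hp h1c hl (nz_bot hp0) h3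
  rw [adj_comm] at hl2 
  have hl0 : l ≠ 0 := by
    intro h0
    rw [h0] at h5
    have := h5 1 (by simp)
    simp at this
  obtain ⟨h7, h8⟩ := swap_nz (homIdeal_adj homIdeal_bot hl) hp h1c hl' h6 hl2
  have hAll : HomIdeal (adj (adj ⊥ l) l') := homIdeal_adj (homIdeal_adj homIdeal_bot hl) hl'
  obtain ⟨l'', hl'', hl3⟩ := exists_linear hl hl0 h7
  have e2 : c1 + 1 + 1 = 2 + c1 := by omega
  have e3 : adj (adj (adj ⊥ p) l) l' = adj (adj (adj ⊥ l) l') p := by
    rw [adj_comm ⊥ p l, adj_comm]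
  rw [e2, e3]
  refine socA_swap (M := 2) (c' := 1) hAll hp hl'' le_rfl h8 hl3 ?_
  intro e u _ _ _
  omega

end Vale.Agent.Lib.P200
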