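import Vale.Agent.Lib.P200.Basic
import Mathlib.RingTheory.MvPolynomial.WeightedHomogeneous
import Mathlib.LinearAlgebra.Matrix.Determinant.Basic

/-!
Homogeneity with integer degrees, and degrees of determinants of matrices of forms.
-/

noncomputable section

namespace Vale.Agent.Lib.P200

open MvPolynomial Module

variable {K : Type*} [Field K]

/-- Homogeneity with an integer degree. -/
def Wt (u : S3 K) (m : ℤ) : Prop := IsWeightedHomogeneous (fun _ : Fin 3 => (1 : ℤ)) u m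

theorem weight_int (d : Fin 3 →₀ ℕ) :
    Finsupp.weight (fun _ : Fin 3 => (1 : ℤ)) d = ((d 0 + d 1 + d 2 : ℕ) : ℤ) := by
  rw [Finsupp.weight_apply, Finsupp.sum_fintype _ _ (by simp)]
  simp [Fin.sum_univ_three]

theorem weight_nat (d : Fin 3 →₀ ℕ) :
    Finsupp.weight (1 : Fin 3 → ℕ) d = d 0 + d 1 + d 2 := by
  rw [Finsupp.weight_apply, Finsupp.sum_fintype _ _ (by simp)]
  simp [Fin.sum_univ_three]

theorem wt_zero (m : ℤ) : Wt (0 : S3 K) m := isWeightedHomogeneous_zero _ _ _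

theorem Wt.mul {u v : S3 K} {m n : ℤ} (hu : Wt u m) (hv : Wt v n) : Wt (u * v) (m + n) :=
  IsWeightedHomogeneous.mul hu hv

theorem wt_of_mem {u : S3 K} {n : ℕ} (h : u ∈ HH K n) : Wt u n := by
  intro d hd
  have h1 := (show u.IsHomogeneous n from h) hd
  rw [weight_nat] at h1
  rw [weight_int, h1]

theorem mem_of_wt {u : S3 K} {n : ℕ} (h : Wt u n) : u ∈ HH K n := by
  intro d hd
  have h1 := h hd
  rw [weight_int] at h1
  rw [weight_nat]
  exact_mod_cast h1

theorem eq_zero_of_wt {u : S3 K} {m : ℤ} (h : Wt u m) (hm : m < 0) : u = 0 := by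
  apply MvPolynomial.ext
  intro d
  by_contra hd
  have h1 := h hd
  rw [weight_int] at h1
  have : (0 : ℤ) ≤ ((d 0 + d 1 + d 2 : ℕ) : ℤ) := by positivity
  omega

/-- Degree of a determinant of a matrix with graded entries. -/
theorem det_wt {κ : Type*} [Fintype κ] [DecidableEq κ] (M : Matrix κ κ (S3 K)) (r c : κ → ℤ)
    (h : ∀ i j, Wt (M i j) (r i - c j)) : Wt M.det (∑ i, r i - ∑ j, c j) := by
  rw [Matrix.det_apply]
  apply IsWeightedHomogeneous.sum
  intro σ _
  have h1 : Wt (∏ i, M (σ i) i) (∑ i, r i - ∑ j, c j) := by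
    have h2 : ∑ i, r i - ∑ j, c j = ∑ i, (r (σ i) - c i) := by
      rw [Finset.sum_sub_distrib, Equiv.sum_comp σ r]
    rw [h2]
    exact IsWeightedHomogeneous.prod _ _ _ (fun i _ => h (σ i) i)
  have h3 : (Equiv.Perm.sign σ : ℤˣ) • ∏ i, M (σ i) i = ((Equiv.Perm.sign σ : ℤˣ) : ℤ) • ∏ i, M (σ i) i := rfl
  rw [h3]
  rcases Int.units_eq_one_or (Equiv.Perm.sign σ) with h4 | h4
  · rw [h4]
    simpa using (show IsWeightedHomogeneous (fun _ : Fin 3 => (1 : ℤ)) _ _ from h1)
  · rw [h4]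
    simpa using IsWeightedHomogeneous.neg h1

end Vale.Agent.Lib.P200
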