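import Vale.Agent.Lib.P200.Dim
import Vale.Agent.Lib.P200.Wt

/-!
Graded families of subspaces of forms, generators and their syzygies.
-/

noncomputable section

namespace Vale.Agent.Lib.P200

open MvPolynomial Module

variable {K : Type*} [Field K]

/-- A truncated graded family of subspaces stable under multiplication by variables. -/
structure Fam (W : ℕ → Submodule K (S3 K)) (D : ℕ) : Prop where
  le : ∀ j ≤ D, W j ≤ HH K j
  step : ∀ j < D, ∀ i, ∀ u ∈ W j, X i * u ∈ W (j + 1)

/-- A form of positive degree is a combination of the variables with coefficients forms. -/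
theorem form_succ {u : S3 K} {e : ℕ} (hu : u ∈ HH K (e + 1)) :
    ∃ w : Fin 3 → S3 K, (∀ i, w i ∈ HH K e) ∧ u = ∑ i, X i * w i := by
  have h1 : u ∈ Ideal.span (X '' (Set.univ : Set (Fin 3)) : Set (S3 K)) := by
    rw [mem_ideal_span_X_image]
    intro m hm
    have h2 := (show u.IsHomogeneous (e + 1) from hu).degree_eq_sum_deg_support hm
    by_contra h3
    push Not at h3
    have h4 : m = 0 := by
      ext i
      exact h3 i (Set.mem_univ i)
    rw [h4] at h2
    simp at h2
  have h2 : ∃ c : Fin 3 → S3 K, u = ∑ i, c i * X i := by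
    rw [Set.image_univ] at h1
    obtain ⟨c, hc⟩ := (Ideal.mem_span_range_iff_exists_fun).1 h1
    exact ⟨c, hc.symm⟩
  obtain ⟨c, hc⟩ := h2
  refine ⟨fun i => homogeneousComponent e (c i), fun i => homogeneousComponent_mem _ _, ?_⟩
  have h3 : u = homogeneousComponent (e + 1) u := by
    rw [homogeneousComponent_of_mem hu]; simp
  rw [h3, hc, map_sum]
  refine Finset.sum_congr rfl fun i _ => ?_
  rw [hc_mul_of_mem (isHomogeneous_X K i), mul_comm]

namespace Fam

variable {W : ℕ → Submodule K (S3 K)} {D : ℕ}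

theorem mono (hF : Fam W D) {D' : ℕ} (h : D' ≤ D) : Fam W D' :=
  ⟨fun j hj => hF.le j (by omega), fun j hj => hF.step j (by omega)⟩

theorem mul_mem (hF : Fam W D) {e : ℕ} : ∀ {m u : S3 K} {j : ℕ}, m ∈ HH K e → u ∈ W j → j + e ≤ D →
    m * u ∈ W (j + e) := by
  induction e with
  | zero =>
    intro m u j hm hu _
    have h1 : m = C (coeff 0 m) := by
      have := (show m.IsHomogeneous 0 from hm).totalDegree_le
      exact (totalDegree_eq_zero_iff_eq_C.1 (by omega))
    rw [h1, ← smul_eq_C_mul]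
    exact (W j).smul_mem _ hu
  | succ e ih =>
    intro m u j hm hu hD
    obtain ⟨w, hw, rfl⟩ := form_succ hm
    rw [Finset.sum_mul]
    refine sum_mem fun i _ => ?_
    have h1 := ih (hw i) hu (by omega)
    have h2 := hF.step (j + e) (by omega) i _ h1
    rw [show j + (e + 1) = j + e + 1 by ring]
    rwa [mul_assoc]

end Fam

variable {N : Type*} [Fintype N]

/-- The space of coefficients of a generator of degree `dg n` in degree `j`. -/
def YY (dg : N → ℕ) (j : ℕ) (n : N) : Submodule K (S3 K) :=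
  if dg n ≤ j then HH K (j - dg n) else ⊥

omit [Fintype N] in
theorem mem_YY {dg : N → ℕ} {j : ℕ} {n : N} {u : S3 K} :
    u ∈ (YY dg j n : Submodule K (S3 K)) ↔ (dg n ≤ j ∧ u ∈ HH K (j - dg n)) ∨ (j < dg n ∧ u = 0) := by
  unfold YY
  split_ifs with h
  · constructor
    · exact fun hu => Or.inl ⟨h, hu⟩
    · rintro (⟨-, hu⟩ | ⟨h2, -⟩)
      · exact hu
      · omega
  · rw [Submodule.mem_bot]
    constructor
    · exact fun hu => Or.inr ⟨by omega, hu⟩
    · rintro (⟨h2, -⟩ | ⟨-, hu⟩)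
      · omega
      · exact hu

omit [Fintype N] in
theorem YY_of_le {dg : N → ℕ} {j : ℕ} {n : N} (h : dg n ≤ j) :
    (YY dg j n : Submodule K (S3 K)) = HH K (j - dg n) := by
  unfold YY; rw [if_pos h]

omit [Fintype N] in
theorem YY_of_lt {dg : N → ℕ} {j : ℕ} {n : N} (h : j < dg n) :
    (YY dg j n : Submodule K (S3 K)) = ⊥ := by
  unfold YY; rw [if_neg (by omega)]

instance fdYY (dg : N → ℕ) (j : ℕ) (n : N) : FiniteDimensional K (YY dg j n : Submodule K (S3 K)) := by
  by_cases h : dg n ≤ j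
  · rw [YY_of_le h]; infer_instance
  · rw [YY_of_lt (by omega)]; infer_instance

omit [Fintype N] in
theorem finrank_YY (dg : N → ℕ) (j : ℕ) (n : N) :
    finrank K (YY dg j n : Submodule K (S3 K)) = if dg n ≤ j then DD (j - dg n) else 0 := by
  by_cases h : dg n ≤ j
  · rw [YY_of_le h, if_pos h]; exact finrank_HH _
  · rw [YY_of_lt (by omega), if_neg h]; exact finrank_bot _ _

omit [Fintype N] in
theorem YY_mul {dg : N → ℕ} {j e : ℕ} {n : N} {m u : S3 K} (hm : m ∈ HH K e)
    (hu : u ∈ (YY dg j n : Submodule K (S3 K))) : m * u ∈ (YY dg (j + e) n : Submodule K (S3 K)) := by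
  rcases mem_YY.1 hu with ⟨h1, h2⟩ | ⟨-, rfl⟩
  · rw [YY_of_le (by omega)]
    have h3 := mul_mem_HH hm h2
    rwa [show j - dg n + e = j + e - dg n by omega] at h3
  · rw [mul_zero]
    exact Submodule.zero_mem _

/-- Vectors of coefficients in degree `j`. -/
def piY (dg : N → ℕ) (j : ℕ) : Submodule K (N → S3 K) :=
  Submodule.pi Set.univ (YY dg j)

omit [Fintype N] in
theorem mem_piY {dg : N → ℕ} {j : ℕ} {σ : N → S3 K} :
    σ ∈ (piY dg j : Submodule K (N → S3 K)) ↔ ∀ n, σ n ∈ (YY dg j n : Submodule K (S3 K)) := by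
  simp [piY, Submodule.mem_pi]

/-- The dimension of the space of coefficient vectors. -/
theorem finrank_piY (dg : N → ℕ) (j : ℕ) :
    finrank K (piY dg j : Submodule K (N → S3 K)) = ∑ n, finrank K (YY dg j n : Submodule K (S3 K)) := by
  let E : (piY dg j : Submodule K (N → S3 K)) ≃ₗ[K] (∀ n, (YY dg j n : Submodule K (S3 K))) :=
    { toFun := fun x n => ⟨x.1 n, mem_piY.1 x.2 n⟩
      invFun := fun y => ⟨fun n => (y n).1, mem_piY.2 fun n => (y n).2⟩
      left_inv := fun x => rfl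
      right_inv := fun y => rfl
      map_add' := fun x y => rfl
      map_smul' := fun c x => rfl }
  rw [E.finrank_eq, Module.finrank_pi_fintype]

/-- The combination map. -/
def lc (g : N → S3 K) : (N → S3 K) →ₗ[K] S3 K :=
  ∑ n, (LinearMap.mulRight K (g n)).comp (LinearMap.proj n)

theorem lc_apply (g σ : N → S3 K) : lc g σ = ∑ n, σ n * g n := by
  simp [lc, LinearMap.sum_apply]

/-- The syzygies of degree `j`. -/
def Zs (g : N → S3 K) (dg : N → ℕ) (j : ℕ) : Submodule K (N → S3 K) :=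
  piY dg j ⊓ LinearMap.ker (lc g)

theorem mem_Zs {g : N → S3 K} {dg : N → ℕ} {j : ℕ} {σ : N → S3 K} :
    σ ∈ Zs g dg j ↔ (∀ n, σ n ∈ (YY dg j n : Submodule K (S3 K))) ∧ ∑ n, σ n * g n = 0 := by
  simp only [Zs, Submodule.mem_inf, mem_piY, LinearMap.mem_ker, lc_apply]

/-- Multiplication of a vector by a form. -/
def mulF (m : S3 K) : (N → S3 K) →ₗ[K] (N → S3 K) :=
  (LinearMap.mulLeft K m).compLeft N

omit [Fintype N] in
@[simp] theorem mulF_apply (m : S3 K) (σ : N → S3 K) (n : N) : mulF m σ n = m * σ n := rfl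

theorem mulF_mem_Zs {g : N → S3 K} {dg : N → ℕ} {j e : ℕ} {m : S3 K} {σ : N → S3 K}
    (hm : m ∈ HH K e) (hσ : σ ∈ Zs g dg j) : mulF m σ ∈ Zs g dg (j + e) := by
  rw [mem_Zs] at hσ ⊢
  refine ⟨fun n => YY_mul hm (hσ.1 n), ?_⟩
  simp only [mulF_apply, mul_assoc]
  rw [← Finset.mul_sum, hσ.2, mul_zero]

/-- Syzygies obtained from the previous degree. -/
def RR (g : N → S3 K) (dg : N → ℕ) : ℕ → Submodule K (N → S3 K)
  | 0 => ⊥
  | j + 1 => ⨆ i : Fin 3, (Zs g dg j).map (mulF (X i))

theorem form1_eq {m : S3 K} (hm : m ∈ HH K 1) :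
    ∃ c : Fin 3 → K, m = ∑ i, C (c i) * X i := by
  obtain ⟨w, hw, rfl⟩ := form_succ hm
  have h1 : ∀ i, ∃ c : K, w i = C c := by
    intro i
    refine ⟨coeff 0 (w i), ?_⟩
    have := (show (w i).IsHomogeneous 0 from hw i).totalDegree_le
    exact (totalDegree_eq_zero_iff_eq_C.1 (by omega))
  choose c hc using h1
  refine ⟨c, Finset.sum_congr rfl fun i _ => ?_⟩
  rw [hc i]
  ring

theorem mulF_mem_RR {g : N → S3 K} {dg : N → ℕ} {j : ℕ} {m : S3 K} {σ : N → S3 K}
    (hm : m ∈ HH K 1) (hσ : σ ∈ Zs g dg j) : mulF m σ ∈ RR g dg (j + 1) := by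
  obtain ⟨c, rfl⟩ := form1_eq hm
  have h1 : mulF (∑ i, C (c i) * X i) σ = ∑ i, c i • mulF (X i) σ := by
    ext1 n
    simp only [mulF_apply, Finset.sum_apply, Pi.smul_apply, Finset.sum_mul]
    refine Finset.sum_congr rfl fun i _ => ?_
    rw [smul_eq_C_mul]
    ring
  rw [h1]
  refine sum_mem fun i _ => Submodule.smul_mem _ _ ?_
  exact Submodule.mem_iSup_of_mem i (Submodule.mem_map_of_mem hσ)

theorem RR_le (g : N → S3 K) (dg : N → ℕ) (j : ℕ) : RR g dg j ≤ Zs g dg j := by
  cases j with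
  | zero => exact bot_le
  | succ j =>
    refine iSup_le fun i => ?_
    rintro _ ⟨σ, hσ, rfl⟩
    exact mulF_mem_Zs (isHomogeneous_X K i) hσ

omit [Fintype N] in
/-- Choice of complements. -/
theorem exists_compl (Z R' : Submodule K (N → S3 K)) [FiniteDimensional K Z] (h : R' ≤ Z) :
    ∃ (m : ℕ) (r : Fin m → N → S3 K), (∀ i, r i ∈ Z) ∧
      (∀ β : Fin m → K, ∑ i, β i • r i ∈ R' → β = 0) ∧ Z ≤ R' ⊔ Submodule.span K (Set.range r) := by
  obtain ⟨C', hC⟩ := Submodule.exists_isCompl R'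
  let B := C' ⊓ Z
  have : FiniteDimensional K B := Submodule.finiteDimensional_of_le inf_le_right
  let b := finBasis K B
  refine ⟨finrank K B, fun i => (b i : N → S3 K), fun i => (b i).2.2, ?_, ?_⟩
  · intro β hβ
    have h1 : (∑ i, β i • b i : B) = 0 := by
      apply Subtype.ext
      have h2 : ((∑ i, β i • b i : B) : N → S3 K) = ∑ i, β i • (b i : N → S3 K) := by simp
      have h3 : ∑ i, β i • (b i : N → S3 K) ∈ R' ⊓ C' :=
        ⟨hβ, by rw [← h2]; exact (∑ i, β i • b i : B).2.1⟩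
      rw [hC.disjoint.eq_bot, Submodule.mem_bot] at h3
      rw [h2, h3]
      rfl
    funext i
    exact Fintype.linearIndependent_iff.1 b.linearIndependent β h1 i
  · intro z hz
    have h1 : z ∈ R' ⊔ C' := by rw [hC.sup_eq_top]; trivial
    obtain ⟨x, hx, y, hy, rfl⟩ := Submodule.mem_sup.1 h1
    refine Submodule.add_mem_sup hx ?_
    have hyB : y ∈ B := ⟨hy, by have := Z.sub_mem hz (h hx); simpa using this⟩
    have h3 : (⟨y, hyB⟩ : B) = ∑ i, (b.repr ⟨y, hyB⟩ i) • b i := (b.sum_repr _).symm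
    have h4 : y = ∑ i, (b.repr ⟨y, hyB⟩ i) • (b i : N → S3 K) := by
      have h5 : ((∑ i, (b.repr ⟨y, hyB⟩ i) • b i : B) : N → S3 K) =
          ∑ i, (b.repr ⟨y, hyB⟩ i) • (b i : N → S3 K) := by
        simp only [AddSubmonoidClass.coe_finsetSum, SetLike.val_smul]
      have h6 := congrArg Subtype.val h3
      rw [h5] at h6
      exact h6
    rw [h4]
    exact sum_mem fun i _ => Submodule.smul_mem _ _ (Submodule.subset_span ⟨i, rfl⟩)

section rows

variable {W : ℕ → Submodule K (S3 K)} {D : ℕ} {g : N → S3 K} {dg : N → ℕ}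

/-- The family of generators generates the family of subspaces. -/
structure Gens (W : ℕ → Submodule K (S3 K)) (D : ℕ) (g : N → S3 K) (dg : N → ℕ) : Prop where
  mem : ∀ n, dg n ≤ D → g n ∈ W (dg n)
  gen : ∀ j ≤ D, ∀ u ∈ W j, ∃ c, c ∈ (piY dg j : Submodule K (N → S3 K)) ∧ u = ∑ n, c n * g n

theorem lc_mem (hF : Fam W D) (hG : Gens W D g dg) {j : ℕ} (hj : j ≤ D) {c : N → S3 K}
    (hc : c ∈ (piY dg j : Submodule K (N → S3 K))) : ∑ n, c n * g n ∈ W j := by
  refine sum_mem fun n _ => ?_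
  rcases mem_YY.1 (mem_piY.1 hc n) with ⟨h1, h2⟩ | ⟨-, h2⟩
  · have h3 := hF.mul_mem h2 (hG.mem n (by omega)) (by omega)
    rwa [show dg n + (j - dg n) = j by omega] at h3
  · rw [h2, zero_mul]
    exact Submodule.zero_mem _

instance fdPiY (dg : N → ℕ) (j : ℕ) : FiniteDimensional K (piY dg j : Submodule K (N → S3 K)) := by
  let E : (piY dg j : Submodule K (N → S3 K)) →ₗ[K] (∀ n, (YY dg j n : Submodule K (S3 K))) :=
    { toFun := fun x n => ⟨x.1 n, mem_piY.1 x.2 n⟩
      map_add' := fun x y => rfl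
      map_smul' := fun c x => rfl }
  refine FiniteDimensional.of_injective E ?_
  intro x y h
  apply Subtype.ext
  funext n
  exact congrArg Subtype.val (congrFun h n)

instance fdZs (g : N → S3 K) (dg : N → ℕ) (j : ℕ) : FiniteDimensional K (Zs g dg j) :=
  Submodule.finiteDimensional_of_le inf_le_left

/-- The map taking a vector of coefficients to the combination of rows. -/
def Phi {κ : Type*} [Fintype κ] (T : κ → N → S3 K) : (κ → S3 K) →ₗ[K] (N → S3 K) where
  toFun := fun y n => ∑ k, y k * T k n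
  map_add' := by
    intro x y
    funext n
    simp only [Pi.add_apply, add_mul, Finset.sum_add_distrib]
  map_smul' := by
    intro c x
    funext n
    simp only [Pi.smul_apply, RingHom.id_apply, Finset.smul_sum, smul_mul_assoc]

omit [Fintype N] in
theorem Phi_apply {κ : Type*} [Fintype κ] (T : κ → N → S3 K) (y : κ → S3 K) (n : N) :
    Phi T y n = ∑ k, y k * T k n := rfl

/-- The row data. -/
structure RowsD {κ : Type*} [Fintype κ] (g : N → S3 K) (dg : N → ℕ) (D : ℕ)
    (τ : κ → ℕ) (T : κ → N → S3 K) : Prop where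
  mem : ∀ k, T k ∈ Zs g dg (τ k)
  tle : ∀ k, τ k ≤ D
  gen : ∀ j ≤ D, Zs g dg j ≤ (piY τ j).map (Phi T)
  min : ∀ j ≤ D, ∀ α : κ → K, (∑ k, if τ k = j then α k • T k else 0) ∈ RR g dg j →
    ∀ k, τ k = j → α k = 0

theorem exists_rows [DecidableEq N] (g : N → S3 K) (dg : N → ℕ) (D : ℕ) :
    ∃ (κ : Type) (_ : Fintype κ) (_ : DecidableEq κ) (τ : κ → ℕ) (T : κ → N → S3 K),
      RowsD g dg D τ T := by
  have h := fun j => exists_compl (Zs g dg j) (RR g dg j) (RR_le g dg j)
  choose m r hr1 hr2 hr3 using h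
  let τ : (Σ j : Fin (D + 1), Fin (m j)) → ℕ := fun k => (k.1 : ℕ)
  let T : (Σ j : Fin (D + 1), Fin (m j)) → N → S3 K := fun k => r k.1 k.2
  refine ⟨Σ j : Fin (D + 1), Fin (m j), inferInstance, inferInstance, τ, T, ?_⟩
  refine ⟨fun k => hr1 _ _, fun k => by have := k.1.2; simp only [τ]; omega, ?_, ?_⟩
  · intro j
    induction j with
    | zero =>
      intro hj
      refine (hr3 0).trans (sup_le bot_le ?_)
      rw [Submodule.span_le]
      rintro _ ⟨i, rfl⟩
      let k₀ : (Σ j : Fin (D + 1), Fin (m j)) := ⟨⟨0, by omega⟩, i⟩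
      refine ⟨Pi.single k₀ 1, ?_, ?_⟩
      · rw [SetLike.mem_coe, mem_piY]
        intro k
        by_cases hk : k = k₀
        · subst hk
          simp only [Pi.single_eq_same]
          refine mem_YY.2 (Or.inl ⟨by simp [τ, k₀], ?_⟩)
          have h0 : 0 - τ k₀ = 0 := by simp [τ, k₀]
          rw [h0]
          exact isHomogeneous_one (Fin 3) K
        · rw [Pi.single_eq_of_ne hk]
          exact Submodule.zero_mem _
      · funext n
        simp [Phi_apply, Pi.single_apply, T, k₀]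
    | succ j ih =>
      intro hj
      have hIH := ih (by omega)
      refine (hr3 (j + 1)).trans (sup_le ?_ ?_)
      · refine iSup_le fun i => ?_
        rintro _ ⟨σ, hσ, rfl⟩
        obtain ⟨y, hy, rfl⟩ := hIH hσ
        refine ⟨mulF (X i) y, ?_, ?_⟩
        · rw [SetLike.mem_coe, mem_piY]
          intro k
          exact YY_mul (isHomogeneous_X K i) (mem_piY.1 hy k)
        · funext n
          simp only [Phi_apply, mulF_apply, Finset.mul_sum, mul_assoc]
      · rw [Submodule.span_le]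
        rintro _ ⟨i, rfl⟩
        let k₀ : (Σ j : Fin (D + 1), Fin (m j)) := ⟨⟨j + 1, by omega⟩, i⟩
        refine ⟨Pi.single k₀ 1, ?_, ?_⟩
        · rw [SetLike.mem_coe, mem_piY]
          intro k
          by_cases hk : k = k₀
          · subst hk
            simp only [Pi.single_eq_same]
            refine mem_YY.2 (Or.inl ⟨by simp [τ, k₀], ?_⟩)
            have h0 : j + 1 - τ k₀ = 0 := by simp [τ, k₀]
            rw [h0]
            exact isHomogeneous_one (Fin 3) K
          · rw [Pi.single_eq_of_ne hk]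
            exact Submodule.zero_mem _
        · funext n
          simp [Phi_apply, Pi.single_apply, T, k₀]
  · intro j hj α hα k hk
    obtain ⟨j₀, rfl⟩ : ∃ j₀ : Fin (D + 1), (j₀ : ℕ) = j := ⟨⟨j, by omega⟩, rfl⟩
    have h1 : (∑ k, if τ k = (j₀ : ℕ) then α k • T k else 0) = ∑ i : Fin (m j₀), α ⟨j₀, i⟩ • r j₀ i := by
      rw [Fintype.sum_sigma]
      rw [Finset.sum_eq_single j₀]
      · refine Finset.sum_congr rfl fun i _ => ?_
        simp [τ, T]
      · intro b _ hb
        apply Finset.sum_eq_zero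
        intro i _
        rw [if_neg]
        intro h2
        apply hb
        exact Fin.ext h2
      · simp
    rw [h1] at hα
    have h2 := hr2 j₀ (fun i => α ⟨j₀, i⟩) hα
    obtain ⟨k1, k2⟩ := k
    have hk1 : k1 = j₀ := Fin.ext hk
    subst hk1
    exact congrFun h2 k2

/-- The data of a point and three linear forms adapted to it. -/
structure Pt (m₁ m₂ m₃ : S3 K) (v : Fin 3 → K) : Prop where
  h1 : m₁ ∈ HH K 1
  h2 : m₂ ∈ HH K 1
  h3 : m₃ ∈ HH K 1
  e1 : eval v m₁ = 0
  e2 : eval v m₂ = 0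
  e3 : eval v m₃ = 1
  sp : ∀ i, ∃ a b c : K, X i = C a * m₁ + C b * m₂ + C c * m₃
  nz : NZ (adj ⊥ m₁) m₂
  ne : m₁ ≠ 0

theorem const_of_HH0' {u : S3 K} (hu : u ∈ HH K 0) (v : Fin 3 → K) : u = C (eval v u) := by
  have h1 : u = C (coeff 0 u) := by
    have := (show u.IsHomogeneous 0 from hu).totalDegree_le
    exact (totalDegree_eq_zero_iff_eq_C.1 (by omega))
  rw [h1]
  simp

/-- Decomposition of a form along the point. -/
theorem pt_decomp {m₁ m₂ m₃ : S3 K} {v : Fin 3 → K} (P : Pt m₁ m₂ m₃ v) (e : ℕ) :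
    ∀ u ∈ HH K e, ∃ A B : S3 K, A ∈ HH K (e - 1) ∧ B ∈ HH K (e - 1) ∧ (e = 0 → A = 0 ∧ B = 0) ∧
      u = C (eval v u) * m₃ ^ e + m₁ * A + m₂ * B := by
  induction e with
  | zero =>
    intro u hu
    refine ⟨0, 0, Submodule.zero_mem _, Submodule.zero_mem _, fun _ => ⟨rfl, rfl⟩, ?_⟩
    simpa using const_of_HH0' hu v
  | succ e ih =>
    intro u hu
    obtain ⟨w, hw, rfl⟩ := form_succ hu
    have h1 := fun i => ih (w i) (hw i)
    choose A B hA hB h0 hAB using h1
    have h2 := P.sp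
    choose a b c habc using h2
    have hmA : ∀ i, m₃ * A i ∈ HH K e := by
      intro i
      by_cases he : e = 0
      · rw [(h0 i he).1, mul_zero]
        exact Submodule.zero_mem _
      · have := mul_mem_HH P.h3 (hA i)
        rwa [show e - 1 + 1 = e by omega] at this
    have hmB : ∀ i, m₃ * B i ∈ HH K e := by
      intro i
      by_cases he : e = 0
      · rw [(h0 i he).2, mul_zero]
        exact Submodule.zero_mem _
      · have := mul_mem_HH P.h3 (hB i)
        rwa [show e - 1 + 1 = e by omega] at this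
    have hC : ∀ (x : K) {n : ℕ} {y : S3 K}, y ∈ HH K n → C x * y ∈ HH K n := by
      intro x n y hy
      rw [← smul_eq_C_mul]
      exact Submodule.smul_mem _ _ hy
    refine ⟨∑ i, (C (a i) * w i + C (c i) * (m₃ * A i)),
      ∑ i, (C (b i) * w i + C (c i) * (m₃ * B i)), ?_, ?_, fun h => by omega, ?_⟩
    · simp only [Nat.add_sub_cancel]
      exact sum_mem fun i _ => Submodule.add_mem _ (hC _ (hw i)) (hC _ (hmA i))
    · simp only [Nat.add_sub_cancel]
      exact sum_mem fun i _ => Submodule.add_mem _ (hC _ (hw i)) (hC _ (hmB i))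
    · have h3 : eval v (∑ i, X i * w i) = ∑ i, c i * eval v (w i) := by
        rw [map_sum]
        refine Finset.sum_congr rfl fun i _ => ?_
        rw [map_mul, habc i]
        simp [P.e1, P.e2, P.e3]
      rw [h3, map_sum, Finset.sum_mul, Finset.mul_sum, Finset.mul_sum,
        ← Finset.sum_add_distrib, ← Finset.sum_add_distrib]
      refine Finset.sum_congr rfl fun i _ => ?_
      have h4 := hAB i
      rw [map_mul, pow_succ]
      calc X i * w i = (C (a i) * m₁ + C (b i) * m₂ + C (c i) * m₃) * w i := by rw [← habc i]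
        _ = C (a i) * m₁ * w i + C (b i) * m₂ * w i +
            C (c i) * m₃ * (C (eval v (w i)) * m₃ ^ e + m₁ * A i + m₂ * B i) := by
          rw [← h4]; ring
        _ = _ := by ring

/-- Two coprime linear forms. -/
theorem pt_coprime {m₁ m₂ m₃ : S3 K} {v : Fin 3 → K} (P : Pt m₁ m₂ m₃ v) {u₁ u₂ : S3 K} {e : ℕ}
    (hu₂ : u₂ ∈ HH K e) (h : m₁ * u₁ + m₂ * u₂ = 0) :
    (e = 0 → u₁ = 0 ∧ u₂ = 0) ∧ ∃ w ∈ HH K (e - 1), u₁ = m₂ * w ∧ u₂ = - (m₁ * w) := by
  have h1 : m₂ * u₂ ∈ adj ⊥ m₁ := by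
    refine mem_adj.2 ⟨0, Ideal.zero_mem _, -u₁, ?_⟩
    linear_combination h
  obtain ⟨a, ha, w', hw'⟩ := mem_adj.1 (P.nz u₂ h1)
  have ha0 : a = 0 := by simpa using ha
  rw [ha0, zero_add] at hw'
  have h2 : u₁ = - (m₂ * w') := by
    apply mul_left_cancel₀ P.ne
    rw [hw'] at h
    linear_combination h
  have h3 : u₂ = homogeneousComponent e (w' * m₁) := by
    rw [← hw', homogeneousComponent_of_mem hu₂]; simp
  cases e with
  | zero =>
    rw [hc_mul_of_lt P.h1 w' (by omega)] at h3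
    have h4 : w' = 0 := by
      rw [h3] at hw'
      rcases mul_eq_zero.1 hw'.symm with h5 | h5
      · exact h5
      · exact absurd h5 P.ne
    have h5 : u₁ = 0 := by rw [h2, h4]; simp
    exact ⟨fun _ => ⟨h5, h3⟩, 0, Submodule.zero_mem _, by simp [h5], by simp [h3]⟩
  | succ e =>
    rw [hc_mul_of_mem P.h1] at h3
    refine ⟨fun h => by omega, - homogeneousComponent e w', ?_, ?_, ?_⟩
    · exact Submodule.neg_mem _ (homogeneousComponent_mem _ _)
    · -- compare: m₁ u₁ = - m₂ u₂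
      apply mul_left_cancel₀ P.ne
      rw [h3] at h
      linear_combination h
    · rw [h3]; ring

end rows

end Vale.Agent.Lib.P200
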