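import Vale.Agent.Lib.P200.Low

/-!
First part of the inductive step: saturation, the Hall condition, the general linear form.
-/

noncomputable section

namespace Vale.Agent.Lib.P200

open MvPolynomial Module

variable {K : Type*} [Field K]

/-- A truncated graded family containing the ideal `𝔠`. -/
structure CFam (𝔠 : Ideal (S3 K)) (W : ℕ → Submodule K (S3 K)) (D : ℕ) : Prop where
  fam : Fam W D
  con : ∀ j ≤ D, comp 𝔠 j ≤ W j

/-- The Hilbert function of the family. -/
def HW (W : ℕ → Submodule K (S3 K)) (j : ℕ) : ℤ := (DD j : ℤ) - finrank K (W j)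

theorem HW_nonneg {W : ℕ → Submodule K (S3 K)} {j : ℕ} (h : W j ≤ HH K j) : 0 ≤ HW W j := by
  unfold HW
  have := Submodule.finrank_mono h
  rw [finrank_HH] at this
  have h2 : (finrank K (W j) : ℤ) ≤ DD j := by exact_mod_cast this
  linarith

/-- Saturation of a family below degree `d`. -/
def Sat (W : ℕ → Submodule K (S3 K)) (d j : ℕ) : Submodule K (S3 K) :=
  if j ≤ d then
    { carrier := {u | u ∈ HH K j ∧ ∀ v ∈ HH K (d - j), v * u ∈ W d}
      add_mem' := by
        rintro x y ⟨hx, hx'⟩ ⟨hy, hy'⟩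
        refine ⟨Submodule.add_mem _ hx hy, fun v hv => ?_⟩
        rw [mul_add]
        exact Submodule.add_mem _ (hx' v hv) (hy' v hv)
      zero_mem' := ⟨Submodule.zero_mem _, fun v _ => by
        rw [mul_zero]; exact Submodule.zero_mem _⟩
      smul_mem' := by
        rintro c x ⟨hx, hx'⟩
        refine ⟨Submodule.smul_mem _ _ hx, fun v hv => ?_⟩
        rw [mul_smul_comm]
        exact Submodule.smul_mem _ _ (hx' v hv) }
  else W j

theorem mem_Sat {W : ℕ → Submodule K (S3 K)} {d j : ℕ} (h : j ≤ d) {u : S3 K} :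
    u ∈ Sat W d j ↔ u ∈ HH K j ∧ ∀ v ∈ HH K (d - j), v * u ∈ W d := by
  unfold Sat
  rw [if_pos h]
  rfl

theorem Sat_top {W : ℕ → Submodule K (S3 K)} {d : ℕ} (h : W d ≤ HH K d) : Sat W d d = W d := by
  ext u
  rw [mem_Sat le_rfl]
  constructor
  · rintro ⟨-, h2⟩
    have := h2 1 (by
      rw [Nat.sub_self]
      exact isHomogeneous_one (Fin 3) K)
    simpa using this
  · intro hu
    refine ⟨h hu, fun v hv => ?_⟩
    rw [Nat.sub_self] at hv
    obtain ⟨k, rfl⟩ := const_of_HH0 hv
    rw [← smul_eq_C_mul]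
    exact Submodule.smul_mem _ _ hu

theorem Sat_succ (W : ℕ → Submodule K (S3 K)) (d : ℕ) : Sat W d (d + 1) = W (d + 1) := by
  unfold Sat
  rw [if_neg (by omega)]

theorem CFam.sat {𝔠 : Ideal (S3 K)} {W : ℕ → Submodule K (S3 K)} {d : ℕ} (h : CFam 𝔠 W (d + 1)) :
    CFam 𝔠 (Sat W d) (d + 1) := by
  have htop := Sat_top (h.fam.le d (by omega))
  have hss := Sat_succ W d
  refine ⟨⟨?_, ?_⟩, ?_⟩
  · intro j hj
    by_cases hjd : j ≤ d
    · intro u hu
      exact ((mem_Sat hjd).1 hu).1
    · have : j = d + 1 := by omega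
      subst this
      rw [hss]
      exact h.fam.le _ le_rfl
  · intro j hj i u hu
    by_cases hjd : j < d
    · rw [mem_Sat (by omega)] at hu ⊢
      refine ⟨?_, fun v hv => ?_⟩
      · exact (by
          have := mul_mem_HH (isHomogeneous_X K i) hu.1
          exact this)
      · have h1 : v * X i ∈ HH K (d - j) := by
          have := mul_mem_HH (isHomogeneous_X K i) hv
          rw [show d - (j + 1) + 1 = d - j by omega, mul_comm] at this
          exact this
        have h2 := hu.2 _ h1
        rwa [mul_assoc] at h2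
    · have : j = d := by omega
      subst this
      rw [hss]
      rw [htop] at hu
      exact h.fam.step _ (by omega) i u hu
  · intro j hj u hu
    by_cases hjd : j ≤ d
    · rw [mem_Sat hjd]
      refine ⟨comp_le _ _ hu, fun v hv => ?_⟩
      have h1 := h.fam.mul_mem hv (h.con j hj hu) (by omega)
      rwa [show j + (d - j) = d by omega] at h1
    · have : j = d + 1 := by omega
      subst this
      rw [hss]
      exact h.con _ le_rfl hu

/-- Saturated families have no socle below the top degree. -/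
theorem Sat_free {W : ℕ → Submodule K (S3 K)} {d j : ℕ} (hj : j < d) {u : S3 K} (hu : u ∈ HH K j)
    (hX : ∀ i, X i * u ∈ Sat W d (j + 1)) : u ∈ Sat W d j := by
  rw [mem_Sat (by omega)]
  refine ⟨hu, fun v hv => ?_⟩
  obtain ⟨e, he⟩ : ∃ e, d - j = e + 1 := ⟨d - j - 1, by omega⟩
  rw [he] at hv
  obtain ⟨w, hw, rfl⟩ := form_succ hv
  rw [Finset.sum_mul]
  refine sum_mem fun i _ => ?_
  have h1 := ((mem_Sat (by omega)).1 (hX i)).2 (w i) (by
    rw [show d - (j + 1) = e by omega]
    exact hw i)
  rwa [show X i * w i * u = w i * (X i * u) by ring]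

theorem HW_sat_top {W : ℕ → Submodule K (S3 K)} {d : ℕ} (h : W d ≤ HH K d) :
    HW (Sat W d) d = HW W d := by
  unfold HW
  rw [Sat_top h]

theorem HW_sat_succ (W : ℕ → Submodule K (S3 K)) (d : ℕ) :
    HW (Sat W d) (d + 1) = HW W (d + 1) := by
  unfold HW
  rw [Sat_succ]

end Vale.Agent.Lib.P200
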