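import Vale.Agent.Lib.P200.Step1

/-!
Second part of the inductive step: the Hall condition and the adapted point.
-/

noncomputable section

namespace Vale.Agent.Lib.P200

open MvPolynomial Module

variable {K : Type*} [Field K]

theorem PP_one {b : ℤ} (hb : 1 ≤ b) (a : ℕ) (e : ℤ) : PP b 1 a e = eta b a e := by
  induction a with
  | zero =>
    rw [PP_zero]
    unfold eta
    push_cast
    omega
  | succ a ih =>
    rw [PP_succ, ih]
    unfold eta
    push_cast
    omega

theorem eta_mono_right {b a c e : ℤ} (hb : 1 ≤ b) (h : a ≤ c) : eta b a e ≤ eta b c e := by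
  unfold eta
  omega

theorem PP_le_Df {b c : ℤ} (i : ℕ) : ∀ d : ℤ, PP b c i d ≤ Df d := by
  induction i with
  | zero =>
    intro d
    rw [PP_zero]
    unfold Df
    split_ifs <;> positivity
  | succ i ih =>
    intro d
    have h1 := PP_shift b c i (d - 1)
    rw [sub_add_cancel] at h1
    rw [h1]
    have h2 := ih (d - 1)
    have h3 := Df_sub d
    have h4 : eta b c d ≤ Lf d := by
      unfold eta Lf
      omega
    linarith

theorem finrank_colon {Y : Submodule K (S3 K)} [FiniteDimensional K Y] {l : S3 K} (hl : l ≠ 0)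
    (d : ℕ) :
    finrank K ↥(Y ⊔ (HH K d).map (LinearMap.mulLeft K l)) +
      finrank K ↥(Y.comap (LinearMap.mulLeft K l) ⊓ HH K d) = finrank K Y + DD d := by
  have h1 := Submodule.finrank_sup_add_finrank_inf_eq Y ((HH K d).map (LinearMap.mulLeft K l))
  rw [finrank_map_mul hl, finrank_HH] at h1
  have h2 : Y ⊓ (HH K d).map (LinearMap.mulLeft K l) =
      (Y.comap (LinearMap.mulLeft K l) ⊓ HH K d).map (LinearMap.mulLeft K l) := by
    apply le_antisymm
    · rintro u ⟨hu1, hu2⟩
      obtain ⟨v, hv, rfl⟩ := mem_map_mul.1 hu2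
      exact mem_map_mul.2 ⟨v, ⟨hu1, hv⟩, rfl⟩
    · intro u hu
      obtain ⟨v, ⟨hv1, hv2⟩, rfl⟩ := mem_map_mul.1 hu
      exact ⟨hv1, mem_map_mul.2 ⟨v, hv2, rfl⟩⟩
  rw [h2, finrank_map_mul hl] at h1
  exact h1

variable {f p q : S3 K} {a b c : ℕ}

theorem T2_le_T3 (f p q : S3 K) : adj (adj ⊥ f) p ≤ T3 f p q := le_adj _ _

/-- The Hall condition for the pencil, obtained from the inductive hypothesis. -/
theorem hall_step [Infinite K] (h : RS f p q a b c) (hab : a ≤ b) (hbc : b ≤ c)
    {W : ℕ → Submodule K (S3 K)} {d : ℕ} (hW : CFam (T3 f p q) W (d + 1))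
    (hS : ∀ J, CFam (T3 f p q) J (d + 1) → HW J d < HW W d →
      Bd a (b : ℤ) (c : ℤ) (d : ℤ) (HW J d) (HW J (d + 1)))
    {i : ℕ} {t : ℤ} (hi : i < a) (ht0 : 0 ≤ t) (ht : t < eta b c ((d : ℤ) - i))
    (hH : HW W d = PP b c i d + t)
    (hV : PP b c i ((d : ℤ) + 1) + max (t - dl c ((d : ℤ) - i)) 0 + 1 ≤ HW W (d + 1))
    {l mA mB : S3 K} (hl : l ∈ HH K 1) (hlnz : NZ (adj (adj ⊥ f) p) l) (hmA : mA ∈ HH K 1)
    (hmB : mB ∈ HH K 1)
    (hsp : ∀ i, ∃ α β γ : K, (X i : S3 K) = C α * l + C β * mA + C γ * mB)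
    (U : Submodule K (S3 K)) (hU1 : W d ≤ U)
    (hU2 : U ≤ (W (d + 1)).comap (LinearMap.mulLeft K l) ⊓ HH K d) :
    finrank K U + finrank K (W (d + 1)) ≤
      finrank K ↥(W (d + 1) ⊔ U.map (LinearMap.mulLeft K mA) ⊔ U.map (LinearMap.mulLeft K mB)) +
        finrank K (W d) := by
  have hFd : W d ≤ HH K d := hW.fam.le d (by omega)
  have hFd1 : W (d + 1) ≤ HH K (d + 1) := hW.fam.le (d + 1) le_rfl
  have hUH : U ≤ HH K d := hU2.trans inf_le_right
  have : FiniteDimensional K U := fd_of_le hUH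
  have : FiniteDimensional K (W d) := fd_of_le hFd
  have : FiniteDimensional K (W (d + 1)) := fd_of_le hFd1
  set Y := W (d + 1) with hY
  let Z : Submodule K (S3 K) := Y ⊔ U.map (LinearMap.mulLeft K mA) ⊔ U.map (LinearMap.mulLeft K mB)
  have hmapH : ∀ m ∈ HH K 1, U.map (LinearMap.mulLeft K m) ≤ HH K (d + 1) := by
    intro m hm
    rintro _ ⟨u, hu, rfl⟩
    exact mul_mem_HH hm (hUH hu)
  have hZH : Z ≤ HH K (d + 1) := sup_le (sup_le hFd1 (hmapH mA hmA)) (hmapH mB hmB)
  have : FiniteDimensional K Z := fd_of_le hZH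
  have hYZ : Y ≤ Z := le_sup_of_le_left le_sup_left
  have hfrU := Submodule.finrank_mono hU1
  have hfrZ := Submodule.finrank_mono hYZ
  by_cases hu : finrank K U = finrank K (W d)
  · change finrank K U + finrank K Y ≤ finrank K Z + finrank K (W d)
    omega
  -- the family
  let J : ℕ → Submodule K (S3 K) := Function.update (Function.update W d U) (d + 1) Z
  have hJ1 : J (d + 1) = Z := Function.update_self _ _ _
  have hJd : J d = U := by
    simp only [J]
    rw [Function.update_of_ne (by omega), Function.update_self]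
  have hJo : ∀ j, j ≠ d → j ≠ d + 1 → J j = W j := by
    intro j h1 h2
    simp only [J]
    rw [Function.update_of_ne h2, Function.update_of_ne h1]
  have hJC : CFam (T3 f p q) J (d + 1) := by
    refine ⟨⟨?_, ?_⟩, ?_⟩
    · intro j hj
      by_cases h1 : j = d + 1
      · subst h1
        rw [hJ1]
        exact hZH
      by_cases h2 : j = d
      · subst h2
        rw [hJd]
        exact hUH
      rw [hJo j h2 h1]
      exact hW.fam.le j hj
    · intro j hj i' u hu'
      by_cases h2 : j = d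
      · subst h2
        rw [hJd] at hu'
        rw [hJ1]
        obtain ⟨α, β, γ, hx⟩ := hsp i'
        have h3 : l * u ∈ Y := (hU2 hu').1
        have h4 : X i' * u = α • (l * u) + β • (mA * u) + γ • (mB * u) := by
          rw [hx, smul_eq_C_mul, smul_eq_C_mul, smul_eq_C_mul]
          ring
        rw [h4]
        refine Submodule.add_mem _ (Submodule.add_mem _ ?_ ?_) ?_
        · exact Submodule.smul_mem _ _ (hYZ h3)
        · exact Submodule.smul_mem _ _ (Submodule.mem_sup_left (Submodule.mem_sup_right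
            (Submodule.mem_map_of_mem hu')))
        · exact Submodule.smul_mem _ _ (Submodule.mem_sup_right (Submodule.mem_map_of_mem hu'))
      · have h3 : j ≠ d + 1 := by omega
        rw [hJo j h2 h3] at hu'
        have h4 := hW.fam.step j (by omega) i' u hu'
        by_cases h5 : j + 1 = d
        · rw [h5, hJd]
          rw [h5] at h4
          exact hU1 h4
        · rw [hJo (j + 1) h5 (by omega)]
          exact h4
    · intro j hj
      by_cases h1 : j = d + 1
      · subst h1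
        rw [hJ1]
        exact (hW.con _ le_rfl).trans hYZ
      by_cases h2 : j = d
      · subst h2
        rw [hJd]
        exact (hW.con _ (by omega)).trans hU1
      rw [hJo j h2 h1]
      exact hW.con j hj
  have hHJ : HW J d = HW W d - ((finrank K U : ℤ) - finrank K (W d)) := by
    unfold HW
    rw [hJd]
    ring
  have hHJ1 : HW J (d + 1) = (DD (d + 1) : ℤ) - finrank K Z := by
    unfold HW
    rw [hJ1]
  have hupos : 0 < (finrank K U : ℤ) - finrank K (W d) := by
    have : finrank K (W d) < finrank K U := by omega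
    have h2 : (finrank K (W d) : ℤ) < finrank K U := by exact_mod_cast this
    linarith
  have hlt : HW J d < HW W d := by
    rw [hHJ]
    linarith
  have hB := hS J hJC hlt
  have hX0 : 0 ≤ HW J d := HW_nonneg (hJC.fam.le d (by omega))
  have hXlt : HW J d < PP (b : ℤ) c (i + 1) d := by
    rw [PP_succ]
    linarith
  obtain ⟨j, hj, s, hs0, hs, hsX⟩ := exists_lay hX0 hXlt
  have hB2 := hB j s (by omega) hs0 hs hsX
  -- the bound on the colength modulo `l`
  have hl0 : l ≠ 0 := ne_zero_of_nz h.one2 hlnz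
  have hcol := finrank_colon (Y := Y) hl0 d
  have : FiniteDimensional K ↥(Y ⊔ (HH K d).map (LinearMap.mulLeft K l)) := by
    infer_instance
  let c' : ℤ := (DD (d + 1) : ℤ) - finrank K ↥(Y ⊔ (HH K d).map (LinearMap.mulLeft K l))
  have hRS : RS f p l a b 1 := ⟨h.hu, h.hv, hl, h.ha, h.hb, le_rfl, h.u0, h.nz1, hlnz⟩
  have hc'le : c' ≤ eta (b : ℤ) c ((d : ℤ) + 1) := by
    have h1 := hRS.hf (d + 1)
    have h2 : comp (T3 f p l) (d + 1) ≤ Y ⊔ (HH K d).map (LinearMap.mulLeft K l) := by
      intro u hu'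
      obtain ⟨hu1, hu2⟩ := mem_comp.1 hu'
      rcases mem_adj_hom h.hA2 hl hu2 hu1 with ⟨h3, -⟩ | ⟨e, he, v, hv, x, hx, rfl⟩
      · omega
      · have he' : e = d := by omega
        subst he'
        refine Submodule.add_mem_sup ?_ ?_
        · exact hW.con _ le_rfl (comp_mono (T2_le_T3 f p q) _ hx)
        · exact mem_map_mul.2 ⟨v, hv, mul_comm _ _⟩
    have h3 := Submodule.finrank_mono h2
    have h4 : (finrank K (comp (T3 f p l) (d + 1)) : ℤ) ≤
        finrank K ↥(Y ⊔ (HH K d).map (LinearMap.mulLeft K l)) := by exact_mod_cast h3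
    push_cast at h1
    rw [PP_one (by exact_mod_cast h.hb)] at h1
    have h5 : eta (b : ℤ) a ((d : ℤ) + 1) ≤ eta (b : ℤ) c ((d : ℤ) + 1) :=
      eta_mono_right (by exact_mod_cast h.hb) (by exact_mod_cast hab.trans hbc)
    simp only [c']
    linarith
  have hUle : (finrank K U : ℤ) ≤ finrank K ↥(Y.comap (LinearMap.mulLeft K l) ⊓ HH K d) := by
    have := fd_of_le (inf_le_right : Y.comap (LinearMap.mulLeft K l) ⊓ HH K d ≤ HH K d)
    exact_mod_cast Submodule.finrank_mono hU2
  have hcol' : (finrank K ↥(Y ⊔ (HH K d).map (LinearMap.mulLeft K l)) : ℤ) +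
      finrank K ↥(Y.comap (LinearMap.mulLeft K l) ⊓ HH K d) = finrank K Y + DD d := by
    exact_mod_cast hcol
  have hUU : HW W (d + 1) ≤ PP (b : ℤ) c j d + s + c' := by
    rw [← hsX, hHJ]
    have e1 : HW W d = (DD d : ℤ) - finrank K (W d) := rfl
    have e2 : HW W (d + 1) = (DD (d + 1) : ℤ) - finrank K Y := rfl
    rw [e1, e2]
    simp only [c']
    linarith
  have hNH := NH (by exact_mod_cast h.hb) (by exact_mod_cast hbc) ht0 ht hs0 hs
    (by rw [← hsX, ← hH]; exact hlt) hV hUU hc'le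
  rw [← hsX, ← hH] at hNH
  have h9 : (DD (d + 1) : ℤ) - finrank K Z + ((finrank K U : ℤ) - finrank K (W d)) ≤
      (DD (d + 1) : ℤ) - finrank K Y := by
    have e2 : HW W (d + 1) = (DD (d + 1) : ℤ) - finrank K Y := rfl
    rw [← hHJ1, ← e2]
    rw [hHJ] at hNH
    linarith
  have h10 : (finrank K U : ℤ) + finrank K Y ≤ finrank K Z + finrank K (W d) := by linarith
  exact_mod_cast h10

/-- The point and the two linear forms, with the division property. -/
theorem exists_point_data [Infinite K] (h : RS f p q a b c) (hab : a ≤ b) (hbc : b ≤ c)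
    {W : ℕ → Submodule K (S3 K)} {d : ℕ} (hW : CFam (T3 f p q) W (d + 1))
    (hfree : ∀ j < d, ∀ u ∈ HH K j, (∀ i, X i * u ∈ W (j + 1)) → u ∈ W j)
    (hS : ∀ J, CFam (T3 f p q) J (d + 1) → HW J d < HW W d →
      Bd a (b : ℤ) (c : ℤ) (d : ℤ) (HW J d) (HW J (d + 1)))
    {i : ℕ} {t : ℤ} (hi : i < a) (ht0 : 0 ≤ t) (ht : t < eta b c ((d : ℤ) - i))
    (hH : HW W d = PP b c i d + t)
    (hV : PP b c i ((d : ℤ) + 1) + max (t - dl c ((d : ℤ) - i)) 0 + 1 ≤ HW W (d + 1)) :
    ∃ (m₁ m₂ m₃ : S3 K) (v : Fin 3 → K), Pt m₁ m₂ m₃ v ∧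
      ∀ e, e + 1 ≤ d + 1 → ∀ w ∈ HH K e, m₁ * w ∈ W (e + 1) → m₂ * w ∈ W (e + 1) → w ∈ W e := by
  obtain ⟨l, hl, hlnz⟩ := exists_linear h.hu h.u0 h.nz1
  have hl0 : l ≠ 0 := ne_zero_of_nz h.one2 hlnz
  obtain ⟨mA, mB, hmA, hmB, hsp, hpts⟩ := exists_frame hl hl0
  have hFd : W d ≤ HH K d := hW.fam.le d (by omega)
  have hFd1 : W (d + 1) ≤ HH K (d + 1) := hW.fam.le (d + 1) le_rfl
  have : FiniteDimensional K (W (d + 1)) := fd_of_le hFd1
  let V₁ : Submodule K (S3 K) := (W (d + 1)).comap (LinearMap.mulLeft K l) ⊓ HH K d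
  have : FiniteDimensional K V₁ := fd_of_le inf_le_right
  have h01 : W d ≤ V₁ := by
    intro u hu
    refine ⟨?_, hFd hu⟩
    have := hW.fam.mul_mem hl hu (by omega)
    exact this
  obtain ⟨t₀, ht₀⟩ := pencil_mod (LinearMap.mulLeft K mA) (LinearMap.mulLeft K mB) (W d) V₁ (W (d + 1))
    h01 (fun u hu => hW.fam.mul_mem hmA hu (by omega)) (fun u hu => hW.fam.mul_mem hmB hu (by omega))
    (fun U hU1 hU2 => hall_step h hab hbc hW hS hi ht0 ht hH hV hl hlnz hmA hmB hsp U hU1 hU2)
  obtain ⟨v, hv⟩ := hpts t₀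
  refine ⟨l, mA + C t₀ * mB, mB, v, hv, ?_⟩
  have key : ∀ n e, e + n = d → ∀ w ∈ HH K e, l * w ∈ W (e + 1) →
      (mA + C t₀ * mB) * w ∈ W (e + 1) → w ∈ W e := by
    intro n
    induction n with
    | zero =>
      intro e he w hw h1 h2
      have he' : e = d := by omega
      subst he'
      refine ht₀ w ⟨h1, hw⟩ ?_
      have e1 : LinearMap.mulLeft K mA w + t₀ • LinearMap.mulLeft K mB w = (mA + C t₀ * mB) * w := by
        simp only [LinearMap.mulLeft_apply, smul_eq_C_mul]
        ring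
      rw [e1]
      exact h2
    | succ n ih =>
      intro e he w hw h1 h2
      have h3 : mB * w ∈ W (e + 1) := by
        apply ih (e + 1) (by omega) _ (mul_mem_HH hmB hw)
        · have := hW.fam.mul_mem hmB h1 (by omega)
          rwa [show l * (mB * w) = mB * (l * w) by ring]
        · have := hW.fam.mul_mem hmB h2 (by omega)
          rwa [show (mA + C t₀ * mB) * (mB * w) = mB * ((mA + C t₀ * mB) * w) by ring]
      apply hfree e (by omega) w hw
      intro i'
      obtain ⟨α, β, γ, hx⟩ := hv.sp i'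
      have h4 : X i' * w = α • (l * w) + β • ((mA + C t₀ * mB) * w) + γ • (mB * w) := by
        rw [hx, smul_eq_C_mul, smul_eq_C_mul, smul_eq_C_mul]
        ring
      rw [h4]
      exact Submodule.add_mem _ (Submodule.add_mem _ (Submodule.smul_mem _ _ h1)
        (Submodule.smul_mem _ _ h2)) (Submodule.smul_mem _ _ h3)
  intro e he
  exact key (d - e) e (by omega)

end Vale.Agent.Lib.P200
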