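import Vale.Agent.Lib.P200.Step2
import Vale.Agent.Lib.P200.HB
import Vale.Agent.Lib.P200.Ker
import Vale.Agent.Lib.P200.Cnt

/-!
Third part of the inductive step: determinantal conclusions.
-/

noncomputable section

namespace Vale.Agent.Lib.P200

open MvPolynomial Module Matrix

variable {K : Type*} [Field K]

section det

variable {N κ : Type*} [Fintype N] [Fintype κ] [DecidableEq N] [DecidableEq κ]
variable {f₀ p₀ q₀ n₁ : N}

/-- The square determinant gives a form with prescribed degree. -/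
theorem det_step (hne : f₀ ≠ n₁) (e : κ ≃ {n // n ≠ f₀ ∧ n ≠ n₁}) (T : κ → N → S3 K) (g ν : N → S3 K)
    (dg : N → ℕ) (τ : κ → ℕ) (hwt : ∀ k n, Wt (T k n) ((τ k : ℤ) - dg n))
    (hTg : ∀ k, ∑ n, T k n * g n = 0) (hTν : ∀ k, ∑ n, T k n * ν n = 0)
    (hinj : ∀ y : κ → S3 K, (∀ n, ∑ k, y k * T k n = 0) → y = 0)
    (hνf : ν f₀ = 0) (hνp : ν p₀ = 0) (hp1 : p₀ ≠ f₀) (hp2 : p₀ ≠ n₁) (hν : ν n₁ ≠ 0)
    (hfH : g f₀ ∈ HH K (dg f₀)) (hf : g f₀ ≠ 0) (hp : ∀ u, g f₀ ∣ g p₀ * u → g f₀ ∣ u) :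
    ∃ (P : S3 K) (π : ℕ), (bSq e (T : Matrix κ N (S3 K))).det = g f₀ * P ∧ P ≠ 0 ∧ P ∈ HH K π ∧
      (π : ℤ) = ∑ k, (τ k : ℤ) - ∑ n, (dg n : ℤ) + dg n₁ := by
  have h1 := det_ne hne e (T : Matrix κ N (S3 K)) g ν hTg hTν hinj hνf hν hf
  obtain ⟨P, hP⟩ := dvd_det hne e (T : Matrix κ N (S3 K)) g ν hTg hTν hνf hνp hp1 hp2 hν hp
  have hP0 : P ≠ 0 := by
    rintro rfl
    apply h1
    rw [hP, mul_zero]
  have h2 := det_wt (bSq e (T : Matrix κ N (S3 K))) (fun k => (τ k : ℤ)) (fun k => (dg (e k).1 : ℤ))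
    (fun k k' => hwt k (e k').1)
  have h3 := sum_split hne e (fun n => (dg n : ℤ))
  set w : ℤ := ∑ k, (τ k : ℤ) - ∑ k, (dg (e k).1 : ℤ) with hw
  have hw0 : 0 ≤ w := by
    by_contra hcon
    exact h1 (eq_zero_of_wt h2 (by omega))
  obtain ⟨m, hm⟩ : ∃ m : ℕ, w = m := ⟨w.toNat, by omega⟩
  rw [hm] at h2
  have h4 := mem_of_wt h2
  rw [hP] at h4
  obtain ⟨π, hπ, hPπ⟩ := hom_of_mul_left hfH hf h4 hP0
  refine ⟨P, π, hP, hP0, hPπ, ?_⟩
  have h5 : (π : ℤ) + dg f₀ = m := by exact_mod_cast hπ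
  rw [h3]
  omega

/-- The determinantal conclusion with the membership in the ideal. -/
theorem det_main (hne : f₀ ≠ n₁) (e : κ ≃ {n // n ≠ f₀ ∧ n ≠ n₁}) (T : κ → N → S3 K) (g ν : N → S3 K)
    (dg : N → ℕ) (τ : κ → ℕ) (hwt : ∀ k n, Wt (T k n) ((τ k : ℤ) - dg n))
    (hTg : ∀ k, ∑ n, T k n * g n = 0) (hTν : ∀ k, ∑ n, T k n * ν n = 0)
    (hinj : ∀ y : κ → S3 K, (∀ n, ∑ k, y k * T k n = 0) → y = 0)
    (hνf : ν f₀ = 0) (hνp : ν p₀ = 0) (hνq : ν q₀ = 0) (hp1 : p₀ ≠ f₀) (hp2 : p₀ ≠ n₁)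
    (hq1 : q₀ ≠ f₀) (hq2 : q₀ ≠ p₀) (hν : ν n₁ ≠ 0)
    (hfH : g f₀ ∈ HH K (dg f₀)) (hf : g f₀ ≠ 0) (hp0 : g p₀ ≠ 0)
    (hp : ∀ u, g f₀ ∣ g p₀ * u → g f₀ ∣ u)
    (hf' : ∀ u, g p₀ ∣ g f₀ * u → g p₀ ∣ u)
    (hq : ∀ u s t, g q₀ * u = g f₀ * s + g p₀ * t → ∃ A B, u = g f₀ * A + g p₀ * B) :
    ∃ (P : S3 K) (π : ℕ), P ≠ 0 ∧ P ∈ HH K π ∧
      (π : ℤ) = ∑ k, (τ k : ℤ) - ∑ n, (dg n : ℤ) + dg n₁ ∧ P ∈ Ideal.span (Set.range g) := by
  obtain ⟨P, π, hP, hP0, hPH, hπ⟩ := det_step hne e T g ν dg τ hwt hTg hTν hinj hνf hνp hp1 hp2 hν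
    hfH hf hp
  refine ⟨P, π, hP0, hPH, hπ, ?_⟩
  exact hb_main hne e (T : Matrix κ N (S3 K)) g ν hTg hTν hinj hνf hνp hνq hp1 hp2 hq1 hq2 hν hf hp0
    hp hf' hq hP

end det

/-- A form lying in the ideal generated by the family belongs to the family. -/
theorem mem_of_span {N : Type*} [Fintype N] {W : ℕ → Submodule K (S3 K)} {D : ℕ} (hF : Fam W D)
    {g : N → S3 K} {dg : N → ℕ} (hgH : ∀ n, g n ∈ HH K (dg n)) (hg : ∀ n, dg n ≤ D → g n ∈ W (dg n))
    {P : S3 K} {π : ℕ} (hP : P ∈ HH K π) (hπ : π ≤ D) (hmem : P ∈ Ideal.span (Set.range g)) :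
    P ∈ W π := by
  obtain ⟨c, hc⟩ := (Ideal.mem_span_range_iff_exists_fun).1 hmem
  have h1 : P = homogeneousComponent π P := by
    rw [homogeneousComponent_of_mem hP]
    simp
  rw [h1, ← hc, map_sum]
  refine sum_mem fun n _ => ?_
  by_cases h2 : dg n ≤ π
  · obtain ⟨e, he⟩ : ∃ e, π = e + dg n := ⟨π - dg n, by omega⟩
    rw [he, hc_mul_of_mem (hgH n)]
    have h3 := hF.mul_mem (homogeneousComponent_mem e (c n)) (hg n (by omega)) (by omega)
    rw [add_comm]
    exact h3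
  · rw [hc_mul_of_lt (hgH n) _ (by omega)]
    exact Submodule.zero_mem _

section minors

variable {ρ κ : Type*} [Fintype ρ] [Fintype κ] [DecidableEq ρ] [DecidableEq κ]

omit [Fintype ρ] [DecidableEq ρ] in
theorem aug_det (e : κ ≃ Option ρ) (U : Matrix κ ρ (S3 K)) (b : κ → S3 K) :
    (augM e U b).det = ∑ k, (augM e U 0).adjugate (e.symm none) k * b k := by
  have h1 : augM e U b = (augM e U 0).updateCol (e.symm none) b := by
    ext k k'
    by_cases hk : k' = e.symm none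
    · subst hk
      simp [augM]
    · rw [updateCol_ne hk]
      have h2 : e k' ≠ none := by
        intro h3
        apply hk
        rw [← h3]
        simp
      obtain ⟨x, hx⟩ := Option.ne_none_iff_exists'.1 h2
      simp [augM, hx]
  rw [h1, ← cramer_apply, cramer_eq_adjugate_mulVec]
  rfl

omit [Fintype ρ] [DecidableEq ρ] in
theorem aug_col (e : κ ≃ Option ρ) (U : Matrix κ ρ (S3 K)) (x : ρ) :
    (augM e U (fun k => U k x)).det = 0 := by
  apply det_zero_of_column_eq (i := e.symm none) (j := e.symm (some x))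
  · intro h
    have := e.symm.injective h
    simp at this
  · intro k
    simp [augM]

/-- Under a degree condition all maximal minors of the rows on `ρ` vanish. -/
theorem minors_vanish {f p q : S3 K} {a b c : ℕ} (h : RS f p q a b c) (hab : a ≤ b) (hbc : b ≤ c)
    (e : κ ≃ Option ρ) (T : κ → (Fin 3 ⊕ ρ) → S3 K) (g' : ρ → S3 K) (dg' : ρ → ℕ) (τ : κ → ℕ)
    (hwt : ∀ k n, Wt (T k n) ((τ k : ℤ) - Sum.elim ![(a : ℕ), b, c] dg' n))
    (hTg : ∀ k, ∑ n, T k n * Sum.elim ![f, p, q] g' n = 0)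
    (hinj : ∀ y : κ → S3 K, (∀ n, ∑ k, y k * T k n = 0) → y = 0)
    (hdeg : ∑ k, (τ k : ℤ) - ∑ x, (dg' x : ℤ) - b < a) :
    ∀ bb : κ → S3 K, (augM e (fun k x => T k (Sum.inr x)) bb).det = 0 := by
  set U : Matrix κ ρ (S3 K) := fun k x => T k (Sum.inr x) with hU
  let y : κ → S3 K := fun k => (augM e U 0).adjugate (e.symm none) k
  have hD : ∀ bb : κ → S3 K, (augM e U bb).det = ∑ k, y k * bb k := aug_det e U
  set Ws : ℤ := ∑ k, (τ k : ℤ) - ∑ x, (dg' x : ℤ) with hWs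
  have hcols : ∀ (i : Fin 3) (m : ℕ), ![(a : ℕ), b, c] i = m →
      Wt (augM e U (fun k => T k (Sum.inl i))).det (Ws - m) := by
    intro i m hm
    have h1 := det_wt (augM e U (fun k => T k (Sum.inl i))) (fun k => (τ k : ℤ))
      (fun k' => Option.elim (e k') (m : ℤ) (fun x => (dg' x : ℤ))) (by
        intro k k'
        simp only [augM]
        cases hk : e k' with
        | none =>
          have := hwt k (Sum.inl i)
          simpa [hm] using this
        | some x =>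
          have := hwt k (Sum.inr x)
          simpa [hU] using this)
    have h2 : ∑ k', Option.elim (e k') (m : ℤ) (fun x => (dg' x : ℤ)) = m + ∑ x, (dg' x : ℤ) := by
      rw [Equiv.sum_comp e (fun o => Option.elim o (m : ℤ) (fun x => (dg' x : ℤ))),
        Fintype.sum_option]
      simp
    rw [h2] at h1
    rw [hWs]
    convert h1 using 1
    ring
  have hA := hcols 0 a rfl
  have hB := hcols 1 b rfl
  have hC := hcols 2 c rfl
  set AA := (augM e U (fun k => T k (Sum.inl 0))).det with hAA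
  set BB := (augM e U (fun k => T k (Sum.inl 1))).det with hBB
  set CC := (augM e U (fun k => T k (Sum.inl 2))).det with hCC
  have hzero : ∀ x, ∑ k, y k * T k (Sum.inr x) = 0 := by
    intro x
    rw [← hD]
    exact aug_col e U x
  have hrel : f * AA + p * BB + q * CC = 0 := by
    have h1 : ∑ k, y k * ∑ n, T k n * Sum.elim ![f, p, q] g' n = 0 := by
      simp [hTg]
    simp only [Fintype.sum_sum_type, Fin.sum_univ_three, Sum.elim_inl, Sum.elim_inr,
      Matrix.cons_val] at h1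
    have h2 : ∑ k, y k * (T k (Sum.inl 0) * f + T k (Sum.inl 1) * p + T k (Sum.inl 2) * q +
        ∑ x, T k (Sum.inr x) * g' x) =
        f * AA + p * BB + q * CC + ∑ x, g' x * ∑ k, y k * T k (Sum.inr x) := by
      rw [hAA, hBB, hCC, hD, hD, hD, Finset.mul_sum, Finset.mul_sum, Finset.mul_sum]
      simp only [Finset.mul_sum]
      rw [Finset.sum_comm (s := Finset.univ) (t := Finset.univ) (f := fun x k => g' x * (y k * T k (Sum.inr x)))]
      rw [← Finset.sum_add_distrib, ← Finset.sum_add_distrib, ← Finset.sum_add_distrib]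
      refine Finset.sum_congr rfl fun k _ => ?_
      rw [mul_add, mul_add, mul_add]
      simp only [Finset.mul_sum]
      congr 1
      · ring
      · refine Finset.sum_congr rfl fun x _ => ?_
        ring
    rw [h2] at h1
    simpa [hzero] using h1
  -- vanishing of the third
  have hf := h.hu
  have low_van : ∀ {u : S3 K} {w : ℤ}, Wt u w → w < a → u ∈ adj ⊥ f → u = 0 := by
    intro u w hu hw hmem
    by_cases hw0 : w < 0
    · exact eq_zero_of_wt hu hw0
    · obtain ⟨m, rfl⟩ : ∃ m : ℕ, w = m := ⟨w.toNat, by omega⟩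
      have hu' := mem_of_wt hu
      rcases mem_adj_hom homIdeal_bot hf hu' hmem with ⟨-, h2⟩ | ⟨e', he', -⟩
      · simpa using h2
      · omega
  have hC0 : CC = 0 := by
    have h1 : CC ∈ adj (adj ⊥ f) p := by
      apply h.nz2
      have h2 : q * CC = - (f * AA) + (- BB) * p := by linear_combination hrel
      rw [h2]
      refine mem_adj.2 ⟨_, ?_, _, rfl⟩
      exact Ideal.neg_mem_iff _ |>.2 (Ideal.mul_mem_right _ _ (self_mem_adj _ _))
    have hlt : Ws - c < a := by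
      have : (b : ℤ) ≤ c := by exact_mod_cast hbc
      omega
    by_cases hw0 : Ws - c < 0
    · exact eq_zero_of_wt hC hw0
    · obtain ⟨m, hm⟩ : ∃ m : ℕ, Ws - c = m := ⟨(Ws - c).toNat, by omega⟩
      rw [hm] at hC hlt
      have hu' := mem_of_wt hC
      have hlt' : m < a := by exact_mod_cast hlt
      rcases mem_adj_hom h.hA1 h.hv hu' h1 with ⟨-, h2⟩ | ⟨e', he', -⟩
      · exact low_van hC hlt h2
      · omega
  have hrel2 : f * AA + p * BB = 0 := by
    rw [hC0] at hrel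
    linear_combination hrel
  have hB0 : BB = 0 := by
    apply low_van hB hdeg
    apply h.nz1
    refine mem_prin.2 ⟨-AA, ?_⟩
    linear_combination hrel2
  have hA0 : AA = 0 := by
    rw [hB0] at hrel2
    have h3 : f * AA = 0 := by linear_combination hrel2
    rcases mul_eq_zero.1 h3 with h4 | h4
    · exact absurd h4 h.u0
    · exact h4
  have hy : y = 0 := by
    apply hinj
    rintro (i | x)
    · have : ∑ k, y k * T k (Sum.inl i) = (augM e U (fun k => T k (Sum.inl i))).det := (hD _).symm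
      rw [this]
      fin_cases i
      · exact hA0
      · exact hB0
      · exact hC0
    · exact hzero x
  intro bb
  rw [hD, hy]
  simp

end minors

end Vale.Agent.Lib.P200
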