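import Vale.Agent.Lib.P200.Step3

/-!
The inductive step: the family of generators, their rows, and the contradiction.
-/

noncomputable section

namespace Vale.Agent.Lib.P200

open MvPolynomial Module Matrix

variable {K : Type*} [Field K]

theorem exists_gens {W : ℕ → Submodule K (S3 K)} {D : ℕ} (hle : ∀ j ≤ D, W j ≤ HH K j) :
    ∃ (ρ : Type) (_ : Fintype ρ) (_ : DecidableEq ρ) (g' : ρ → S3 K) (dg' : ρ → ℕ),
      (∀ x, dg' x ≤ D ∧ g' x ∈ W (dg' x)) ∧
      ∀ j ≤ D, ∀ u ∈ W j, ∃ c : ρ → K, (∀ x, dg' x ≠ j → c x = 0) ∧ u = ∑ x, C (c x) * g' x := by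
  have fd : ∀ j : Fin (D + 1), FiniteDimensional K (W j) :=
    fun j => fd_of_le (hle j (by omega))
  let b := fun j : Fin (D + 1) => finBasis K (W j)
  refine ⟨Σ j : Fin (D + 1), Fin (finrank K (W j)), inferInstance, inferInstance,
    fun x => (b x.1 x.2 : S3 K), fun x => (x.1 : ℕ), ?_, ?_⟩
  · intro x
    exact ⟨Nat.lt_succ_iff.1 x.1.2, (b x.1 x.2).2⟩
  · intro j hj u hu
    let j₀ : Fin (D + 1) := ⟨j, by omega⟩
    let y : W j₀ := ⟨u, hu⟩
    refine ⟨fun x => if h : x.1 = j₀ then (b j₀).repr y (h ▸ x.2) else 0, ?_, ?_⟩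
    · intro x hx
      have hne : x.1 ≠ j₀ := by
        intro h
        apply hx
        simp only [h, j₀]
      simp only [dif_neg hne]
    · rw [Fintype.sum_sigma, Finset.sum_eq_single j₀]
      · have h3 : y = ∑ i, (b j₀).repr y i • b j₀ i := ((b j₀).sum_repr y).symm
        have h4 := congrArg Subtype.val h3
        simp only [AddSubmonoidClass.coe_finsetSum, SetLike.val_smul] at h4
        change u = _ at h4
        rw [h4]
        refine Finset.sum_congr rfl fun i _ => ?_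
        simp [smul_eq_C_mul]
      · intro j' _ hj'
        apply Finset.sum_eq_zero
        intro i _
        simp [hj']
      · simp

section N

variable {ρ : Type*} [Fintype ρ]

/-- The family of generators. -/
def gN (f p q : S3 K) (g' : ρ → S3 K) : Fin 3 ⊕ ρ → S3 K := Sum.elim ![f, p, q] g'

/-- The degrees of the generators. -/
def dN (a b c : ℕ) (dg' : ρ → ℕ) : Fin 3 ⊕ ρ → ℕ := Sum.elim ![a, b, c] dg'

theorem sum_dN (a b c : ℕ) (dg' : ρ → ℕ) (φ : ℕ → ℤ) :
    ∑ n, φ (dN a b c dg' n) = φ a + φ b + φ c + ∑ x, φ (dg' x) := by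
  rw [Fintype.sum_sum_type, Fin.sum_univ_three]
  simp [dN]

theorem sum_gN (f p q : S3 K) (g' : ρ → S3 K) (φ : Fin 3 ⊕ ρ → S3 K) :
    ∑ n, φ n * gN f p q g' n = φ (Sum.inl 0) * f + φ (Sum.inl 1) * p + φ (Sum.inl 2) * q +
      ∑ x, φ (Sum.inr x) * g' x := by
  rw [Fintype.sum_sum_type, Fin.sum_univ_three]
  simp [gN]

end N

theorem card_two {N : Type*} [Fintype N] [DecidableEq N] {x y : N} (h : x ≠ y) :
    Fintype.card {n // n ≠ x ∧ n ≠ y} + 2 = Fintype.card N := by
  rw [Fintype.card_subtype]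
  have h1 : (Finset.univ.filter fun n => n ≠ x ∧ n ≠ y) = (Finset.univ.erase x).erase y := by
    ext n
    simp [and_comm]
  rw [h1, Finset.card_erase_of_mem (by simp [h.symm]), Finset.card_erase_of_mem (by simp),
    Finset.card_univ]
  have h2 : 2 ≤ Fintype.card N := by
    have := Fintype.one_lt_card_iff.2 ⟨x, y, h⟩
    omega
  omega

theorem PP_stable {b c : ℤ} {d π j : ℕ} (h1 : d + 1 ≤ π) (h2 : π ≤ j) :
    PP b c π d = PP b c j d := by
  induction j, h2 using Nat.le_induction with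
  | base => rfl
  | succ j hj ih =>
    rw [PP_succ, ← ih]
    have : eta b c ((d : ℤ) - j) = 0 := by
      unfold eta
      omega
    rw [this, add_zero]

variable {f p q : S3 K} {a b c : ℕ}

/-- A nonzero member of the ideal of generators of low degree gives a contradiction. -/
theorem finish [Infinite K] (h : RS f p q a b c) (hab : a ≤ b) (hbc : b ≤ c)
    {W : ℕ → Submodule K (S3 K)} {D d : ℕ} (hW : CFam (T3 f p q) W D) (hd : d ≤ D)
    {N' : Type*} [Fintype N'] {g : N' → S3 K} {dg : N' → ℕ} (hgH : ∀ n, g n ∈ HH K (dg n))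
    (hg : ∀ n, dg n ≤ D → g n ∈ W (dg n)) {P : S3 K} {π : ℕ} (hP0 : P ≠ 0) (hPH : P ∈ HH K π)
    (hmem : P ∈ Ideal.span (Set.range g)) (hπa : π < a) (hlt : PP (b : ℤ) c π d < HW W d) : False := by
  have hC := hW.con d hd
  have hπd : π ≤ d := by
    by_contra hcon
    have h1 : PP (b : ℤ) c π d = PP (b : ℤ) c a d := PP_stable (by omega) (by omega)
    have h2 := h.hf d
    have := fd_of_le (hW.fam.le d hd)
    have h3 : (finrank K (comp (T3 f p q) d) : ℤ) ≤ finrank K (W d) := by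
      exact_mod_cast Submodule.finrank_mono hC
    unfold HW at hlt
    rw [h1] at hlt
    linarith
  have hPW := mem_of_span hW.fam hgH hg hPH (by omega) hmem
  have h1 := low h hab hbc hW.fam hd hC hPW (by omega) hP0
  unfold HW at hlt
  linarith

theorem coprime_facts (h : RS f p q a b c) :
    (∀ u, f ∣ p * u → f ∣ u) ∧ (∀ u, p ∣ f * u → p ∣ u) ∧
    (∀ u s t, q * u = f * s + p * t → ∃ A B, u = f * A + p * B) := by
  refine ⟨?_, ?_, ?_⟩
  · intro u hu
    exact mem_prin.1 (h.nz1 u (mem_prin.2 hu))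
  · intro u hu
    have h1 := (swap_nz homIdeal_bot h.hu h.ha h.hv (nz_bot h.u0) h.nz1).2
    exact mem_prin.1 (h1 u (mem_prin.2 hu))
  · intro u s t hu
    have h1 : u ∈ adj (adj ⊥ f) p := by
      apply h.nz2
      rw [hu]
      exact Ideal.add_mem _ (Ideal.mul_mem_right _ _ (le_adj _ _ (self_mem_adj _ _)))
        (Ideal.mul_mem_right _ _ (self_mem_adj _ _))
    obtain ⟨x, hx, B, rfl⟩ := mem_adj.1 h1
    obtain ⟨y, hy, A, rfl⟩ := mem_adj.1 hx
    have hy0 : y = 0 := by simpa using hy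
    refine ⟨A, B, ?_⟩
    rw [hy0]
    ring

end Vale.Agent.Lib.P200
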