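import Vale.Agent.Lib.P200.Step4

/-!
The contradiction at the heart of the inductive step.
-/

noncomputable section

namespace Vale.Agent.Lib.P200

open MvPolynomial Module Matrix

variable {K : Type*} [Field K]
variable {f p q : S3 K} {a b c : ℕ}

theorem step_core [Infinite K] (h : RS f p q a b c) (hab : a ≤ b) (hbc : b ≤ c)
    {W : ℕ → Submodule K (S3 K)} {e : ℕ} (hW : CFam (T3 f p q) W (e + 2))
    {m₁ m₂ m₃ : S3 K} {v : Fin 3 → K} (hP : Pt m₁ m₂ m₃ v)
    (hQ : ∀ e', e' + 1 ≤ e + 2 → ∀ w ∈ HH K e', m₁ * w ∈ W (e' + 1) → m₂ * w ∈ W (e' + 1) → w ∈ W e')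
    {i : ℕ} {t : ℤ} (hi : i < a) (ht0 : 0 ≤ t)
    (hlay : t < eta b c (((e + 1 : ℕ) : ℤ) - i))
    (hH : HW W (e + 1) = PP b c i ((e + 1 : ℕ) : ℤ) + t)
    (hV : PP b c i (((e + 1 : ℕ) : ℤ) + 1) + max (t - dl c (((e + 1 : ℕ) : ℤ) - i)) 0 + 1 ≤
      HW W (e + 2))
    (hU : PP b c i (((e + 1 : ℕ) : ℤ) - 1) +
      (if 0 < t then t + dl c (((e + 1 : ℕ) : ℤ) - 1 - i) else 0) ≤ HW W e) :
    False := by
  classical
  have hb1 : (1 : ℤ) ≤ b := by exact_mod_cast h.hb
  have hbc' : (b : ℤ) ≤ c := by exact_mod_cast hbc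
  have hacast : (a : ℤ) ≤ b := by exact_mod_cast hab
  obtain ⟨ρ, _, _, g', dg', hg1, hg2⟩ := exists_gens (W := W) (D := e + 2) hW.fam.le
  set g := gN f p q g' with hg
  set dg := dN a b c dg' with hdg
  have hG : Gens W (e + 2) g dg := by
    refine ⟨?_, ?_⟩
    · rintro (n | x) hn
      · fin_cases n
        · exact hW.con a hn (mem_comp.2 ⟨le_adj _ _ (le_adj _ _ (self_mem_adj _ _)), h.hu⟩)
        · exact hW.con b hn (mem_comp.2 ⟨le_adj _ _ (self_mem_adj _ _), h.hv⟩)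
        · exact hW.con c hn (mem_comp.2 ⟨self_mem_adj _ _, h.hw⟩)
      · exact (hg1 x).2
    · intro j hj u hu
      obtain ⟨c', hc1, hc2⟩ := hg2 j hj u hu
      refine ⟨Sum.elim (fun _ => 0) (fun x => C (c' x)), ?_, ?_⟩
      · rw [mem_piY]
        rintro (n | x)
        · exact Submodule.zero_mem _
        · by_cases hx : dg' x = j
          · refine mem_YY.2 (Or.inl ⟨(by simp [hdg, dN]; omega), ?_⟩)
            have h0 : j - dg (Sum.inr x) = 0 := by
              simp [hdg, dN]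
              omega
            rw [h0]
            exact isHomogeneous_C _ _
          · simp only [Sum.elim_inr, hc1 x hx, C_0]
            exact Submodule.zero_mem _
      · rw [hc2, hg, sum_gN]
        simp
  have hgH : ∀ n, g n ∈ HH K (dg n) := by
    rintro (n | x)
    · fin_cases n
      · exact h.hu
      · exact h.hv
      · exact h.hw
    · exact hW.fam.le _ (hg1 x).1 (hg1 x).2
  have hg' : ∀ n, dg n ≤ e + 2 → g n ∈ W (dg n) := hG.mem
  obtain ⟨κ, _, _, τ, T, hR⟩ := exists_rows g dg (e + 2)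
  have hinj := rows_left_inj (v := v) (rows_point hW.fam hG hR hP hQ)
  have hcnt : ∀ j ≤ e + 2, ∑ n, Aj j (dg n) = ∑ k, Aj j (τ k) + ((finrank K (W j) : ℕ) : ℤ) := by
    intro j hj
    have h1 := count hW.fam hG hR hinj hj
    have h2 := congrArg (Nat.cast : ℕ → ℤ) h1
    push_cast at h2
    simp only [Aj]
    exact h2
  have hc0 := cnt (w := fun j => finrank K (W j)) hcnt hR.tle
  have hr : (∑ n, (if dg n ≤ e + 2 then (1 : ℤ) else 0)) =
      Fintype.card κ + 1 + (2 * HW W (e + 1) - HW W (e + 2) - HW W e) := hc0.1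
  have hs : (∑ k, (τ k : ℤ)) - ∑ n, (if dg n ≤ e + 2 then (dg n : ℤ) else 0) =
      (HW W (e + 1) - HW W (e + 2)) - (e + 3) * (2 * HW W (e + 1) - HW W (e + 2) - HW W e) := hc0.2
  -- there are fewer rows than generators
  have hν0 : 0 ≤ 2 * HW W (e + 1) - HW W (e + 2) - HW W e := by
    have h1 : HW W (e + 1) < DD (e + 1) := by
      have h2 : PP (b : ℤ) c (i + 1) ((e + 1 : ℕ) : ℤ) ≤ Df ((e + 1 : ℕ) : ℤ) := PP_le_Df _ _
      rw [PP_succ, Df_of_nat] at h2
      rw [hH]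
      linarith
    have h2 : 0 < finrank K (W (e + 1)) := by
      unfold HW at h1
      have : (0 : ℤ) < finrank K (W (e + 1)) := by linarith
      exact_mod_cast this
    have h3 : W (e + 1) ≠ ⊥ := by
      intro h0
      rw [h0, finrank_bot] at h2
      omega
    obtain ⟨u, hu, hu0⟩ := Submodule.exists_mem_ne_zero_of_ne_bot h3
    obtain ⟨c', hc', hcu⟩ := hG.gen (e + 1) (by omega) u hu
    have h4 : ∑ n, c' n * g n ≠ 0 := by rw [← hcu]; exact hu0
    obtain ⟨n, -, hn⟩ := Finset.exists_ne_zero_of_sum_ne_zero h4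
    have hcn : c' n ≠ 0 := left_ne_zero_of_mul hn
    have hgn : g n ≠ 0 := right_ne_zero_of_mul hn
    have h5 : dg n ≤ e + 1 := by
      rcases mem_YY.1 (mem_piY.1 hc' n) with ⟨h6, -⟩ | ⟨-, h6⟩
      · exact h6
      · exact absurd h6 hcn
    have h6 := rows_lt hR hinj (n₀ := n) (by omega) hgn
    rw [hr] at h6
    linarith
  have hfp := coprime_facts h
  by_cases hR1 : (((e + 1 : ℕ) : ℤ) + 1) < b
  · have := NL_A hb1 hbc' ht0 hH hV hU hR1
    linarith
  have hbe : b ≤ e + 2 := by omega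
  have hae : a ≤ e + 2 := by omega
  have hdgx : ∀ x, dg' x ≤ e + 2 := fun x => (hg1 x).1
  have hsum := sum_dN a b c dg' (fun y => (y : ℤ))
  by_cases hR2 : (((e + 1 : ℕ) : ℤ) + 1) < c
  · obtain ⟨h1, h2⟩ := NL_B hb1 hbc' ht0 hH hV hU hR2
    have hν : 2 * HW W (e + 1) - HW W (e + 2) - HW W e = 0 := by linarith
    have hce : ¬ c ≤ e + 2 := by omega
    rw [hν] at hr hs
    have hr1 := sum_dN a b c dg' (fun y => if y ≤ e + 2 then (1 : ℤ) else 0)
    have hs1 := sum_dN a b c dg' (fun y => if y ≤ e + 2 then (y : ℤ) else 0)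
    simp only [if_pos hae, if_pos hbe, if_neg hce, hdgx, if_true] at hr1 hs1
    rw [← hdg] at hr1 hs1
    rw [hr1] at hr
    rw [hs1] at hs
    simp only [Finset.sum_const, Finset.card_univ, nsmul_eq_mul, mul_one] at hr
    have hcard : Fintype.card κ = Fintype.card {n : Fin 3 ⊕ ρ // n ≠ Sum.inl 0 ∧ n ≠ Sum.inl 2} := by
      have h3 := card_two (N := Fin 3 ⊕ ρ) (x := Sum.inl 0) (y := Sum.inl 2) (by simp)
      rw [Fintype.card_sum, Fintype.card_fin] at h3
      omega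
    let e' : κ ≃ {n : Fin 3 ⊕ ρ // n ≠ Sum.inl 0 ∧ n ≠ Sum.inl 2} := Fintype.equivOfCardEq hcard
    let ν₀ : Fin 3 ⊕ ρ → S3 K := fun n => if n = Sum.inl 2 then 1 else 0
    have hTν : ∀ k, ∑ n, T k n * ν₀ n = 0 := by
      intro k
      rw [Finset.sum_eq_single (Sum.inl 2 : Fin 3 ⊕ ρ)]
      · rw [T_zero_of_gt hR k (n := Sum.inl 2) (by
          change e + 2 < c
          omega), zero_mul]
      · intro n _ hn
        simp [ν₀, hn]
      · simp
    obtain ⟨P, π, -, -, -, hπ⟩ := det_step (f₀ := Sum.inl 0) (p₀ := Sum.inl 1) (n₁ := Sum.inl 2)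
      (by simp) e' T g ν₀ dg τ (T_wt hR) (T_g hR) hTν hinj (by simp [ν₀]) (by simp [ν₀])
      (by simp) (by simp) (by simp [ν₀]) (hgH _) h.u0 hfp.1
    rw [hsum] at hπ
    have h5 : dg (Sum.inl 2) = c := rfl
    rw [h5] at hπ
    have h6 : (0 : ℤ) ≤ π := by positivity
    linarith
  -- the last regime
  have hce : c ≤ e + 2 := by omega
  obtain ⟨hle, hC0, hC1⟩ := NL_C (a := a) hb1 hbc' hi ht0 hH hV hU (by omega)
  have hr1 := sum_dN a b c dg' (fun y => if y ≤ e + 2 then (1 : ℤ) else 0)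
  have hs1 := sum_dN a b c dg' (fun y => if y ≤ e + 2 then (y : ℤ) else 0)
  simp only [if_pos hae, if_pos hbe, if_pos hce, hdgx, if_true] at hr1 hs1
  rw [← hdg] at hr1 hs1
  rw [hr1] at hr
  rw [hs1] at hs
  simp only [Finset.sum_const, Finset.card_univ, nsmul_eq_mul, mul_one] at hr
  by_cases hν : 2 * HW W (e + 1) - HW W (e + 2) - HW W e = 0
  · -- the case of zero
    rw [hν] at hr hs
    have hfin := hC0 hν
    let T' : κ → Option (Fin 3 ⊕ ρ) → S3 K := fun k o => o.elim 0 (T k)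
    let g₂ : Option (Fin 3 ⊕ ρ) → S3 K := fun o => o.elim 0 g
    let dg₂ : Option (Fin 3 ⊕ ρ) → ℕ := fun o => o.elim 0 dg
    let ν₂ : Option (Fin 3 ⊕ ρ) → S3 K := fun o => o.elim 1 (fun _ => 0)
    have hcard : Fintype.card κ =
        Fintype.card {n : Option (Fin 3 ⊕ ρ) // n ≠ some (Sum.inl 0) ∧ n ≠ none} := by
      have h3 := card_two (N := Option (Fin 3 ⊕ ρ)) (x := some (Sum.inl 0)) (y := none) (by simp)
      rw [Fintype.card_option, Fintype.card_sum, Fintype.card_fin] at h3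
      omega
    let e' : κ ≃ {n : Option (Fin 3 ⊕ ρ) // n ≠ some (Sum.inl 0) ∧ n ≠ none} :=
      Fintype.equivOfCardEq hcard
    have hsum₂ : ∑ o, (dg₂ o : ℤ) = ∑ n, (dg n : ℤ) := by
      rw [Fintype.sum_option]
      simp [dg₂]
    obtain ⟨P, π, hP0, hPH, hπ, hmem⟩ := det_main (f₀ := some (Sum.inl 0)) (p₀ := some (Sum.inl 1))
      (q₀ := some (Sum.inl 2)) (n₁ := none) (by simp) e' T' g₂ ν₂ dg₂ τ
      (by
        rintro k (_ | n)
        · exact wt_zero _
        · exact T_wt hR k n)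
      (by
        intro k
        rw [Fintype.sum_option]
        simpa [T', g₂] using T_g hR k)
      (by
        intro k
        rw [Fintype.sum_option]
        simp [T', ν₂])
      (fun y hy => hinj y fun n => hy (some n))
      rfl rfl rfl (by simp) (by simp) (by simp) (by simp) (by simp [ν₂])
      (hgH _) h.u0 h.v0 hfp.1 hfp.2.1 hfp.2.2
    rw [hsum₂, hsum] at hπ
    have h5 : ((dg₂ none : ℕ) : ℤ) = 0 := rfl
    rw [h5] at hπ
    obtain ⟨h6, h7⟩ := hfin π (by linarith)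
    refine finish h hab hbc hW (d := e + 1) (by omega) (g := g₂) (dg := dg₂) ?_ ?_ hP0 hPH hmem h6 h7
    · rintro (_ | n)
      · exact Submodule.zero_mem _
      · exact hgH n
    · rintro (_ | n) hn
      · exact Submodule.zero_mem _
      · exact hg' n hn
  · have hν1 : 2 * HW W (e + 1) - HW W (e + 2) - HW W e = 1 := by omega
    rw [hν1] at hr hs
    obtain ⟨hk, hfin⟩ := hC1 hν1
    have hcard : Fintype.card κ = Fintype.card (Option ρ) := by
      rw [Fintype.card_option]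
      omega
    let e₁ : κ ≃ Option ρ := Fintype.equivOfCardEq hcard
    have hmin := minors_vanish h hab hbc e₁ T g' dg' τ (T_wt hR) (T_g hR) hinj (by
      push_cast at hk
      have h3 : (c : ℤ) + (HW W (e + 1) - HW W (e + 2)) < e + 3 := by omega
      linarith)
    obtain ⟨ν₁, hν₁, hUν⟩ := minor_ker e₁ (fun k x => T k (Sum.inr x)) hmin
    obtain ⟨x₁, hx₁⟩ := Function.ne_iff.1 hν₁
    let ν₂ : Fin 3 ⊕ ρ → S3 K := Sum.elim (fun _ => 0) ν₁
    have hcard2 : Fintype.card κ = Fintype.card {n : Fin 3 ⊕ ρ // n ≠ Sum.inl 0 ∧ n ≠ Sum.inr x₁} := by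
      have h3 := card_two (N := Fin 3 ⊕ ρ) (x := Sum.inl 0) (y := Sum.inr x₁) (by simp)
      rw [Fintype.card_sum, Fintype.card_fin] at h3
      omega
    let e' : κ ≃ {n : Fin 3 ⊕ ρ // n ≠ Sum.inl 0 ∧ n ≠ Sum.inr x₁} := Fintype.equivOfCardEq hcard2
    obtain ⟨P, π, hP0, hPH, hπ, hmem⟩ := det_main (f₀ := Sum.inl 0) (p₀ := Sum.inl 1) (q₀ := Sum.inl 2)
      (n₁ := Sum.inr x₁) (by simp) e' T g ν₂ dg τ (T_wt hR) (T_g hR)
      (by
        intro k
        rw [Fintype.sum_sum_type]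
        simpa [ν₂] using hUν k)
      hinj rfl rfl rfl (by simp) (by simp) (by simp) (by simp) hx₁
      (hgH _) h.u0 h.v0 hfp.1 hfp.2.1 hfp.2.2
    rw [hsum] at hπ
    have h5 : dg (Sum.inr x₁) = dg' x₁ := rfl
    rw [h5] at hπ
    have h6 := hdgx x₁
    obtain ⟨h7, h8⟩ := hfin π (by
      have h9 : (dg' x₁ : ℤ) ≤ e + 2 := by exact_mod_cast h6
      linarith)
    exact finish h hab hbc hW (d := e + 1) (by omega) hgH hg' hP0 hPH hmem h7 h8

end Vale.Agent.Lib.P200
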